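import Mathlib

/-!
P037: definitions used by the statements (ordered copies of a pattern in a binary matrix).
Keep this file small: it is shown to the judges.
-/

namespace Vale.Agent.P037

/-- `r`, `c` choose an ordered copy of the `k x k` pattern `H` in the `n x n` matrix `A`:
strictly increasing row indices, strictly increasing column indices, all entries match. -/
def IsCopy {k n : ℕ} (H : Fin k → Fin k → Bool) (A : Fin n → Fin n → Bool)
    (r c : Fin k → Fin n) : Prop :=
  StrictMono r ∧ StrictMono c ∧ ∀ i j, A (r i) (c j) = H i j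

/-- `N_H(A)`: the number of ordered copies of `H` in `A`. -/
noncomputable def copyCount {k n : ℕ} (H : Fin k → Fin k → Bool) (A : Fin n → Fin n → Bool) : ℕ :=
  Nat.card {p : (Fin k → Fin n) × (Fin k → Fin n) // IsCopy H A p.1 p.2}

/-- `A` has no ordered copy of `H`. -/
def HFree {k n : ℕ} (H : Fin k → Fin k → Bool) (A : Fin n → Fin n → Bool) : Prop :=
  ∀ r c : Fin k → Fin n, ¬ IsCopy H A r c

/-- the number of entries in which `A` and `B` differ. -/
def diffCount {n : ℕ} (A B : Fin n → Fin n → Bool) : ℕ :=
  (Finset.univ.filter (fun p : Fin n × Fin n => A p.1 p.2 ≠ B p.1 p.2)).card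

/-- the pattern `[[1,0],[0,1]]`. -/
def patI : Fin 2 → Fin 2 → Bool := fun i j => decide (i = j)

/-- the pattern `[[0,1],[1,0]]`. -/
def patJ : Fin 2 → Fin 2 → Bool := fun i j => decide (i ≠ j)

end Vale.Agent.P037
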