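import Mathlib
import Vale.Agent.P037.Defs

/-!
P037: internal definitions for the proof of polynomial removal for the pattern `[[1,0],[0,1]]`.
See notes/P037_proof.md.
-/

namespace Vale.Agent.P037

open Finset

variable {n : ℕ}

/-- explicit form of freeness from `[[1,0],[0,1]]`. -/
def IFree (B : Fin n → Fin n → Bool) : Prop :=
  ∀ r1 r2 c1 c2 : Fin n, r1 < r2 → c1 < c2 →
    ¬ (B r1 c1 = true ∧ B r1 c2 = false ∧ B r2 c1 = false ∧ B r2 c2 = true)

/-- number of row pairs `i1 < i2` with `(A i1 x, A i1 y) = (1,0)` and `(A i2 x, A i2 y) = (0,1)`. -/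
def inv (A : Fin n → Fin n → Bool) (x y : Fin n) : ℕ :=
  (univ.filter (fun p : Fin n × Fin n =>
    p.1 < p.2 ∧ A p.1 x = true ∧ A p.1 y = false ∧ A p.2 x = false ∧ A p.2 y = true)).card

/-- the set of increasing column pairs. -/
def incPairs (n : ℕ) : Finset (Fin n × Fin n) := univ.filter (fun p : Fin n × Fin n => p.1 < p.2)

/-- explicit count of the copies of `[[1,0],[0,1]]`. -/
def N2 (A : Fin n → Fin n → Bool) : ℕ := ∑ p ∈ incPairs n, inv A p.1 p.2

/-- rows `i` of window `l` (that is `i / w = l`) with `A i x = 1`, `A i y = 0`. -/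
def cnt (A : Fin n → Fin n → Bool) (w l : ℕ) (x y : Fin n) : ℕ :=
  (univ.filter (fun i : Fin n => i.val / w = l ∧ A i x = true ∧ A i y = false)).card

/-- rows `i` of window `l` with `A i c = 1`. -/
def score (A : Fin n → Fin n → Bool) (w l : ℕ) (c : Fin n) : ℕ :=
  (univ.filter (fun i : Fin n => i.val / w = l ∧ A i c = true)).card

/-- the mixed count of the column pair in the window. -/
def mixed (A : Fin n → Fin n → Bool) (w l : ℕ) (x y : Fin n) : ℕ :=
  min (cnt A w l x y) (cnt A w l y x)

/-- total mixed count. -/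
def Msum (A : Fin n → Fin n → Bool) (w L : ℕ) : ℕ :=
  ∑ p ∈ incPairs n, ∑ l ∈ range L, mixed A w l p.1 p.2

/-- the value `t` is within `m` of a multiple of `g`. -/
def amb (g m t : ℕ) : Prop := t % g < m ∨ g ≤ t % g + m

instance (g m t : ℕ) : Decidable (amb g m t) := by unfold amb; infer_instance

/-- level of column `c` in window `l`, for step `g` and shifts `σ`. -/
def lev (A : Fin n → Fin n → Bool) (w g : ℕ) (σ : ℕ → ℕ) (l : ℕ) (c : Fin n) : ℕ :=
  (score A w l c + σ l) / g

end Vale.Agent.P037
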