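import Mathlib
import Vale.Agent.P037.Basic

/-! P037 task T3: the one dimensional cover lemma and the cover of all conflicts. -/

namespace Vale.Agent.P037

open Finset

variable {n : ℕ}

namespace Cover

/-- elements of `X` below the threshold `t`. -/
def below (X : Finset (Fin n)) (t : ℕ) : Finset (Fin n) := X.filter (fun x => x.val < t)

theorem below_zero (X : Finset (Fin n)) : (below X 0).card = 0 := by
  rw [card_eq_zero]
  ext x
  simp [below]

theorem below_top (X : Finset (Fin n)) : below X n = X := by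
  ext x
  simp [below]

theorem below_succ (X : Finset (Fin n)) (t : ℕ) : (below X (t + 1)).card ≤ (below X t).card + 1 := by
  have hsub : below X (t + 1) ⊆ below X t ∪ X.filter (fun x => x.val = t) := by
    intro x hx
    simp only [below, mem_filter, mem_union] at hx ⊢
    rcases Nat.lt_or_ge x.val t with h | h
    · exact Or.inl ⟨hx.1, h⟩
    · exact Or.inr ⟨hx.1, by omega⟩
  have hone : (X.filter (fun x => x.val = t)).card ≤ 1 := by
    rw [card_le_one]
    intro a ha b hb
    simp only [mem_filter] at ha hb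
    exact Fin.ext (ha.2.trans hb.2.symm)
  exact (card_le_card hsub).trans ((card_union_le _ _).trans (by omega))

end Cover

open Cover

/-- if there are at most `p` pairs `x < y` with `x ∈ X`, `y ∈ Y`, then `k + p / k` points
hit all of them. -/
theorem cover_one_dim (X Y : Finset (Fin n)) (k p : ℕ) (hk : 0 < k)
    (hp : ((X ×ˢ Y).filter (fun q : Fin n × Fin n => q.1 < q.2)).card ≤ p) :
    ∃ Kc : Finset (Fin n), Kc.card ≤ k + p / k ∧
      ∀ x ∈ X, ∀ y ∈ Y, x < y → x ∈ Kc ∨ y ∈ Kc := by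
  by_cases hX : X.card ≤ k
  · exact ⟨X, hX.trans (Nat.le_add_right _ _), fun x hx _ _ _ => Or.inl hx⟩
  · have hex : ∃ t, k ≤ (below X t).card := ⟨n, by rw [below_top]; omega⟩
    classical
    have ht1 := Nat.find_spec hex
    have hmin := fun s => Nat.find_min hex (m := s)
    set t1 := Nat.find hex with ht1def
    have hpos : t1 ≠ 0 := by
      intro h0
      rw [h0, below_zero] at ht1
      omega
    obtain ⟨t, ht⟩ : ∃ t, t1 = t + 1 := ⟨t1 - 1, by omega⟩
    have hlt : (below X t).card < k := by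
      have := hmin t (by omega)
      omega
    have hsucc := below_succ X t
    rw [← ht] at hsucc
    have hcard : (below X t1).card = k := by omega
    set Y' := Y.filter (fun y => t1 ≤ y.val) with hY'
    have hprod : k * Y'.card ≤ p := by
      rw [← hcard, ← card_product]
      refine (card_le_card ?_).trans hp
      intro q hq
      simp only [below, hY', mem_product, mem_filter] at hq ⊢
      exact ⟨⟨hq.1.1, hq.2.1⟩, Fin.lt_def.2 (lt_of_lt_of_le hq.1.2 hq.2.2)⟩
    have hY'card : Y'.card ≤ p / k := by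
      rw [Nat.le_div_iff_mul_le hk]
      rw [mul_comm]
      exact hprod
    refine ⟨below X t1 ∪ Y', (card_union_le _ _).trans (by omega), ?_⟩
    intro x hx y hy hxy
    rcases Nat.lt_or_ge x.val t1 with h | h
    · exact Or.inl (mem_union_left _ (by simp only [below, mem_filter]; exact ⟨hx, h⟩))
    · refine Or.inr (mem_union_right _ ?_)
      simp only [hY', mem_filter]
      exact ⟨hy, h.trans (Fin.lt_def.1 hxy).le⟩

/-- cover of all conflicts between level functions. -/
theorem conflict_cover (Gd : Finset (Fin n)) (lam : ℕ → Fin n → ℕ) (L J t k Ntot : ℕ)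
    (f : Fin n → Fin n → ℕ) (ht : 0 < t) (hk : 0 < k)
    (hJ : ∀ l c, lam l c ≤ J)
    (hf : ∑ p ∈ incPairs n, f p.1 p.2 ≤ Ntot)
    (hrob : ∀ x ∈ Gd, ∀ y ∈ Gd, x < y → ∀ l l' : ℕ, l < l' → l' < L →
      lam l y < lam l x → lam l' x < lam l' y → t ≤ f x y) :
    ∃ Kc : Finset (Fin n), Kc.card ≤ (L * (J + 1)) ^ 2 * (k + Ntot / t / k) ∧
      ∀ x ∈ Gd, ∀ y ∈ Gd, x < y → ∀ l l' : ℕ, l < l' → l' < L →
        lam l y < lam l x → lam l' x < lam l' y → x ∈ Kc ∨ y ∈ Kc := by
  classical
  -- the cover for one quadruple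
  have hq : ∀ q : (ℕ × ℕ) × (ℕ × ℕ), ∃ K : Finset (Fin n), K.card ≤ k + Ntot / t / k ∧
      (q.1.1 < q.2.1 → q.2.1 < L →
        ∀ x ∈ Gd.filter (fun x => q.1.2 ≤ lam q.1.1 x ∧ lam q.2.1 x < q.2.2),
        ∀ y ∈ Gd.filter (fun y => lam q.1.1 y < q.1.2 ∧ q.2.2 ≤ lam q.2.1 y),
          x < y → x ∈ K ∨ y ∈ K) := by
    intro q
    by_cases hl : q.1.1 < q.2.1 ∧ q.2.1 < L
    · set X := Gd.filter (fun x => q.1.2 ≤ lam q.1.1 x ∧ lam q.2.1 x < q.2.2) with hXdef
      set Y := Gd.filter (fun y => lam q.1.1 y < q.1.2 ∧ q.2.2 ≤ lam q.2.1 y) with hYdef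
      have hpairs : ((X ×ˢ Y).filter (fun r : Fin n × Fin n => r.1 < r.2)).card ≤ Ntot / t := by
        rw [Nat.le_div_iff_mul_le ht]
        have h1 : ((X ×ˢ Y).filter (fun r : Fin n × Fin n => r.1 < r.2)).card * t
            ≤ ∑ r ∈ (X ×ˢ Y).filter (fun r : Fin n × Fin n => r.1 < r.2), f r.1 r.2 := by
          rw [← smul_eq_mul]
          refine card_nsmul_le_sum _ _ _ ?_
          intro r hr
          simp only [hXdef, hYdef, mem_filter, mem_product] at hr
          obtain ⟨⟨⟨hx, hx1, hx2⟩, ⟨hy, hy1, hy2⟩⟩, hlt⟩ := hr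
          exact hrob r.1 hx r.2 hy hlt q.1.1 q.2.1 hl.1 hl.2 (lt_of_lt_of_le hy1 hx1)
            (lt_of_lt_of_le hx2 hy2)
        have h2 : ∑ r ∈ (X ×ˢ Y).filter (fun r : Fin n × Fin n => r.1 < r.2), f r.1 r.2
            ≤ ∑ p ∈ incPairs n, f p.1 p.2 := by
          refine sum_le_sum_of_subset ?_
          intro r hr
          simp only [incPairs, mem_filter, mem_univ, true_and] at hr ⊢
          exact hr.2
        exact h1.trans (h2.trans hf)
      obtain ⟨K, hK1, hK2⟩ := cover_one_dim X Y k (Ntot / t) hk hpairs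
      exact ⟨K, hK1, fun _ _ => hK2⟩
    · exact ⟨∅, by simp, fun h1 h2 => absurd ⟨h1, h2⟩ hl⟩
  choose K hK1 hK2 using hq
  set Qs : Finset ((ℕ × ℕ) × (ℕ × ℕ)) :=
    (range L ×ˢ range (J + 1)) ×ˢ (range L ×ˢ range (J + 1)) with hQs
  refine ⟨Qs.biUnion K, ?_, ?_⟩
  · refine card_biUnion_le.trans ?_
    refine (sum_le_sum fun q _ => hK1 q).trans ?_
    rw [sum_const, smul_eq_mul, hQs, card_product, card_product, card_range, card_range]
    exact le_of_eq (by ring)
  · intro x hx y hy hxy l l' hll' hl'L h1 h2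
    have hmem : ((l, lam l x), (l', lam l' y)) ∈ Qs := by
      simp only [hQs, mem_product, mem_range]
      exact ⟨⟨hll'.trans hl'L, Nat.lt_succ_of_le (hJ l x)⟩, ⟨hl'L, Nat.lt_succ_of_le (hJ l' y)⟩⟩
    have := hK2 ((l, lam l x), (l', lam l' y)) hll' hl'L x
      (by simp only [mem_filter]; exact ⟨hx, le_rfl, h2⟩) y
      (by simp only [mem_filter]; exact ⟨hy, h1, le_rfl⟩) hxy
    rcases this with h | h
    · exact Or.inl (mem_biUnion.2 ⟨_, hmem, h⟩)
    · exact Or.inr (mem_biUnion.2 ⟨_, hmem, h⟩)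

end Vale.Agent.P037
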