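import Mathlib
import Vale.Agent.P037.Defs
import Vale.Agent.P037.Basic

/-!
P037, pattern G = [[1,1],[1,0]]: internal definitions.  See notes/P037_gamma.md.
-/

namespace Vale.Agent.P037

open Finset

variable {n : ℕ}

/-- the pattern `[[1,1],[1,0]]`. -/
def patG : Fin 2 → Fin 2 → Bool := fun i j => decide (i = 0 ∨ j = 0)

/-- explicit form of freeness from `[[1,1],[1,0]]`. -/
def GFree (B : Fin n → Fin n → Bool) : Prop :=
  ∀ r1 r2 c1 c2 : Fin n, r1 < r2 → c1 < c2 →
    ¬ (B r1 c1 = true ∧ B r1 c2 = true ∧ B r2 c1 = true ∧ B r2 c2 = false)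

/-- column pairs `x < y` on which row `ρ` shows 11 and row `ρ'` shows 10
(no condition on the order of the two rows). -/
def gconf (A : Fin n → Fin n → Bool) (ρ ρ' : Fin n) : ℕ :=
  (univ.filter (fun p : Fin n × Fin n =>
    p.1 < p.2 ∧ A ρ p.1 = true ∧ A ρ p.2 = true ∧ A ρ' p.1 = true ∧ A ρ' p.2 = false)).card

/-- the same with the first column `x` fixed. -/
def glead (A : Fin n → Fin n → Bool) (x ρ ρ' : Fin n) : ℕ :=
  (univ.filter (fun y : Fin n =>
    x < y ∧ A ρ x = true ∧ A ρ y = true ∧ A ρ' x = true ∧ A ρ' y = false)).card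

/-- explicit count of the copies of `[[1,1],[1,0]]`. -/
def NG (A : Fin n → Fin n → Bool) : ℕ := ∑ p ∈ incPairs n, gconf A p.1 p.2

/-- copies whose first column is `x`. -/
def ginvx (A : Fin n → Fin n → Bool) (x : Fin n) : ℕ := ∑ p ∈ incPairs n, glead A x p.1 p.2

/-- columns in row `ρ` but not in row `ρ'`. -/
def sd (A : Fin n → Fin n → Bool) (ρ ρ' : Fin n) : ℕ :=
  (univ.filter (fun y : Fin n => A ρ y = true ∧ A ρ' y = false)).card

/-- A prepared matrix: inactive rows vanish, the leftmost one of an active row `r` is in column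
`ld r`, every cell (active rows with the same `ld`) has at least `h` rows, and every column is
the first column of at most `β` copies. -/
structure Prepared (M : Fin n → Fin n → Bool) (act : Fin n → Bool) (ld : Fin n → Fin n)
    (β h : ℕ) : Prop where
  inactive : ∀ r, act r = false → ∀ y, M r y = false
  lead_one : ∀ r, act r = true → M r (ld r) = true
  lead_min : ∀ r, act r = true → ∀ y, y < ld r → M r y = false
  cell_big : ∀ r, act r = true →
    h ≤ (univ.filter (fun r' : Fin n => act r' = true ∧ ld r' = ld r)).card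
  col_good : ∀ x, ginvx M x ≤ β

/-- the cell with leader `c`. -/
def cellSet (act : Fin n → Bool) (ld : Fin n → Fin n) (c : Fin n) : Finset (Fin n) :=
  univ.filter (fun r : Fin n => act r = true ∧ ld r = c)

/-- rank of the row `r` inside its cell. -/
def rk (act : Fin n → Bool) (ld : Fin n → Fin n) (r : Fin n) : ℕ :=
  (univ.filter (fun r' : Fin n => act r' = true ∧ ld r' = ld r ∧ r' < r)).card

/-- the `k`-th group (of `g` consecutive rows) of the cell with leader `c`. -/
def grp (act : Fin n → Bool) (ld : Fin n → Fin n) (g : ℕ) (c : Fin n) (k : ℕ) : Finset (Fin n) :=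
  univ.filter (fun r : Fin n => act r = true ∧ ld r = c ∧ rk act ld r / g = k)

/-- `(c,k)` is the key of a full group. -/
def IsKey (act : Fin n → Bool) (ld : Fin n → Fin n) (g : ℕ) (c : Fin n) (k : ℕ) : Prop :=
  (k + 1) * g ≤ (cellSet act ld c).card

instance (act : Fin n → Bool) (ld : Fin n → Fin n) (g : ℕ) (c : Fin n) (k : ℕ) :
    Decidable (IsKey act ld g c k) := by unfold IsKey; infer_instance

/-- interior rows: the groups before and after the group of `r` are full groups. -/
def Interior (act : Fin n → Bool) (ld : Fin n → Fin n) (g : ℕ) (r : Fin n) : Prop :=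
  act r = true ∧ 1 ≤ rk act ld r / g ∧ (rk act ld r / g + 2) * g ≤ (cellSet act ld (ld r)).card

instance (act : Fin n → Bool) (ld : Fin n → Fin n) (g : ℕ) (r : Fin n) :
    Decidable (Interior act ld g r) := by unfold Interior; infer_instance

/-- local number of copies with first column `ld ρ` that use the row `ρ`. -/
def loc (M : Fin n → Fin n → Bool) (ld : Fin n → Fin n) (ρ : Fin n) : ℕ :=
  ∑ r : Fin n, (if r < ρ then glead M (ld ρ) r ρ else glead M (ld ρ) ρ r)

/-- a good system of samples `s c k`, one in every full group. -/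
structure GoodSamples (M : Fin n → Fin n → Bool) (act : Fin n → Bool) (ld : Fin n → Fin n)
    (g γ γ' Λ : ℕ) (s : Fin n → ℕ → Fin n) : Prop where
  mem : ∀ c k, IsKey act ld g c k → s c k ∈ grp act ld g c k
  loc_le : ∀ c k, IsKey act ld g c k → loc M ld (s c k) ≤ Λ
  conf_le : ∀ c k c' k', IsKey act ld g c k → IsKey act ld g c' k' → s c k < s c' k' →
    gconf M (s c k) (s c' k') ≤ γ
  lead_le : ∀ c k k', IsKey act ld g c k → IsKey act ld g c k' → s c k < s c k' →
    glead M c (s c k) (s c k') ≤ γ'

end Vale.Agent.P037
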