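import Mathlib
import Vale.Agent.P037.GBasic

/-! P037 task G2: the exact closure lemma for a free system of sample rows. -/

namespace Vale.Agent.P037

open Finset

variable {n : ℕ}

/-- the rows in `Smp` form a matrix free of `[[1,1],[1,0]]`. -/
def FreeOn (M : Fin n → Fin n → Bool) (Smp : Finset (Fin n)) : Prop :=
  ∀ ρ ∈ Smp, ∀ ρ' ∈ Smp, ρ < ρ' → ∀ x y : Fin n, x < y →
    M ρ x = true → M ρ y = true → M ρ' x = true → M ρ' y = true

/-- `x < y` lie together in a sample row before time `t`. -/
def Dir (M : Fin n → Fin n → Bool) (Smp : Finset (Fin n)) (t x y : Fin n) : Prop :=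
  x < y ∧ ∃ ρ ∈ Smp, ρ < t ∧ M ρ x = true ∧ M ρ y = true

/-- `y` lies on the path that starts in `v` at time `t`. -/
def OnPath (M : Fin n → Fin n → Bool) (Smp : Finset (Fin n)) (t v y : Fin n) : Prop :=
  y = v ∨ Relation.TransGen (Dir M Smp t) v y

theorem transGen_dir_lt (M : Fin n → Fin n → Bool) (Smp : Finset (Fin n)) (t x y : Fin n)
    (h : Relation.TransGen (Dir M Smp t) x y) : x < y := by
  induction h with
  | single h => exact h.1
  | tail _ h ih => exact lt_trans ih h.1

/-- basic step: two successors of the same point are comparable. -/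
theorem dir_step (M : Fin n → Fin n → Bool) (Smp : Finset (Fin n))
    (hfree : FreeOn M Smp) (t s a b : Fin n)
    (ha : Dir M Smp t s a) (hb : Dir M Smp t s b) (hab : a < b) : Dir M Smp t a b := by
  obtain ⟨hsa, ρ, hρ, hρt, hρs, hρa⟩ := ha
  obtain ⟨hsb, ρ', hρ', hρt', hρs', hρb'⟩ := hb
  rcases lt_trichotomy ρ ρ' with h | h | h
  · exact ⟨hab, ρ', hρ', hρt', hfree ρ hρ ρ' hρ' h s a hsa hρs hρa hρs', hρb'⟩
  · subst h
    exact ⟨hab, ρ, hρ, hρt, hρa, hρb'⟩
  · exact ⟨hab, ρ, hρ, hρt, hρa, hfree ρ' hρ' ρ hρ h s b hsb hρs' hρb' hρs⟩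

theorem reflTransGen_dir_le (M : Fin n → Fin n → Bool) (Smp : Finset (Fin n)) (t x y : Fin n)
    (h : Relation.ReflTransGen (Dir M Smp t) x y) : x ≤ y := by
  rcases Relation.reflTransGen_iff_eq_or_transGen.mp h with h | h
  · exact le_of_eq h.symm
  · exact le_of_lt (transGen_dir_lt M Smp t x y h)

/-- forest property: two points above the same point are comparable. -/
theorem transGen_dir_forest (M : Fin n → Fin n → Bool) (Smp : Finset (Fin n))
    (hfree : FreeOn M Smp) (t s x y : Fin n)
    (hx : Relation.TransGen (Dir M Smp t) s x) (hy : Relation.TransGen (Dir M Smp t) s y)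
    (hxy : x < y) : Relation.TransGen (Dir M Smp t) x y := by
  induction s using WellFoundedGT.induction with
  | ind s ih =>
    obtain ⟨a, hsa, hax⟩ := Relation.TransGen.head'_iff.mp hx
    obtain ⟨b, hsb, hby⟩ := Relation.TransGen.head'_iff.mp hy
    have hax_le := reflTransGen_dir_le M Smp t a x hax
    have hby_le := reflTransGen_dir_le M Smp t b y hby
    rcases lt_trichotomy a b with h | h | h
    · -- a < b
      have hab : Dir M Smp t a b := dir_step M Smp hfree t s a b hsa hsb h
      have hay : Relation.TransGen (Dir M Smp t) a y := Relation.TransGen.head' hab hby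
      rcases Relation.reflTransGen_iff_eq_or_transGen.mp hax with h1 | h1
      · subst h1; exact hay
      · exact ih a hsa.1 h1 hay
    · subst h
      rcases Relation.reflTransGen_iff_eq_or_transGen.mp hax with h1 | h1
      · subst h1
        rcases Relation.reflTransGen_iff_eq_or_transGen.mp hby with h2 | h2
        · exact absurd hxy (by rw [h2]; exact lt_irrefl _)
        · exact h2
      · rcases Relation.reflTransGen_iff_eq_or_transGen.mp hby with h2 | h2
        · subst h2
          exact absurd (lt_of_le_of_lt hax_le hxy) (lt_irrefl _)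
        · exact ih a hsa.1 h1 h2
    · -- b < a
      have hba : Dir M Smp t b a := dir_step M Smp hfree t s b a hsb hsa h
      have hbx : Relation.TransGen (Dir M Smp t) b x := Relation.TransGen.head' hba hax
      rcases Relation.reflTransGen_iff_eq_or_transGen.mp hby with h2 | h2
      · subst h2
        exact absurd (lt_trans (lt_of_lt_of_le h hax_le) hxy) (lt_irrefl _)
      · exact ih b hsb.1 hbx h2

theorem dir_mono (M : Fin n → Fin n → Bool) (Smp : Finset (Fin n)) (t t' : Fin n)
    (htt : t ≤ t') (x y : Fin n) (h : Dir M Smp t x y) : Dir M Smp t' x y := by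
  obtain ⟨hxy, ρ, hρ, hρt, h1, h2⟩ := h
  exact ⟨hxy, ρ, hρ, lt_of_lt_of_le hρt htt, h1, h2⟩

/-- paths at times `t ≤ t'` are compatible. -/
theorem onPath_compat (M : Fin n → Fin n → Bool) (Smp : Finset (Fin n))
    (hfree : FreeOn M Smp) (t t' v v' x y : Fin n) (htt : t ≤ t') (hxy : x < y)
    (hx : OnPath M Smp t v x) (hy : OnPath M Smp t v y) (hx' : OnPath M Smp t' v' x) :
    OnPath M Smp t' v' y := by
  have key : Relation.TransGen (Dir M Smp t) x y := by
    rcases hx with hx | hx
    · subst hx
      rcases hy with hy | hy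
      · exact absurd hxy (by rw [hy]; exact lt_irrefl _)
      · exact hy
    · rcases hy with hy | hy
      · subst hy
        exact absurd (lt_trans (transGen_dir_lt M Smp t _ _ hx) hxy) (lt_irrefl _)
      · exact transGen_dir_forest M Smp hfree t v x y hx hy hxy
  have key' : Relation.TransGen (Dir M Smp t') x y :=
    Relation.TransGen.mono (dir_mono M Smp t t' htt) _ _ key
  rcases hx' with hx' | hx'
  · subst hx'
    exact Or.inr key'
  · exact Or.inr (hx'.trans key')

/-- lower bound for a path: an earlier sample row through `v`. -/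
theorem onPath_of_sample (M : Fin n → Fin n → Bool) (Smp : Finset (Fin n))
    (t v y ρ : Fin n) (hρ : ρ ∈ Smp) (hρt : ρ < t) (hv : M ρ v = true) (hy : M ρ y = true)
    (hvy : v ≤ y) : OnPath M Smp t v y := by
  rcases eq_or_lt_of_le hvy with h | h
  · exact Or.inl h.symm
  · exact Or.inr (Relation.TransGen.single ⟨h, ρ, hρ, hρt, hv, hy⟩)

/-- upper bound for a path: a later sample row through `v`. -/
theorem sample_of_onPath (M : Fin n → Fin n → Bool) (Smp : Finset (Fin n))
    (hfree : FreeOn M Smp) (t v y ρ' : Fin n) (hρ : ρ' ∈ Smp) (hρt : t ≤ ρ')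
    (hv : M ρ' v = true) (hy : OnPath M Smp t v y) : M ρ' y = true := by
  have step : ∀ u u' : Fin n, M ρ' u = true → Dir M Smp t u u' → M ρ' u' = true := by
    intro u u' hu hd
    obtain ⟨huu, ρ, hρ1, hρ2, h1, h2⟩ := hd
    exact hfree ρ hρ1 ρ' hρ (lt_of_lt_of_le hρ2 hρt) u u' huu h1 h2 hu
  rcases hy with hy | hy
  · rw [hy]; exact hv
  · induction hy with
    | single h => exact step _ _ hv h
    | tail _ h ih => exact step _ _ ih h

end Vale.Agent.P037
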