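import Mathlib
import Vale.Agent.P037.GBasic

/-! P037 task G4: ranks, groups and keys. -/

namespace Vale.Agent.P037

open Finset

variable {n : ℕ}

theorem rk_mono (act : Fin n → Bool) (ld : Fin n → Fin n) (r r' : Fin n)
    (h : ld r = ld r') (hle : r ≤ r') : rk act ld r ≤ rk act ld r' := by
  unfold rk
  apply Finset.card_le_card
  intro x hx
  simp only [mem_filter, mem_univ, true_and] at hx ⊢
  exact ⟨hx.1, hx.2.1.trans h, lt_of_lt_of_le hx.2.2 hle⟩

theorem rk_strict (act : Fin n → Bool) (ld : Fin n → Fin n) (r r' : Fin n)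
    (hr : act r = true) (h : ld r = ld r') (hlt : r < r') : rk act ld r < rk act ld r' := by
  unfold rk
  apply Finset.card_lt_card
  rw [Finset.ssubset_iff_of_subset]
  · refine ⟨r, ?_, ?_⟩
    · simp only [mem_filter, mem_univ, true_and]
      exact ⟨hr, h, hlt⟩
    · simp
  · intro x hx
    simp only [mem_filter, mem_univ, true_and] at hx ⊢
    exact ⟨hx.1, hx.2.1.trans h, lt_trans hx.2.2 hlt⟩

/-- inside a cell the rank is strictly increasing. -/
theorem rk_lt_iff (act : Fin n → Bool) (ld : Fin n → Fin n) (r r' : Fin n)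
    (hr : act r = true) (hr' : act r' = true) (h : ld r = ld r') :
    rk act ld r < rk act ld r' ↔ r < r' := by
  constructor
  · intro hlt
    by_contra hn
    have := rk_mono act ld r' r h.symm (not_lt.mp hn)
    omega
  · exact rk_strict act ld r r' hr h

theorem rk_lt_card (act : Fin n → Bool) (ld : Fin n → Fin n) (r : Fin n) (hr : act r = true) :
    rk act ld r < (cellSet act ld (ld r)).card := by
  unfold rk cellSet
  apply Finset.card_lt_card
  rw [Finset.ssubset_iff_of_subset]
  · refine ⟨r, ?_, ?_⟩
    · simp [hr]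
    · simp
  · intro x hx
    simp only [mem_filter, mem_univ, true_and] at hx ⊢
    exact ⟨hx.1, hx.2.1⟩

theorem mem_cellSet (act : Fin n → Bool) (ld : Fin n → Fin n) (c r : Fin n) :
    r ∈ cellSet act ld c ↔ act r = true ∧ ld r = c := by
  simp [cellSet]

theorem mem_grp (act : Fin n → Bool) (ld : Fin n → Fin n) (g : ℕ) (c : Fin n) (k : ℕ) (r : Fin n) :
    r ∈ grp act ld g c k ↔ act r = true ∧ ld r = c ∧ rk act ld r / g = k := by
  simp [grp]

theorem rk_injOn (act : Fin n → Bool) (ld : Fin n → Fin n) (c : Fin n) :
    Set.InjOn (rk act ld) (cellSet act ld c : Set (Fin n)) := by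
  intro a ha b hb hab
  rw [Finset.mem_coe, mem_cellSet] at ha hb
  have hl : ld a = ld b := ha.2.trans hb.2.symm
  rcases lt_trichotomy a b with h | h | h
  · have := rk_strict act ld a b ha.1 hl h
    omega
  · exact h
  · have := rk_strict act ld b a hb.1 hl.symm h
    omega

theorem image_rk_cellSet (act : Fin n → Bool) (ld : Fin n → Fin n) (c : Fin n) :
    (cellSet act ld c).image (rk act ld) = range (cellSet act ld c).card := by
  apply Finset.eq_of_subset_of_card_le
  · intro j hj
    rw [mem_image] at hj
    obtain ⟨r, hr, rfl⟩ := hj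
    rw [mem_cellSet] at hr
    rw [mem_range]
    have := rk_lt_card act ld r hr.1
    rwa [hr.2] at this
  · rw [card_range, Finset.card_image_of_injOn (rk_injOn act ld c)]

/-- every rank below the size of the cell is attained. -/
theorem exists_rk_eq (act : Fin n → Bool) (ld : Fin n → Fin n) (c : Fin n) (j : ℕ)
    (hj : j < (cellSet act ld c).card) : ∃ r ∈ cellSet act ld c, rk act ld r = j := by
  have : j ∈ (cellSet act ld c).image (rk act ld) := by
    rw [image_rk_cellSet, mem_range]
    exact hj
  rw [mem_image] at this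
  exact this

theorem grp_subset_cellSet (act : Fin n → Bool) (ld : Fin n → Fin n) (g : ℕ) (c : Fin n) (k : ℕ) :
    grp act ld g c k ⊆ cellSet act ld c := by
  intro r hr
  rw [mem_grp] at hr
  rw [mem_cellSet]
  exact ⟨hr.1, hr.2.1⟩

theorem image_rk_grp_subset (act : Fin n → Bool) (ld : Fin n → Fin n) (g : ℕ) (hg : 0 < g)
    (c : Fin n) (k : ℕ) :
    (grp act ld g c k).image (rk act ld) ⊆ Ico (k * g) ((k + 1) * g) := by
  intro j hj
  rw [mem_image] at hj
  obtain ⟨r, hr, rfl⟩ := hj
  rw [mem_grp] at hr
  rw [mem_Ico]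
  obtain ⟨-, -, h3⟩ := hr
  subst h3
  constructor
  · exact Nat.div_mul_le_self _ _
  · have := Nat.lt_mul_div_succ (rk act ld r) hg
    rwa [mul_comm] at this

/-- every group has at most `g` rows. -/
theorem grp_card_le (act : Fin n → Bool) (ld : Fin n → Fin n) (g : ℕ) (hg : 0 < g) (c : Fin n)
    (k : ℕ) : (grp act ld g c k).card ≤ g := by
  have h1 : ((grp act ld g c k).image (rk act ld)).card = (grp act ld g c k).card :=
    Finset.card_image_of_injOn
      ((rk_injOn act ld c).mono (by exact_mod_cast grp_subset_cellSet act ld g c k))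
  have h2 := Finset.card_le_card (image_rk_grp_subset act ld g hg c k)
  rw [h1, Nat.card_Ico] at h2
  have : (k + 1) * g - k * g = g := by
    rw [add_mul, one_mul]; omega
  omega

/-- a full group has exactly `g` rows. -/
theorem grp_card (act : Fin n → Bool) (ld : Fin n → Fin n) (g : ℕ) (hg : 0 < g) (c : Fin n)
    (k : ℕ) (hk : IsKey act ld g c k) : (grp act ld g c k).card = g := by
  have h1 : ((grp act ld g c k).image (rk act ld)).card = (grp act ld g c k).card :=
    Finset.card_image_of_injOn
      ((rk_injOn act ld c).mono (by exact_mod_cast grp_subset_cellSet act ld g c k))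
  have h2 : (grp act ld g c k).image (rk act ld) = Ico (k * g) ((k + 1) * g) := by
    apply Finset.Subset.antisymm (image_rk_grp_subset act ld g hg c k)
    intro j hj
    rw [mem_Ico] at hj
    unfold IsKey at hk
    obtain ⟨r, hr, hrj⟩ := exists_rk_eq act ld c j (lt_of_lt_of_le hj.2 hk)
    rw [mem_image]
    refine ⟨r, ?_, hrj⟩
    rw [mem_cellSet] at hr
    rw [mem_grp]
    refine ⟨hr.1, hr.2, ?_⟩
    rw [hrj]
    apply Nat.div_eq_of_lt_le
    · exact hj.1
    · exact hj.2
  rw [← h1, h2, Nat.card_Ico]
  rw [add_mul, one_mul]; omega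

/-- rows of an earlier group come earlier. -/
theorem lt_of_grp_lt (act : Fin n → Bool) (ld : Fin n → Fin n) (g : ℕ) (c : Fin n) (k k' : ℕ)
    (hkk : k < k') (r r' : Fin n) (hr : r ∈ grp act ld g c k) (hr' : r' ∈ grp act ld g c k') :
    r < r' := by
  rw [mem_grp] at hr hr'
  rw [← rk_lt_iff act ld r r' hr.1 hr'.1 (hr.2.1.trans hr'.2.1.symm)]
  by_contra hn
  have := Nat.div_le_div_right (c := g) (not_lt.mp hn)
  omega

/-- the finite set of all keys. -/
def keys (act : Fin n → Bool) (ld : Fin n → Fin n) (g : ℕ) : Finset (Fin n × ℕ) :=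
  (univ ×ˢ range n).filter (fun q : Fin n × ℕ => (q.2 + 1) * g ≤ (cellSet act ld q.1).card)

theorem cellSet_card_le (act : Fin n → Bool) (ld : Fin n → Fin n) (c : Fin n) :
    (cellSet act ld c).card ≤ n := by
  have := Finset.card_le_univ (cellSet act ld c)
  simpa using this

theorem mem_keys (act : Fin n → Bool) (ld : Fin n → Fin n) (g : ℕ) (hg : 0 < g) (c : Fin n)
    (k : ℕ) : (c, k) ∈ keys act ld g ↔ IsKey act ld g c k := by
  unfold keys IsKey
  simp only [mem_filter, mem_product, mem_univ, mem_range, true_and]
  constructor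
  · exact fun h => h.2
  · intro h
    refine ⟨?_, h⟩
    have h1 := cellSet_card_le act ld c
    have h2 : (k + 1) * 1 ≤ (k + 1) * g := Nat.mul_le_mul_left _ hg
    omega

/-- there are at most `n / g` keys. -/
theorem keys_card_le (act : Fin n → Bool) (ld : Fin n → Fin n) (g : ℕ) (hg : 0 < g) :
    (keys act ld g).card ≤ n / g := by
  rw [Nat.le_div_iff_mul_le hg]
  have hdisj : ((keys act ld g : Finset (Fin n × ℕ)) : Set (Fin n × ℕ)).PairwiseDisjoint
      (fun q => grp act ld g q.1 q.2) := by
    intro q _ q' _ hne
    rw [Function.onFun, Finset.disjoint_left]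
    intro r hr hr'
    rw [mem_grp] at hr hr'
    apply hne
    ext
    · rw [← hr.2.1, ← hr'.2.1]
    · rw [← hr.2.2, ← hr'.2.2]
  have h1 : ((keys act ld g).biUnion (fun q => grp act ld g q.1 q.2)).card
      = ∑ q ∈ keys act ld g, (grp act ld g q.1 q.2).card := Finset.card_biUnion hdisj
  have h2 : ∑ q ∈ keys act ld g, (grp act ld g q.1 q.2).card = ∑ _q ∈ keys act ld g, g := by
    apply Finset.sum_congr rfl
    intro q hq
    exact grp_card act ld g hg q.1 q.2 ((mem_keys act ld g hg q.1 q.2).mp hq)
  rw [Finset.sum_const, smul_eq_mul] at h2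
  rw [← h2, ← h1]
  have := Finset.card_le_univ ((keys act ld g).biUnion (fun q => grp act ld g q.1 q.2))
  simpa using this

/-- the set of leaders. -/
def leaders (act : Fin n → Bool) (ld : Fin n → Fin n) : Finset (Fin n) :=
  univ.filter (fun c : Fin n => (cellSet act ld c).Nonempty)

theorem cellSet_pairwiseDisjoint (act : Fin n → Bool) (ld : Fin n → Fin n) (s : Set (Fin n)) :
    s.PairwiseDisjoint (fun c => cellSet act ld c) := by
  intro q _ q' _ hne
  rw [Function.onFun, Finset.disjoint_left]
  intro r hr hr'
  rw [mem_cellSet] at hr hr'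
  exact hne (hr.2.symm.trans hr'.2)

/-- there are at most `n / h` cells. -/
theorem leaders_card_le (M : Fin n → Fin n → Bool) (act : Fin n → Bool) (ld : Fin n → Fin n)
    (β h : ℕ) (hh : 0 < h) (hP : Prepared M act ld β h) : (leaders act ld).card ≤ n / h := by
  rw [Nat.le_div_iff_mul_le hh]
  have h1 : ((leaders act ld).biUnion (fun c => cellSet act ld c)).card
      = ∑ c ∈ leaders act ld, (cellSet act ld c).card :=
    Finset.card_biUnion (cellSet_pairwiseDisjoint act ld _)
  have h2 : ∑ _c ∈ leaders act ld, h ≤ ∑ c ∈ leaders act ld, (cellSet act ld c).card := by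
    apply Finset.sum_le_sum
    intro c hc
    unfold leaders at hc
    rw [mem_filter] at hc
    obtain ⟨r, hr⟩ := hc.2
    rw [mem_cellSet] at hr
    have := hP.cell_big r hr.1
    rw [hr.2] at this
    exact this
  rw [Finset.sum_const, smul_eq_mul] at h2
  have h3 := Finset.card_le_univ ((leaders act ld).biUnion (fun c => cellSet act ld c))
  rw [Fintype.card_fin] at h3
  omega

/-- the active rows that are not interior: at most `3 g` in every cell. -/
theorem not_interior_card_le (M : Fin n → Fin n → Bool) (act : Fin n → Bool) (ld : Fin n → Fin n)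
    (β h g : ℕ) (hh : 0 < h) (hg : 0 < g) (hP : Prepared M act ld β h) :
    (univ.filter (fun r : Fin n => act r = true ∧ ¬ Interior act ld g r)).card
      ≤ 3 * g * (n / h) := by
  have hsub : univ.filter (fun r : Fin n => act r = true ∧ ¬ Interior act ld g r) ⊆
      (leaders act ld).biUnion (fun c => grp act ld g c 0 ∪
        grp act ld g c ((cellSet act ld c).card / g - 1) ∪
        grp act ld g c ((cellSet act ld c).card / g)) := by
    intro r hr
    rw [mem_filter] at hr
    obtain ⟨-, hact, hni⟩ := hr
    rw [mem_biUnion]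
    refine ⟨ld r, ?_, ?_⟩
    · unfold leaders
      rw [mem_filter]
      exact ⟨mem_univ _, ⟨r, (mem_cellSet act ld _ r).mpr ⟨hact, rfl⟩⟩⟩
    · rw [mem_union, mem_union, mem_grp, mem_grp, mem_grp]
      unfold Interior at hni
      have hlt := rk_lt_card act ld r hact
      have hle : rk act ld r / g ≤ (cellSet act ld (ld r)).card / g :=
        Nat.div_le_div_right hlt.le
      generalize (cellSet act ld (ld r)).card = C at *
      generalize rk act ld r / g = kk at *
      by_cases h0 : kk = 0
      · left; left
        exact ⟨hact, rfl, h0⟩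
      · have h1 : ¬ ((kk + 2) * g ≤ C) := by
          intro h2
          exact hni ⟨hact, by omega, h2⟩
        have h2 : ¬ (kk + 2 ≤ C / g) := by
          intro h3
          apply h1
          exact (Nat.le_div_iff_mul_le hg).mp h3
        have h3 : kk = C / g - 1 ∨ kk = C / g := by omega
        rcases h3 with h3 | h3
        · left; right
          exact ⟨hact, rfl, h3⟩
        · right
          exact ⟨hact, rfl, h3⟩
  calc (univ.filter (fun r : Fin n => act r = true ∧ ¬ Interior act ld g r)).card
      ≤ _ := Finset.card_le_card hsub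
    _ ≤ ∑ c ∈ leaders act ld, (grp act ld g c 0 ∪
        grp act ld g c ((cellSet act ld c).card / g - 1) ∪
        grp act ld g c ((cellSet act ld c).card / g)).card := Finset.card_biUnion_le
    _ ≤ ∑ _c ∈ leaders act ld, 3 * g := by
        apply Finset.sum_le_sum
        intro c _
        have a1 := grp_card_le act ld g hg c 0
        have a2 := grp_card_le act ld g hg c ((cellSet act ld c).card / g - 1)
        have a3 := grp_card_le act ld g hg c ((cellSet act ld c).card / g)
        have b1 := Finset.card_union_le (grp act ld g c 0 ∪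
          grp act ld g c ((cellSet act ld c).card / g - 1))
          (grp act ld g c ((cellSet act ld c).card / g))
        have b2 := Finset.card_union_le (grp act ld g c 0)
          (grp act ld g c ((cellSet act ld c).card / g - 1))
        omega
    _ = (leaders act ld).card * (3 * g) := by rw [Finset.sum_const, smul_eq_mul]
    _ ≤ (n / h) * (3 * g) := Nat.mul_le_mul_right _ (leaders_card_le M act ld β h hh hP)
    _ = 3 * g * (n / h) := by ring

/-- in a prepared matrix, for two rows of the same cell `sd` is `glead` of the leader. -/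
theorem sd_eq_glead (M : Fin n → Fin n → Bool) (act : Fin n → Bool) (ld : Fin n → Fin n)
    (β h : ℕ) (hP : Prepared M act ld β h) (ρ ρ' : Fin n) (h1 : act ρ = true) (h2 : act ρ' = true)
    (h3 : ld ρ = ld ρ') : sd M ρ ρ' = glead M (ld ρ) ρ ρ' := by
  unfold sd glead
  congr 1
  apply Finset.filter_congr
  intro y _
  have e1 := hP.lead_one ρ h1
  have e2 := hP.lead_one ρ' h2
  rw [← h3] at e2
  constructor
  · rintro ⟨a, b⟩
    refine ⟨?_, e1, a, e2, b⟩
    by_contra hn
    rcases (not_lt.mp hn).lt_or_eq with hlt | heq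
    · have := hP.lead_min ρ h1 y hlt
      rw [a] at this
      exact absurd this (by simp)
    · rw [heq, e2] at b
      exact absurd b (by simp)
  · rintro ⟨-, -, a, -, b⟩
    exact ⟨a, b⟩

end Vale.Agent.P037
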