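import Mathlib
import Vale.Agent.P037.GBasic
import Vale.Agent.P037.GGroups

/-! P037 task G6: the total distance between the interior rows and their neighbouring samples. -/

namespace Vale.Agent.P037

open Finset

variable {n : ℕ}

theorem sd_triangle (M : Fin n → Fin n → Bool) (a b c : Fin n) :
    sd M a c ≤ sd M a b + sd M b c := by
  unfold sd
  refine le_trans (card_le_card ?_) (card_union_le _ _)
  intro y hy
  simp only [mem_filter, mem_univ, true_and, mem_union] at hy ⊢
  by_cases hb : M b y = true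
  · exact Or.inr ⟨hb, hy.2⟩
  · exact Or.inl ⟨hy.1, by simpa using hb⟩

/-- the ones of row `a` split according to row `b`. -/
theorem card_row_eq (M : Fin n → Fin n → Bool) (a b : Fin n) :
    (univ.filter (fun y : Fin n => M a y = true)).card
      = (univ.filter (fun y : Fin n => M a y = true ∧ M b y = true)).card + sd M a b := by
  unfold sd
  rw [← card_filter_add_card_filter_not (s := univ.filter (fun y : Fin n => M a y = true))
    (p := fun y => M b y = true), filter_filter, filter_filter]
  congr 2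
  ext y
  simp

/-- both sides count the columns in row `a` or in row `b`. -/
theorem sd_add_card (M : Fin n → Fin n → Bool) (a b : Fin n) :
    sd M a b + (univ.filter (fun y : Fin n => M b y = true)).card
      = sd M b a + (univ.filter (fun y : Fin n => M a y = true)).card := by
  rw [card_row_eq M a b, card_row_eq M b a]
  have : (univ.filter (fun y : Fin n => M b y = true ∧ M a y = true))
      = univ.filter (fun y : Fin n => M a y = true ∧ M b y = true) := by
    ext y
    simp [and_comm]
  rw [this]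
  omega

lemma mem_grp' {act : Fin n → Bool} {ld : Fin n → Fin n} {g : ℕ} {c : Fin n} {k : ℕ} {r : Fin n} :
    r ∈ grp act ld g c k ↔ act r = true ∧ ld r = c ∧ rk act ld r / g = k := by
  simp [grp]

lemma isKey_of_le {act : Fin n → Bool} {ld : Fin n → Fin n} {g : ℕ} {c : Fin n} {k q : ℕ}
    (hk : k < q) (hq : q * g ≤ (cellSet act ld c).card) : IsKey act ld g c k := by
  unfold IsKey
  exact le_trans (Nat.mul_le_mul_right g hk) hq

/-- telescoping inside one cell: `q` full groups with samples `s c 0 < s c 1 < ...`. -/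
theorem sum_sd_samples_le (M : Fin n → Fin n → Bool) (act : Fin n → Bool) (ld : Fin n → Fin n)
    (β h g γ γ' Λ : ℕ) (hg : 0 < g) (s : Fin n → ℕ → Fin n) (hP : Prepared M act ld β h)
    (hS : GoodSamples M act ld g γ γ' Λ s) (c : Fin n) (q : ℕ)
    (hq : q * g ≤ (cellSet act ld c).card) :
    ∑ k ∈ range (q - 2), sd M (s c (k + 2)) (s c k) ≤ q * γ' + 2 * n := by
  set a : ℕ → ℕ := fun k => (univ.filter (fun y : Fin n => M (s c k) y = true)).card with ha
  have han : ∀ k, a k ≤ n := fun k => by
    have := card_filter_le (univ : Finset (Fin n)) (fun y : Fin n => M (s c k) y = true)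
    simpa using this
  have key : ∀ j, j + 2 ≤ q →
      ∑ k ∈ range j, sd M (s c (k + 2)) (s c k) + a 0 + a 1 ≤ j * γ' + a j + a (j + 1) := by
    intro j
    induction j with
    | zero => intro _; simp
    | succ j ih =>
      intro hj
      have ih' := ih (by omega)
      rw [sum_range_succ]
      have k1 : IsKey act ld g c j := isKey_of_le (by omega) hq
      have k2 : IsKey act ld g c (j + 2) := isKey_of_le (by omega) hq
      have m1 := mem_grp'.1 (hS.mem c j k1)
      have m2 := mem_grp'.1 (hS.mem c (j + 2) k2)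
      have hlt : s c j < s c (j + 2) :=
        lt_of_grp_lt act ld g c j (j + 2) (by omega) _ _ (hS.mem c j k1) (hS.mem c (j + 2) k2)
      have h1 : sd M (s c j) (s c (j + 2)) ≤ γ' := by
        rw [sd_eq_glead M act ld β h hP _ _ m1.1 m2.1 (m1.2.1.trans m2.2.1.symm), m1.2.1]
        exact hS.lead_le c j (j + 2) k1 k2 hlt
      have h2 := sd_add_card M (s c (j + 2)) (s c j)
      change sd M (s c (j + 2)) (s c j) + a j = sd M (s c j) (s c (j + 2)) + a (j + 2) at h2
      have e : (j + 1) * γ' = j * γ' + γ' := by ring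
      change _ ≤ (j + 1) * γ' + a (j + 1) + a (j + 2)
      omega
  by_cases hq2 : 2 ≤ q
  · have h1 := key (q - 2) (by omega)
    have h2 := han (q - 2)
    have h3 := han (q - 2 + 1)
    have h4 : (q - 2) * γ' ≤ q * γ' := Nat.mul_le_mul_right _ (by omega)
    omega
  · have : q - 2 = 0 := by omega
    rw [this]
    simp

/-- previous and next sample of a row. -/
def prevS (act : Fin n → Bool) (ld : Fin n → Fin n) (g : ℕ) (s : Fin n → ℕ → Fin n) (r : Fin n) :
    Fin n := s (ld r) (rk act ld r / g - 1)

def nextS (act : Fin n → Bool) (ld : Fin n → Fin n) (g : ℕ) (s : Fin n → ℕ → Fin n) (r : Fin n) :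
    Fin n := s (ld r) (rk act ld r / g + 1)

/-- basic facts on an interior row and its two neighbouring samples. -/
lemma interior_facts (M : Fin n → Fin n → Bool) (act : Fin n → Bool) (ld : Fin n → Fin n)
    (g γ γ' Λ : ℕ) (s : Fin n → ℕ → Fin n) (hS : GoodSamples M act ld g γ γ' Λ s) (r : Fin n)
    (hr : Interior act ld g r) :
    IsKey act ld g (ld r) (rk act ld r / g - 1) ∧ IsKey act ld g (ld r) (rk act ld r / g + 1) ∧
    act (prevS act ld g s r) = true ∧ ld (prevS act ld g s r) = ld r ∧ prevS act ld g s r < r ∧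
    act (nextS act ld g s r) = true ∧ ld (nextS act ld g s r) = ld r ∧ r < nextS act ld g s r := by
  obtain ⟨h1, h2, h3⟩ := hr
  have k1 : IsKey act ld g (ld r) (rk act ld r / g - 1) := isKey_of_le (by omega) h3
  have k2 : IsKey act ld g (ld r) (rk act ld r / g + 1) := isKey_of_le (by omega) h3
  have hrg : r ∈ grp act ld g (ld r) (rk act ld r / g) := mem_grp'.2 ⟨h1, rfl, rfl⟩
  have m1 := hS.mem _ _ k1
  have m2 := hS.mem _ _ k2
  refine ⟨k1, k2, (mem_grp'.1 m1).1, (mem_grp'.1 m1).2.1, ?_, (mem_grp'.1 m2).1, (mem_grp'.1 m2).2.1, ?_⟩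
  · exact lt_of_grp_lt act ld g (ld r) _ _ (by omega) _ _ m1 hrg
  · exact lt_of_grp_lt act ld g (ld r) _ _ (by omega) _ _ hrg m2

lemma sum_sd_prev_le (M : Fin n → Fin n → Bool) (act : Fin n → Bool) (ld : Fin n → Fin n)
    (β h g γ γ' Λ : ℕ) (hg : 0 < g) (s : Fin n → ℕ → Fin n)
    (hP : Prepared M act ld β h) (hS : GoodSamples M act ld g γ γ' Λ s) :
    ∑ r ∈ univ.filter (fun r : Fin n => Interior act ld g r), sd M (prevS act ld g s r) r
      ≤ (n / g) * Λ := by
  have hmaps : ∀ r ∈ univ.filter (fun r : Fin n => Interior act ld g r),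
      ((ld r, rk act ld r / g - 1) : Fin n × ℕ) ∈ keys act ld g := by
    intro r hr
    rw [mem_keys act ld g hg]
    exact (interior_facts M act ld g γ γ' Λ s hS r (mem_filter.1 hr).2).1
  rw [← sum_fiberwise_of_maps_to hmaps]
  refine le_trans (sum_le_card_nsmul _ _ Λ ?_) ?_
  · rintro ⟨c, k⟩ hκ
    have hk : IsKey act ld g c k := (mem_keys act ld g hg c k).1 hκ
    refine le_trans ?_ (hS.loc_le c k hk)
    unfold loc
    refine le_trans (sum_le_sum ?_) (sum_le_sum_of_subset (subset_univ _))
    intro r hr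
    rw [mem_filter, mem_filter] at hr
    obtain ⟨⟨_, hint⟩, hφ⟩ := hr
    rw [Prod.mk.injEq] at hφ
    obtain ⟨_, _, a1, a2, a3, _, _, _⟩ := interior_facts M act ld g γ γ' Λ s hS r hint
    have e : prevS act ld g s r = s c k := by
      unfold prevS
      rw [hφ.1, hφ.2]
    rw [e] at a1 a2 a3 ⊢
    rw [if_neg (not_lt.2 a3.le), sd_eq_glead M act ld β h hP _ _ a1 hint.1 a2]
  · rw [smul_eq_mul]
    exact Nat.mul_le_mul_right _ (keys_card_le act ld g hg)

lemma sum_sd_next_le (M : Fin n → Fin n → Bool) (act : Fin n → Bool) (ld : Fin n → Fin n)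
    (β h g γ γ' Λ : ℕ) (hg : 0 < g) (s : Fin n → ℕ → Fin n)
    (hP : Prepared M act ld β h) (hS : GoodSamples M act ld g γ γ' Λ s) :
    ∑ r ∈ univ.filter (fun r : Fin n => Interior act ld g r), sd M r (nextS act ld g s r)
      ≤ (n / g) * Λ := by
  have hmaps : ∀ r ∈ univ.filter (fun r : Fin n => Interior act ld g r),
      ((ld r, rk act ld r / g + 1) : Fin n × ℕ) ∈ keys act ld g := by
    intro r hr
    rw [mem_keys act ld g hg]
    exact (interior_facts M act ld g γ γ' Λ s hS r (mem_filter.1 hr).2).2.1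
  rw [← sum_fiberwise_of_maps_to hmaps]
  refine le_trans (sum_le_card_nsmul _ _ Λ ?_) ?_
  · rintro ⟨c, k⟩ hκ
    have hk : IsKey act ld g c k := (mem_keys act ld g hg c k).1 hκ
    refine le_trans ?_ (hS.loc_le c k hk)
    unfold loc
    refine le_trans (sum_le_sum ?_) (sum_le_sum_of_subset (subset_univ _))
    intro r hr
    rw [mem_filter, mem_filter] at hr
    obtain ⟨⟨_, hint⟩, hφ⟩ := hr
    rw [Prod.mk.injEq] at hφ
    obtain ⟨_, _, _, _, _, a1, a2, a3⟩ := interior_facts M act ld g γ γ' Λ s hS r hint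
    have e : nextS act ld g s r = s c k := by
      unfold nextS
      rw [hφ.1, hφ.2]
    rw [e] at a1 a2 a3 ⊢
    rw [if_pos a3, sd_eq_glead M act ld β h hP _ _ hint.1 a1 a2.symm, a2]
  · rw [smul_eq_mul]
    exact Nat.mul_le_mul_right _ (keys_card_le act ld g hg)

/-- the cells are disjoint subsets of the set of rows. -/
lemma sum_card_cellSet_le (act : Fin n → Bool) (ld : Fin n → Fin n) (T : Finset (Fin n)) :
    ∑ c ∈ T, (cellSet act ld c).card ≤ n := by
  have h1 : (univ.filter (fun r : Fin n => act r = true)).card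
      = ∑ c ∈ (univ : Finset (Fin n)), (cellSet act ld c).card := by
    rw [card_eq_sum_card_fiberwise (f := ld) (t := univ) (fun _ _ => mem_coe.2 (mem_univ _))]
    refine sum_congr rfl fun c _ => ?_
    unfold cellSet
    rw [filter_filter]
  have h2 : (univ.filter (fun r : Fin n => act r = true)).card ≤ n := by
    have := card_filter_le (univ : Finset (Fin n)) (fun r : Fin n => act r = true)
    simpa using this
  exact le_trans (sum_le_sum_of_subset (subset_univ T)) (h1 ▸ h2)

lemma sum_sd_next_prev_le (M : Fin n → Fin n → Bool) (act : Fin n → Bool) (ld : Fin n → Fin n)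
    (β h g γ γ' Λ : ℕ) (hh : 0 < h) (hg : 0 < g) (s : Fin n → ℕ → Fin n)
    (hP : Prepared M act ld β h) (hS : GoodSamples M act ld g γ γ' Λ s) :
    ∑ r ∈ univ.filter (fun r : Fin n => Interior act ld g r),
        sd M (nextS act ld g s r) (prevS act ld g s r)
      ≤ g * (2 * n * (n / h) + (n / g) * γ') := by
  set K : Finset (Fin n × ℕ) := (leaders act ld ×ˢ range n).filter
    (fun κ : Fin n × ℕ => (κ.2 + 3) * g ≤ (cellSet act ld κ.1).card) with hK
  have hcard : ∀ c, (cellSet act ld c).card ≤ n := fun c => by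
    have := card_filter_le (univ : Finset (Fin n)) (fun r : Fin n => act r = true ∧ ld r = c)
    simpa [cellSet] using this
  have hmaps : ∀ r ∈ univ.filter (fun r : Fin n => Interior act ld g r),
      ((ld r, rk act ld r / g - 1) : Fin n × ℕ) ∈ K := by
    intro r hr
    obtain ⟨h1, h2, h3⟩ := (mem_filter.1 hr).2
    have e : rk act ld r / g - 1 + 3 = rk act ld r / g + 2 := by omega
    rw [hK, mem_filter, mem_product, mem_range]
    refine ⟨⟨?_, ?_⟩, ?_⟩
    · simp only [leaders, mem_filter, mem_univ, true_and]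
      exact ⟨r, by simp [cellSet, h1]⟩
    · have h4 : (rk act ld r / g + 2) * 1 ≤ (rk act ld r / g + 2) * g :=
        Nat.mul_le_mul_left _ hg
      have h5 := hcard (ld r)
      simp only
      omega
    · simp only
      rw [e]
      exact h3
  rw [← sum_fiberwise_of_maps_to hmaps]
  -- each fibre
  have hfib : ∀ κ ∈ K, ∑ r ∈ (univ.filter (fun r : Fin n => Interior act ld g r)).filter
        (fun r => ((ld r, rk act ld r / g - 1) : Fin n × ℕ) = κ),
        sd M (nextS act ld g s r) (prevS act ld g s r)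
      ≤ g * sd M (s κ.1 (κ.2 + 2)) (s κ.1 κ.2) := by
    rintro ⟨c, k⟩ _
    refine le_trans (sum_le_card_nsmul _ _ (sd M (s c (k + 2)) (s c k)) ?_) ?_
    · intro r hr
      rw [mem_filter, mem_filter] at hr
      obtain ⟨⟨_, hint⟩, hφ⟩ := hr
      rw [Prod.mk.injEq] at hφ
      have h2 := hint.2.1
      have e1 : rk act ld r / g + 1 = k + 2 := by omega
      unfold nextS prevS
      rw [hφ.1, hφ.2, e1]
    · rw [smul_eq_mul]
      refine Nat.mul_le_mul_right _ (le_trans (card_le_card ?_) (grp_card_le act ld g hg c (k + 1)))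
      intro r hr
      rw [mem_filter, mem_filter] at hr
      obtain ⟨⟨_, hint⟩, hφ⟩ := hr
      rw [Prod.mk.injEq] at hφ
      have h2 := hint.2.1
      exact mem_grp'.2 ⟨hint.1, hφ.1, by omega⟩
  refine le_trans (sum_le_sum hfib) ?_
  rw [← mul_sum]
  refine Nat.mul_le_mul_left g ?_
  rw [hK, sum_filter, sum_product]
  have hc : ∀ c ∈ leaders act ld, ∑ k ∈ range n,
        (if (k + 3) * g ≤ (cellSet act ld c).card then sd M (s c (k + 2)) (s c k) else 0)
      ≤ ((cellSet act ld c).card / g) * γ' + 2 * n := by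
    intro c _
    rw [← sum_filter]
    refine le_trans (sum_le_sum_of_subset ?_) (sum_sd_samples_le M act ld β h g γ γ' Λ hg s hP hS c
      ((cellSet act ld c).card / g) (Nat.div_mul_le_self _ _))
    intro k hk
    rw [mem_filter] at hk
    have := (Nat.le_div_iff_mul_le hg).2 hk.2
    rw [mem_range]
    omega
  refine le_trans (sum_le_sum hc) ?_
  rw [sum_add_distrib, ← sum_mul, sum_const, smul_eq_mul]
  have h1 : ∑ c ∈ leaders act ld, (cellSet act ld c).card / g ≤ n / g := by
    rw [Nat.le_div_iff_mul_le hg, sum_mul]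
    exact le_trans (sum_le_sum fun c _ => Nat.div_mul_le_self _ _)
      (sum_card_cellSet_le act ld _)
  have h2 := leaders_card_le M act ld β h hh hP
  have h3 : (∑ c ∈ leaders act ld, (cellSet act ld c).card / g) * γ' ≤ (n / g) * γ' :=
    Nat.mul_le_mul_right _ h1
  have h4 : (leaders act ld).card * (2 * n) ≤ (n / h) * (2 * n) := Nat.mul_le_mul_right _ h2
  have e : 2 * n * (n / h) = (n / h) * (2 * n) := by ring
  rw [e]
  omega

/-- the main cost estimate. -/
theorem interior_cost_le (M : Fin n → Fin n → Bool) (act : Fin n → Bool) (ld : Fin n → Fin n)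
    (β h g γ γ' Λ : ℕ) (hh : 0 < h) (hg : 0 < g) (s : Fin n → ℕ → Fin n)
    (hP : Prepared M act ld β h) (hS : GoodSamples M act ld g γ γ' Λ s) :
    ∑ r ∈ univ.filter (fun r : Fin n => Interior act ld g r),
        (sd M (nextS act ld g s r) r + sd M r (prevS act ld g s r) + sd M r (nextS act ld g s r))
      ≤ 2 * g * (2 * n * (n / h) + (n / g) * γ') + 3 * (n / g) * Λ := by
  have hpt : ∀ r ∈ univ.filter (fun r : Fin n => Interior act ld g r),
      sd M (nextS act ld g s r) r + sd M r (prevS act ld g s r) + sd M r (nextS act ld g s r)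
        ≤ 2 * sd M (nextS act ld g s r) (prevS act ld g s r) + sd M (prevS act ld g s r) r
          + 2 * sd M r (nextS act ld g s r) := by
    intro r _
    have h1 := sd_triangle M (nextS act ld g s r) (prevS act ld g s r) r
    have h2 := sd_triangle M r (nextS act ld g s r) (prevS act ld g s r)
    omega
  refine le_trans (sum_le_sum hpt) ?_
  rw [sum_add_distrib, sum_add_distrib, ← mul_sum, ← mul_sum]
  have hB := sum_sd_prev_le M act ld β h g γ γ' Λ hg s hP hS
  have hC := sum_sd_next_le M act ld β h g γ γ' Λ hg s hP hS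
  have hD := sum_sd_next_prev_le M act ld β h g γ γ' Λ hh hg s hP hS
  have e1 : 2 * g * (2 * n * (n / h) + (n / g) * γ') = 2 * (g * (2 * n * (n / h) + (n / g) * γ')) := by
    ring
  have e2 : 3 * (n / g) * Λ = 3 * ((n / g) * Λ) := by ring
  rw [e1, e2]
  omega

end Vale.Agent.P037
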