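import Mathlib
import Vale.Agent.P037.GBasic

/-! P037 task G1: preparation (bad columns, greedy cells). -/

namespace Vale.Agent.P037

open Finset

variable {n : ℕ}

theorem gconf_eq_sum_glead (A : Fin n → Fin n → Bool) (ρ ρ' : Fin n) :
    gconf A ρ ρ' = ∑ x, glead A x ρ ρ' := by
  unfold gconf glead
  simp only [Finset.card_filter]
  rw [Fintype.sum_prod_type]

theorem NG_eq_sum_ginvx (A : Fin n → Fin n → Bool) : NG A = ∑ x, ginvx A x := by
  unfold NG ginvx
  rw [Finset.sum_comm]
  exact Finset.sum_congr rfl fun p _ => gconf_eq_sum_glead A p.1 p.2

/-- the greedy scan of the first `m` columns. -/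
theorem scan (A1 : Fin n → Fin n → Bool) (h : ℕ) (hh : 0 < h) (m : ℕ) (hm : m ≤ n) :
    ∃ (act : Fin n → Bool) (ld : Fin n → Fin n),
      (∀ r, act r = true → (ld r).val < m ∧ A1 r (ld r) = true) ∧
      (∀ r, act r = true →
        h ≤ (univ.filter (fun r' : Fin n => act r' = true ∧ ld r' = ld r)).card) ∧
      (∀ x : Fin n, x.val < m →
        (univ.filter (fun r : Fin n => A1 r x = true ∧ (act r = false ∨ x < ld r))).card < h) := by
  induction m with
  | zero =>
    rcases Nat.eq_zero_or_pos n with hn | hn
    · subst hn
      exact ⟨fun _ => false, fun r => r, fun r => r.elim0, fun r => r.elim0, fun r => r.elim0⟩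
    · exact ⟨fun _ => false, fun r => r, fun r hr => by simp at hr, fun r hr => by simp at hr,
        fun x hx => by omega⟩
  | succ m ih =>
    obtain ⟨act, ld, ha, hb, hc⟩ := ih (by omega)
    have hmn : m < n := by omega
    set xm : Fin n := ⟨m, hmn⟩ with hxm
    set T : Finset (Fin n) := univ.filter (fun r : Fin n => act r = false ∧ A1 r xm = true) with hT
    have memT : ∀ r, r ∈ T ↔ (act r = false ∧ A1 r xm = true) := by
      intro r; simp [hT]
    by_cases hheavy : h ≤ T.card
    · refine ⟨fun r => act r || decide (r ∈ T), fun r => if r ∈ T then xm else ld r, ?_, ?_, ?_⟩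
      · intro r hr
        by_cases hrT : r ∈ T
        · simp only [if_pos hrT]
          exact ⟨by simp [hxm], ((memT r).1 hrT).2⟩
        · simp only [if_neg hrT]
          have : act r = true := by simpa [hrT] using hr
          exact ⟨(ha r this).1.trans (Nat.lt_succ_self m), (ha r this).2⟩
      · intro r hr
        by_cases hrT : r ∈ T
        · simp only [if_pos hrT]
          refine hheavy.trans (Finset.card_le_card ?_)
          intro r' hr'
          simp [hr']
        · simp only [if_neg hrT]
          have hact : act r = true := by simpa [hrT] using hr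
          refine (hb r hact).trans (Finset.card_le_card ?_)
          intro r' hr'
          simp only [Finset.mem_filter, Finset.mem_univ, true_and] at hr' ⊢
          have hnT : r' ∉ T := by
            intro h1
            have := ((memT r').1 h1).1
            rw [hr'.1] at this
            exact absurd this (by simp)
          simp [hr'.1, hnT, hr'.2]
      · intro x hx
        rcases Nat.lt_succ_iff_lt_or_eq.1 hx with hx | hx
        · refine lt_of_le_of_lt (Finset.card_le_card ?_) (hc x hx)
          intro r hr
          simp only [Finset.mem_filter, Finset.mem_univ, true_and] at hr ⊢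
          refine ⟨hr.1, ?_⟩
          by_cases hrT : r ∈ T
          · exact Or.inl ((memT r).1 hrT).1
          · rcases hr.2 with h1 | h1
            · left
              simpa [hrT] using h1
            · right
              simpa [hrT] using h1
        · have hxx : x = xm := Fin.ext hx
          subst hxx
          have : (univ.filter (fun r : Fin n => A1 r xm = true ∧
              ((act r || decide (r ∈ T)) = false ∨ xm < if r ∈ T then xm else ld r))) = ∅ := by
            apply Finset.filter_eq_empty_iff.2
            intro r _ hr
            obtain ⟨h1, h2⟩ := hr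
            by_cases hrT : r ∈ T
            · simp [hrT] at h2
            · simp only [hrT, decide_false, Bool.or_false, if_false] at h2
              cases hact : act r with
              | false => exact hrT ((memT r).2 ⟨hact, h1⟩)
              | true =>
                rcases h2 with h2 | h2
                · rw [hact] at h2; exact absurd h2 (by simp)
                · have := (ha r hact).1
                  have h3 : m < (ld r).val := h2
                  omega
          rw [this]
          simpa using hh
    · refine ⟨act, ld, fun r hr => ⟨(ha r hr).1.trans (Nat.lt_succ_self m), (ha r hr).2⟩, hb, ?_⟩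
      intro x hx
      rcases Nat.lt_succ_iff_lt_or_eq.1 hx with hx | hx
      · exact hc x hx
      · have hxx : x = xm := Fin.ext hx
        subst hxx
        refine lt_of_le_of_lt (Finset.card_le_card ?_) (not_le.1 hheavy)
        intro r hr
        simp only [Finset.mem_filter, Finset.mem_univ, true_and] at hr
        rw [memT]
        refine ⟨?_, hr.1⟩
        rcases hr.2 with h1 | h1
        · exact h1
        · cases hact : act r with
          | false => rfl
          | true =>
            have := (ha r hact).1
            have h3 : m < (ld r).val := h1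
            omega

theorem diffCount_eq_sum_col (A B : Fin n → Fin n → Bool) :
    diffCount A B = ∑ x, (univ.filter (fun r : Fin n => A r x ≠ B r x)).card := by
  unfold diffCount
  simp only [Finset.card_filter]
  rw [Fintype.sum_prod_type, Finset.sum_comm]

/-- zero the columns with more than `β` copies, then scan the columns from left to right and
open a cell whenever at least `h` of the remaining rows have a one in the current column; the ones
of a row to the left of its leader are deleted, rows that never get a leader are deleted. -/
theorem prep (A : Fin n → Fin n → Bool) (β h : ℕ) (hβ : 0 < β) (hh : 0 < h) :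
    ∃ (M : Fin n → Fin n → Bool) (act : Fin n → Bool) (ld : Fin n → Fin n),
      Prepared M act ld β h ∧
      diffCount A M ≤ n * (NG A / β) + h * n ∧
      ∀ ρ ρ', gconf M ρ ρ' ≤ gconf A ρ ρ' := by
  classical
  set bad : Finset (Fin n) := univ.filter (fun x : Fin n => β < ginvx A x) with hbad
  have membad : ∀ x, x ∈ bad ↔ β < ginvx A x := by intro x; simp [hbad]
  set A1 : Fin n → Fin n → Bool := fun r x => A r x && decide (x ∉ bad) with hA1
  obtain ⟨act, ld, ha, hb, hc⟩ := scan A1 h hh n le_rfl
  set M : Fin n → Fin n → Bool := fun r y => act r && decide (ld r ≤ y) && A1 r y with hM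
  have M_true : ∀ r y, M r y = true ↔ (act r = true ∧ ld r ≤ y ∧ A r y = true ∧ y ∉ bad) := by
    intro r y
    simp only [hM, hA1, Bool.and_eq_true, decide_eq_true_eq]
    tauto
  -- a configuration of `M` is a configuration of `A`
  have key : ∀ (ρ ρ' x y : Fin n), x < y → M ρ x = true → M ρ y = true → M ρ' x = true →
      M ρ' y = false → A ρ x = true ∧ A ρ y = true ∧ A ρ' x = true ∧ A ρ' y = false := by
    intro ρ ρ' x y hxy h1 h2 h3 h4
    obtain ⟨_, _, a1, _⟩ := (M_true _ _).1 h1
    obtain ⟨_, _, a2, b2⟩ := (M_true _ _).1 h2
    obtain ⟨c3, d3, a3, _⟩ := (M_true _ _).1 h3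
    refine ⟨a1, a2, a3, ?_⟩
    by_contra hcon
    have h5 : A ρ' y = true := by simpa using hcon
    have : M ρ' y = true := (M_true _ _).2 ⟨c3, d3.trans hxy.le, h5, b2⟩
    rw [this] at h4
    exact absurd h4 (by simp)
  have hglead : ∀ x ρ ρ', glead M x ρ ρ' ≤ glead A x ρ ρ' := by
    intro x ρ ρ'
    unfold glead
    apply Finset.card_le_card
    intro y hy
    simp only [Finset.mem_filter, Finset.mem_univ, true_and] at hy ⊢
    exact ⟨hy.1, key ρ ρ' x y hy.1 hy.2.1 hy.2.2.1 hy.2.2.2.1 hy.2.2.2.2⟩
  have hgconf : ∀ ρ ρ', gconf M ρ ρ' ≤ gconf A ρ ρ' := by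
    intro ρ ρ'
    rw [gconf_eq_sum_glead, gconf_eq_sum_glead]
    exact Finset.sum_le_sum fun x _ => hglead x ρ ρ'
  refine ⟨M, act, ld, ⟨?_, ?_, ?_, hb, ?_⟩, ?_, hgconf⟩
  · intro r hr y
    simp [hM, hr]
  · intro r hr
    have := (ha r hr).2
    simp only [hM, hr, le_refl, decide_true, Bool.and_self, Bool.true_and]
    exact this
  · intro r _ y hy
    have : ¬ ld r ≤ y := not_le.2 hy
    simp [hM, this]
  · intro x
    by_cases hx : x ∈ bad
    · have : ginvx M x = 0 := by
        unfold ginvx
        apply Finset.sum_eq_zero
        intro p _
        unfold glead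
        rw [Finset.card_eq_zero]
        apply Finset.filter_eq_empty_iff.2
        intro y _ hy
        exact ((M_true _ _).1 hy.2.1).2.2.2 hx
      rw [this]
      exact Nat.zero_le _
    · have h1 : ginvx M x ≤ ginvx A x := Finset.sum_le_sum fun p _ => hglead x p.1 p.2
      have h2 : ginvx A x ≤ β := not_lt.1 (fun h3 => hx ((membad x).2 h3))
      exact h1.trans h2
  · -- the cost
    have hcard : bad.card ≤ NG A / β := by
      rw [Nat.le_div_iff_mul_le hβ, NG_eq_sum_ginvx]
      calc bad.card * β = ∑ _x ∈ bad, β := by rw [Finset.sum_const, smul_eq_mul]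
        _ ≤ ∑ x ∈ bad, ginvx A x := Finset.sum_le_sum fun x hx => ((membad x).1 hx).le
        _ ≤ ∑ x, ginvx A x := Finset.sum_le_sum_of_subset (Finset.subset_univ _)
    rw [diffCount_eq_sum_col]
    have hcol : ∀ x : Fin n, (univ.filter (fun r : Fin n => A r x ≠ M r x)).card
        ≤ (if x ∈ bad then n else 0) + h := by
      intro x
      by_cases hx : x ∈ bad
      · rw [if_pos hx]
        calc (univ.filter (fun r : Fin n => A r x ≠ M r x)).card ≤ (univ : Finset (Fin n)).card :=
              Finset.card_le_card (Finset.filter_subset _ _)
          _ = n := by simp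
          _ ≤ n + h := Nat.le_add_right _ _
      · rw [if_neg hx, Nat.zero_add]
        refine (Finset.card_le_card ?_).trans (hc x x.isLt).le
        intro r hr
        simp only [Finset.mem_filter, Finset.mem_univ, true_and] at hr ⊢
        have hA : A1 r x = A r x := by simp [hA1, hx]
        cases hAr : A r x with
        | false =>
          exfalso
          apply hr
          rw [hAr]
          symm
          by_contra hcon
          have h5 : M r x = true := by simpa using hcon
          have := ((M_true _ _).1 h5).2.2.1
          rw [hAr] at this
          exact absurd this (by simp)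
        | true =>
          refine ⟨by rw [hA, hAr], ?_⟩
          by_contra hcon
          rw [not_or] at hcon
          have h6 : act r = true := by simpa using hcon.1
          have h7 : ld r ≤ x := not_lt.1 hcon.2
          exact hr (by rw [hAr, (M_true r x).2 ⟨h6, h7, hAr, hx⟩])
    calc ∑ x, (univ.filter (fun r : Fin n => A r x ≠ M r x)).card
        ≤ ∑ x : Fin n, ((if x ∈ bad then n else 0) + h) := Finset.sum_le_sum fun x _ => hcol x
      _ = bad.card * n + n * h := by
        rw [Finset.sum_add_distrib, Finset.sum_const, Finset.card_univ, Fintype.card_fin,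
          smul_eq_mul, ← Finset.sum_filter]
        simp
      _ ≤ n * (NG A / β) + h * n := by
        have := Nat.mul_le_mul_left n hcard
        nlinarith

end Vale.Agent.P037
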