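import Mathlib

/-! P037 task G3: an abstract greedy transversal lemma. -/

namespace Vale.Agent.P037

open Finset

section aux

variable {V : Type*} [DecidableEq V]

/-- number of pairs of `E` that contain `v` (counted with position). -/
def pdeg (E : Finset (V × V)) (v : V) : ℕ :=
  (E.filter (fun p => p.1 = v)).card + (E.filter (fun p => p.2 = v)).card

/-- the partners of `v`. -/
def partners (E : Finset (V × V)) (v : V) : Finset V :=
  (E.filter (fun p => p.1 = v)).image Prod.snd ∪ (E.filter (fun p => p.2 = v)).image Prod.fst

/-- all end points of pairs of `E`. -/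
def endpts (E : Finset (V × V)) : Finset V := E.image Prod.fst ∪ E.image Prod.snd

/-- the poor elements. -/
def poorSet (E : Finset (V × V)) (d : ℕ) : Finset V := (endpts E).filter (fun v => d < pdeg E v)

theorem card_partners_le (E : Finset (V × V)) (v : V) : (partners E v).card ≤ pdeg E v := by
  unfold partners pdeg
  refine (card_union_le _ _).trans ?_
  exact Nat.add_le_add card_image_le card_image_le

theorem sum_pdeg (E : Finset (V × V)) : ∑ v ∈ endpts E, pdeg E v = 2 * E.card := by
  unfold pdeg
  rw [sum_add_distrib]
  have h1 : E.card = ∑ v ∈ endpts E, (E.filter (fun p => p.1 = v)).card := by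
    apply card_eq_sum_card_fiberwise
    intro p hp
    exact mem_coe.mpr (mem_union_left _ (mem_image_of_mem _ hp))
  have h2 : E.card = ∑ v ∈ endpts E, (E.filter (fun p => p.2 = v)).card := by
    apply card_eq_sum_card_fiberwise
    intro p hp
    exact mem_coe.mpr (mem_union_right _ (mem_image_of_mem _ hp))
  rw [← h1, ← h2]; ring

theorem pdeg_le_of_not_poor (E : Finset (V × V)) (d : ℕ) (v : V) (hv : v ∉ poorSet E d) :
    pdeg E v ≤ d := by
  by_cases hmem : v ∈ endpts E
  · by_contra hlt
    exact hv (mem_filter.mpr ⟨hmem, not_le.mp hlt⟩)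
  · have h1 : E.filter (fun p => p.1 = v) = ∅ := by
      apply filter_eq_empty_iff.mpr
      intro p hp hpv
      exact hmem (mem_union_left _ (mem_image.mpr ⟨p, hp, hpv⟩))
    have h2 : E.filter (fun p => p.2 = v) = ∅ := by
      apply filter_eq_empty_iff.mpr
      intro p hp hpv
      exact hmem (mem_union_right _ (mem_image.mpr ⟨p, hp, hpv⟩))
    unfold pdeg
    rw [h1, h2]
    simp

theorem card_poorSet_le (E : Finset (V × V)) (d e : ℕ) (hE : 2 * E.card ≤ (d + 1) * e) :
    (poorSet E d).card ≤ e := by
  have h1 : (poorSet E d).card * (d + 1) ≤ ∑ v ∈ poorSet E d, pdeg E v := by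
    rw [← smul_eq_mul]
    apply card_nsmul_le_sum
    intro v hv
    exact (mem_filter.mp hv).2
  have h2 : ∑ v ∈ poorSet E d, pdeg E v ≤ ∑ v ∈ endpts E, pdeg E v :=
    sum_le_sum_of_subset (filter_subset _ _)
  rw [sum_pdeg] at h2
  have h3 : (poorSet E d).card * (d + 1) ≤ e * (d + 1) := by
    calc (poorSet E d).card * (d + 1) ≤ 2 * E.card := h1.trans h2
      _ ≤ (d + 1) * e := hE
      _ = e * (d + 1) := Nat.mul_comm _ _
  exact Nat.le_of_mul_le_mul_right h3 (Nat.succ_pos d)

end aux

/-- If every group has at least `g` elements, there are few bad elements and few bad pairs, then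
one can choose one element in every group, avoiding the bad elements and all bad pairs.
(Elements with more than `d` bad partners are called poor; there are at most `e` of them.) -/
theorem exists_transversal {ι V : Type*} [DecidableEq ι] [DecidableEq V] [Inhabited V]
    (I : Finset ι) (G : ι → Finset V) (bad : Finset V) (E : Finset (V × V)) (g d e : ℕ)
    (hG : ∀ i ∈ I, g ≤ (G i).card)
    (hE : 2 * E.card ≤ (d + 1) * e)
    (hcount : bad.card + e + I.card * d < g) :
    ∃ s : ι → V, (∀ i ∈ I, s i ∈ G i ∧ s i ∉ bad) ∧
      ∀ i ∈ I, ∀ j ∈ I, i ≠ j → (s i, s j) ∉ E := by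
  have hpoor := card_poorSet_le E d e hE
  have main : ∀ J : Finset ι, (∀ i ∈ J, g ≤ (G i).card) → bad.card + e + J.card * d < g →
      ∃ s : ι → V, (∀ i ∈ J, s i ∈ G i ∧ s i ∉ bad ∧ s i ∉ poorSet E d) ∧
        ∀ i ∈ J, ∀ j ∈ J, i ≠ j → (s i, s j) ∉ E := by
    intro J
    induction J using Finset.induction_on with
    | empty =>
      intro _ _
      exact ⟨fun _ => default, by simp, by simp⟩
    | insert a J ha ih =>
      intro hGJ hc
      rw [card_insert_of_notMem ha] at hc
      have hc' : bad.card + e + J.card * d < g := by
        have : J.card * d ≤ (J.card + 1) * d := Nat.mul_le_mul_right _ (Nat.le_succ _)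
        omega
      obtain ⟨s, hs1, hs2⟩ := ih (fun i hi => hGJ i (mem_insert_of_mem hi)) hc'
      set X : Finset V := bad ∪ poorSet E d ∪ J.biUnion (fun j => partners E (s j)) with hX
      have hXcard : X.card ≤ bad.card + e + J.card * d := by
        have h1 : (J.biUnion (fun j => partners E (s j))).card ≤ J.card * d := by
          apply card_biUnion_le_card_mul
          intro j hj
          exact (card_partners_le E (s j)).trans (pdeg_le_of_not_poor E d (s j) (hs1 j hj).2.2)
        calc X.card ≤ (bad ∪ poorSet E d).card + (J.biUnion (fun j => partners E (s j))).card :=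
              card_union_le _ _
          _ ≤ (bad.card + (poorSet E d).card) + J.card * d :=
              Nat.add_le_add (card_union_le _ _) h1
          _ ≤ bad.card + e + J.card * d := by omega
      have hlt : X.card < (G a).card := by
        have := hGJ a (mem_insert_self a J)
        omega
      obtain ⟨v, hvG, hvX⟩ := exists_mem_notMem_of_card_lt_card hlt
      have hvbad : v ∉ bad := fun h => hvX (mem_union_left _ (mem_union_left _ h))
      have hvpoor : v ∉ poorSet E d := fun h => hvX (mem_union_left _ (mem_union_right _ h))
      have hvpart : ∀ j ∈ J, v ∉ partners E (s j) := fun j hj h =>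
        hvX (mem_union_right _ (mem_biUnion.mpr ⟨j, hj, h⟩))
      refine ⟨Function.update s a v, ?_, ?_⟩
      · intro i hi
        rcases mem_insert.mp hi with rfl | hiJ
        · simp only [Function.update_self]
          exact ⟨hvG, hvbad, hvpoor⟩
        · have hne : i ≠ a := fun h => ha (h ▸ hiJ)
          simp only [Function.update_of_ne hne]
          exact hs1 i hiJ
      · intro i hi j hj hij
        rcases mem_insert.mp hi with rfl | hiJ
        · rcases mem_insert.mp hj with rfl | hjJ
          · exact absurd rfl hij
          · have hne : j ≠ i := fun h => hij h.symm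
            simp only [Function.update_self, Function.update_of_ne hne]
            intro hmem
            apply hvpart j hjJ
            apply mem_union_right
            exact mem_image.mpr ⟨(v, s j), mem_filter.mpr ⟨hmem, rfl⟩, rfl⟩
        · have hnei : i ≠ a := fun h => ha (h ▸ hiJ)
          rcases mem_insert.mp hj with rfl | hjJ
          · simp only [Function.update_self, Function.update_of_ne hnei]
            intro hmem
            apply hvpart i hiJ
            apply mem_union_left
            exact mem_image.mpr ⟨(s i, v), mem_filter.mpr ⟨hmem, rfl⟩, rfl⟩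
          · have hnej : j ≠ a := fun h => ha (h ▸ hjJ)
            simp only [Function.update_of_ne hnei, Function.update_of_ne hnej]
            exact hs2 i hiJ j hjJ hij
  obtain ⟨s, hs1, hs2⟩ := main I hG hcount
  exact ⟨s, fun i hi => ⟨(hs1 i hi).1, (hs1 i hi).2.1⟩, hs2⟩

end Vale.Agent.P037
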