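import Mathlib
import Vale.Agent.P037.GBasic
import Vale.Agent.P037.GPrep
import Vale.Agent.P037.GSelect
import Vale.Agent.P037.GGroups

/-! P037 task G5: existence of a good system of samples. -/

namespace Vale.Agent.P037

open Finset

variable {n : ℕ}

lemma sum_incPairs (G : Fin n → Fin n → ℕ) :
    ∑ p ∈ incPairs n, G p.1 p.2 = ∑ a, ∑ b, if a < b then G a b else 0 := by
  unfold incPairs
  rw [sum_filter, Fintype.sum_prod_type]

/-- every unordered pair is counted twice. -/
lemma sum_sym (G : Fin n → Fin n → ℕ) (h0 : ∀ ρ, G ρ ρ = 0) :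
    ∑ ρ, ∑ r, (if r < ρ then G r ρ else G ρ r) = 2 * ∑ p ∈ incPairs n, G p.1 p.2 := by
  have h1 : ∀ ρ r : Fin n, (if r < ρ then G r ρ else G ρ r)
      = (if r < ρ then G r ρ else 0) + (if ρ < r then G ρ r else 0) := by
    intro ρ r
    rcases lt_trichotomy r ρ with h | h | h
    · rw [if_pos h, if_pos h, if_neg (not_lt.2 h.le), add_zero]
    · subst h
      simp [h0]
    · rw [if_neg (not_lt.2 h.le), if_neg (not_lt.2 h.le), if_pos h, zero_add]
  simp only [h1, sum_add_distrib]
  rw [sum_incPairs, two_mul]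
  congr 1
  exact sum_comm

lemma glead_self (M : Fin n → Fin n → Bool) (x ρ : Fin n) : glead M x ρ ρ = 0 := by
  unfold glead
  rw [card_eq_zero, filter_eq_empty_iff]
  rintro y _ ⟨_, _, h1, _, h2⟩
  rw [h1] at h2
  exact absurd h2 (by simp)

/-- total of `loc` over one cell. -/
lemma sum_loc_cell_le (M : Fin n → Fin n → Bool) (act : Fin n → Bool) (ld : Fin n → Fin n)
    (c : Fin n) :
    ∑ ρ ∈ (univ.filter (fun ρ : Fin n => act ρ = true)).filter (fun ρ => ld ρ = c), loc M ld ρ
      ≤ 2 * ginvx M c := by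
  unfold ginvx
  rw [← sum_sym (fun a b => glead M c a b) (fun ρ => glead_self M c ρ)]
  refine le_trans (le_of_eq (sum_congr rfl ?_)) (sum_le_sum_of_subset (subset_univ _))
  intro ρ hρ
  rw [mem_filter] at hρ
  unfold loc
  rw [hρ.2]

lemma ld_mem_leaders {act : Fin n → Bool} {ld : Fin n → Fin n} {ρ : Fin n} (h : act ρ = true) :
    ld ρ ∈ leaders act ld := by
  simp only [leaders, mem_filter, mem_univ, true_and]
  exact ⟨ρ, by simp [cellSet, h]⟩

/-- total of `loc` over the active rows. -/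
theorem sum_loc_le (M : Fin n → Fin n → Bool) (act : Fin n → Bool) (ld : Fin n → Fin n)
    (β h : ℕ) (hh : 0 < h) (hP : Prepared M act ld β h) :
    ∑ ρ ∈ univ.filter (fun ρ : Fin n => act ρ = true), loc M ld ρ ≤ 2 * (n / h) * β := by
  have hmaps : ∀ ρ ∈ univ.filter (fun ρ : Fin n => act ρ = true), ld ρ ∈ leaders act ld :=
    fun ρ hρ => ld_mem_leaders (mem_filter.1 hρ).2
  rw [← sum_fiberwise_of_maps_to hmaps]
  refine le_trans (sum_le_card_nsmul _ _ (2 * β) fun c _ => ?_) ?_
  · exact le_trans (sum_loc_cell_le M act ld c) (Nat.mul_le_mul_left 2 (hP.col_good c))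
  · rw [smul_eq_mul]
    have := Nat.mul_le_mul_right (2 * β) (leaders_card_le M act ld β h hh hP)
    calc (leaders act ld).card * (2 * β) ≤ n / h * (2 * β) := this
      _ = 2 * (n / h) * β := by ring

/-- Markov's inequality for finite sums of natural numbers. -/
lemma card_le_div_of_lt {α : Type*} (S : Finset α) (f : α → ℕ) (t T : ℕ) (ht : 0 < t)
    (hS : ∀ a ∈ S, t < f a) (hT : ∑ a ∈ S, f a ≤ T) : S.card ≤ T / t := by
  rw [Nat.le_div_iff_mul_le ht]
  refine le_trans ?_ hT
  rw [← smul_eq_mul]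
  exact card_nsmul_le_sum S f t fun a ha => (hS a ha).le

/-- pairs in the same cell with a large `glead`. -/
lemma card_E2_le (M : Fin n → Fin n → Bool) (act : Fin n → Bool) (ld : Fin n → Fin n)
    (β h γ' : ℕ) (hh : 0 < h) (hγ' : 0 < γ') (hP : Prepared M act ld β h) :
    ((incPairs n).filter (fun p : Fin n × Fin n => act p.1 = true ∧ act p.2 = true ∧
      ld p.1 = ld p.2 ∧ γ' < glead M (ld p.1) p.1 p.2)).card ≤ (n / h) * β / γ' := by
  refine card_le_div_of_lt _ (fun p => glead M (ld p.1) p.1 p.2) γ' _ hγ'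
    (fun p hp => (mem_filter.1 hp).2.2.2.2) ?_
  have hmaps : ∀ p ∈ (incPairs n).filter (fun p : Fin n × Fin n => act p.1 = true ∧
      act p.2 = true ∧ ld p.1 = ld p.2 ∧ γ' < glead M (ld p.1) p.1 p.2),
      ld p.1 ∈ leaders act ld := fun p hp => ld_mem_leaders (mem_filter.1 hp).2.1
  rw [← sum_fiberwise_of_maps_to hmaps]
  refine le_trans (sum_le_card_nsmul _ _ β fun c _ => ?_) ?_
  · refine le_trans ?_ (hP.col_good c)
    unfold ginvx
    refine le_trans (le_of_eq (sum_congr rfl ?_)) (sum_le_sum_of_subset ?_)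
    · intro p hp
      rw [(mem_filter.1 hp).2]
    · intro p hp
      exact (mem_filter.1 (mem_filter.1 hp).1).1
  · rw [smul_eq_mul]
    exact Nat.mul_le_mul_right β (leaders_card_le M act ld β h hh hP)

theorem exists_goodSamples (M : Fin n → Fin n → Bool) (act : Fin n → Bool) (ld : Fin n → Fin n)
    (β h g d e γ γ' Λ N : ℕ) (hh : 0 < h) (hg : 0 < g) (hγ : 0 < γ) (hγ' : 0 < γ') (hΛ : 0 < Λ)
    (hP : Prepared M act ld β h) (hN : NG M ≤ N)
    (H1 : 2 * (n / h) * β / Λ + e + (n / g) * d < g)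
    (H2 : 2 * (N / γ + (n / h) * β / γ') ≤ (d + 1) * e) :
    ∃ s : Fin n → ℕ → Fin n, GoodSamples M act ld g γ γ' Λ s := by
  rcases Nat.eq_zero_or_pos n with rfl | hn
  · exact ⟨fun c => c.elim0, ⟨fun c => c.elim0, fun c => c.elim0, fun c => c.elim0,
      fun c => c.elim0⟩⟩
  have : Inhabited (Fin n) := ⟨⟨0, hn⟩⟩
  set bad : Finset (Fin n) := univ.filter (fun ρ : Fin n => act ρ = true ∧ Λ < loc M ld ρ)
    with hbad
  set E1 : Finset (Fin n × Fin n) := (incPairs n).filter (fun p => γ < gconf M p.1 p.2) with hE1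
  set E2 : Finset (Fin n × Fin n) := (incPairs n).filter (fun p : Fin n × Fin n =>
    act p.1 = true ∧ act p.2 = true ∧ ld p.1 = ld p.2 ∧ γ' < glead M (ld p.1) p.1 p.2) with hE2
  have hb : bad.card ≤ 2 * (n / h) * β / Λ := by
    refine card_le_div_of_lt _ (loc M ld) Λ _ hΛ (fun ρ hρ => (mem_filter.1 hρ).2.2) ?_
    refine le_trans (sum_le_sum_of_subset ?_) (sum_loc_le M act ld β h hh hP)
    intro ρ hρ
    exact mem_filter.2 ⟨mem_univ _, (mem_filter.1 hρ).2.1⟩
  have h1 : E1.card ≤ N / γ := by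
    refine card_le_div_of_lt _ (fun p => gconf M p.1 p.2) γ _ hγ
      (fun p hp => (mem_filter.1 hp).2) ?_
    exact le_trans (sum_le_sum_of_subset (filter_subset _ _)) hN
  have h2 : E2.card ≤ (n / h) * β / γ' := card_E2_le M act ld β h γ' hh hγ' hP
  have hE : 2 * (E1 ∪ E2).card ≤ (d + 1) * e := by
    have := card_union_le E1 E2
    omega
  have hcount : bad.card + e + (keys act ld g).card * d < g := by
    have := Nat.mul_le_mul_right d (keys_card_le act ld g hg)
    omega
  obtain ⟨s, hs1, hs2⟩ := exists_transversal (keys act ld g)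
    (fun κ : Fin n × ℕ => grp act ld g κ.1 κ.2) bad (E1 ∪ E2) g d e
    (fun κ hκ => (grp_card act ld g hg κ.1 κ.2 ((mem_keys act ld g hg κ.1 κ.2).1 hκ)).ge)
    hE hcount
  refine ⟨fun c k => s (c, k), ⟨?_, ?_, ?_, ?_⟩⟩
  · intro c k hk
    exact (hs1 (c, k) ((mem_keys act ld g hg c k).2 hk)).1
  · intro c k hk
    obtain ⟨a1, a2⟩ := hs1 (c, k) ((mem_keys act ld g hg c k).2 hk)
    by_contra hcon
    push Not at hcon
    exact a2 (mem_filter.2 ⟨mem_univ _, ((mem_grp act ld g c k _).1 a1).1, hcon⟩)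
  · intro c k c' k' hk hk' hlt
    have hne : ((c, k) : Fin n × ℕ) ≠ (c', k') := by
      intro h
      rw [h] at hlt
      exact lt_irrefl _ hlt
    have := hs2 (c, k) ((mem_keys act ld g hg c k).2 hk) (c', k')
      ((mem_keys act ld g hg c' k').2 hk') hne
    by_contra hcon
    push Not at hcon
    exact this (mem_union_left _ (mem_filter.2 ⟨mem_filter.2 ⟨mem_univ _, hlt⟩, hcon⟩))
  · intro c k k' hk hk' hlt
    have hne : ((c, k) : Fin n × ℕ) ≠ (c, k') := by
      intro h
      rw [h] at hlt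
      exact lt_irrefl _ hlt
    have := hs2 (c, k) ((mem_keys act ld g hg c k).2 hk) (c, k')
      ((mem_keys act ld g hg c k').2 hk') hne
    have a1 := (mem_grp act ld g c k _).1 (hs1 (c, k) ((mem_keys act ld g hg c k).2 hk)).1
    have a2 := (mem_grp act ld g c k' _).1 (hs1 (c, k') ((mem_keys act ld g hg c k').2 hk')).1
    by_contra hcon
    push Not at hcon
    refine this (mem_union_right _ (mem_filter.2 ⟨mem_filter.2 ⟨mem_univ _, hlt⟩, a1.1, a2.1,
      a1.2.1.trans a2.2.1.symm, ?_⟩))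
    simp only
    rw [a1.2.1]
    exact hcon

end Vale.Agent.P037
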