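import Mathlib
import Vale.Agent.P037.GBasic
import Vale.Agent.P037.Cover
import Vale.Agent.P037.GPrep
import Vale.Agent.P037.GClosure
import Vale.Agent.P037.GGroups
import Vale.Agent.P037.GSamples
import Vale.Agent.P037.GCost

/-! P037 task G7: the free matrix `B` and its distance from `A`. -/

namespace Vale.Agent.P037

open Finset

variable {n : ℕ}

/-- few columns meet all conflicts between the sample rows. -/
theorem exists_cover_samples (M : Fin n → Fin n → Bool) (Smp : Finset (Fin n)) (k γ : ℕ)
    (hk : 0 < k) (hconf : ∀ ρ ∈ Smp, ∀ ρ' ∈ Smp, ρ < ρ' → gconf M ρ ρ' ≤ γ) :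
    ∃ Z : Finset (Fin n), Z.card ≤ Smp.card ^ 2 * (k + γ / k) ∧
      FreeOn (fun r y => M r y && decide (y ∉ Z)) Smp := by
  classical
  have hq : ∀ q : Fin n × Fin n, ∃ K : Finset (Fin n), K.card ≤ k + γ / k ∧
      (q.1 ∈ Smp → q.2 ∈ Smp → q.1 < q.2 → ∀ x y : Fin n, x < y → M q.1 x = true →
        M q.1 y = true → M q.2 x = true → M q.2 y = false → x ∈ K ∨ y ∈ K) := by
    intro q
    by_cases hc : q.1 ∈ Smp ∧ q.2 ∈ Smp ∧ q.1 < q.2
    · obtain ⟨K, hK, hcov⟩ := cover_one_dim
        (univ.filter (fun x : Fin n => M q.1 x = true ∧ M q.2 x = true))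
        (univ.filter (fun y : Fin n => M q.1 y = true ∧ M q.2 y = false)) k γ hk (by
          refine le_trans (Finset.card_le_card ?_) (hconf q.1 hc.1 q.2 hc.2.1 hc.2.2)
          intro p hp
          simp only [Finset.mem_filter, Finset.mem_product, Finset.mem_univ, true_and] at hp ⊢
          exact ⟨hp.2, hp.1.1.1, hp.1.2.1, hp.1.1.2, hp.1.2.2⟩)
      refine ⟨K, hK, ?_⟩
      intro _ _ _ x y hxy h1 h2 h3 h4
      exact hcov x (by simp [h1, h3]) y (by simp [h2, h4]) hxy
    · exact ⟨∅, by simp, fun h1 h2 h3 => absurd ⟨h1, h2, h3⟩ hc⟩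
  choose Kf hKf hcov using hq
  refine ⟨(Smp ×ˢ Smp).biUnion Kf, ?_, ?_⟩
  · refine (Finset.card_biUnion_le_card_mul _ _ _ fun q _ => hKf q).trans ?_
    rw [Finset.card_product, sq]
  · intro ρ hρ ρ' hρ' hlt x y hxy h1 h2 h3
    simp only [Bool.and_eq_true, decide_eq_true_eq] at h1 h2 h3 ⊢
    refine ⟨?_, h2.2⟩
    by_contra hcon
    have h4 : M ρ' y = false := by simpa using hcon
    have hmem : (ρ, ρ') ∈ Smp ×ˢ Smp := Finset.mem_product.2 ⟨hρ, hρ'⟩
    rcases hcov (ρ, ρ') hρ hρ' hlt x y hxy h1.1 h2.1 h3.1 h4 with h5 | h5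
    · exact h1.2 (Finset.mem_biUnion.2 ⟨_, hmem, h5⟩)
    · exact h2.2 (Finset.mem_biUnion.2 ⟨_, hmem, h5⟩)

theorem diffCount_eq_sum_row (A B : Fin n → Fin n → Bool) :
    diffCount A B = ∑ r, (univ.filter (fun y : Fin n => A r y ≠ B r y)).card := by
  unfold diffCount
  simp only [Finset.card_filter]
  rw [Fintype.sum_prod_type]

/-- the part of the construction that starts from a prepared matrix with good samples. -/
theorem construct_prepared (M : Fin n → Fin n → Bool) (act : Fin n → Bool) (ld : Fin n → Fin n)
    (β h g k γ γ' Λ : ℕ) (hh : 0 < h) (hg : 0 < g) (hk : 0 < k) (s : Fin n → ℕ → Fin n)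
    (hP : Prepared M act ld β h) (hS : GoodSamples M act ld g γ γ' Λ s) :
    ∃ B : Fin n → Fin n → Bool, GFree B ∧
      diffCount M B ≤ n * ((n / g) ^ 2 * (k + γ / k)) + 3 * g * (n / h) * n
        + (2 * g * (2 * n * (n / h) + (n / g) * γ') + 3 * (n / g) * Λ) := by
  classical
  -- the sample rows
  set Smp : Finset (Fin n) := (keys act ld g).image (fun q => s q.1 q.2) with hSmp
  have memSmp : ∀ c k', IsKey act ld g c k' → s c k' ∈ Smp := by
    intro c k' hkey
    exact Finset.mem_image.2 ⟨(c, k'), (mem_keys act ld g hg c k').2 hkey, rfl⟩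
  have hcardS : Smp.card ≤ n / g := Finset.card_image_le.trans (keys_card_le act ld g hg)
  have hconf : ∀ ρ ∈ Smp, ∀ ρ' ∈ Smp, ρ < ρ' → gconf M ρ ρ' ≤ γ := by
    intro ρ hρ ρ' hρ' hlt
    obtain ⟨⟨c, k1⟩, hq, rfl⟩ := Finset.mem_image.1 hρ
    obtain ⟨⟨c', k2⟩, hq', rfl⟩ := Finset.mem_image.1 hρ'
    exact hS.conf_le c k1 c' k2 ((mem_keys act ld g hg c k1).1 hq)
      ((mem_keys act ld g hg c' k2).1 hq') hlt
  obtain ⟨Z, hZcard, hfree⟩ := exists_cover_samples M Smp k γ hk hconf
  have hZ : Z.card ≤ (n / g) ^ 2 * (k + γ / k) :=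
    hZcard.trans (Nat.mul_le_mul_right _ (Nat.pow_le_pow_left hcardS 2))
  set M3 : Fin n → Fin n → Bool := fun r y => M r y && decide (y ∉ Z) with hM3
  have M3_true : ∀ r y, M3 r y = true ↔ (M r y = true ∧ y ∉ Z) := by
    intro r y
    simp [hM3]
  set prev : Fin n → Fin n := prevS act ld g s with hprev
  set next : Fin n → Fin n := nextS act ld g s with hnext
  -- facts on interior rows
  have hint : ∀ r, Interior act ld g r → prev r ∈ Smp ∧ next r ∈ Smp ∧ prev r < r ∧ r < next r := by
    intro r hr
    obtain ⟨hact, h1, h2⟩ := hr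
    have key1 : IsKey act ld g (ld r) (rk act ld r / g - 1) := by
      unfold IsKey
      have e : rk act ld r / g - 1 + 1 = rk act ld r / g := by omega
      rw [e]
      exact le_trans (Nat.mul_le_mul_right _ (by omega)) h2
    have key2 : IsKey act ld g (ld r) (rk act ld r / g + 1) := h2
    have hrg : r ∈ grp act ld g (ld r) (rk act ld r / g) := by
      simp [grp, hact]
    refine ⟨memSmp _ _ key1, memSmp _ _ key2, ?_, ?_⟩
    · exact lt_of_grp_lt act ld g (ld r) _ _ (by omega) _ _ (hS.mem _ _ key1) hrg
    · exact lt_of_grp_lt act ld g (ld r) _ _ (by omega) _ _ hrg (hS.mem _ _ key2)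
  set Wf : Fin n → Finset (Fin n) :=
    fun r => univ.filter (fun x : Fin n => M3 (prev r) x = true ∧ M3 (next r) x = true) with hWf
  set B : Fin n → Fin n → Bool := fun r y =>
    decide (Interior act ld g r ∧ ∃ hW : (Wf r).Nonempty, OnPath M3 Smp r ((Wf r).min' hW) y) with hB
  have B_true : ∀ r y, B r y = true ↔
      (Interior act ld g r ∧ ∃ hW : (Wf r).Nonempty, OnPath M3 Smp r ((Wf r).min' hW) y) := by
    intro r y
    simp [hB]
  refine ⟨B, ?_, ?_⟩
  · intro r1 r2 c1 c2 hr hc hcon
    obtain ⟨h1, h2, h3, h4⟩ := hcon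
    obtain ⟨_, hW1, p1⟩ := (B_true _ _).1 h1
    obtain ⟨_, _, p2⟩ := (B_true _ _).1 h2
    obtain ⟨I2, hW2, p3⟩ := (B_true _ _).1 h3
    have p4 := onPath_compat M3 Smp hfree r1 r2 _ _ c1 c2 hr.le hc p1 p2 p3
    have : B r2 c2 = true := (B_true _ _).2 ⟨I2, hW2, p4⟩
    rw [this] at h4
    exact absurd h4 (by simp)
  · -- the cost, row by row
    have hrow_int : ∀ r, Interior act ld g r →
        (univ.filter (fun y : Fin n => M r y ≠ B r y)).card
          ≤ Z.card + (sd M (next r) r + sd M r (prev r) + sd M r (next r)) := by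
      intro r hr
      obtain ⟨hpS, hnS, hpr, hrn⟩ := hint r hr
      have hsub : univ.filter (fun y : Fin n => M r y ≠ B r y) ⊆
          Z ∪ (univ.filter (fun y : Fin n => M (next r) y = true ∧ M r y = false) ∪
            univ.filter (fun y : Fin n => M r y = true ∧ M (prev r) y = false) ∪
            univ.filter (fun y : Fin n => M r y = true ∧ M (next r) y = false)) := by
        intro y hy
        simp only [Finset.mem_filter, Finset.mem_univ, true_and] at hy
        simp only [Finset.mem_union, Finset.mem_filter, Finset.mem_univ, true_and]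
        cases hMy : M r y with
        | false =>
          have hBy : B r y = true := by
            cases hb : B r y with
            | false => exact absurd (by rw [hMy, hb]) hy
            | true => rfl
          obtain ⟨_, hW, p⟩ := (B_true _ _).1 hBy
          have hv := Finset.min'_mem (Wf r) hW
          simp only [hWf, Finset.mem_filter, Finset.mem_univ, true_and] at hv
          have := sample_of_onPath M3 Smp hfree r _ y (next r) hnS hrn.le hv.2 p
          exact Or.inr (Or.inl (Or.inl ⟨((M3_true _ _).1 this).1, rfl⟩))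
        | true =>
          have hBy : B r y = false := by
            cases hb : B r y with
            | true => exact absurd (by rw [hMy, hb]) hy
            | false => rfl
          by_cases hyZ : y ∈ Z
          · exact Or.inl hyZ
          · right
            cases hp : M (prev r) y with
            | false => exact Or.inl (Or.inr ⟨rfl, rfl⟩)
            | true =>
              cases hn : M (next r) y with
              | false => exact Or.inr ⟨rfl, rfl⟩
              | true =>
                exfalso
                have hyW : y ∈ Wf r := by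
                  simp only [hWf, Finset.mem_filter, Finset.mem_univ, true_and]
                  exact ⟨(M3_true _ _).2 ⟨hp, hyZ⟩, (M3_true _ _).2 ⟨hn, hyZ⟩⟩
                have hW : (Wf r).Nonempty := ⟨y, hyW⟩
                have hv := Finset.min'_mem (Wf r) hW
                simp only [hWf, Finset.mem_filter, Finset.mem_univ, true_and] at hv
                have p := onPath_of_sample M3 Smp r ((Wf r).min' hW) y (prev r) hpS hpr hv.1
                  ((M3_true _ _).2 ⟨hp, hyZ⟩) (Finset.min'_le _ _ hyW)
                have : B r y = true := (B_true _ _).2 ⟨hr, hW, p⟩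
                rw [this] at hBy
                exact absurd hBy (by simp)
      refine (Finset.card_le_card hsub).trans ?_
      refine (Finset.card_union_le _ _).trans (Nat.add_le_add_left ?_ _)
      refine (Finset.card_union_le _ _).trans (Nat.add_le_add_right ?_ _)
      exact Finset.card_union_le _ _
    have hrow_inact : ∀ r, act r = false →
        (univ.filter (fun y : Fin n => M r y ≠ B r y)).card = 0 := by
      intro r hr
      rw [Finset.card_eq_zero]
      apply Finset.filter_eq_empty_iff.2
      intro y _ hy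
      apply hy
      rw [hP.inactive r hr y]
      symm
      by_contra hcon
      have hb : B r y = true := by simpa using hcon
      have := ((B_true _ _).1 hb).1.1
      rw [hr] at this
      exact absurd this (by simp)
    have hrow_any : ∀ r : Fin n, (univ.filter (fun y : Fin n => M r y ≠ B r y)).card ≤ n := by
      intro r
      calc (univ.filter (fun y : Fin n => M r y ≠ B r y)).card ≤ (univ : Finset (Fin n)).card :=
            Finset.card_le_card (Finset.filter_subset _ _)
        _ = n := by simp
    have hrow : ∀ r : Fin n, (univ.filter (fun y : Fin n => M r y ≠ B r y)).card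
        ≤ (if Interior act ld g r then
            Z.card + (sd M (next r) r + sd M r (prev r) + sd M r (next r)) else 0)
          + (if act r = true ∧ ¬ Interior act ld g r then n else 0) := by
      intro r
      by_cases hI : Interior act ld g r
      · rw [if_pos hI]
        exact (hrow_int r hI).trans (Nat.le_add_right _ _)
      · rw [if_neg hI, Nat.zero_add]
        cases hact : act r with
        | false =>
          rw [hrow_inact r hact]
          exact Nat.zero_le _
        | true =>
          rw [if_pos ⟨rfl, hI⟩]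
          exact hrow_any r
    rw [diffCount_eq_sum_row]
    refine (Finset.sum_le_sum fun r _ => hrow r).trans ?_
    rw [Finset.sum_add_distrib, ← Finset.sum_filter, ← Finset.sum_filter, Finset.sum_add_distrib,
      Finset.sum_const, Finset.sum_const, smul_eq_mul, smul_eq_mul]
    have c1 : (univ.filter (fun r : Fin n => Interior act ld g r)).card * Z.card
        ≤ n * ((n / g) ^ 2 * (k + γ / k)) := by
      refine Nat.mul_le_mul ?_ hZ
      calc (univ.filter (fun r : Fin n => Interior act ld g r)).card
          ≤ (univ : Finset (Fin n)).card := Finset.card_le_card (Finset.filter_subset _ _)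
        _ = n := by simp
    have c2 := interior_cost_le M act ld β h g γ γ' Λ hh hg s hP hS
    have c3 : (univ.filter (fun r : Fin n => act r = true ∧ ¬ Interior act ld g r)).card * n
        ≤ 3 * g * (n / h) * n :=
      Nat.mul_le_mul_right _ (not_interior_card_le M act ld β h g hh hg hP)
    exact Nat.add_le_add (Nat.add_le_add c1 c2) c3 |>.trans (by omega)

theorem diffCount_triangle (A B C : Fin n → Fin n → Bool) :
    diffCount A C ≤ diffCount A B + diffCount B C := by
  classical
  unfold diffCount
  refine le_trans (Finset.card_le_card ?_) (Finset.card_union_le _ _)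
  intro p hp
  simp only [Finset.mem_filter, Finset.mem_univ, true_and, Finset.mem_union] at hp ⊢
  by_contra hcon
  rw [not_or, not_not, not_not] at hcon
  exact hp (hcon.1.trans hcon.2)

/-- the whole construction. -/
theorem gconstruct (A : Fin n → Fin n → Bool) (β h g d e k γ γ' Λ : ℕ)
    (hβ : 0 < β) (hh : 0 < h) (hg : 0 < g) (hk : 0 < k) (hγ : 0 < γ) (hγ' : 0 < γ') (hΛ : 0 < Λ)
    (H1 : 2 * (n / h) * β / Λ + e + (n / g) * d < g)
    (H2 : 2 * (NG A / γ + (n / h) * β / γ') ≤ (d + 1) * e) :
    ∃ B : Fin n → Fin n → Bool, GFree B ∧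
      diffCount A B ≤ (n * (NG A / β) + h * n) + (n * ((n / g) ^ 2 * (k + γ / k))
        + 3 * g * (n / h) * n + (2 * g * (2 * n * (n / h) + (n / g) * γ') + 3 * (n / g) * Λ)) := by
  obtain ⟨M, act, ld, hP, hcost, hconf⟩ := prep A β h hβ hh
  have hN : NG M ≤ NG A := Finset.sum_le_sum fun p _ => hconf p.1 p.2
  obtain ⟨s, hS⟩ := exists_goodSamples M act ld β h g d e γ γ' Λ (NG A) hh hg hγ hγ' hΛ hP hN H1 H2
  obtain ⟨B, hB, hcost2⟩ := construct_prepared M act ld β h g k γ γ' Λ hh hg hk s hP hS
  exact ⟨B, hB, (diffCount_triangle A M B).trans (Nat.add_le_add hcost hcost2)⟩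

end Vale.Agent.P037
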