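import Mathlib

/-! P037 task G8: pure arithmetic, the choice of the parameters for the pattern G. -/

namespace Vale.Agent.P037

/-- the final inequality, with the quotients replaced by variables. -/
theorem gparams_aux (T n u A B C : ℕ) (hT : 1 ≤ T) (hu : 1 ≤ u)
    (hDu : 2 ^ 24 * T ^ 5 * u ≤ n) (hA : A ≤ 16 * T) (hB : B ≤ 1024 * T ^ 2) (hC : C ≤ u)
    (hgB : 2 ^ 15 * T ^ 3 * u * B ≤ n) :
    T * ((n * C + 2 ^ 21 * T ^ 4 * u * n) + (n * (B ^ 2 * (u + u))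
        + 3 * (2 ^ 15 * T ^ 3 * u) * A * n
        + (2 * (2 ^ 15 * T ^ 3 * u) * (2 * n * A + B * (2 ^ 20 * T ^ 4 * u))
          + 3 * B * (2 ^ 33 * T ^ 7 * u ^ 2)))) < n ^ 2 := by
  have hnpos : 0 < n := lt_of_lt_of_le (by positivity) hDu
  have hXn : 2 ^ 24 * T ^ 5 * u * n ≤ n ^ 2 := by
    calc 2 ^ 24 * T ^ 5 * u * n ≤ n * n := Nat.mul_le_mul_right _ hDu
      _ = n ^ 2 := by ring
  have hXX : (2 ^ 24 * T ^ 5 * u) ^ 2 ≤ n ^ 2 := Nat.pow_le_pow_left hDu 2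
  have hT5 : T ≤ T ^ 5 := Nat.le_self_pow (by norm_num) T
  have h1 : 8 * T * (n * C) ≤ n ^ 2 := by
    calc 8 * T * (n * C) ≤ 8 * T * (n * u) := by gcongr
      _ ≤ 2 ^ 24 * T ^ 5 * (n * u) := by
          apply Nat.mul_le_mul_right
          calc 8 * T ≤ 8 * T ^ 5 := by gcongr
            _ ≤ 2 ^ 24 * T ^ 5 := by gcongr; norm_num
      _ = 2 ^ 24 * T ^ 5 * u * n := by ring
      _ ≤ n ^ 2 := hXn
  have h2 : 8 * T * (2 ^ 21 * T ^ 4 * u * n) ≤ n ^ 2 := by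
    calc 8 * T * (2 ^ 21 * T ^ 4 * u * n) = 2 ^ 24 * T ^ 5 * u * n := by ring
      _ ≤ n ^ 2 := hXn
  have h3 : 8 * T * (n * (B ^ 2 * (u + u))) ≤ n ^ 2 := by
    calc 8 * T * (n * (B ^ 2 * (u + u))) ≤ 8 * T * (n * ((1024 * T ^ 2) ^ 2 * (u + u))) := by
          gcongr
      _ = 2 ^ 24 * T ^ 5 * u * n := by ring
      _ ≤ n ^ 2 := hXn
  have h4 : 8 * T * (3 * (2 ^ 15 * T ^ 3 * u) * A * n) ≤ n ^ 2 := by
    calc 8 * T * (3 * (2 ^ 15 * T ^ 3 * u) * A * n)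
        ≤ 8 * T * (3 * (2 ^ 15 * T ^ 3 * u) * (16 * T) * n) := by gcongr
      _ = 12582912 * (T ^ 5 * u * n) := by ring
      _ ≤ 2 ^ 24 * (T ^ 5 * u * n) := by gcongr; norm_num
      _ = 2 ^ 24 * T ^ 5 * u * n := by ring
      _ ≤ n ^ 2 := hXn
  have h5 : 8 * T * (2 * (2 ^ 15 * T ^ 3 * u) * (2 * n * A)) ≤ n ^ 2 := by
    calc 8 * T * (2 * (2 ^ 15 * T ^ 3 * u) * (2 * n * A))
        ≤ 8 * T * (2 * (2 ^ 15 * T ^ 3 * u) * (2 * n * (16 * T))) := by gcongr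
      _ = 2 ^ 24 * T ^ 5 * u * n := by ring
      _ ≤ n ^ 2 := hXn
  have h6 : 8 * T * (2 * (2 ^ 15 * T ^ 3 * u) * (B * (2 ^ 20 * T ^ 4 * u))) ≤ n ^ 2 := by
    calc 8 * T * (2 * (2 ^ 15 * T ^ 3 * u) * (B * (2 ^ 20 * T ^ 4 * u)))
        = 8 * T * (2 * (2 ^ 15 * T ^ 3 * u * B) * (2 ^ 20 * T ^ 4 * u)) := by ring
      _ ≤ 8 * T * (2 * n * (2 ^ 20 * T ^ 4 * u)) := by gcongr
      _ = 2 ^ 24 * T ^ 5 * u * n := by ring
      _ ≤ n ^ 2 := hXn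
  have h7 : 8 * T * (3 * B * (2 ^ 33 * T ^ 7 * u ^ 2)) ≤ n ^ 2 := by
    calc 8 * T * (3 * B * (2 ^ 33 * T ^ 7 * u ^ 2))
        ≤ 8 * T * (3 * (1024 * T ^ 2) * (2 ^ 33 * T ^ 7 * u ^ 2)) := by gcongr
      _ = 211106232532992 * (T ^ 10 * u ^ 2) := by ring
      _ ≤ 2 ^ 48 * (T ^ 10 * u ^ 2) := by gcongr; norm_num
      _ = (2 ^ 24 * T ^ 5 * u) ^ 2 := by ring
      _ ≤ n ^ 2 := hXX
  have hn2 : 0 < n ^ 2 := by positivity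
  apply Nat.lt_of_mul_lt_mul_left (a := 8)
  have hsplit : 8 * (T * ((n * C + 2 ^ 21 * T ^ 4 * u * n) + (n * (B ^ 2 * (u + u))
        + 3 * (2 ^ 15 * T ^ 3 * u) * A * n
        + (2 * (2 ^ 15 * T ^ 3 * u) * (2 * n * A + B * (2 ^ 20 * T ^ 4 * u))
          + 3 * B * (2 ^ 33 * T ^ 7 * u ^ 2)))))
      = 8 * T * (n * C) + 8 * T * (2 ^ 21 * T ^ 4 * u * n) + 8 * T * (n * (B ^ 2 * (u + u)))
        + 8 * T * (3 * (2 ^ 15 * T ^ 3 * u) * A * n)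
        + 8 * T * (2 * (2 ^ 15 * T ^ 3 * u) * (2 * n * A))
        + 8 * T * (2 * (2 ^ 15 * T ^ 3 * u) * (B * (2 ^ 20 * T ^ 4 * u)))
        + 8 * T * (3 * B * (2 ^ 33 * T ^ 7 * u ^ 2)) := by ring
  rw [hsplit]
  linarith

/-- suggested: `K = 10^9`, `a = 5`, `h = n/(8T)`, `g = n/(896 T^2)`, `γ' = n/(16T)`,
`Q = 1792 T^2`, `Λ = n^2/(24 Q T)`, `k = n/(16 T Q^2)`, `γ = k^2`, `d = g/(4Q)`, `e = g/4`,
`β = n^3/(10^15 T^8)`; any other constants are fine. -/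
theorem gparams : ∃ K a : ℕ, ∀ T n N : ℕ, 1 ≤ T → 1 ≤ N → (K * T ^ a) ^ 4 * N < n ^ 4 →
    ∃ β h g d e k γ γ' Λ : ℕ, 0 < β ∧ 0 < h ∧ 0 < g ∧ 0 < k ∧ 0 < γ ∧ 0 < γ' ∧ 0 < Λ ∧
      2 * (n / h) * β / Λ + e + (n / g) * d < g ∧
      2 * (N / γ + (n / h) * β / γ') ≤ (d + 1) * e ∧
      T * ((n * (N / β) + h * n) + (n * ((n / g) ^ 2 * (k + γ / k))
        + 3 * g * (n / h) * n + (2 * g * (2 * n * (n / h) + (n / g) * γ') + 3 * (n / g) * Λ)))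
        < n ^ 2 := by
  refine ⟨2 ^ 26, 5, ?_⟩
  intro T n N hT hN hlt
  have hTpos : 0 < T := hT
  obtain ⟨D, hD⟩ : ∃ D : ℕ, D = 2 ^ 24 * T ^ 5 := ⟨_, rfl⟩
  have hDpos : 0 < D := by rw [hD]; positivity
  have hn4 : (4 * D) ^ 4 < n ^ 4 := by
    calc (4 * D) ^ 4 = (2 ^ 26 * T ^ 5) ^ 4 := by rw [hD]; ring
      _ ≤ (2 ^ 26 * T ^ 5) ^ 4 * N := Nat.le_mul_of_pos_right _ hN
      _ < n ^ 4 := hlt
  have hn : 4 * D < n := lt_of_pow_lt_pow_left₀ 4 (Nat.zero_le _) hn4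
  obtain ⟨u, hu⟩ : ∃ u : ℕ, u = n / D := ⟨_, rfl⟩
  have hu1 : 1 ≤ u := by
    rw [hu]
    exact (Nat.le_div_iff_mul_le hDpos).mpr (by omega)
  have hupos : 0 < u := hu1
  have hDu : D * u ≤ n := by rw [hu]; exact Nat.mul_div_le n D
  have hn2 : n < D * (u + 1) := by rw [hu]; exact Nat.lt_mul_div_succ n hDpos
  have hn2' : n ≤ 2 * (D * u) := by
    have : D ≤ D * u := Nat.le_mul_of_pos_right _ hupos
    have h3 : D * (u + 1) = D * u + D := by ring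
    omega
  -- bound for N
  have hNu : N ≤ u ^ 4 := by
    have h1 : (4 * D) ^ 4 * N < (2 * (D * u)) ^ 4 := by
      calc (4 * D) ^ 4 * N = (2 ^ 26 * T ^ 5) ^ 4 * N := by rw [hD]; ring
        _ < n ^ 4 := hlt
        _ ≤ (2 * (D * u)) ^ 4 := Nat.pow_le_pow_left hn2' 4
    have h2 : (16 * D ^ 4) * (16 * N) < (16 * D ^ 4) * u ^ 4 := by
      calc (16 * D ^ 4) * (16 * N) = (4 * D) ^ 4 * N := by ring
        _ < (2 * (D * u)) ^ 4 := h1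
        _ = (16 * D ^ 4) * u ^ 4 := by ring
    have h3 : 16 * N < u ^ 4 := Nat.lt_of_mul_lt_mul_left h2
    omega
  have hA : n / (2 ^ 21 * T ^ 4 * u) ≤ 16 * T := by
    apply Nat.div_le_of_le_mul
    calc n ≤ 2 * (D * u) := hn2'
      _ = 2 ^ 21 * T ^ 4 * u * (16 * T) := by rw [hD]; ring
  have hB : n / (2 ^ 15 * T ^ 3 * u) ≤ 1024 * T ^ 2 := by
    apply Nat.div_le_of_le_mul
    calc n ≤ 2 * (D * u) := hn2'
      _ = 2 ^ 15 * T ^ 3 * u * (1024 * T ^ 2) := by rw [hD]; ring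
  have hC : N / (2 ^ 30 * T ^ 7 * u ^ 3) ≤ u := by
    apply Nat.div_le_of_le_mul
    calc N ≤ u ^ 4 := hNu
      _ = 1 * (u ^ 3 * u) := by ring
      _ ≤ (2 ^ 30 * T ^ 7) * (u ^ 3 * u) := by
          apply Nat.mul_le_mul_right
          exact Nat.succ_le_of_lt (by positivity)
      _ = 2 ^ 30 * T ^ 7 * u ^ 3 * u := by ring
  have hgB : 2 ^ 15 * T ^ 3 * u * (n / (2 ^ 15 * T ^ 3 * u)) ≤ n := Nat.mul_div_le _ _
  have hγk : u ^ 2 / u = u := by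
    rw [pow_two]; exact Nat.mul_div_cancel _ hupos
  refine ⟨2 ^ 30 * T ^ 7 * u ^ 3, 2 ^ 21 * T ^ 4 * u, 2 ^ 15 * T ^ 3 * u, 8 * T * u,
    2 ^ 13 * T ^ 3 * u, u, u ^ 2, 2 ^ 20 * T ^ 4 * u, 2 ^ 33 * T ^ 7 * u ^ 2,
    by positivity, by positivity, by positivity, hupos, by positivity, by positivity,
    by positivity, ?_, ?_, ?_⟩
  · -- H1
    have h1 : 2 * (n / (2 ^ 21 * T ^ 4 * u)) * (2 ^ 30 * T ^ 7 * u ^ 3) / (2 ^ 33 * T ^ 7 * u ^ 2)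
        ≤ 4 * T * u := by
      apply Nat.div_le_of_le_mul
      calc 2 * (n / (2 ^ 21 * T ^ 4 * u)) * (2 ^ 30 * T ^ 7 * u ^ 3)
          ≤ 2 * (16 * T) * (2 ^ 30 * T ^ 7 * u ^ 3) := by gcongr
        _ = 2 ^ 33 * T ^ 7 * u ^ 2 * (4 * T * u) := by ring
    have h2 : n / (2 ^ 15 * T ^ 3 * u) * (8 * T * u) ≤ 2 ^ 13 * T ^ 3 * u := by
      calc n / (2 ^ 15 * T ^ 3 * u) * (8 * T * u) ≤ 1024 * T ^ 2 * (8 * T * u) := by gcongr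
        _ = 2 ^ 13 * T ^ 3 * u := by ring
    have h3 : 4 * T * u < 2 ^ 14 * T ^ 3 * u := by
      have hT3 : T ≤ T ^ 3 := Nat.le_self_pow (by norm_num) T
      calc 4 * T * u ≤ 4 * T ^ 3 * u := by gcongr
        _ < 2 ^ 14 * T ^ 3 * u := by
            apply Nat.mul_lt_mul_of_pos_right _ hupos
            apply Nat.mul_lt_mul_of_pos_right (by norm_num) (by positivity)
    linarith
  · -- H2
    have h1 : N / u ^ 2 ≤ u ^ 2 := by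
      apply Nat.div_le_of_le_mul
      calc N ≤ u ^ 4 := hNu
        _ = u ^ 2 * u ^ 2 := by ring
    have h2 : n / (2 ^ 21 * T ^ 4 * u) * (2 ^ 30 * T ^ 7 * u ^ 3) / (2 ^ 20 * T ^ 4 * u)
        ≤ 2 ^ 14 * T ^ 4 * u ^ 2 := by
      apply Nat.div_le_of_le_mul
      calc n / (2 ^ 21 * T ^ 4 * u) * (2 ^ 30 * T ^ 7 * u ^ 3)
          ≤ (16 * T) * (2 ^ 30 * T ^ 7 * u ^ 3) := by gcongr
        _ = 2 ^ 20 * T ^ 4 * u * (2 ^ 14 * T ^ 4 * u ^ 2) := by ring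
    have h3 : u ^ 2 ≤ 2 ^ 14 * T ^ 4 * u ^ 2 := by
      calc u ^ 2 = 1 * u ^ 2 := by ring
        _ ≤ (2 ^ 14 * T ^ 4) * u ^ 2 := by
            apply Nat.mul_le_mul_right
            exact Nat.succ_le_of_lt (by positivity)
    calc 2 * (N / u ^ 2 + n / (2 ^ 21 * T ^ 4 * u) * (2 ^ 30 * T ^ 7 * u ^ 3)
            / (2 ^ 20 * T ^ 4 * u))
        ≤ 2 * (2 ^ 14 * T ^ 4 * u ^ 2 + 2 ^ 14 * T ^ 4 * u ^ 2) := by
          have := h1.trans h3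
          gcongr
      _ = (8 * T * u) * (2 ^ 13 * T ^ 3 * u) := by ring
      _ ≤ (8 * T * u + 1) * (2 ^ 13 * T ^ 3 * u) := by gcongr; exact Nat.le_succ _
  · -- H3
    rw [hγk]
    exact gparams_aux T n u _ _ _ hT hu1 (by rw [← hD]; exact hDu) hA hB hC hgB

end Vale.Agent.P037
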