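import Mathlib
import Vale.Agent.P037.Defs

/-! P037 task U1: the removal property and its symmetries. -/

namespace Vale.Agent.P037

open Finset

/-- the polynomial removal property of the `k x k` pattern `H` (exponent `n^(2k)`). -/
def PolyRemoval {k : ℕ} (H : Fin k → Fin k → Bool) : Prop :=
  ∃ c : ℝ, ∃ C : ℕ, 0 < c ∧ 0 < C ∧
    ∀ (n : ℕ) (ε : ℝ) (A : Fin n → Fin n → Bool), 0 < ε → ε < 1 →
      (∀ B : Fin n → Fin n → Bool, HFree H B → ε * (n : ℝ) ^ 2 ≤ (diffCount A B : ℝ)) →
      c * ε ^ C * (n : ℝ) ^ (2 * k) ≤ (copyCount H A : ℝ)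

variable {k : ℕ}

/-- general transport of the removal property along a symmetry of matrices. -/
theorem polyRemoval_transport (H H' : Fin k → Fin k → Bool)
    (Φ : ∀ n : ℕ, (Fin n → Fin n → Bool) → (Fin n → Fin n → Bool))
    (e : ∀ n : ℕ, ((Fin k → Fin n) × (Fin k → Fin n)) ≃ ((Fin k → Fin n) × (Fin k → Fin n)))
    (hinv : ∀ n (A : Fin n → Fin n → Bool), Φ n (Φ n A) = A)
    (hcopy : ∀ n (A : Fin n → Fin n → Bool) (p : (Fin k → Fin n) × (Fin k → Fin n)),
      IsCopy H' A p.1 p.2 ↔ IsCopy H (Φ n A) (e n p).1 (e n p).2)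
    (hdiff : ∀ n (A B : Fin n → Fin n → Bool), diffCount A (Φ n B) = diffCount (Φ n A) B)
    (h : PolyRemoval H) : PolyRemoval H' := by
  obtain ⟨c, C, hc, hC, hh⟩ := h
  refine ⟨c, C, hc, hC, ?_⟩
  intro n ε A hε0 hε1 hfar
  have hcount : copyCount H' A = copyCount H (Φ n A) := by
    unfold copyCount
    exact Nat.card_congr ((e n).subtypeEquiv (fun p => hcopy n A p))
  rw [hcount]
  refine hh n ε (Φ n A) hε0 hε1 ?_
  intro B hB
  rw [← hdiff]
  apply hfar
  intro r cc hcop
  have h1 := (hcopy n (Φ n B) (r, cc)).1 hcop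
  rw [hinv] at h1
  exact hB _ _ h1

theorem polyRemoval_compl (H : Fin k → Fin k → Bool) (h : PolyRemoval H) :
    PolyRemoval (fun i j => !(H i j)) := by
  refine polyRemoval_transport H _ (fun _ A i j => !(A i j)) (fun _ => Equiv.refl _) ?_ ?_ ?_ h
  · intro n A
    funext i j
    simp
  · intro n A p
    simp only [IsCopy, Equiv.refl_apply]
    refine and_congr_right fun _ => and_congr_right fun _ => ?_
    refine forall_congr' fun i => forall_congr' fun j => ?_
    cases A (p.1 i) (p.2 j) <;> cases H i j <;> simp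
  · intro n A B
    unfold diffCount
    congr 1
    apply Finset.filter_congr
    intro p _
    show (A p.1 p.2 ≠ !(B p.1 p.2)) ↔ ((!(A p.1 p.2)) ≠ B p.1 p.2)
    generalize A p.1 p.2 = x
    generalize B p.1 p.2 = y
    cases x <;> cases y <;> simp

/-- conjugation of an index map by the two reversals. -/
def revConj (k n : ℕ) : (Fin k → Fin n) ≃ (Fin k → Fin n) where
  toFun r := fun i => Fin.rev (r (Fin.rev i))
  invFun r := fun i => Fin.rev (r (Fin.rev i))
  left_inv r := by
    funext i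
    simp
  right_inv r := by
    funext i
    simp

theorem strictMono_revConj {n : ℕ} (r : Fin k → Fin n) :
    StrictMono (revConj k n r) ↔ StrictMono r := by
  constructor
  · intro h a b hab
    have h1 : Fin.rev b < Fin.rev a := Fin.rev_lt_rev.2 hab
    have h2 := h h1
    simp only [revConj, Equiv.coe_fn_mk, Fin.rev_rev, Fin.rev_lt_rev] at h2
    exact h2
  · intro h a b hab
    simp only [revConj, Equiv.coe_fn_mk, Fin.rev_lt_rev]
    exact h (Fin.rev_lt_rev.2 hab)

theorem polyRemoval_revRows (H : Fin k → Fin k → Bool) (h : PolyRemoval H) :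
    PolyRemoval (fun i j => H (Fin.rev i) j) := by
  refine polyRemoval_transport H _ (fun _ A i j => A (Fin.rev i) j)
    (fun n => Equiv.prodCongr (revConj k n) (Equiv.refl _)) ?_ ?_ ?_ h
  · intro n A
    funext i j
    simp
  · intro n A p
    simp only [IsCopy, Equiv.prodCongr_apply, Prod.map_fst, Prod.map_snd, Equiv.refl_apply,
      strictMono_revConj]
    refine and_congr_right fun _ => and_congr_right fun _ => ?_
    constructor
    · intro h1 i j
      have := h1 (Fin.rev i) j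
      simpa [revConj] using this
    · intro h1 i j
      have := h1 (Fin.rev i) j
      simpa [revConj] using this
  · intro n A B
    unfold diffCount
    refine Finset.card_bij (fun p _ => (Fin.rev p.1, p.2)) ?_ ?_ ?_
    · intro p hp
      simp only [mem_filter, mem_univ, true_and, Fin.rev_rev] at hp ⊢
      exact hp
    · intro p _ q _ hpq
      simp only [Prod.mk.injEq, Fin.rev_inj] at hpq
      exact Prod.ext hpq.1 hpq.2
    · intro q hq
      refine ⟨(Fin.rev q.1, q.2), ?_, by simp⟩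
      simp only [mem_filter, mem_univ, true_and, Fin.rev_rev] at hq ⊢
      exact hq

theorem polyRemoval_transpose (H : Fin k → Fin k → Bool) (h : PolyRemoval H) :
    PolyRemoval (fun i j => H j i) := by
  refine polyRemoval_transport H _ (fun _ A i j => A j i) (fun n => Equiv.prodComm _ _) ?_ ?_ ?_ h
  · intro n A
    rfl
  · intro n A p
    simp only [IsCopy, Equiv.prodComm_apply, Prod.fst_swap, Prod.snd_swap]
    constructor
    · rintro ⟨h1, h2, h3⟩
      exact ⟨h2, h1, fun i j => h3 j i⟩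
    · rintro ⟨h1, h2, h3⟩
      exact ⟨h2, h1, fun i j => h3 j i⟩
  · intro n A B
    unfold diffCount
    refine Finset.card_bij (fun p _ => (p.2, p.1)) ?_ ?_ ?_
    · intro p hp
      simp only [mem_filter, mem_univ, true_and] at hp ⊢
      exact hp
    · intro p _ q _ hpq
      simp only [Prod.mk.injEq] at hpq
      exact Prod.ext hpq.2 hpq.1
    · intro q hq
      refine ⟨(q.2, q.1), ?_, by simp⟩
      simp only [mem_filter, mem_univ, true_and] at hq ⊢
      exact hq

theorem polyRemoval_revCols (H : Fin k → Fin k → Bool) (h : PolyRemoval H) :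
    PolyRemoval (fun i j => H i (Fin.rev j)) :=
  polyRemoval_transpose _ (polyRemoval_revRows _ (polyRemoval_transpose H h))

/-- from a bound over the natural numbers to the real form (used for every base pattern). -/
theorem polyRemoval_of_nat (H : Fin k → Fin k → Bool) (K a : ℕ)
    (h : ∀ (T n : ℕ) (A : Fin n → Fin n → Bool), 1 ≤ T →
      (∀ B : Fin n → Fin n → Bool, HFree H B → n ^ 2 ≤ T * diffCount A B) →
      n ^ (2 * k) ≤ K * T ^ a * copyCount H A) :
    PolyRemoval H := by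
  refine ⟨1 / (((K : ℝ) + 1) * 2 ^ a), a + 1, by positivity, by omega, ?_⟩
  intro n ε A hε0 hε1 hfar
  set T : ℕ := ⌈1 / ε⌉₊ with hTdef
  have hinv : 1 < 1 / ε := by
    rw [lt_div_iff₀ hε0]
    linarith
  have hT1 : (1 / ε : ℝ) ≤ T := Nat.le_ceil _
  have hT2 : (T : ℝ) < 1 / ε + 1 := Nat.ceil_lt_add_one (by positivity)
  have hT3 : (T : ℝ) ≤ 2 / ε := by
    have : (2 / ε : ℝ) = 1 / ε + 1 / ε := by ring
    linarith
  have hTpos : 1 ≤ T := by
    have : (1 : ℝ) ≤ T := by linarith
    exact_mod_cast this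
  have hfar' : ∀ B : Fin n → Fin n → Bool, HFree H B → n ^ 2 ≤ T * diffCount A B := by
    intro B hB
    have h1 := hfar B hB
    have h2 : (n : ℝ) ^ 2 ≤ (1 / ε) * (diffCount A B : ℝ) := by
      rw [one_div, ← div_eq_inv_mul, le_div_iff₀ hε0]
      linarith
    have h3 : (n : ℝ) ^ 2 ≤ (T : ℝ) * (diffCount A B : ℝ) :=
      h2.trans (mul_le_mul_of_nonneg_right hT1 (Nat.cast_nonneg _))
    exact_mod_cast h3
  have hcore := h T n A hTpos hfar'
  have hcoreR : (n : ℝ) ^ (2 * k) ≤ (K : ℝ) * (T : ℝ) ^ a * (copyCount H A : ℝ) := by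
    exact_mod_cast hcore
  have hN : (0 : ℝ) ≤ (copyCount H A : ℝ) := Nat.cast_nonneg _
  have hTb : (K : ℝ) * (T : ℝ) ^ a ≤ ((K : ℝ) + 1) * (2 / ε) ^ a := by
    have hT0 : (0 : ℝ) ≤ T := Nat.cast_nonneg _
    have hK0 : (0 : ℝ) ≤ K := Nat.cast_nonneg _
    have : (T : ℝ) ^ a ≤ (2 / ε) ^ a := by gcongr
    have h2 : (0 : ℝ) ≤ (2 / ε) ^ a := by positivity
    nlinarith
  have h4 : (n : ℝ) ^ (2 * k) ≤ ((K : ℝ) + 1) * (2 / ε) ^ a * (copyCount H A : ℝ) :=
    hcoreR.trans (mul_le_mul_of_nonneg_right hTb hN)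
  have h5 : ((K : ℝ) + 1) * (2 / ε) ^ a = (((K : ℝ) + 1) * 2 ^ a) / ε ^ a := by
    rw [div_pow]
    ring
  rw [h5] at h4
  have hεa : (0 : ℝ) < ε ^ a := by positivity
  have hc : (0 : ℝ) < ((K : ℝ) + 1) * 2 ^ a := by positivity
  have hn0 : (0 : ℝ) ≤ (n : ℝ) ^ (2 * k) := by positivity
  have h6 : ε ^ (a + 1) ≤ ε ^ a := by
    rw [pow_succ]
    nlinarith
  calc 1 / (((K : ℝ) + 1) * 2 ^ a) * ε ^ (a + 1) * (n : ℝ) ^ (2 * k)
      ≤ 1 / (((K : ℝ) + 1) * 2 ^ a) * ε ^ a * (n : ℝ) ^ (2 * k) := by gcongr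
    _ ≤ 1 / (((K : ℝ) + 1) * 2 ^ a) * ε ^ a *
          ((((K : ℝ) + 1) * 2 ^ a) / ε ^ a * (copyCount H A : ℝ)) :=
        mul_le_mul_of_nonneg_left h4 (by positivity)
    _ = (copyCount H A : ℝ) := by
        field_simp

end Vale.Agent.P037
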