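import Mathlib
import Vale.Agent.P037.GBasic
import Vale.Agent.P037.GAssembly
import Vale.Agent.P037.GParams
import Vale.Agent.P037.Sym

/-! P037 task G9: bridge and final form for the pattern G. -/

namespace Vale.Agent.P037

open Finset

variable {n : ℕ}

theorem strictMono_fin2' (r : Fin 2 → Fin n) : StrictMono r ↔ r 0 < r 1 := by
  constructor
  · intro h
    exact h (by decide)
  · intro h i j hij
    fin_cases i <;> fin_cases j <;> simp_all

/-- explicit form of a copy of `[[1,1],[1,0]]`. -/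
theorem isCopy_patG_iff (A : Fin n → Fin n → Bool) (r c : Fin 2 → Fin n) :
    IsCopy patG A r c ↔ (r 0 < r 1 ∧ c 0 < c 1 ∧ A (r 0) (c 0) = true ∧ A (r 0) (c 1) = true ∧
      A (r 1) (c 0) = true ∧ A (r 1) (c 1) = false) := by
  unfold IsCopy
  rw [strictMono_fin2', strictMono_fin2']
  constructor
  · rintro ⟨h1, h2, h3⟩
    refine ⟨h1, h2, ?_, ?_, ?_, ?_⟩
    · simpa [patG] using h3 0 0
    · simpa [patG] using h3 0 1
    · simpa [patG] using h3 1 0
    · simpa [patG] using h3 1 1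
  · rintro ⟨h1, h2, h3, h4, h5, h6⟩
    refine ⟨h1, h2, ?_⟩
    intro i j
    fin_cases i <;> fin_cases j <;> simp [patG, h3, h4, h5, h6]

theorem hfree_patG_iff (B : Fin n → Fin n → Bool) : HFree patG B ↔ GFree B := by
  constructor
  · intro h r1 r2 c1 c2 hr hc hcon
    apply h ![r1, r2] ![c1, c2]
    rw [isCopy_patG_iff]
    simpa using ⟨hr, hc, hcon⟩
  · intro h r c hcopy
    rw [isCopy_patG_iff] at hcopy
    exact h (r 0) (r 1) (c 0) (c 1) hcopy.1 hcopy.2.1 hcopy.2.2

/-- `NG` as the cardinality of one set of quadruples (rows first). -/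
theorem NG_eq_card (A : Fin n → Fin n → Bool) :
    NG A = ((univ : Finset ((Fin n × Fin n) × (Fin n × Fin n))).filter (fun t =>
      t.1.1 < t.1.2 ∧ t.2.1 < t.2.2 ∧ A t.1.1 t.2.1 = true ∧ A t.1.1 t.2.2 = true ∧
        A t.1.2 t.2.1 = true ∧ A t.1.2 t.2.2 = false)).card := by
  unfold NG gconf incPairs
  rw [card_filter, Fintype.sum_prod_type, sum_filter]
  apply sum_congr rfl
  intro p _
  by_cases hp : p.1 < p.2
  · rw [if_pos hp, card_filter]
    apply sum_congr rfl
    intro q _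
    simp [hp]
  · rw [if_neg hp]
    symm
    apply sum_eq_zero
    intro q _
    simp [hp]

theorem copyCount_patG (A : Fin n → Fin n → Bool) : copyCount patG A = NG A := by
  classical
  unfold copyCount
  rw [NG_eq_card, Nat.card_eq_fintype_card, Fintype.card_subtype]
  apply card_nbij' (fun p => ((p.1 0, p.1 1), (p.2 0, p.2 1)))
    (fun t => (![t.1.1, t.1.2], ![t.2.1, t.2.2]))
  · intro p hp
    simp only [coe_filter, mem_univ, true_and, Set.mem_ofPred_eq] at hp ⊢
    rw [isCopy_patG_iff] at hp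
    tauto
  · intro t ht
    simp only [coe_filter, mem_univ, true_and, Set.mem_ofPred_eq] at ht ⊢
    rw [isCopy_patG_iff]
    simpa using ht
  · intro p _
    ext i
    · fin_cases i <;> rfl
    · fin_cases i <;> rfl
  · intro t _
    rfl

theorem gfree_of_NG_eq_zero (A : Fin n → Fin n → Bool) (h : NG A = 0) : GFree A := by
  rw [NG_eq_card, card_eq_zero, filter_eq_empty_iff] at h
  intro r1 r2 c1 c2 hr hc hcon
  exact h (mem_univ ((r1, r2), (c1, c2))) ⟨hr, hc, hcon⟩

theorem diffCount_self' (A : Fin n → Fin n → Bool) : diffCount A A = 0 := by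
  simp [diffCount]

theorem gcore_nat : ∃ K a : ℕ, ∀ (T n : ℕ) (A : Fin n → Fin n → Bool), 1 ≤ T →
    (∀ B : Fin n → Fin n → Bool, GFree B → n ^ 2 ≤ T * diffCount A B) →
    n ^ 4 ≤ (K * T ^ a) ^ 4 * NG A := by
  obtain ⟨K, a, hpar⟩ := gparams
  refine ⟨K, a, ?_⟩
  intro T n A hT hfar
  by_contra hcon
  push Not at hcon
  rcases Nat.eq_zero_or_pos (NG A) with h0 | hpos
  · have h1 := hfar A (gfree_of_NG_eq_zero A h0)
    rw [diffCount_self', mul_zero] at h1
    have h2 : n = 0 := by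
      have : n ^ 2 = 0 := Nat.le_zero.1 h1
      exact pow_eq_zero_iff (two_ne_zero) |>.1 this
    have h3 : n ^ 4 = 0 := by rw [h2]; norm_num
    omega
  · obtain ⟨β, h, g, d, e, k, γ, γ', Λ, hβ, hh, hg, hk, hγ, hγ', hΛ, H1, H2, H3⟩ :=
      hpar T n (NG A) hT hpos hcon
    obtain ⟨B, hfree, hd⟩ := gconstruct A β h g d e k γ γ' Λ hβ hh hg hk hγ hγ' hΛ H1 H2
    have h5 := hfar B hfree
    have h6 := Nat.mul_le_mul_left T hd
    omega

theorem polyRemoval_patG : PolyRemoval patG := by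
  obtain ⟨K, a, hcore⟩ := gcore_nat
  apply polyRemoval_of_nat patG (K ^ 4) (4 * a)
  intro T n A hT hfar
  have h1 := hcore T n A hT (fun B hB => hfar B ((hfree_patG_iff B).2 hB))
  rw [copyCount_patG]
  calc n ^ (2 * 2) = n ^ 4 := by norm_num
    _ ≤ (K * T ^ a) ^ 4 * NG A := h1
    _ = K ^ 4 * T ^ (4 * a) * NG A := by
        rw [mul_pow, ← pow_mul, Nat.mul_comm a 4]

end Vale.Agent.P037
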