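import Mathlib
import Vale.Agent.P037.Basic

/-! P037 task T1: window counting lemmas (see notes/P037_proof.md, section T1). -/

namespace Vale.Agent.P037

open Finset

variable {n : ℕ}

/-- a window has at most `w` rows. -/
theorem window_card_le (w l : ℕ) (hw : 0 < w) :
    (univ.filter (fun i : Fin n => i.val / w = l)).card ≤ w := by
  have h : ((univ.filter (fun i : Fin n => i.val / w = l)).image (fun i : Fin n => i.val))
      ⊆ Finset.Ico (l * w) (l * w + w) := by
    intro a ha
    rw [mem_image] at ha
    obtain ⟨i, hi, rfl⟩ := ha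
    rw [mem_filter] at hi
    rw [mem_Ico]
    have h1 := Nat.div_add_mod i.val w
    have h2 := Nat.mod_lt i.val hw
    rw [hi.2, mul_comm] at h1
    constructor <;> omega
  have h2 := card_le_card h
  rw [card_image_of_injective _ Fin.val_injective] at h2
  simpa using h2

theorem score_le (A : Fin n → Fin n → Bool) (w l : ℕ) (hw : 0 < w) (c : Fin n) :
    score A w l c ≤ w := by
  refine le_trans (card_le_card ?_) (window_card_le (n := n) w l hw)
  intro i hi
  rw [mem_filter] at hi ⊢
  exact ⟨hi.1, hi.2.1⟩

theorem cnt_le (A : Fin n → Fin n → Bool) (w l : ℕ) (hw : 0 < w) (x y : Fin n) :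
    cnt A w l x y ≤ w := by
  refine le_trans (card_le_card ?_) (window_card_le (n := n) w l hw)
  intro i hi
  rw [mem_filter] at hi ⊢
  exact ⟨hi.1, hi.2.1⟩

theorem cnt_self (A : Fin n → Fin n → Bool) (w l : ℕ) (x : Fin n) :
    cnt A w l x x = 0 := by
  unfold cnt
  rw [card_eq_zero, filter_eq_empty_iff]
  intro i _ h
  rw [h.2.1] at h
  exact absurd h.2.2 (by simp)

/-- splitting the score according to the other column. -/
theorem score_eq (A : Fin n → Fin n → Bool) (w l : ℕ) (x y : Fin n) :
    score A w l x = (univ.filter (fun i : Fin n =>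
      i.val / w = l ∧ A i x = true ∧ A i y = true)).card + cnt A w l x y := by
  unfold score cnt
  rw [← card_filter_add_card_filter_not (s := univ.filter (fun i : Fin n => i.val / w = l ∧ A i x = true))
    (fun i => A i y = true), filter_filter, filter_filter]
  congr 2
  · ext i
    simp only [mem_filter, mem_univ, true_and, and_assoc]
  · ext i
    simp only [mem_filter, mem_univ, true_and, and_assoc, Bool.not_eq_true]

/-- both sides count the rows of the window with a one in column `x` or in column `y`. -/
theorem score_add_cnt (A : Fin n → Fin n → Bool) (w l : ℕ) (x y : Fin n) :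
    score A w l x + cnt A w l y x = score A w l y + cnt A w l x y := by
  rw [score_eq A w l x y, score_eq A w l y x]
  have : (univ.filter (fun i : Fin n => i.val / w = l ∧ A i x = true ∧ A i y = true))
      = (univ.filter (fun i : Fin n => i.val / w = l ∧ A i y = true ∧ A i x = true)) := by
    ext i
    simp only [mem_filter, mem_univ, true_and]
    tauto
  rw [this]
  ring

theorem mixed_comm (A : Fin n → Fin n → Bool) (w l : ℕ) (x y : Fin n) :
    mixed A w l x y = mixed A w l y x := by
  unfold mixed
  exact min_comm _ _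

/-- the pairs counted by `inv` whose rows lie in the windows `l`, `l'`. -/
theorem cnt_mul_cnt_le_fiber (A : Fin n → Fin n → Bool) (w l l' : ℕ) (hl : l < l') (x y : Fin n) :
    cnt A w l x y * cnt A w l' y x ≤ ((univ.filter (fun p : Fin n × Fin n =>
      p.1 < p.2 ∧ A p.1 x = true ∧ A p.1 y = false ∧ A p.2 x = false ∧ A p.2 y = true)).filter
        (fun p => (p.1.val / w, p.2.val / w) = (l, l'))).card := by
  unfold cnt
  rw [← card_product]
  apply card_le_card
  intro p hp
  rw [mem_product, mem_filter, mem_filter] at hp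
  rw [mem_filter, mem_filter]
  obtain ⟨⟨-, h1, h2, h3⟩, ⟨-, h4, h5, h6⟩⟩ := hp
  refine ⟨⟨mem_univ _, ?_, h2, h3, h6, h5⟩, by rw [h1, h4]⟩
  by_contra hcon
  have hle : p.2.val ≤ p.1.val := by
    have := not_lt.mp hcon
    exact this
  have := Nat.div_le_div_right (c := w) hle
  omega

/-- rows of an earlier window showing 10 and rows of a later window showing 01 give copies. -/
theorem cnt_mul_cnt_le_inv (A : Fin n → Fin n → Bool) (w l l' : ℕ) (hl : l < l') (x y : Fin n) :
    cnt A w l x y * cnt A w l' y x ≤ inv A x y :=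
  (cnt_mul_cnt_le_fiber A w l l' hl x y).trans (card_le_card (filter_subset _ _))

/-- summed version over all pairs of windows. -/
theorem sum_cnt_mul_cnt_le_inv (A : Fin n → Fin n → Bool) (w L : ℕ) (x y : Fin n) :
    ∑ q ∈ (range L ×ˢ range L).filter (fun q : ℕ × ℕ => q.1 < q.2),
      cnt A w q.1 x y * cnt A w q.2 y x ≤ inv A x y := by
  set T := (univ.filter (fun p : Fin n × Fin n =>
      p.1 < p.2 ∧ A p.1 x = true ∧ A p.1 y = false ∧ A p.2 x = false ∧ A p.2 y = true)) with hT
  calc ∑ q ∈ (range L ×ˢ range L).filter (fun q : ℕ × ℕ => q.1 < q.2),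
        cnt A w q.1 x y * cnt A w q.2 y x
      ≤ ∑ q ∈ (range L ×ˢ range L).filter (fun q : ℕ × ℕ => q.1 < q.2),
        (T.filter (fun p => (p.1.val / w, p.2.val / w) = q)).card := by
        apply sum_le_sum
        intro q hq
        rw [mem_filter] at hq
        exact cnt_mul_cnt_le_fiber A w q.1 q.2 hq.2 x y
    _ = (((range L ×ˢ range L).filter (fun q : ℕ × ℕ => q.1 < q.2)).biUnion
        (fun q => T.filter (fun p => (p.1.val / w, p.2.val / w) = q))).card := by
        rw [card_biUnion]
        intro q _ q' _ hqq'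
        change Disjoint _ _
        rw [disjoint_left]
        intro p hp hp'
        rw [mem_filter] at hp hp'
        exact hqq' (hp.2.symm.trans hp'.2)
    _ ≤ T.card := by
        apply card_le_card
        intro p hp
        rw [mem_biUnion] at hp
        obtain ⟨q, _, hq⟩ := hp
        exact (mem_filter.mp hq).1
    _ = inv A x y := rfl

/-- square of a sum over a range. -/
theorem sq_sum_range (a : ℕ → ℕ) (L : ℕ) :
    (∑ l ∈ range L, a l) ^ 2 = ∑ l ∈ range L, a l ^ 2
      + 2 * ∑ q ∈ (range L ×ˢ range L).filter (fun q : ℕ × ℕ => q.1 < q.2), a q.1 * a q.2 := by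
  have h1 : ∀ l l' : ℕ, a l * a l'
      = (if l < l' then a l * a l' else 0) + (if l' < l then a l' * a l else 0)
        + (if l = l' then a l ^ 2 else 0) := by
    intro l l'
    rcases lt_trichotomy l l' with h | h | h
    · simp [h, h.ne, h.not_gt]
    · subst h
      simp [sq]
    · simp [h, h.ne', h.not_gt, mul_comm]
  have h2 : ∑ l ∈ range L, ∑ l' ∈ range L, (if l' < l then a l' * a l else 0)
      = ∑ l ∈ range L, ∑ l' ∈ range L, (if l < l' then a l * a l' else 0) := by
    rw [sum_comm]
  have h3 : ∑ l ∈ range L, ∑ l' ∈ range L, (if l = l' then a l ^ 2 else 0)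
      = ∑ l ∈ range L, a l ^ 2 := by
    apply sum_congr rfl
    intro l hl
    rw [sum_ite_eq]
    simp [hl]
  have h4 : ∑ q ∈ (range L ×ˢ range L).filter (fun q : ℕ × ℕ => q.1 < q.2), a q.1 * a q.2
      = ∑ l ∈ range L, ∑ l' ∈ range L, (if l < l' then a l * a l' else 0) := by
    rw [sum_filter, sum_product]
  rw [h4, sq, sum_mul_sum]
  calc ∑ l ∈ range L, ∑ l' ∈ range L, a l * a l'
      = ∑ l ∈ range L, ∑ l' ∈ range L, ((if l < l' then a l * a l' else 0)
        + (if l' < l then a l' * a l else 0) + (if l = l' then a l ^ 2 else 0)) := by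
        apply sum_congr rfl
        intro l _
        apply sum_congr rfl
        intro l' _
        exact h1 l l'
    _ = _ := by
        simp only [sum_add_distrib]
        rw [h2, h3]
        ring

/-- key inequality for one column pair. -/
theorem mixed_sum_sq_le (A : Fin n → Fin n → Bool) (w L : ℕ) (hw : 0 < w) (x y : Fin n) :
    (∑ l ∈ range L, mixed A w l x y) ^ 2
      ≤ w * (∑ l ∈ range L, mixed A w l x y) + 2 * inv A x y := by
  rw [sq_sum_range]
  have h1 : ∑ l ∈ range L, mixed A w l x y ^ 2 ≤ w * ∑ l ∈ range L, mixed A w l x y := by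
    rw [mul_sum]
    apply sum_le_sum
    intro l _
    rw [sq]
    apply Nat.mul_le_mul_right
    exact (min_le_left _ _).trans (cnt_le A w l hw x y)
  have h2 : ∑ q ∈ (range L ×ˢ range L).filter (fun q : ℕ × ℕ => q.1 < q.2),
      mixed A w q.1 x y * mixed A w q.2 x y ≤ inv A x y := by
    refine le_trans (sum_le_sum ?_) (sum_cnt_mul_cnt_le_inv A w L x y)
    intro q _
    exact Nat.mul_le_mul (min_le_left _ _) (min_le_right _ _)
  omega

/-- Cauchy-Schwarz over the column pairs. -/
theorem Msum_sq_le (A : Fin n → Fin n → Bool) (w L : ℕ) (hw : 0 < w) :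
    (Msum A w L) ^ 2 ≤ n ^ 2 * (w * Msum A w L + 2 * N2 A) := by
  unfold Msum N2
  have hcard : (incPairs n).card ≤ n ^ 2 := by
    unfold incPairs
    refine (card_filter_le _ _).trans ?_
    simp [sq]
  calc (∑ p ∈ incPairs n, ∑ l ∈ range L, mixed A w l p.1 p.2) ^ 2
      ≤ (incPairs n).card * ∑ p ∈ incPairs n, (∑ l ∈ range L, mixed A w l p.1 p.2) ^ 2 :=
        sq_sum_le_card_mul_sum_sq
    _ ≤ n ^ 2 * ∑ p ∈ incPairs n, (w * (∑ l ∈ range L, mixed A w l p.1 p.2) + 2 * inv A p.1 p.2) := by
        apply Nat.mul_le_mul hcard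
        apply sum_le_sum
        intro p _
        exact mixed_sum_sq_le A w L hw p.1 p.2
    _ = _ := by
        rw [sum_add_distrib, ← mul_sum, ← mul_sum]

end Vale.Agent.P037
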