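import Mathlib
import Vale.Agent.P037.Basic

/-! P037 task T4: rounding one row to a level set. -/

namespace Vale.Agent.P037

open Finset

variable {n : ℕ}

/-- `D`: pairs `(u,v)` with `u` outside the row, `v` in the row, `u` on a higher level. -/
def rowD (S : Fin n → Bool) (lam : Fin n → ℕ) : ℕ :=
  (univ.filter (fun q : Fin n × Fin n =>
    S q.1 = false ∧ S q.2 = true ∧ lam q.2 < lam q.1)).card

/-- `F`: pairs `(u,v)` with `u` in the row, `v` outside the row, on the same level. -/
def rowF (S : Fin n → Bool) (lam : Fin n → ℕ) : ℕ :=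
  (univ.filter (fun q : Fin n × Fin n =>
    S q.1 = true ∧ S q.2 = false ∧ lam q.1 = lam q.2)).card

namespace Rounding

/-- zeros of the row on level at least `j`. -/
def sA (S : Fin n → Bool) (lam : Fin n → ℕ) (j : ℕ) : Finset (Fin n) :=
  univ.filter (fun c : Fin n => S c = false ∧ j ≤ lam c)

/-- ones of the row on level below `j`. -/
def sC (S : Fin n → Bool) (lam : Fin n → ℕ) (j : ℕ) : Finset (Fin n) :=
  univ.filter (fun c : Fin n => S c = true ∧ lam c < j)

/-- zeros of the row on level `j`. -/
def sP (S : Fin n → Bool) (lam : Fin n → ℕ) (j : ℕ) : Finset (Fin n) :=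
  univ.filter (fun c : Fin n => S c = false ∧ lam c = j)

/-- ones of the row on level `j`. -/
def sQ (S : Fin n → Bool) (lam : Fin n → ℕ) (j : ℕ) : Finset (Fin n) :=
  univ.filter (fun c : Fin n => S c = true ∧ lam c = j)

theorem cost_eq (S : Fin n → Bool) (lam : Fin n → ℕ) (j : ℕ) :
    (univ.filter (fun c : Fin n => S c ≠ decide (j ≤ lam c))).card
      = (sA S lam j).card + (sC S lam j).card := by
  rw [← card_union_of_disjoint]
  · congr 1
    ext c
    simp only [sA, sC, mem_filter, mem_univ, true_and, mem_union]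
    cases hS : S c <;> by_cases hj : j ≤ lam c <;> simp [hj] <;> omega
  · rw [disjoint_left]
    intro c h1 h2
    simp only [sA, sC, mem_filter, mem_univ, true_and] at h1 h2
    rw [h1.1] at h2
    exact absurd h2.1 (by simp)

theorem A_mul_C_le (S : Fin n → Bool) (lam : Fin n → ℕ) (j : ℕ) :
    (sA S lam j).card * (sC S lam j).card ≤ rowD S lam := by
  rw [← card_product]
  refine card_le_card ?_
  intro q hq
  simp only [sA, sC, mem_product, mem_filter, mem_univ, true_and] at hq
  simp only [mem_filter, mem_univ, true_and]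
  exact ⟨hq.1.1, hq.2.1, lt_of_lt_of_le hq.2.2 hq.1.2⟩

theorem Q_mul_P_le (S : Fin n → Bool) (lam : Fin n → ℕ) (j : ℕ) :
    (sQ S lam j).card * (sP S lam j).card ≤ rowF S lam := by
  rw [← card_product]
  refine card_le_card ?_
  intro q hq
  simp only [sQ, sP, mem_product, mem_filter, mem_univ, true_and] at hq
  simp only [mem_filter, mem_univ, true_and]
  exact ⟨hq.1.1, hq.2.1, hq.1.2.trans hq.2.2.symm⟩

theorem A_succ (S : Fin n → Bool) (lam : Fin n → ℕ) (j : ℕ) :
    (sA S lam j).card = (sA S lam (j + 1)).card + (sP S lam j).card := by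
  rw [← card_union_of_disjoint]
  · congr 1
    ext c
    simp only [sA, sP, mem_filter, mem_univ, true_and, mem_union]
    constructor
    · rintro ⟨h1, h2⟩
      rcases Nat.lt_or_ge j (lam c) with h | h
      · exact Or.inl ⟨h1, h⟩
      · exact Or.inr ⟨h1, le_antisymm h h2⟩
    · rintro (⟨h1, h2⟩ | ⟨h1, h2⟩)
      · exact ⟨h1, by omega⟩
      · exact ⟨h1, by omega⟩
  · rw [disjoint_left]
    intro c h1 h2
    simp only [sA, sP, mem_filter, mem_univ, true_and] at h1 h2
    omega

theorem C_succ (S : Fin n → Bool) (lam : Fin n → ℕ) (j : ℕ) :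
    (sC S lam (j + 1)).card = (sC S lam j).card + (sQ S lam j).card := by
  rw [← card_union_of_disjoint]
  · congr 1
    ext c
    simp only [sC, sQ, mem_filter, mem_univ, true_and, mem_union]
    constructor
    · rintro ⟨h1, h2⟩
      rcases Nat.lt_or_ge (lam c) j with h | h
      · exact Or.inl ⟨h1, h⟩
      · exact Or.inr ⟨h1, by omega⟩
    · rintro (⟨h1, h2⟩ | ⟨h1, h2⟩)
      · exact ⟨h1, by omega⟩
      · exact ⟨h1, by omega⟩
  · rw [disjoint_left]
    intro c h1 h2
    simp only [sC, sQ, mem_filter, mem_univ, true_and] at h1 h2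
    omega

theorem C_zero (S : Fin n → Bool) (lam : Fin n → ℕ) : (sC S lam 0).card = 0 := by
  rw [card_eq_zero]
  ext c
  simp [sC]

theorem A_large (S : Fin n → Bool) (lam : Fin n → ℕ) :
    (sA S lam (univ.sup lam + 1)).card = 0 := by
  rw [card_eq_zero]
  ext c
  simp only [sA, mem_filter, mem_univ, true_and, notMem_empty, iff_false, not_and, not_le]
  intro _
  exact Nat.lt_succ_of_le (le_sup (f := lam) (mem_univ c))

theorem three_sq (x y z D F : ℕ) (hx : x ^ 2 ≤ D) (hy : y ^ 2 ≤ D) (hz : z ^ 2 ≤ F) :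
    (x + y + z) ^ 2 ≤ 6 * D + 3 * F := by
  have h : (x + y + z) ^ 2 ≤ 3 * (x ^ 2 + y ^ 2 + z ^ 2) := by
    zify
    nlinarith [sq_nonneg ((x : ℤ) - y), sq_nonneg ((x : ℤ) - z), sq_nonneg ((y : ℤ) - z)]
  omega

end Rounding

open Rounding

/-- some level set `{c | j ≤ lam c}` is close to the row `S`. -/
theorem row_rounding (S : Fin n → Bool) (lam : Fin n → ℕ) :
    ∃ j : ℕ, ((univ.filter (fun c : Fin n => S c ≠ decide (j ≤ lam c))).card) ^ 2
      ≤ 6 * rowD S lam + 3 * rowF S lam := by
  by_cases hex : ∃ j, (sA S lam j).card < (sC S lam j).card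
  · classical
    have hj1 := Nat.find_spec hex
    have hmin := fun k => Nat.find_min hex (m := k)
    set j1 := Nat.find hex with hj1def
    have hpos : j1 ≠ 0 := by
      intro h0
      rw [h0, C_zero] at hj1
      omega
    obtain ⟨j, hj⟩ : ∃ j, j1 = j + 1 := ⟨j1 - 1, by omega⟩
    have hj0 : (sC S lam j).card ≤ (sA S lam j).card := by
      have := hmin j (by omega)
      omega
    rw [hj] at hj1
    have hAC0 := A_mul_C_le S lam j
    have hAC1 := A_mul_C_le S lam (j + 1)
    have hQP := Q_mul_P_le S lam j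
    have hA := A_succ S lam j
    have hC := C_succ S lam j
    set a0 := (sA S lam j).card
    set a1 := (sA S lam (j + 1)).card
    set c0 := (sC S lam j).card
    set c1 := (sC S lam (j + 1)).card
    set P := (sP S lam j).card
    set Q := (sQ S lam j).card
    have hc0 : c0 ^ 2 ≤ rowD S lam := by nlinarith
    have ha1 : a1 ^ 2 ≤ rowD S lam := by nlinarith
    rcases Nat.le_total P Q with hPQ | hPQ
    · refine ⟨j, ?_⟩
      rw [cost_eq]
      have hP : P ^ 2 ≤ rowF S lam := by nlinarith
      have := three_sq a1 c0 P _ _ ha1 hc0 hP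
      have e : (sA S lam j).card + (sC S lam j).card = a1 + c0 + P := by
        change a0 + c0 = a1 + c0 + P
        omega
      rw [e]
      exact this
    · refine ⟨j + 1, ?_⟩
      rw [cost_eq]
      have hQ : Q ^ 2 ≤ rowF S lam := by nlinarith
      have := three_sq a1 c0 Q _ _ ha1 hc0 hQ
      have e : (sA S lam (j + 1)).card + (sC S lam (j + 1)).card = a1 + c0 + Q := by
        change a1 + c1 = a1 + c0 + Q
        omega
      rw [e]
      exact this
  · push Not at hex
    refine ⟨univ.sup lam + 1, ?_⟩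
    rw [cost_eq]
    have h1 := hex (univ.sup lam + 1)
    rw [A_large] at h1
    have h2 : (sC S lam (univ.sup lam + 1)).card = 0 := by omega
    rw [A_large, h2]
    simp

end Vale.Agent.P037
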