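import Mathlib
import Vale.Agent.P037.Basic

/-! P037 task T2: the shift pigeonhole and the separation property. -/

namespace Vale.Agent.P037

open Finset

variable {n : ℕ}

/-- for a fixed value `s` at most `2 m` of the `g` shifts are ambiguous. -/
theorem amb_shift_count (g m s : ℕ) (hg : 0 < g) :
    ((range g).filter (fun σ => amb g m (s + σ))).card ≤ 2 * m := by
  -- the map `σ ↦ (s + σ) % g` is injective on `range g`; its image on the ambiguous shifts lies
  -- in the union of `range m` and the image of `range m` under `r ↦ g - 1 - r`.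
  have hinj : Set.InjOn (fun σ => (s + σ) % g)
      (((range g).filter (fun σ => amb g m (s + σ)) : Finset ℕ) : Set ℕ) := by
    intro a ha b hb hab
    simp only [coe_filter, mem_range, Set.mem_ofPred_eq] at ha hb
    have h1 : (s + a) % g = (s + b) % g := hab
    have h2 : a % g = b % g := by
      have : s + a ≡ s + b [MOD g] := h1
      exact Nat.ModEq.add_left_cancel' s this
    rw [Nat.mod_eq_of_lt ha.1, Nat.mod_eq_of_lt hb.1] at h2
    exact h2
  rw [← card_image_of_injOn hinj]
  have hsub : ((range g).filter (fun σ => amb g m (s + σ))).image (fun σ => (s + σ) % g)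
      ⊆ range m ∪ (range m).image (fun r => g - 1 - r) := by
    intro r hr
    simp only [mem_image, mem_filter, mem_range] at hr
    obtain ⟨σ, ⟨_, hamb⟩, rfl⟩ := hr
    have hlt : (s + σ) % g < g := Nat.mod_lt _ hg
    rcases hamb with h | h
    · exact mem_union_left _ (mem_range.2 h)
    · refine mem_union_right _ (mem_image.2 ⟨g - 1 - (s + σ) % g, mem_range.2 (by omega), by omega⟩)
  refine (card_le_card hsub).trans ((card_union_le _ _).trans ?_)
  have := card_image_le (s := range m) (f := fun r => g - 1 - r)
  rw [card_range] at *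
  omega

/-- pigeonhole: some shift makes few columns ambiguous. -/
theorem exists_shift (s : Fin n → ℕ) (g m : ℕ) (hg : 0 < g) :
    ∃ σ, σ < g ∧ g * (univ.filter (fun c : Fin n => amb g m (s c + σ))).card ≤ 2 * m * n := by
  by_contra hcon
  push Not at hcon
  have hsum : ∑ σ ∈ range g, (univ.filter (fun c : Fin n => amb g m (s c + σ))).card
      ≤ 2 * m * n := by
    simp only [card_filter]
    rw [sum_comm]
    have : ∀ c ∈ (univ : Finset (Fin n)), ∑ σ ∈ range g, (if amb g m (s c + σ) then 1 else 0)
        ≤ 2 * m := by
      intro c _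
      rw [← card_filter]
      exact amb_shift_count g m (s c) hg
    refine (sum_le_sum this).trans ?_
    simp [mul_comm]
  have hlow : ∀ σ ∈ range g,
      2 * m * n + 1 ≤ g * (univ.filter (fun c : Fin n => amb g m (s c + σ))).card := by
    intro σ hσ
    exact hcon σ (mem_range.1 hσ)
  have h2 := sum_le_sum hlow
  rw [sum_const, card_range, smul_eq_mul, ← mul_sum] at h2
  have h3 : g * ∑ σ ∈ range g, (univ.filter (fun c : Fin n => amb g m (s c + σ))).card
      ≤ g * (2 * m * n) := Nat.mul_le_mul_left g hsum
  have h4 : g * (2 * m * n + 1) = g * (2 * m * n) + g := by ring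
  omega

/-- unambiguous values on different levels differ by at least `2 m`. -/
theorem sep_of_not_amb (g m a b : ℕ) (_hg : 0 < g) (ha : ¬ amb g m a) (hb : ¬ amb g m b)
    (h : b / g < a / g) : b + 2 * m ≤ a := by
  unfold amb at ha hb
  push Not at ha hb
  have ea := Nat.div_add_mod a g
  have eb := Nat.div_add_mod b g
  have h1 : g * (b / g + 1) ≤ g * (a / g) := Nat.mul_le_mul_left g h
  have h2 : g * (b / g + 1) = g * (b / g) + g := by ring
  omega

/-- values on the same level differ by less than `g`. -/
theorem lt_add_of_div_eq (g a b : ℕ) (hg : 0 < g) (h : a / g = b / g) : a < b + g := by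
  have ea := Nat.div_add_mod a g
  have eb := Nat.div_add_mod b g
  have hlt : a % g < g := Nat.mod_lt _ hg
  rw [h] at ea
  omega

end Vale.Agent.P037
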