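import Mathlib
import Vale.Agent.P037.Basic
import Vale.Agent.P037.Counting
import Vale.Agent.P037.Shift
import Vale.Agent.P037.Rounding

/-! P037 task T5: total cost of rounding all rows. -/

namespace Vale.Agent.P037

open Finset

variable {n : ℕ}

/-- sum of a symmetric function, vanishing on the diagonal, over all ordered pairs. -/
theorem sum_offdiag_eq_two_mul (f : Fin n → Fin n → ℕ) (hs : ∀ x y, f x y = f y x)
    (h0 : ∀ x, f x x = 0) :
    ∑ q : Fin n × Fin n, f q.1 q.2 = 2 * ∑ p ∈ incPairs n, f p.1 p.2 := by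
  have h1 : ∀ q : Fin n × Fin n, f q.1 q.2
      = (if q.1 < q.2 then f q.1 q.2 else 0) + (if q.2 < q.1 then f q.2 q.1 else 0) := by
    intro q
    rcases lt_trichotomy q.1 q.2 with h | h | h
    · simp [h, h.not_gt]
    · rw [h]
      simp [h0]
    · simp [h, h.not_gt, hs q.1 q.2]
  have h2 : ∑ q : Fin n × Fin n, (if q.2 < q.1 then f q.2 q.1 else 0)
      = ∑ q : Fin n × Fin n, (if q.1 < q.2 then f q.1 q.2 else 0) :=
    Equiv.sum_comp (Equiv.prodComm (Fin n) (Fin n))
      (fun q : Fin n × Fin n => if q.1 < q.2 then f q.1 q.2 else 0)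
  rw [sum_congr rfl (fun q _ => h1 q), sum_add_distrib, h2, incPairs, sum_filter]
  ring

namespace Cost

theorem mixed_self (A : Fin n → Fin n → Bool) (w l : ℕ) (x : Fin n) : mixed A w l x x = 0 := by
  unfold mixed
  rw [cnt_self]
  simp

theorem sum_mixed_all (A : Fin n → Fin n → Bool) (w l : ℕ) :
    ∑ q : Fin n × Fin n, mixed A w l q.1 q.2 = 2 * ∑ p ∈ incPairs n, mixed A w l p.1 p.2 :=
  sum_offdiag_eq_two_mul (fun x y => mixed A w l x y) (mixed_comm A w l) (mixed_self A w l)

/-- exchange of the order of summation for the `D` terms -/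
theorem sum_rowD_eq (A : Fin n → Fin n → Bool) (w l : ℕ) (lam : Fin n → ℕ) :
    ∑ i ∈ univ.filter (fun i : Fin n => i.val / w = l), rowD (A i) lam
      = ∑ q : Fin n × Fin n, if lam q.2 < lam q.1 then cnt A w l q.2 q.1 else 0 := by
  unfold rowD cnt
  simp only [card_filter]
  rw [sum_comm]
  refine sum_congr rfl fun q _ => ?_
  rw [sum_filter]
  by_cases h : lam q.2 < lam q.1
  · simp only [h, and_true, if_true]
    refine sum_congr rfl fun i _ => ?_
    by_cases h1 : i.val / w = l <;> by_cases h2 : A i q.1 = false <;>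
      by_cases h3 : A i q.2 = true <;> simp [h1, h2, h3]
  · simp [h]

/-- exchange of the order of summation for the `F` terms -/
theorem sum_rowF_eq (A : Fin n → Fin n → Bool) (w l : ℕ) (lam : Fin n → ℕ) :
    ∑ i ∈ univ.filter (fun i : Fin n => i.val / w = l), rowF (A i) lam
      = ∑ q : Fin n × Fin n, if lam q.1 = lam q.2 then cnt A w l q.1 q.2 else 0 := by
  unfold rowF cnt
  simp only [card_filter]
  rw [sum_comm]
  refine sum_congr rfl fun q _ => ?_
  rw [sum_filter]
  by_cases h : lam q.1 = lam q.2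
  · simp only [h, and_true, if_true]
    refine sum_congr rfl fun i _ => ?_
    by_cases h1 : i.val / w = l <;> by_cases h2 : A i q.1 = true <;>
      by_cases h3 : A i q.2 = false <;> simp [h1, h2, h3]
  · simp [h]

end Cost

open Cost

/-- the `D` terms of the rows of one window. -/
theorem sum_rowD_window (A : Fin n → Fin n → Bool) (w g l : ℕ) (σ : ℕ → ℕ) (_hg : 0 < g) :
    ∑ i ∈ univ.filter (fun i : Fin n => i.val / w = l), rowD (A i) (lev A w g σ l)
      ≤ 2 * ∑ p ∈ incPairs n, mixed A w l p.1 p.2 := by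
  rw [sum_rowD_eq, ← sum_mixed_all]
  refine sum_le_sum fun q _ => ?_
  split_ifs with h
  · unfold lev at h
    have h1 : score A w l q.2 ≤ score A w l q.1 := by
      by_contra hc
      have h2 : score A w l q.1 + σ l ≤ score A w l q.2 + σ l := by omega
      have := Nat.div_le_div_right (c := g) h2
      omega
    have h3 := score_add_cnt A w l q.2 q.1
    unfold mixed
    omega
  · exact Nat.zero_le _

/-- the `F` terms of the rows of one window. -/
theorem sum_rowF_window (A : Fin n → Fin n → Bool) (w g l : ℕ) (σ : ℕ → ℕ) (hg : 0 < g) :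
    ∑ i ∈ univ.filter (fun i : Fin n => i.val / w = l), rowF (A i) (lev A w g σ l)
      ≤ n ^ 2 * g + 2 * ∑ p ∈ incPairs n, mixed A w l p.1 p.2 := by
  rw [sum_rowF_eq, ← sum_mixed_all]
  have hc : ∑ _q : Fin n × Fin n, g = n ^ 2 * g := by
    simp [sq]
  rw [← hc, ← sum_add_distrib]
  refine sum_le_sum fun q _ => ?_
  split_ifs with h
  · unfold lev at h
    have h1 := lt_add_of_div_eq g _ _ hg h
    have h3 := score_add_cnt A w l q.1 q.2
    unfold mixed
    omega
  · exact Nat.zero_le _

/-- total rounding cost. -/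
theorem cost_bound (A : Fin n → Fin n → Bool) (w g L : ℕ) (σ : ℕ → ℕ)
    (hw : 0 < w) (hg : 0 < g) (hL : n ≤ L * w) :
    ∃ j : Fin n → ℕ,
      (∑ i : Fin n, (univ.filter (fun c : Fin n =>
          A i c ≠ decide (j i ≤ lev A w g σ (i.val / w) c))).card) ^ 2
        ≤ n * (18 * Msum A w L + 3 * L * g * n ^ 2) := by
  choose j hj using fun i : Fin n => row_rounding (A i) (lev A w g σ (i.val / w))
  refine ⟨j, ?_⟩
  have hCS := sq_sum_le_card_mul_sum_sq (s := (univ : Finset (Fin n)))
    (f := fun i : Fin n => (univ.filter (fun c : Fin n =>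
          A i c ≠ decide (j i ≤ lev A w g σ (i.val / w) c))).card)
  rw [card_univ, Fintype.card_fin] at hCS
  refine hCS.trans (Nat.mul_le_mul_left n ?_)
  refine (sum_le_sum fun i _ => hj i).trans ?_
  have hmaps : ∀ i ∈ (univ : Finset (Fin n)), i.val / w ∈ range L := by
    intro i _
    rw [mem_range, Nat.div_lt_iff_lt_mul hw]
    exact lt_of_lt_of_le i.2 hL
  rw [← sum_fiberwise_of_maps_to hmaps]
  have hwin : ∀ l ∈ range L, ∑ i ∈ univ.filter (fun i : Fin n => i.val / w = l),
      (6 * rowD (A i) (lev A w g σ (i.val / w)) + 3 * rowF (A i) (lev A w g σ (i.val / w)))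
      ≤ 18 * ∑ p ∈ incPairs n, mixed A w l p.1 p.2 + 3 * g * n ^ 2 := by
    intro l _
    have e : ∑ i ∈ univ.filter (fun i : Fin n => i.val / w = l),
        (6 * rowD (A i) (lev A w g σ (i.val / w)) + 3 * rowF (A i) (lev A w g σ (i.val / w)))
        = 6 * ∑ i ∈ univ.filter (fun i : Fin n => i.val / w = l), rowD (A i) (lev A w g σ l)
          + 3 * ∑ i ∈ univ.filter (fun i : Fin n => i.val / w = l),
              rowF (A i) (lev A w g σ l) := by
      rw [mul_sum, mul_sum, ← sum_add_distrib]
      refine sum_congr rfl fun i hi => ?_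
      rw [(mem_filter.1 hi).2]
    rw [e]
    have hD := sum_rowD_window A w g l σ hg
    have hF := sum_rowF_window A w g l σ hg
    nlinarith
  refine (sum_le_sum hwin).trans ?_
  rw [sum_add_distrib, ← mul_sum, sum_const, card_range, smul_eq_mul]
  have hM : ∑ l ∈ range L, ∑ p ∈ incPairs n, mixed A w l p.1 p.2 = Msum A w L := by
    unfold Msum
    rw [sum_comm]
  rw [hM]
  nlinarith

end Vale.Agent.P037
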