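import Mathlib
import Vale.Agent.P037.Basic
import Vale.Agent.P037.Counting
import Vale.Agent.P037.Shift
import Vale.Agent.P037.Cover
import Vale.Agent.P037.Cost

/-! P037 task T6: construction of the free matrix `B` and its distance from `A`. -/

namespace Vale.Agent.P037

open Finset

variable {n : ℕ}

namespace Assembly

theorem card_filter_prod (p : Fin n → Fin n → Prop) [∀ i c, Decidable (p i c)] :
    (univ.filter (fun q : Fin n × Fin n => p q.1 q.2)).card
      = ∑ i : Fin n, (univ.filter (fun c : Fin n => p i c)).card := by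
  simp only [card_filter]
  rw [Fintype.sum_prod_type]

theorem card_cols (Z : Finset (Fin n)) :
    (univ.filter (fun q : Fin n × Fin n => q.2 ∈ Z)).card = n * Z.card := by
  rw [card_filter_prod (fun _ c => c ∈ Z)]
  simp

end Assembly

open Assembly

/-- the construction, with window length `w = m G K`, level step `g = m G`, margin `m`,
`2 R` windows and cover parameter `k`. -/
theorem construct (A : Fin n → Fin n → Bool) (m G K R k : ℕ)
    (hm : 0 < m) (hG : 0 < G) (hK : 0 < K) (hk : 0 < k)
    (hn : n ≤ 2 * R * (m * G * K)) :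
    ∃ (B : Fin n → Fin n → Bool) (z1 z2 E M : ℕ),
      IFree B ∧
      diffCount A B ≤ n * (z1 + z2) + E ∧
      G * z1 ≤ 2 * n * (2 * R) ∧
      z2 ≤ (2 * R * (K + 1)) ^ 2 * (k + N2 A / (2 * m) ^ 2 / k) ∧
      E ^ 2 ≤ n * (18 * M + 3 * (2 * R) * (m * G) * n ^ 2) ∧
      M ^ 2 ≤ n ^ 2 * (m * G * K * M + 2 * N2 A) := by
  classical
  set w := m * G * K with hwdef
  set g := m * G with hgdef
  set L := 2 * R with hLdef
  have hw : 0 < w := by positivity
  have hg : 0 < g := by positivity
  choose σ hσ1 hσ2 using fun l : ℕ => exists_shift (score A w l) g m hg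
  set ambs : ℕ → Finset (Fin n) :=
    fun l => univ.filter (fun c : Fin n => amb g m (score A w l c + σ l)) with hambs
  set Z1 : Finset (Fin n) := (range L).biUnion ambs with hZ1
  have hamb : ∀ l, G * (ambs l).card ≤ 2 * n := by
    intro l
    have h := hσ2 l
    have h' : m * (G * (ambs l).card) ≤ m * (2 * n) := by
      calc m * (G * (ambs l).card) = g * (ambs l).card := by rw [hgdef]; ring
        _ ≤ 2 * m * n := h
        _ = m * (2 * n) := by ring
    exact Nat.le_of_mul_le_mul_left h' hm
  have hZ1card : G * Z1.card ≤ 2 * n * L := by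
    calc G * Z1.card ≤ G * ∑ l ∈ range L, (ambs l).card :=
          Nat.mul_le_mul_left G card_biUnion_le
      _ = ∑ l ∈ range L, G * (ambs l).card := by rw [mul_sum]
      _ ≤ ∑ _l ∈ range L, 2 * n := sum_le_sum fun l _ => hamb l
      _ = 2 * n * L := by rw [sum_const, card_range, smul_eq_mul]; ring
  set Gd : Finset (Fin n) := univ.filter (fun c => c ∉ Z1) with hGd
  set lam : ℕ → Fin n → ℕ := lev A w g σ with hlam
  have hnotamb : ∀ x ∈ Gd, ∀ l, l < L → ¬ amb g m (score A w l x + σ l) := by
    intro x hx l hl hcon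
    simp only [hGd, mem_filter, mem_univ, true_and] at hx
    apply hx
    rw [hZ1, mem_biUnion]
    exact ⟨l, mem_range.2 hl, by simp only [hambs, mem_filter, mem_univ, true_and]; exact hcon⟩
  have hJ : ∀ l c, lam l c ≤ K := by
    intro l c
    have h1 := score_le A w l hw c
    have h2 := hσ1 l
    have h3 : score A w l c + σ l < (K + 1) * g := by
      have : w = K * g := by rw [hwdef, hgdef]; ring
      have e : (K + 1) * g = K * g + g := by ring
      omega
    have h4 : (score A w l c + σ l) / g < K + 1 := (Nat.div_lt_iff_lt_mul hg).2 h3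
    exact Nat.lt_succ_iff.1 h4
  have hrob : ∀ x ∈ Gd, ∀ y ∈ Gd, x < y → ∀ l l' : ℕ, l < l' → l' < L →
      lam l y < lam l x → lam l' x < lam l' y → (2 * m) ^ 2 ≤ inv A x y := by
    intro x hx y hy _ l l' hll' hl'L h1 h2
    have s1 := sep_of_not_amb g m _ _ hg (hnotamb x hx l (hll'.trans hl'L))
      (hnotamb y hy l (hll'.trans hl'L)) h1
    have s2 := sep_of_not_amb g m _ _ hg (hnotamb y hy l' hl'L) (hnotamb x hx l' hl'L) h2
    have e1 := score_add_cnt A w l x y
    have e2 := score_add_cnt A w l' y x
    have c1 : 2 * m ≤ cnt A w l x y := by omega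
    have c2 : 2 * m ≤ cnt A w l' y x := by omega
    calc (2 * m) ^ 2 = (2 * m) * (2 * m) := by ring
      _ ≤ cnt A w l x y * cnt A w l' y x := Nat.mul_le_mul c1 c2
      _ ≤ inv A x y := cnt_mul_cnt_le_inv A w l l' hll' x y
  obtain ⟨Kc, hKc1, hKc2⟩ := conflict_cover Gd lam L K ((2 * m) ^ 2) k (N2 A) (inv A)
    (by positivity) hk hJ le_rfl hrob
  obtain ⟨j, hj⟩ := cost_bound A w g L σ hw hg hn
  set E := ∑ i : Fin n, (univ.filter (fun c : Fin n =>
          A i c ≠ decide (j i ≤ lev A w g σ (i.val / w) c))).card with hE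
  set B : Fin n → Fin n → Bool :=
    fun i c => if c ∈ Z1 ∪ Kc then false else decide (j i ≤ lev A w g σ (i.val / w) c) with hB
  refine ⟨B, Z1.card, Kc.card, E, Msum A w L, ?_, ?_, hZ1card, hKc1, hj, Msum_sq_le A w L hw⟩
  · -- freeness
    intro r1 r2 c1 c2 hr hc ⟨b11, b12, b21, b22⟩
    have hc1 : c1 ∉ Z1 ∪ Kc := by
      intro h
      simp only [hB, h, if_true] at b11
      exact absurd b11 (by simp)
    have hc2 : c2 ∉ Z1 ∪ Kc := by
      intro h
      simp only [hB, h, if_true] at b22
      exact absurd b22 (by simp)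
    simp only [hB, hc1, hc2, if_false, decide_eq_true_eq, decide_eq_false_iff_not, not_le]
      at b11 b12 b21 b22
    have hl12 : r1.val / w ≤ r2.val / w := Nat.div_le_div_right (Fin.lt_def.1 hr).le
    rcases hl12.eq_or_lt with he | hlt
    · rw [he] at b11 b12
      omega
    · have hL2 : r2.val / w < L := by
        rw [Nat.div_lt_iff_lt_mul hw]
        exact lt_of_lt_of_le r2.2 hn
      have g1 : c1 ∈ Gd := by
        simp only [hGd, mem_filter, mem_univ, true_and]
        exact fun h => hc1 (mem_union_left _ h)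
      have g2 : c2 ∈ Gd := by
        simp only [hGd, mem_filter, mem_univ, true_and]
        exact fun h => hc2 (mem_union_left _ h)
      rcases hKc2 c1 g1 c2 g2 hc _ _ hlt hL2 (lt_of_lt_of_le b12 b11) (lt_of_lt_of_le b21 b22)
        with h | h
      · exact hc1 (mem_union_right _ h)
      · exact hc2 (mem_union_right _ h)
  · -- distance
    unfold diffCount
    have hsub : univ.filter (fun p : Fin n × Fin n => A p.1 p.2 ≠ B p.1 p.2)
        ⊆ univ.filter (fun q : Fin n × Fin n => q.2 ∈ Z1 ∪ Kc)
          ∪ univ.filter (fun q : Fin n × Fin n =>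
              A q.1 q.2 ≠ decide (j q.1 ≤ lev A w g σ (q.1.val / w) q.2)) := by
      intro p hp
      simp only [mem_filter, mem_univ, true_and, mem_union] at hp ⊢
      by_cases hz : p.2 ∈ Z1 ∨ p.2 ∈ Kc
      · exact Or.inl hz
      · right
        have hz' : p.2 ∉ Z1 ∪ Kc := by simpa [mem_union] using hz
        simpa only [hB, hz', if_false] using hp
    refine (card_le_card hsub).trans ((card_union_le _ _).trans ?_)
    rw [card_cols, card_filter_prod
      (fun i c => A i c ≠ decide (j i ≤ lev A w g σ (i.val / w) c))]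
    have := card_union_le Z1 Kc
    have h2 : n * (Z1 ∪ Kc).card ≤ n * (Z1.card + Kc.card) := Nat.mul_le_mul_left n this
    omega

end Vale.Agent.P037
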