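import Mathlib
import Vale.Agent.P037.Defs
import Vale.Agent.P037.Basic

/-! P037 task T8: bridge between the general definitions and the explicit 2 x 2 forms,
and the column reversal that exchanges the two patterns. -/

namespace Vale.Agent.P037

open Finset

variable {n : ℕ}

theorem strictMono_fin2 (r : Fin 2 → Fin n) : StrictMono r ↔ r 0 < r 1 := by
  constructor
  · intro h
    exact h (by decide)
  · intro h i j hij
    fin_cases i <;> fin_cases j <;> simp_all

/-- explicit form of a copy of `[[1,0],[0,1]]`. -/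
theorem isCopy_patI_iff (A : Fin n → Fin n → Bool) (r c : Fin 2 → Fin n) :
    IsCopy patI A r c ↔ (r 0 < r 1 ∧ c 0 < c 1 ∧ A (r 0) (c 0) = true ∧ A (r 0) (c 1) = false ∧
      A (r 1) (c 0) = false ∧ A (r 1) (c 1) = true) := by
  unfold IsCopy
  rw [strictMono_fin2, strictMono_fin2]
  constructor
  · rintro ⟨h1, h2, h3⟩
    refine ⟨h1, h2, ?_, ?_, ?_, ?_⟩
    · simpa [patI] using h3 0 0
    · simpa [patI] using h3 0 1
    · simpa [patI] using h3 1 0
    · simpa [patI] using h3 1 1
  · rintro ⟨h1, h2, h3, h4, h5, h6⟩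
    refine ⟨h1, h2, ?_⟩
    intro i j
    fin_cases i <;> fin_cases j <;> simp [patI, h3, h4, h5, h6]

theorem hfree_patI_iff (B : Fin n → Fin n → Bool) : HFree patI B ↔ IFree B := by
  constructor
  · intro h r1 r2 c1 c2 hr hc hcon
    apply h ![r1, r2] ![c1, c2]
    rw [isCopy_patI_iff]
    simpa using ⟨hr, hc, hcon⟩
  · intro h r c hcopy
    rw [isCopy_patI_iff] at hcopy
    exact h (r 0) (r 1) (c 0) (c 1) hcopy.1 hcopy.2.1 hcopy.2.2

/-- `N2` as the cardinality of one set of quadruples. -/
theorem N2_eq_card (A : Fin n → Fin n → Bool) :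
    N2 A = ((univ : Finset ((Fin n × Fin n) × (Fin n × Fin n))).filter (fun t =>
      t.1.1 < t.1.2 ∧ t.2.1 < t.2.2 ∧ A t.2.1 t.1.1 = true ∧ A t.2.1 t.1.2 = false ∧
        A t.2.2 t.1.1 = false ∧ A t.2.2 t.1.2 = true)).card := by
  unfold N2 inv incPairs
  rw [card_filter, Fintype.sum_prod_type, sum_filter]
  apply sum_congr rfl
  intro p _
  by_cases hp : p.1 < p.2
  · rw [if_pos hp, card_filter]
    apply sum_congr rfl
    intro q _
    simp [hp]
  · rw [if_neg hp]
    symm
    apply sum_eq_zero
    intro q _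
    simp [hp]

theorem copyCount_patI (A : Fin n → Fin n → Bool) : copyCount patI A = N2 A := by
  classical
  unfold copyCount
  rw [N2_eq_card, Nat.card_eq_fintype_card, Fintype.card_subtype]
  apply card_nbij' (fun p => ((p.2 0, p.2 1), (p.1 0, p.1 1)))
    (fun t => (![t.2.1, t.2.2], ![t.1.1, t.1.2]))
  · intro p hp
    simp only [coe_filter, mem_univ, true_and, Set.mem_ofPred_eq] at hp ⊢
    rw [isCopy_patI_iff] at hp
    tauto
  · intro t ht
    simp only [coe_filter, mem_univ, true_and, Set.mem_ofPred_eq] at ht ⊢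
    rw [isCopy_patI_iff]
    simpa using ⟨ht.2.1, ht.1, ht.2.2⟩
  · intro p _
    ext i
    · fin_cases i <;> rfl
    · fin_cases i <;> rfl
  · intro t _
    rfl

/-- a matrix with no copy counted is free. -/
theorem ifree_of_N2_eq_zero (A : Fin n → Fin n → Bool) (h : N2 A = 0) : IFree A := by
  rw [N2_eq_card, card_eq_zero, filter_eq_empty_iff] at h
  intro r1 r2 c1 c2 hr hc hcon
  exact h (mem_univ ((c1, c2), (r1, r2))) ⟨hc, hr, hcon⟩

/-- reversal of the column order. -/
def revCols (A : Fin n → Fin n → Bool) : Fin n → Fin n → Bool := fun i c => A i (Fin.rev c)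

theorem revCols_revCols (A : Fin n → Fin n → Bool) : revCols (revCols A) = A := by
  funext i c
  simp [revCols]

/-- reversal of a column choice. -/
def revChoice (c : Fin 2 → Fin n) : Fin 2 → Fin n := fun j => Fin.rev (c (Fin.rev j))

theorem revChoice_revChoice (c : Fin 2 → Fin n) : revChoice (revChoice c) = c := by
  funext j
  simp [revChoice]

theorem isCopy_patJ_iff (B : Fin n → Fin n → Bool) (r c : Fin 2 → Fin n) :
    IsCopy patJ B r c ↔ IsCopy patI (revCols B) r (revChoice c) := by
  unfold IsCopy
  rw [strictMono_fin2 c, strictMono_fin2 (revChoice c)]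
  have h1 : (revChoice c 0 < revChoice c 1) ↔ c 0 < c 1 := by
    simp only [revChoice]
    rw [Fin.rev_lt_rev]
    rfl
  rw [h1]
  have h2 : (∀ i j, B (r i) (c j) = patJ i j) ↔
      (∀ i j, revCols B (r i) (revChoice c j) = patI i j) := by
    constructor
    · intro h i j
      simp only [revCols, revChoice, Fin.rev_rev]
      rw [h]
      fin_cases i <;> fin_cases j <;> rfl
    · intro h i j
      have := h i (Fin.rev j)
      simp only [revCols, revChoice, Fin.rev_rev] at this
      rw [this]
      fin_cases i <;> fin_cases j <;> rfl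
  rw [h2]

theorem hfree_patJ_iff (B : Fin n → Fin n → Bool) : HFree patJ B ↔ HFree patI (revCols B) := by
  constructor
  · intro h r c hc
    apply h r (revChoice c)
    rw [isCopy_patJ_iff, revChoice_revChoice]
    exact hc
  · intro h r c hc
    exact h r (revChoice c) ((isCopy_patJ_iff B r c).mp hc)

theorem copyCount_patJ (A : Fin n → Fin n → Bool) :
    copyCount patJ A = copyCount patI (revCols A) := by
  unfold copyCount
  apply Nat.card_congr
  refine Equiv.subtypeEquiv (Equiv.prodCongr (Equiv.refl _)
    (Function.Involutive.toPerm revChoice revChoice_revChoice)) ?_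
  intro p
  exact isCopy_patJ_iff A p.1 p.2

theorem diffCount_revCols (A B : Fin n → Fin n → Bool) :
    diffCount (revCols A) (revCols B) = diffCount A B := by
  unfold diffCount
  apply card_nbij' (fun p => (p.1, Fin.rev p.2)) (fun p => (p.1, Fin.rev p.2))
  · intro p hp
    rw [mem_coe, mem_filter] at hp ⊢
    exact ⟨mem_univ _, hp.2⟩
  · intro p hp
    rw [mem_coe, mem_filter] at hp ⊢
    refine ⟨mem_univ _, ?_⟩
    simpa [revCols] using hp.2
  · intro p _
    simp
  · intro p _
    simp

end Vale.Agent.P037
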