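import Mathlib

/-! P037 task T7: pure arithmetic, the choice of the parameters. -/

namespace Vale.Agent.P037

/-- abstract form of the final estimate: all the numerical facts are hypotheses. -/
theorem params_aux (T n N m G K R k Q n0 : ℕ) (hT : 1 ≤ T) (hn : 0 < n) (hR : 0 < R)
    (hm : 0 < m) (hk : 0 < k)
    (hG : G = 16 * R * T) (hK : K = 192 * T ^ 2) (hR2 : R = 1152 * T ^ 2)
    (hmD : m * (G * K * R) ≤ n) (hkD : k * (8 * T * Q) ≤ n)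
    (hNmk : N ≤ (2 * m) ^ 2 * (k * k))
    (hn0 : n0 ^ 4 * N < n ^ 4) (hn0T : 1327104 * T ^ 4 ≤ n0 ^ 4)
    (d z1 z2 E M : ℕ)
    (h1 : d ≤ n * (z1 + z2) + E)
    (h2 : G * z1 ≤ 2 * n * (2 * R))
    (h3 : z2 ≤ Q * (k + N / (2 * m) ^ 2 / k))
    (h4 : E ^ 2 ≤ n * (18 * M + 3 * (2 * R) * (m * G) * n ^ 2))
    (h5 : M ^ 2 ≤ n ^ 2 * (m * G * K * M + 2 * N)) :
    T * d < n ^ 2 := by
  -- (a)
  have a1 : 4 * T * z1 ≤ n := by
    have : (4 * R) * (4 * T * z1) ≤ (4 * R) * n := by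
      calc (4 * R) * (4 * T * z1) = G * z1 := by rw [hG]; ring
        _ ≤ 2 * n * (2 * R) := h2
        _ = (4 * R) * n := by ring
    exact Nat.le_of_mul_le_mul_left this (by positivity)
  -- (b)
  have b1 : N / (2 * m) ^ 2 ≤ k * k := Nat.div_le_of_le_mul hNmk
  have b2 : N / (2 * m) ^ 2 / k ≤ k := Nat.div_le_of_le_mul b1
  have b3 : 4 * T * z2 ≤ n := by
    calc 4 * T * z2 ≤ 4 * T * (Q * (k + N / (2 * m) ^ 2 / k)) := Nat.mul_le_mul_left _ h3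
      _ ≤ 4 * T * (Q * (k + k)) := by gcongr
      _ = k * (8 * T * Q) := by ring
      _ ≤ n := hkD
  -- (c)
  set w := m * G * K with hw
  have c0 : R * w ≤ n := by
    calc R * w = m * (G * K * R) := by rw [hw]; ring
      _ ≤ n := hmD
  have c1 : 32 * T ^ 2 * (n * (3 * (2 * R) * (m * G) * n ^ 2)) ≤ n ^ 4 := by
    calc 32 * T ^ 2 * (n * (3 * (2 * R) * (m * G) * n ^ 2))
        = (m * (G * (192 * T ^ 2) * R)) * n ^ 3 := by ring
      _ = (m * (G * K * R)) * n ^ 3 := by rw [hK]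
      _ ≤ n * n ^ 3 := Nat.mul_le_mul_right _ hmD
      _ = n ^ 4 := by ring
  have c2 : 576 * T ^ 2 * M ≤ n ^ 3 := by
    by_cases hM : M ≤ 2 * n ^ 2 * w
    · calc 576 * T ^ 2 * M ≤ 576 * T ^ 2 * (2 * n ^ 2 * w) := Nat.mul_le_mul_left _ hM
        _ = ((1152 * T ^ 2) * w) * n ^ 2 := by ring
        _ = (R * w) * n ^ 2 := by rw [hR2]
        _ ≤ n * n ^ 2 := Nat.mul_le_mul_right _ c0
        _ = n ^ 3 := by ring
    · push Not at hM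
      have hM2 : M ^ 2 < 4 * n ^ 2 * N := by
        have e1 : 2 * n ^ 2 * w * M < M * M := Nat.mul_lt_mul_of_pos_right hM (by omega)
        have e2 : M ^ 2 ≤ n ^ 2 * w * M + 2 * n ^ 2 * N := by
          calc M ^ 2 ≤ n ^ 2 * (w * M + 2 * N) := h5
            _ = _ := by ring
        nlinarith
      have e3 : (576 * T ^ 2 * M) ^ 2 < (n ^ 3) ^ 2 := by
        calc (576 * T ^ 2 * M) ^ 2 = 331776 * T ^ 4 * M ^ 2 := by ring
          _ ≤ 331776 * T ^ 4 * (4 * n ^ 2 * N) := Nat.mul_le_mul_left _ hM2.le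
          _ = (1327104 * T ^ 4) * N * n ^ 2 := by ring
          _ ≤ n0 ^ 4 * N * n ^ 2 := by gcongr
          _ < n ^ 4 * n ^ 2 := Nat.mul_lt_mul_of_pos_right hn0 (by positivity)
          _ = (n ^ 3) ^ 2 := by ring
      exact (lt_of_pow_lt_pow_left₀ 2 (Nat.zero_le _) e3).le
  have c3 : 32 * T ^ 2 * (n * (18 * M)) ≤ n ^ 4 := by
    calc 32 * T ^ 2 * (n * (18 * M)) = (576 * T ^ 2 * M) * n := by ring
      _ ≤ n ^ 3 * n := Nat.mul_le_mul_right _ c2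
      _ = n ^ 4 := by ring
  have c4 : (4 * T * E) ^ 2 ≤ (n ^ 2) ^ 2 := by
    have : 2 * (4 * T * E) ^ 2 ≤ 2 * (n ^ 2) ^ 2 := by
      calc 2 * (4 * T * E) ^ 2 = 32 * T ^ 2 * E ^ 2 := by ring
        _ ≤ 32 * T ^ 2 * (n * (18 * M + 3 * (2 * R) * (m * G) * n ^ 2)) :=
            Nat.mul_le_mul_left _ h4
        _ = 32 * T ^ 2 * (n * (18 * M)) + 32 * T ^ 2 * (n * (3 * (2 * R) * (m * G) * n ^ 2)) := by
            ring
        _ ≤ n ^ 4 + n ^ 4 := Nat.add_le_add c3 c1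
        _ = 2 * (n ^ 2) ^ 2 := by ring
    omega
  have c5 : 4 * T * E ≤ n ^ 2 := le_of_pow_le_pow_left₀ (by norm_num) (Nat.zero_le _) c4
  have f1 : 4 * (T * d) ≤ 3 * n ^ 2 := by
    calc 4 * (T * d) ≤ 4 * (T * (n * (z1 + z2) + E)) := by gcongr
      _ = n * (4 * T * z1) + n * (4 * T * z2) + 4 * T * E := by ring
      _ ≤ n * n + n * n + n ^ 2 := by gcongr
      _ = 3 * n ^ 2 := by ring
  have f2 : 0 < n ^ 2 := by positivity
  omega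

/-- With `R = 1152 T^2`, `K = 192 T^2`, `G = 16 R T`, `m = n / (G K R)`,
`k = n / (8 T (2 R (K+1))^2)` the bounds of `construct` give a distance below `n^2 / T`,
as soon as `(10^13 T^9)^4 N < n^4` and `1 ≤ N`. -/
theorem params (T n N : ℕ) (hT : 1 ≤ T) (hN : 1 ≤ N) (hlarge : (10 ^ 13 * T ^ 9) ^ 4 * N < n ^ 4) :
    ∃ m G K R k : ℕ, 0 < m ∧ 0 < G ∧ 0 < K ∧ 0 < k ∧ n ≤ 2 * R * (m * G * K) ∧
      ∀ d z1 z2 E M : ℕ,
        d ≤ n * (z1 + z2) + E →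
        G * z1 ≤ 2 * n * (2 * R) →
        z2 ≤ (2 * R * (K + 1)) ^ 2 * (k + N / (2 * m) ^ 2 / k) →
        E ^ 2 ≤ n * (18 * M + 3 * (2 * R) * (m * G) * n ^ 2) →
        M ^ 2 ≤ n ^ 2 * (m * G * K * M + 2 * N) →
        T * d < n ^ 2 := by
  obtain ⟨n0, hn0def⟩ : ∃ n0, n0 = 10 ^ 13 * T ^ 9 := ⟨_, rfl⟩
  obtain ⟨R, hR2⟩ : ∃ R, R = 1152 * T ^ 2 := ⟨_, rfl⟩
  obtain ⟨K, hK⟩ : ∃ K, K = 192 * T ^ 2 := ⟨_, rfl⟩
  obtain ⟨G, hG⟩ : ∃ G, G = 16 * R * T := ⟨_, rfl⟩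
  obtain ⟨Q, hQ⟩ : ∃ Q, Q = (2 * R * (K + 1)) ^ 2 := ⟨_, rfl⟩
  obtain ⟨D1, hD1⟩ : ∃ D1, D1 = G * K * R := ⟨_, rfl⟩
  obtain ⟨D2, hD2⟩ : ∃ D2, D2 = 8 * T * Q := ⟨_, rfl⟩
  rw [← hn0def] at hlarge
  have hTpos : 0 < T := hT
  have hRpos : 0 < R := by rw [hR2]; positivity
  have hKpos : 0 < K := by rw [hK]; positivity
  have hGpos : 0 < G := by rw [hG]; positivity
  have hQpos : 0 < Q := by rw [hQ]; positivity
  have hD1pos : 0 < D1 := by rw [hD1]; positivity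
  have hD2pos : 0 < D2 := by rw [hD2]; positivity
  -- powers of T
  have p79 : T ^ 7 ≤ T ^ 9 := Nat.pow_le_pow_right hTpos (by norm_num)
  have p12 : 1 ≤ T ^ 2 := Nat.one_le_pow _ _ hTpos
  have hD1v : D1 = 4076863488 * T ^ 7 := by
    rw [hD1, hG, hK, hR2]; ring
  have hQle : Q ≤ 197733187584 * T ^ 8 := by
    have h1 : 2 * R * (K + 1) ≤ 444672 * T ^ 4 := by
      rw [hR2, hK]
      calc 2 * (1152 * T ^ 2) * (192 * T ^ 2 + 1) ≤ 2 * (1152 * T ^ 2) * (192 * T ^ 2 + T ^ 2) := by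
            gcongr
        _ = 444672 * T ^ 4 := by ring
    calc Q = (2 * R * (K + 1)) ^ 2 := hQ
      _ ≤ (444672 * T ^ 4) ^ 2 := Nat.pow_le_pow_left h1 2
      _ = 197733187584 * T ^ 8 := by ring
  have hD2le : D2 ≤ 1581865500672 * T ^ 9 := by
    calc D2 = 8 * T * Q := hD2
      _ ≤ 8 * T * (197733187584 * T ^ 8) := Nat.mul_le_mul_left _ hQle
      _ = 1581865500672 * T ^ 9 := by ring
  have hD1n0 : D1 ≤ n0 := by
    rw [hD1v, hn0def]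
    calc 4076863488 * T ^ 7 ≤ 10 ^ 13 * T ^ 7 := by gcongr; norm_num
      _ ≤ 10 ^ 13 * T ^ 9 := by gcongr
  have hD2n0 : D2 ≤ n0 := by
    rw [hn0def]
    calc D2 ≤ 1581865500672 * T ^ 9 := hD2le
      _ ≤ 10 ^ 13 * T ^ 9 := by gcongr; norm_num
  have hDD : 2 * (D1 * D2) ≤ n0 ^ 2 := by
    calc 2 * (D1 * D2) ≤ 2 * ((4076863488 * T ^ 7) * (1581865500672 * T ^ 9)) := by
          rw [← hD1v]; gcongr
      _ = 12898099405233032527872 * (T ^ 7 * T ^ 9) := by ring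
      _ ≤ 10 ^ 26 * (T ^ 9 * T ^ 9) := by gcongr; norm_num
      _ = n0 ^ 2 := by rw [hn0def]; ring
  have hn0T : 1327104 * T ^ 4 ≤ n0 ^ 4 := by
    rw [hn0def]
    calc 1327104 * T ^ 4 ≤ (10 ^ 13) ^ 4 * T ^ 36 := by
          apply Nat.mul_le_mul (by norm_num)
          exact Nat.pow_le_pow_right hTpos (by norm_num)
      _ = (10 ^ 13 * T ^ 9) ^ 4 := by ring
  -- n is large
  have hn0n : n0 < n := by
    have : n0 ^ 4 < n ^ 4 := by
      calc n0 ^ 4 = n0 ^ 4 * 1 := (mul_one _).symm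
        _ ≤ n0 ^ 4 * N := Nat.mul_le_mul_left _ hN
        _ < n ^ 4 := hlarge
    exact lt_of_pow_lt_pow_left₀ 4 (Nat.zero_le _) this
  have hnpos : 0 < n := by omega
  obtain ⟨m, hmdef⟩ : ∃ m, m = n / D1 := ⟨_, rfl⟩
  obtain ⟨k, hkdef⟩ : ∃ k, k = n / D2 := ⟨_, rfl⟩
  have hmpos : 0 < m := by rw [hmdef]; exact Nat.div_pos (by omega) hD1pos
  have hkpos : 0 < k := by rw [hkdef]; exact Nat.div_pos (by omega) hD2pos
  have hmD : m * D1 ≤ n := by rw [hmdef]; exact Nat.div_mul_le_self n D1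
  have hkD : k * D2 ≤ n := by rw [hkdef]; exact Nat.div_mul_le_self n D2
  have hmD' : n < 2 * (m * D1) := by
    have h1 : n < (m + 1) * D1 := by
      rw [hmdef, mul_comm]; exact Nat.lt_mul_div_succ n hD1pos
    have h2 : (m + 1) * D1 ≤ 2 * (m * D1) := by nlinarith
    omega
  have hkD' : n < 2 * (k * D2) := by
    have h1 : n < (k + 1) * D2 := by
      rw [hkdef, mul_comm]; exact Nat.lt_mul_div_succ n hD2pos
    have h2 : (k + 1) * D2 ≤ 2 * (k * D2) := by nlinarith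
    omega
  have hNmk : N ≤ (2 * m) ^ 2 * (k * k) := by
    have e1 : n ^ 2 ≤ (2 * (m * D1)) * (2 * (k * D2)) := by
      rw [sq]; exact Nat.mul_le_mul hmD'.le hkD'.le
    have e2 : n ^ 4 ≤ ((2 * (m * D1)) * (2 * (k * D2))) ^ 2 := by
      calc n ^ 4 = (n ^ 2) ^ 2 := by ring
        _ ≤ _ := Nat.pow_le_pow_left e1 2
    have e3 : ((2 * (m * D1)) * (2 * (k * D2))) ^ 2 = ((2 * m) ^ 2 * (k * k)) * (2 * (D1 * D2)) ^ 2 := by
      ring
    have e4 : (2 * (D1 * D2)) ^ 2 ≤ n0 ^ 4 := by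
      calc (2 * (D1 * D2)) ^ 2 ≤ (n0 ^ 2) ^ 2 := Nat.pow_le_pow_left hDD 2
        _ = n0 ^ 4 := by ring
    have e5 : n0 ^ 4 * N < n0 ^ 4 * ((2 * m) ^ 2 * (k * k)) := by
      calc n0 ^ 4 * N < n ^ 4 := hlarge
        _ ≤ ((2 * m) ^ 2 * (k * k)) * (2 * (D1 * D2)) ^ 2 := by rw [← e3]; exact e2
        _ ≤ ((2 * m) ^ 2 * (k * k)) * n0 ^ 4 := Nat.mul_le_mul_left _ e4
        _ = _ := by ring
    exact (Nat.lt_of_mul_lt_mul_left e5).le
  refine ⟨m, G, K, R, k, hmpos, hGpos, hKpos, hkpos, ?_, ?_⟩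
  · calc n ≤ 2 * (m * D1) := hmD'.le
      _ = 2 * R * (m * G * K) := by rw [hD1]; ring
  · intro d z1 z2 E M h1 h2 h3 h4 h5
    rw [← hQ] at h3
    exact params_aux T n N m G K R k Q n0 hT hnpos hRpos hmpos hkpos hG hK hR2
      (by rw [← hD1]; exact hmD) (by rw [← hD2]; exact hkD) hNmk hlarge hn0T d z1 z2 E M
      h1 h2 h3 h4 h5

end Vale.Agent.P037
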