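import Mathlib
import Vale.Agent.P037.Defs
import Vale.Agent.P037.Basic
import Vale.Agent.P037.Assembly
import Vale.Agent.P037.Params
import Vale.Agent.P037.Bridge

/-! P037 task T9: the final theorems. -/

namespace Vale.Agent.P037

open Finset

variable {n : ℕ}

theorem diffCount_self (A : Fin n → Fin n → Bool) : diffCount A A = 0 := by
  simp [diffCount]

/-- the core statement over the natural numbers. -/
theorem core_nat (T : ℕ) (hT : 1 ≤ T) (A : Fin n → Fin n → Bool)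
    (hfar : ∀ B : Fin n → Fin n → Bool, IFree B → n ^ 2 ≤ T * diffCount A B) :
    n ^ 4 ≤ (10 ^ 13 * T ^ 9) ^ 4 * N2 A := by
  by_contra hcon
  push Not at hcon
  rcases Nat.eq_zero_or_pos (N2 A) with h0 | hpos
  · have h1 := hfar A (ifree_of_N2_eq_zero A h0)
    rw [diffCount_self, mul_zero] at h1
    have h2 : n = 0 := by
      have : n ^ 2 = 0 := Nat.le_zero.1 h1
      exact pow_eq_zero_iff (two_ne_zero) |>.1 this
    have h3 : n ^ 4 = 0 := by rw [h2]; norm_num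
    omega
  · obtain ⟨m, G, K, R, k, hm, hG, hK, hk, hn, hall⟩ := params T n (N2 A) hT hpos hcon
    obtain ⟨B, z1, z2, E, M, hfree, hd, h1, h2, h3, h4⟩ := construct A m G K R k hm hG hK hk hn
    have := hall (diffCount A B) z1 z2 E M hd h1 h2 h3 h4
    have h5 := hfar B hfree
    omega

/-- real form for the pattern `[[1,0],[0,1]]`. -/
theorem removal_patI :
    ∃ c : ℝ, ∃ C : ℕ, 0 < c ∧ 0 < C ∧
      ∀ (n : ℕ) (ε : ℝ) (A : Fin n → Fin n → Bool), 0 < ε → ε < 1 →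
        (∀ B : Fin n → Fin n → Bool, HFree patI B → ε * (n : ℝ) ^ 2 ≤ (diffCount A B : ℝ)) →
        c * ε ^ C * (n : ℝ) ^ 4 ≤ (copyCount patI A : ℝ) := by
  refine ⟨1 / (10 ^ 13 * 2 ^ 9) ^ 4, 36, by positivity, by norm_num, ?_⟩
  intro n ε A hε0 hε1 hfar
  set T : ℕ := ⌈1 / ε⌉₊ with hTdef
  have hinv : 1 < 1 / ε := by
    rw [lt_div_iff₀ hε0]
    linarith
  have hT1 : (1 / ε : ℝ) ≤ T := Nat.le_ceil _
  have hT2 : (T : ℝ) < 1 / ε + 1 := Nat.ceil_lt_add_one (by positivity)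
  have hT3 : (T : ℝ) ≤ 2 / ε := by
    have : (2 / ε : ℝ) = 1 / ε + 1 / ε := by ring
    linarith
  have hTpos : 1 ≤ T := by
    have : (1 : ℝ) ≤ T := by linarith
    exact_mod_cast this
  have hfar' : ∀ B : Fin n → Fin n → Bool, IFree B → n ^ 2 ≤ T * diffCount A B := by
    intro B hB
    have h1 := hfar B ((hfree_patI_iff B).2 hB)
    have h2 : (n : ℝ) ^ 2 ≤ (1 / ε) * (diffCount A B : ℝ) := by
      rw [one_div, ← div_eq_inv_mul, le_div_iff₀ hε0]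
      linarith
    have h3 : (n : ℝ) ^ 2 ≤ (T : ℝ) * (diffCount A B : ℝ) :=
      h2.trans (mul_le_mul_of_nonneg_right hT1 (Nat.cast_nonneg _))
    exact_mod_cast h3
  have hcore := core_nat T hTpos A hfar'
  have hcoreR : (n : ℝ) ^ 4 ≤ (10 ^ 13 * (T : ℝ) ^ 9) ^ 4 * (N2 A : ℝ) := by exact_mod_cast hcore
  rw [copyCount_patI]
  have hN : (0 : ℝ) ≤ (N2 A : ℝ) := Nat.cast_nonneg _
  have hTb : (10 ^ 13 * (T : ℝ) ^ 9) ^ 4 ≤ (10 ^ 13 * (2 / ε) ^ 9) ^ 4 := by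
    have hT0 : (0 : ℝ) ≤ T := Nat.cast_nonneg _
    gcongr
  have h4 : (n : ℝ) ^ 4 ≤ (10 ^ 13 * (2 / ε) ^ 9) ^ 4 * (N2 A : ℝ) :=
    hcoreR.trans (mul_le_mul_of_nonneg_right hTb hN)
  have h5 : (10 ^ 13 * (2 / ε) ^ 9 : ℝ) ^ 4 = (10 ^ 13 * 2 ^ 9) ^ 4 / ε ^ 36 := by
    field_simp
  rw [h5] at h4
  have hε36 : (0 : ℝ) < ε ^ 36 := by positivity
  have hc : (0 : ℝ) < (10 ^ 13 * 2 ^ 9) ^ 4 := by positivity
  calc 1 / (10 ^ 13 * 2 ^ 9) ^ 4 * ε ^ 36 * (n : ℝ) ^ 4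
      ≤ 1 / (10 ^ 13 * 2 ^ 9) ^ 4 * ε ^ 36 * ((10 ^ 13 * 2 ^ 9) ^ 4 / ε ^ 36 * (N2 A : ℝ)) :=
        mul_le_mul_of_nonneg_left h4 (by positivity)
    _ = (N2 A : ℝ) := by
        field_simp

/-- real form for the pattern `[[0,1],[1,0]]`. -/
theorem removal_patJ :
    ∃ c : ℝ, ∃ C : ℕ, 0 < c ∧ 0 < C ∧
      ∀ (n : ℕ) (ε : ℝ) (A : Fin n → Fin n → Bool), 0 < ε → ε < 1 →
        (∀ B : Fin n → Fin n → Bool, HFree patJ B → ε * (n : ℝ) ^ 2 ≤ (diffCount A B : ℝ)) →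
        c * ε ^ C * (n : ℝ) ^ 4 ≤ (copyCount patJ A : ℝ) := by
  obtain ⟨c, C, hc, hC, h⟩ := removal_patI
  refine ⟨c, C, hc, hC, ?_⟩
  intro n ε A hε0 hε1 hfar
  rw [copyCount_patJ]
  refine h n ε (revCols A) hε0 hε1 ?_
  intro B hB
  have h1 : HFree patJ (revCols B) := by
    rw [hfree_patJ_iff, revCols_revCols]
    exact hB
  have h2 := hfar (revCols B) h1
  rw [← diffCount_revCols, revCols_revCols] at h2
  exact h2

end Vale.Agent.P037
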