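import Mathlib
import Vale.Agent.P037.Defs

/-! P037: general facts on 2 x 2 patterns used by tasks U2, U3 (explicit copy count, symmetric sums). -/

namespace Vale.Agent.P037

open Finset

variable {n : ℕ}

theorem strictMono_two (r : Fin 2 → Fin n) : StrictMono r ↔ r 0 < r 1 := by
  constructor
  · intro h
    exact h (by decide)
  · intro h i j hij
    fin_cases i <;> fin_cases j <;> simp_all

theorem isCopy_two_iff (H : Fin 2 → Fin 2 → Bool) (A : Fin n → Fin n → Bool)
    (r c : Fin 2 → Fin n) :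
    IsCopy H A r c ↔ (r 0 < r 1 ∧ c 0 < c 1 ∧ A (r 0) (c 0) = H 0 0 ∧ A (r 0) (c 1) = H 0 1 ∧
      A (r 1) (c 0) = H 1 0 ∧ A (r 1) (c 1) = H 1 1) := by
  unfold IsCopy
  rw [strictMono_two, strictMono_two]
  constructor
  · rintro ⟨h1, h2, h3⟩
    exact ⟨h1, h2, h3 0 0, h3 0 1, h3 1 0, h3 1 1⟩
  · rintro ⟨h1, h2, h3, h4, h5, h6⟩
    refine ⟨h1, h2, ?_⟩
    intro i j
    fin_cases i <;> fin_cases j <;> simp [h3, h4, h5, h6]

theorem copyCount_two (H : Fin 2 → Fin 2 → Bool) (A : Fin n → Fin n → Bool) :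
    copyCount H A = ((univ : Finset ((Fin n × Fin n) × (Fin n × Fin n))).filter (fun t =>
      t.1.1 < t.1.2 ∧ t.2.1 < t.2.2 ∧ A t.1.1 t.2.1 = H 0 0 ∧ A t.1.1 t.2.2 = H 0 1 ∧
        A t.1.2 t.2.1 = H 1 0 ∧ A t.1.2 t.2.2 = H 1 1)).card := by
  classical
  unfold copyCount
  rw [Nat.card_eq_fintype_card, Fintype.card_subtype]
  apply card_nbij' (fun p => ((p.1 0, p.1 1), (p.2 0, p.2 1)))
    (fun t => (![t.1.1, t.1.2], ![t.2.1, t.2.2]))
  · intro p hp
    simp only [coe_filter, mem_univ, true_and, Set.mem_ofPred_eq] at hp ⊢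
    rw [isCopy_two_iff] at hp
    exact hp
  · intro t ht
    simp only [coe_filter, mem_univ, true_and, Set.mem_ofPred_eq] at ht ⊢
    rw [isCopy_two_iff]
    simpa using ht
  · intro p _
    ext i
    · fin_cases i <;> rfl
    · fin_cases i <;> rfl
  · intro t _
    rfl

theorem copyCount_two_sum (H : Fin 2 → Fin 2 → Bool) (A : Fin n → Fin n → Bool) :
    copyCount H A = ∑ r1 : Fin n, ∑ r2 : Fin n, ∑ c1 : Fin n, ∑ c2 : Fin n,
      if (r1 < r2 ∧ c1 < c2 ∧ A r1 c1 = H 0 0 ∧ A r1 c2 = H 0 1 ∧
        A r2 c1 = H 1 0 ∧ A r2 c2 = H 1 1) then 1 else 0 := by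
  rw [copyCount_two, card_filter, Fintype.sum_prod_type, Fintype.sum_prod_type]
  apply sum_congr rfl
  intro r1 _
  apply sum_congr rfl
  intro r2 _
  rw [Fintype.sum_prod_type]

theorem hfree_of_copyCount_eq_zero {k : ℕ} (H : Fin k → Fin k → Bool) (A : Fin n → Fin n → Bool)
    (h : copyCount H A = 0) : HFree H A := by
  intro r c hc
  unfold copyCount at h
  rw [Nat.card_eq_zero] at h
  rcases h with h | h
  · exact h.false ⟨(r, c), hc⟩
  · exact h.not_finite (Subtype.finite)

theorem diffCount_same (A : Fin n → Fin n → Bool) : diffCount A A = 0 := by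
  simp [diffCount]

/-- a matrix that is far from free has a copy. -/
theorem one_le_copyCount {k : ℕ} (H : Fin k → Fin k → Bool) (T : ℕ) (A : Fin n → Fin n → Bool)
    (hn : 0 < n) (hfar : ∀ B : Fin n → Fin n → Bool, HFree H B → n ^ 2 ≤ T * diffCount A B) :
    1 ≤ copyCount H A := by
  by_contra hcon
  have h0 : copyCount H A = 0 := by omega
  have h1 := hfar A (hfree_of_copyCount_eq_zero H A h0)
  rw [diffCount_same, mul_zero] at h1
  have : 0 < n ^ 2 := by positivity
  omega

/-- splitting of a symmetric double sum. -/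
theorem sum_sym_split (f : Fin n → Fin n → ℕ) (hsym : ∀ a b, f a b = f b a) :
    ∑ a, ∑ b, f a b = ∑ a, f a a + 2 * ∑ a, ∑ b, (if a < b then f a b else 0) := by
  have h1 : ∀ a b, f a b = (if a = b then f a b else 0) + (if a < b then f a b else 0)
      + (if b < a then f a b else 0) := by
    intro a b
    rcases lt_trichotomy a b with h | h | h
    · simp [h, h.ne, h.le.not_gt]
    · simp [h]
    · simp [h, h.ne', h.le.not_gt]
  have h2 : ∑ a, ∑ b, (if b < a then f a b else 0) = ∑ a, ∑ b, (if a < b then f a b else 0) := by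
    rw [sum_comm]
    apply sum_congr rfl
    intro a _
    apply sum_congr rfl
    intro b _
    rw [hsym]
  have h3 : ∑ a, ∑ b, (if a = b then f a b else 0) = ∑ a, f a a := by
    apply sum_congr rfl
    intro a _
    simp
  calc ∑ a, ∑ b, f a b
      = ∑ a, ∑ b, ((if a = b then f a b else 0) + (if a < b then f a b else 0)
          + (if b < a then f a b else 0)) := by
        apply sum_congr rfl
        intro a _
        apply sum_congr rfl
        intro b _
        exact h1 a b
    _ = ∑ a, f a a + 2 * ∑ a, ∑ b, (if a < b then f a b else 0) := by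
        simp only [sum_add_distrib]
        rw [h2, h3]
        ring

end Vale.Agent.P037
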