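import Mathlib
import Vale.Agent.P037.Defs
import Vale.Agent.P037.Sym
import Vale.Agent.P037.Two

/-! P037 task U2: the constant pattern [[1,1],[1,1]] (Cauchy-Schwarz twice). -/

namespace Vale.Agent.P037

open Finset

namespace Ones

variable {n : ℕ}

/-- indicator of a one entry. -/
def ind (A : Fin n → Fin n → Bool) (r x : Fin n) : ℕ := if A r x = true then 1 else 0

theorem ind_le_one (A : Fin n → Fin n → Bool) (r x : Fin n) : ind A r x ≤ 1 := by
  unfold ind
  split_ifs <;> simp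

/-- indicator of four one entries. -/
def quad (A : Fin n → Fin n → Bool) (r s x y : Fin n) : ℕ :=
  (ind A r x * ind A r y) * (ind A s x * ind A s y)

theorem quad_le_one (A : Fin n → Fin n → Bool) (r s x y : Fin n) : quad A r s x y ≤ 1 := by
  unfold quad
  have h1 := ind_le_one A r x
  have h2 := ind_le_one A r y
  have h3 := ind_le_one A s x
  have h4 := ind_le_one A s y
  calc (ind A r x * ind A r y) * (ind A s x * ind A s y) ≤ (1 * 1) * (1 * 1) := by gcongr
    _ = 1 := by norm_num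

theorem sum4_swap (f : Fin n → Fin n → Fin n → Fin n → ℕ) :
    ∑ x, ∑ y, ∑ r, ∑ s, f x y r s = ∑ r, ∑ s, ∑ x, ∑ y, f x y r s := by
  calc ∑ x, ∑ y, ∑ r, ∑ s, f x y r s
      = ∑ p : Fin n × Fin n, ∑ q : Fin n × Fin n, f p.1 p.2 q.1 q.2 := by
        simp only [Fintype.sum_prod_type]
    _ = ∑ q : Fin n × Fin n, ∑ p : Fin n × Fin n, f p.1 p.2 q.1 q.2 := sum_comm
    _ = ∑ r, ∑ s, ∑ x, ∑ y, f x y r s := by
        simp only [Fintype.sum_prod_type]

/-- number of ones. -/
def ones (A : Fin n → Fin n → Bool) : ℕ := ∑ r, ∑ x, ind A r x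

/-- homomorphic copies of the four cycle. -/
def hom4 (A : Fin n → Fin n → Bool) : ℕ := ∑ r, ∑ s, ∑ x, ∑ y, quad A r s x y

theorem diffCount_zero (A : Fin n → Fin n → Bool) : diffCount A (fun _ _ => false) = ones A := by
  unfold diffCount ones ind
  rw [card_filter, Fintype.sum_prod_type]
  apply sum_congr rfl
  intro r _
  apply sum_congr rfl
  intro x _
  cases A r x <;> simp

theorem hfree_zero : HFree (fun _ _ : Fin 2 => true) (fun _ _ : Fin n => false) := by
  intro r c h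
  have := h.2.2 0 0
  simp at this

theorem ones_pow_le (A : Fin n → Fin n → Bool) : ones A ^ 4 ≤ n ^ 4 * hom4 A := by
  have h1 : ones A ^ 2 ≤ n * ∑ r, (∑ x, ind A r x) ^ 2 := by
    have := sq_sum_le_card_mul_sum_sq (s := (univ : Finset (Fin n))) (f := fun r => ∑ x, ind A r x)
    simpa [ones] using this
  have h2 : ∑ r, (∑ x, ind A r x) ^ 2 = ∑ x, ∑ y, ∑ r, ind A r x * ind A r y := by
    have : ∀ r, (∑ x, ind A r x) ^ 2 = ∑ x, ∑ y, ind A r x * ind A r y := by
      intro r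
      rw [sq, sum_mul_sum]
    simp only [this]
    rw [sum_comm]
    apply sum_congr rfl
    intro x _
    rw [sum_comm]
  have h3 : (∑ x, ∑ y, ∑ r, ind A r x * ind A r y) ^ 2
      ≤ n * ∑ x, (∑ y, ∑ r, ind A r x * ind A r y) ^ 2 := by
    have := sq_sum_le_card_mul_sum_sq (s := (univ : Finset (Fin n)))
      (f := fun x => ∑ y, ∑ r, ind A r x * ind A r y)
    simpa using this
  have h4 : ∀ x, (∑ y, ∑ r, ind A r x * ind A r y) ^ 2
      ≤ n * ∑ y, (∑ r, ind A r x * ind A r y) ^ 2 := by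
    intro x
    have := sq_sum_le_card_mul_sum_sq (s := (univ : Finset (Fin n)))
      (f := fun y => ∑ r, ind A r x * ind A r y)
    simpa using this
  have h5 : ∑ x, ∑ y, (∑ r, ind A r x * ind A r y) ^ 2 = hom4 A := by
    unfold hom4
    rw [← sum4_swap (fun x y r s => quad A r s x y)]
    apply sum_congr rfl
    intro x _
    apply sum_congr rfl
    intro y _
    rw [sq, sum_mul_sum]
    rfl
  have h6 : (∑ x, ∑ y, ∑ r, ind A r x * ind A r y) ^ 2 ≤ n * (n * hom4 A) := by
    refine h3.trans (Nat.mul_le_mul_left _ ?_)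
    rw [← h5, mul_sum]
    exact sum_le_sum (fun x _ => h4 x)
  rw [h2] at h1
  calc ones A ^ 4 = (ones A ^ 2) ^ 2 := by ring
    _ ≤ (n * ∑ x, ∑ y, ∑ r, ind A r x * ind A r y) ^ 2 := by gcongr
    _ = n ^ 2 * (∑ x, ∑ y, ∑ r, ind A r x * ind A r y) ^ 2 := by ring
    _ ≤ n ^ 2 * (n * (n * hom4 A)) := by gcongr
    _ = n ^ 4 * hom4 A := by ring

theorem copyCount_ones (A : Fin n → Fin n → Bool) :
    copyCount (fun _ _ : Fin 2 => true) A
      = ∑ r, ∑ s, (if r < s then ∑ x, ∑ y, (if x < y then quad A r s x y else 0) else 0) := by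
  rw [copyCount_two_sum]
  apply sum_congr rfl
  intro r _
  apply sum_congr rfl
  intro s _
  by_cases hrs : r < s
  · rw [if_pos hrs]
    apply sum_congr rfl
    intro x _
    apply sum_congr rfl
    intro y _
    by_cases hxy : x < y
    · simp only [hrs, hxy, true_and, if_true, quad, ind]
      cases A r x <;> cases A r y <;> cases A s x <;> cases A s y <;> simp
    · simp [hxy]
  · rw [if_neg hrs]
    apply sum_eq_zero
    intro x _
    apply sum_eq_zero
    intro y _
    simp [hrs]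

theorem sum_le_card_mul (f : Fin n → ℕ) (b : ℕ) (h : ∀ i, f i ≤ b) : ∑ i, f i ≤ n * b := by
  have := sum_le_card_nsmul (univ : Finset (Fin n)) f b (fun i _ => h i)
  simpa using this

theorem hom4_le (A : Fin n → Fin n → Bool) :
    hom4 A ≤ 3 * n ^ 3 + 4 * copyCount (fun _ _ : Fin 2 => true) A := by
  unfold hom4
  rw [sum_sym_split (fun r s => ∑ x, ∑ y, quad A r s x y) (by
    intro r s
    apply sum_congr rfl
    intro x _
    apply sum_congr rfl
    intro y _
    unfold quad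
    ring)]
  have h1 : ∑ r, ∑ x, ∑ y, quad A r r x y ≤ n ^ 3 := by
    calc ∑ r, ∑ x, ∑ y, quad A r r x y ≤ n * (n * (n * 1)) :=
          sum_le_card_mul _ _ (fun r => sum_le_card_mul _ _ (fun x =>
            sum_le_card_mul _ _ (fun y => quad_le_one A r r x y)))
      _ = n ^ 3 := by ring
  have h2 : ∀ r s, ∑ x, ∑ y, quad A r s x y
      ≤ n + 2 * ∑ x, ∑ y, (if x < y then quad A r s x y else 0) := by
    intro r s
    rw [sum_sym_split (fun x y => quad A r s x y) (by
      intro x y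
      unfold quad
      ring)]
    have : ∑ x, quad A r s x x ≤ n * 1 := sum_le_card_mul _ _ (fun x => quad_le_one A r s x x)
    omega
  have h3 : ∑ r, ∑ s, (if r < s then ∑ x, ∑ y, quad A r s x y else 0)
      ≤ ∑ r, ∑ s, (n + 2 * (if r < s then ∑ x, ∑ y, (if x < y then quad A r s x y else 0)
          else 0)) := by
    apply sum_le_sum
    intro r _
    apply sum_le_sum
    intro s _
    split_ifs
    · exact h2 r s
    · omega
  have h4 : ∑ r : Fin n, ∑ s : Fin n, (n + 2 * (if r < s then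
      ∑ x, ∑ y, (if x < y then quad A r s x y else 0) else 0))
      = n ^ 3 + 2 * copyCount (fun _ _ : Fin 2 => true) A := by
    rw [copyCount_ones]
    simp only [sum_add_distrib, sum_const, card_univ, Fintype.card_fin, smul_eq_mul, mul_sum]
    ring
  rw [h4] at h3
  omega

theorem core (T n : ℕ) (A : Fin n → Fin n → Bool) (hT : 1 ≤ T)
    (hfar : ∀ B : Fin n → Fin n → Bool, HFree (fun _ _ : Fin 2 => true) B →
      n ^ 2 ≤ T * diffCount A B) :
    n ^ (2 * 2) ≤ 1296 * T ^ 16 * copyCount (fun _ _ : Fin 2 => true) A := by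
  rcases Nat.eq_zero_or_pos n with hn | hn
  · subst hn
    simp
  set N := copyCount (fun _ _ : Fin 2 => true) A with hN
  have hN1 : 1 ≤ N := one_le_copyCount _ T A hn hfar
  have h1 : n ^ 2 ≤ T * ones A := by
    have := hfar _ hfree_zero
    rwa [diffCount_zero] at this
  have h2 : n ^ 4 * n ^ 4 ≤ n ^ 4 * (T ^ 4 * (3 * n ^ 3 + 4 * N)) := by
    calc n ^ 4 * n ^ 4 = (n ^ 2) ^ 4 := by ring
      _ ≤ (T * ones A) ^ 4 := by gcongr
      _ = T ^ 4 * ones A ^ 4 := by ring
      _ ≤ T ^ 4 * (n ^ 4 * hom4 A) := by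
          gcongr
          exact ones_pow_le A
      _ ≤ T ^ 4 * (n ^ 4 * (3 * n ^ 3 + 4 * N)) := by
          gcongr
          exact hom4_le A
      _ = n ^ 4 * (T ^ 4 * (3 * n ^ 3 + 4 * N)) := by ring
  have h3 : n ^ 4 ≤ T ^ 4 * (3 * n ^ 3 + 4 * N) := Nat.le_of_mul_le_mul_left h2 (by positivity)
  have hT4 : 1 ≤ T ^ 4 := Nat.one_le_pow _ _ hT
  have hT12 : 1 ≤ T ^ 12 := Nat.one_le_pow _ _ hT
  show n ^ (2 * 2) ≤ 1296 * T ^ 16 * N
  norm_num
  rcases Nat.lt_or_ge n (6 * T ^ 4) with hsmall | hbig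
  · calc n ^ 4 ≤ (6 * T ^ 4) ^ 4 := by gcongr
      _ = 1296 * T ^ 16 * 1 := by ring
      _ ≤ 1296 * T ^ 16 * N := by gcongr
  · have h4 : 2 * (T ^ 4 * (3 * n ^ 3)) ≤ n ^ 4 := by
      calc 2 * (T ^ 4 * (3 * n ^ 3)) = (6 * T ^ 4) * n ^ 3 := by ring
        _ ≤ n * n ^ 3 := by gcongr
        _ = n ^ 4 := by ring
    have h5 : n ^ 4 ≤ 8 * T ^ 4 * N := by
      have : T ^ 4 * (3 * n ^ 3 + 4 * N) = T ^ 4 * (3 * n ^ 3) + 4 * T ^ 4 * N := by ring
      rw [this] at h3
      have h6 : 8 * T ^ 4 * N = 2 * (4 * T ^ 4 * N) := by ring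
      omega
    calc n ^ 4 ≤ 8 * T ^ 4 * N := h5
      _ = 8 * (T ^ 4 * 1) * N := by ring
      _ ≤ 1296 * (T ^ 4 * T ^ 12) * N := by gcongr; norm_num
      _ = 1296 * T ^ 16 * N := by ring

end Ones

theorem polyRemoval_ones : PolyRemoval (fun _ _ : Fin 2 => true) :=
  polyRemoval_of_nat _ 1296 16 (fun T n A hT hfar => Ones.core T n A hT hfar)

end Vale.Agent.P037
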