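import Mathlib
import Vale.Agent.P037.Defs
import Vale.Agent.P037.Basic
import Vale.Agent.P037.Bridge
import Vale.Agent.P037.Cover
import Vale.Agent.P037.Sym

/-! P037 task U3: the pattern [[1,1],[0,0]]. -/

namespace Vale.Agent.P037

open Finset

variable {n : ℕ}

/-- the pattern `[[1,1],[0,0]]`. -/
def rcPat : Fin 2 → Fin 2 → Bool := fun i _ => decide (i = 0)

theorem rc_isCopy_iff (A : Fin n → Fin n → Bool) (r c : Fin 2 → Fin n) :
    IsCopy rcPat A r c ↔ (r 0 < r 1 ∧ c 0 < c 1 ∧ A (r 0) (c 0) = true ∧ A (r 0) (c 1) = true ∧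
      A (r 1) (c 0) = false ∧ A (r 1) (c 1) = false) := by
  unfold IsCopy
  rw [strictMono_fin2, strictMono_fin2]
  constructor
  · rintro ⟨h1, h2, h3⟩
    refine ⟨h1, h2, ?_, ?_, ?_, ?_⟩
    · simpa [rcPat] using h3 0 0
    · simpa [rcPat] using h3 0 1
    · simpa [rcPat] using h3 1 0
    · simpa [rcPat] using h3 1 1
  · rintro ⟨h1, h2, h3, h4, h5, h6⟩
    refine ⟨h1, h2, ?_⟩
    intro i j
    fin_cases i <;> fin_cases j <;> simp [rcPat, h3, h4, h5, h6]

/-- columns in row `a` but not in row `b`. -/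
def rcS (A : Fin n → Fin n → Bool) (a b : Fin n) : Finset (Fin n) :=
  univ.filter (fun y : Fin n => A a y = true ∧ A b y = false)

/-- increasing pairs of such columns. -/
def rcPairs (A : Fin n → Fin n → Bool) (a b : Fin n) : Finset (Fin n × Fin n) :=
  univ.filter (fun q : Fin n × Fin n => q.1 < q.2 ∧ A a q.1 = true ∧ A a q.2 = true ∧
    A b q.1 = false ∧ A b q.2 = false)

def rcD (A : Fin n → Fin n → Bool) : ℕ := ∑ p ∈ incPairs n, (rcS A p.1 p.2).card

def rcN (A : Fin n → Fin n → Bool) : ℕ := ∑ p ∈ incPairs n, (rcPairs A p.1 p.2).card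

theorem rc_card_sq_le {α : Type*} [LinearOrder α] (S : Finset α) :
    S.card ^ 2 ≤ S.card + 2 * ((S ×ˢ S).filter (fun q : α × α => q.1 < q.2)).card := by
  have h1 : S ×ˢ S ⊆ (S.diag ∪ ((S ×ˢ S).filter (fun q : α × α => q.1 < q.2))) ∪
      ((S ×ˢ S).filter (fun q : α × α => q.2 < q.1)) := by
    intro q hq
    simp only [mem_union, mem_diag, mem_filter]
    have hq' := mem_product.mp hq
    rcases lt_trichotomy q.1 q.2 with h | h | h
    · left; right; exact ⟨hq, h⟩
    · left; left; exact ⟨hq'.1, h⟩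
    · right; exact ⟨hq, h⟩
  have h2 : ((S ×ˢ S).filter (fun q : α × α => q.2 < q.1)).card
      = ((S ×ˢ S).filter (fun q : α × α => q.1 < q.2)).card := by
    apply card_nbij' Prod.swap Prod.swap
    · intro q hq
      simp only [coe_filter, mem_product, Set.mem_ofPred_eq, Prod.fst_swap, Prod.snd_swap] at hq ⊢
      exact ⟨⟨hq.1.2, hq.1.1⟩, hq.2⟩
    · intro q hq
      simp only [coe_filter, mem_product, Set.mem_ofPred_eq, Prod.fst_swap, Prod.snd_swap] at hq ⊢
      exact ⟨⟨hq.1.2, hq.1.1⟩, hq.2⟩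
    · intro q _
      rfl
    · intro q _
      rfl
  have h3 := card_le_card h1
  rw [card_product] at h3
  have h4 := card_union_le (S.diag ∪ ((S ×ˢ S).filter (fun q : α × α => q.1 < q.2)))
    ((S ×ˢ S).filter (fun q : α × α => q.2 < q.1))
  have h5 := card_union_le S.diag ((S ×ˢ S).filter (fun q : α × α => q.1 < q.2))
  rw [diag_card] at h5
  rw [sq]
  omega

theorem rcPairs_eq (A : Fin n → Fin n → Bool) (a b : Fin n) :
    rcPairs A a b = (rcS A a b ×ˢ rcS A a b).filter (fun q : Fin n × Fin n => q.1 < q.2) := by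
  ext q
  simp only [rcPairs, rcS, mem_filter, mem_univ, true_and, mem_product]
  tauto

theorem rc_sq_le (A : Fin n → Fin n → Bool) (a b : Fin n) :
    (rcS A a b).card ^ 2 ≤ (rcS A a b).card + 2 * (rcPairs A a b).card := by
  rw [rcPairs_eq]
  exact rc_card_sq_le _

theorem rc_incPairs_card_le : (incPairs n).card ≤ n ^ 2 := by
  have := card_le_univ (incPairs n)
  rw [Fintype.card_prod, Fintype.card_fin] at this
  rw [sq]
  exact this

/-- Cauchy-Schwarz. -/
theorem rc_D_sq_le (A : Fin n → Fin n → Bool) : rcD A ^ 2 ≤ n ^ 2 * (rcD A + 2 * rcN A) := by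
  have h1 : rcD A ^ 2 ≤ (incPairs n).card * ∑ p ∈ incPairs n, (rcS A p.1 p.2).card ^ 2 :=
    sq_sum_le_card_mul_sum_sq
  have h2 : ∑ p ∈ incPairs n, (rcS A p.1 p.2).card ^ 2 ≤ rcD A + 2 * rcN A := by
    unfold rcD rcN
    rw [mul_sum, ← sum_add_distrib]
    exact sum_le_sum (fun p _ => rc_sq_le A p.1 p.2)
  exact h1.trans (Nat.mul_le_mul rc_incPairs_card_le h2)

theorem rcN_eq_card (A : Fin n → Fin n → Bool) :
    rcN A = ((univ : Finset ((Fin n × Fin n) × (Fin n × Fin n))).filter (fun t =>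
      t.1.1 < t.1.2 ∧ t.2.1 < t.2.2 ∧ A t.1.1 t.2.1 = true ∧ A t.1.1 t.2.2 = true ∧
        A t.1.2 t.2.1 = false ∧ A t.1.2 t.2.2 = false)).card := by
  unfold rcN rcPairs incPairs
  rw [card_filter, Fintype.sum_prod_type, sum_filter]
  apply sum_congr rfl
  intro p _
  by_cases hp : p.1 < p.2
  · rw [if_pos hp, card_filter]
    apply sum_congr rfl
    intro q _
    simp [hp]
  · rw [if_neg hp]
    symm
    apply sum_eq_zero
    intro q _
    simp [hp]

theorem rc_copyCount (A : Fin n → Fin n → Bool) : copyCount rcPat A = rcN A := by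
  classical
  unfold copyCount
  rw [rcN_eq_card, Nat.card_eq_fintype_card, Fintype.card_subtype]
  apply card_nbij' (fun p => ((p.1 0, p.1 1), (p.2 0, p.2 1)))
    (fun t => (![t.1.1, t.1.2], ![t.2.1, t.2.2]))
  · intro p hp
    simp only [coe_filter, mem_univ, true_and, Set.mem_ofPred_eq] at hp ⊢
    rw [rc_isCopy_iff] at hp
    exact hp
  · intro t ht
    simp only [coe_filter, mem_univ, true_and, Set.mem_ofPred_eq] at ht ⊢
    rw [rc_isCopy_iff]
    simpa using ht
  · intro p _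
    ext i
    · fin_cases i <;> rfl
    · fin_cases i <;> rfl
  · intro t _
    rfl

theorem rc_hfree_of_N_eq_zero (A : Fin n → Fin n → Bool) (h : rcN A = 0) : HFree rcPat A := by
  rw [rcN_eq_card, card_eq_zero, filter_eq_empty_iff] at h
  intro r c hcopy
  rw [rc_isCopy_iff] at hcopy
  exact h (mem_univ ((r 0, r 1), (c 0, c 1))) hcopy

/-- pairs of rows `r1 < r2` showing `1` over `0` in the column `y`. -/
def rcInv (A : Fin n → Fin n → Bool) (y : Fin n) : ℕ :=
  (((univ.filter (fun r : Fin n => A r y = true)) ×ˢ (univ.filter (fun r : Fin n => A r y = false))).filter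
    (fun q : Fin n × Fin n => q.1 < q.2)).card

theorem rcInv_eq (A : Fin n → Fin n → Bool) (y : Fin n) :
    rcInv A y = ((incPairs n).filter
      (fun q : Fin n × Fin n => A q.1 y = true ∧ A q.2 y = false)).card := by
  unfold rcInv incPairs
  congr 1
  ext q
  simp only [mem_filter, mem_product, mem_univ, true_and]
  tauto

theorem rc_sum_inv (A : Fin n → Fin n → Bool) : ∑ y, rcInv A y = rcD A := by
  unfold rcD rcS
  simp only [rcInv_eq, card_filter]
  rw [sum_comm]

/-- all columns monotone: free. -/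
theorem rc_exists_free (A : Fin n → Fin n → Bool) (k : ℕ) (hk : 0 < k) :
    ∃ B : Fin n → Fin n → Bool, HFree rcPat B ∧ k * diffCount A B ≤ n * k ^ 2 + rcD A := by
  classical
  have hcov := fun y : Fin n => cover_one_dim (univ.filter (fun r : Fin n => A r y = true))
    (univ.filter (fun r : Fin n => A r y = false)) k (rcInv A y) hk le_rfl
  choose Kc hcard hhit using hcov
  refine ⟨fun r y => decide (∃ r' : Fin n, r' ≤ r ∧ r' ∉ Kc y ∧ A r' y = true), ?_, ?_⟩
  · intro r c hcopy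
    rw [rc_isCopy_iff] at hcopy
    obtain ⟨hr, -, h1, -, h2, -⟩ := hcopy
    rw [decide_eq_true_eq] at h1
    rw [decide_eq_false_iff_not] at h2
    obtain ⟨r', hr', hK, hA⟩ := h1
    exact h2 ⟨r', hr'.trans hr.le, hK, hA⟩
  · have hsub : (univ.filter (fun p : Fin n × Fin n => A p.1 p.2 ≠
        decide (∃ r' : Fin n, r' ≤ p.1 ∧ r' ∉ Kc p.2 ∧ A r' p.2 = true))) ⊆
        (univ : Finset (Fin n)).biUnion (fun y => (Kc y).image (fun r => (r, y))) := by
      intro p hp
      rw [mem_filter] at hp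
      rw [mem_biUnion]
      refine ⟨p.2, mem_univ _, ?_⟩
      rw [mem_image]
      refine ⟨p.1, ?_, rfl⟩
      by_contra hK
      apply hp.2
      cases hA : A p.1 p.2
      · symm
        rw [decide_eq_false_iff_not]
        rintro ⟨r', hr', hK', hA'⟩
        have hne : r' ≠ p.1 := by
          rintro rfl
          rw [hA] at hA'
          exact absurd hA' (by simp)
        have hlt : r' < p.1 := lt_of_le_of_ne hr' hne
        rcases hhit p.2 r' (by simp [hA']) p.1 (by simp [hA]) hlt with h | h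
        · exact hK' h
        · exact hK h
      · symm
        rw [decide_eq_true_eq]
        exact ⟨p.1, le_rfl, hK, hA⟩
    have h1 : diffCount A (fun r y => decide (∃ r' : Fin n, r' ≤ r ∧ r' ∉ Kc y ∧ A r' y = true))
        ≤ ∑ y, (Kc y).card := by
      unfold diffCount
      refine (card_le_card hsub).trans (card_biUnion_le.trans ?_)
      exact sum_le_sum (fun y _ => card_image_le)
    have h2 : k * ∑ y, (Kc y).card ≤ n * k ^ 2 + rcD A := by
      rw [mul_sum, ← rc_sum_inv]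
      have : ∑ y : Fin n, k * (Kc y).card ≤ ∑ y : Fin n, (k ^ 2 + rcInv A y) := by
        apply sum_le_sum
        intro y _
        have h3 := hcard y
        have h4 : k * (rcInv A y / k) ≤ rcInv A y := Nat.mul_div_le _ _
        calc k * (Kc y).card ≤ k * (k + rcInv A y / k) := Nat.mul_le_mul_left _ h3
          _ = k ^ 2 + k * (rcInv A y / k) := by ring
          _ ≤ k ^ 2 + rcInv A y := by omega
      rw [sum_add_distrib, sum_const, card_univ, Fintype.card_fin, smul_eq_mul] at this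
      exact this
    exact (Nat.mul_le_mul_left _ h1).trans h2

theorem rc_arith (T n D N : ℕ) (hT : 1 ≤ T) (hn : 16 * T ^ 2 ≤ n)
    (h1 : ∀ k, 0 < k → n ^ 2 * k ≤ T * (n * k ^ 2 + D))
    (h2 : D ^ 2 ≤ n ^ 2 * (D + 2 * N)) : n ^ 4 ≤ 256 * T ^ 4 * N := by
  have hT2 : T ≤ T ^ 2 := by nlinarith
  have hnpos : 0 < n := by nlinarith
  obtain ⟨k, hk⟩ : ∃ k, k = n / (2 * T) := ⟨_, rfl⟩
  have hk1 : 2 * T * k ≤ n := by
    rw [hk]; exact Nat.mul_div_le _ _
  have hk2 : n < 2 * T * (k + 1) := by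
    rw [hk]; exact Nat.lt_mul_div_succ _ (by omega)
  have hkpos : 0 < k := by
    rw [hk]
    apply Nat.div_pos _ (by omega)
    nlinarith
  have hk3 : n ≤ 4 * T * k := by nlinarith
  have a1 := h1 k hkpos
  have a2 : 2 * T * n * k ^ 2 ≤ n ^ 2 * k := by
    calc 2 * T * n * k ^ 2 = (2 * T * k) * (n * k) := by ring
      _ ≤ n * (n * k) := Nat.mul_le_mul_right _ hk1
      _ = n ^ 2 * k := by ring
  have a3 : n ^ 2 * k ≤ 2 * T * D := by nlinarith
  have a4 : n ^ 3 ≤ 8 * T ^ 2 * D := by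
    calc n ^ 3 = n ^ 2 * n := by ring
      _ ≤ n ^ 2 * (4 * T * k) := Nat.mul_le_mul_left _ hk3
      _ = 4 * T * (n ^ 2 * k) := by ring
      _ ≤ 4 * T * (2 * T * D) := Nat.mul_le_mul_left _ a3
      _ = 8 * T ^ 2 * D := by ring
  have a5 : 2 * n ^ 2 ≤ D := by
    have : 8 * T ^ 2 * (2 * n ^ 2) ≤ 8 * T ^ 2 * D := by
      calc 8 * T ^ 2 * (2 * n ^ 2) = (16 * T ^ 2) * n ^ 2 := by ring
        _ ≤ n * n ^ 2 := Nat.mul_le_mul_right _ hn
        _ = n ^ 3 := by ring
        _ ≤ _ := a4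
    exact Nat.le_of_mul_le_mul_left this (by positivity)
  have a6 : D ^ 2 ≤ 4 * n ^ 2 * N := by
    have : 2 * n ^ 2 * D ≤ D ^ 2 := by
      rw [sq D]; exact Nat.mul_le_mul_right _ a5
    nlinarith
  have a7 : n ^ 2 * n ^ 4 ≤ n ^ 2 * (256 * T ^ 4 * N) := by
    calc n ^ 2 * n ^ 4 = (n ^ 3) ^ 2 := by ring
      _ ≤ (8 * T ^ 2 * D) ^ 2 := Nat.pow_le_pow_left a4 2
      _ = 64 * T ^ 4 * D ^ 2 := by ring
      _ ≤ 64 * T ^ 4 * (4 * n ^ 2 * N) := Nat.mul_le_mul_left _ a6
      _ = n ^ 2 * (256 * T ^ 4 * N) := by ring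
  exact Nat.le_of_mul_le_mul_left a7 (by positivity)

theorem polyRemoval_rcPat : PolyRemoval rcPat := by
  apply polyRemoval_of_nat rcPat 65536 8
  intro T n A hT hfar
  rw [rc_copyCount]
  have hTpow : T ^ 4 ≤ T ^ 8 := Nat.pow_le_pow_right hT (by norm_num)
  by_cases hn : 16 * T ^ 2 ≤ n
  · have h1 : ∀ k, 0 < k → n ^ 2 * k ≤ T * (n * k ^ 2 + rcD A) := by
      intro k hk
      obtain ⟨B, hB, hd⟩ := rc_exists_free A k hk
      have := hfar B hB
      calc n ^ 2 * k ≤ (T * diffCount A B) * k := Nat.mul_le_mul_right _ this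
        _ = T * (k * diffCount A B) := by ring
        _ ≤ _ := Nat.mul_le_mul_left _ hd
    have := rc_arith T n (rcD A) (rcN A) hT hn h1 (rc_D_sq_le A)
    calc n ^ (2 * 2) = n ^ 4 := by norm_num
      _ ≤ 256 * T ^ 4 * rcN A := this
      _ ≤ 65536 * T ^ 8 * rcN A := by
          apply Nat.mul_le_mul_right
          omega
  · rcases Nat.eq_zero_or_pos n with h0 | hpos
    · subst h0
      simp
    · have hN : 1 ≤ rcN A := by
        by_contra hcon
        have h0 : rcN A = 0 := by omega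
        have := hfar A (rc_hfree_of_N_eq_zero A h0)
        have hd : diffCount A A = 0 := by simp [diffCount]
        rw [hd, mul_zero] at this
        have : 0 < n ^ 2 := by positivity
        omega
      have hlt : n ≤ 16 * T ^ 2 := by omega
      calc n ^ (2 * 2) = n ^ 4 := by norm_num
        _ ≤ (16 * T ^ 2) ^ 4 := Nat.pow_le_pow_left hlt 4
        _ = 65536 * T ^ 8 * 1 := by ring
        _ ≤ 65536 * T ^ 8 * rcN A := Nat.mul_le_mul_left _ hN

theorem polyRemoval_rowConst : PolyRemoval (fun (i : Fin 2) (_ : Fin 2) => decide (i = 0)) :=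
  polyRemoval_rcPat

end Vale.Agent.P037
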