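import Mathlib
import Vale.Agent.P037.Defs
import Vale.Agent.P037.Main
import Vale.Agent.P037.Sym
import Vale.Agent.P037.GMain
import Vale.Agent.P037.Ones
import Vale.Agent.P037.RowConst

/-! P037 task U4: all sixteen 2 x 2 patterns. -/

namespace Vale.Agent.P037

theorem polyRemoval_patI : PolyRemoval patI := by
  obtain ⟨c, C, hc, hC, h⟩ := removal_patI
  exact ⟨c, C, hc, hC, fun n ε A h0 h1 hfar => by simpa using h n ε A h0 h1 hfar⟩

theorem polyRemoval_congr {H H' : Fin 2 → Fin 2 → Bool} (h : PolyRemoval H)
    (heq : ∀ i j, H i j = H' i j) : PolyRemoval H' := by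
  have : H = H' := by
    funext i j
    exact heq i j
  rw [← this]
  exact h

/-- the pattern with the four given entries. -/
def mk2 (a b c d : Bool) : Fin 2 → Fin 2 → Bool := fun i j =>
  if i = 0 then (if j = 0 then a else b) else (if j = 0 then c else d)

theorem eq_mk2 (H : Fin 2 → Fin 2 → Bool) : ∀ i j, mk2 (H 0 0) (H 0 1) (H 1 0) (H 1 1) i j = H i j := by
  intro i j
  fin_cases i <;> fin_cases j <;> simp [mk2]

theorem polyRemoval_mk2 : ∀ a b c d : Bool, PolyRemoval (mk2 a b c d)
  | true, true, true, true => polyRemoval_congr polyRemoval_ones (by decide)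
  | false, false, false, false =>
    polyRemoval_congr (polyRemoval_compl _ polyRemoval_ones) (by decide)
  | true, true, false, false => polyRemoval_congr polyRemoval_rowConst (by decide)
  | false, false, true, true =>
    polyRemoval_congr (polyRemoval_compl _ polyRemoval_rowConst) (by decide)
  | true, false, true, false =>
    polyRemoval_congr (polyRemoval_transpose _ polyRemoval_rowConst) (by decide)
  | false, true, false, true =>
    polyRemoval_congr (polyRemoval_compl _ (polyRemoval_transpose _ polyRemoval_rowConst))
      (by decide)
  | true, false, false, true => polyRemoval_congr polyRemoval_patI (by decide)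
  | false, true, true, false => polyRemoval_congr (polyRemoval_compl _ polyRemoval_patI) (by decide)
  | true, true, true, false => polyRemoval_congr polyRemoval_patG (by decide)
  | true, false, true, true =>
    polyRemoval_congr (polyRemoval_revRows _ polyRemoval_patG) (by decide)
  | true, true, false, true =>
    polyRemoval_congr (polyRemoval_revCols _ polyRemoval_patG) (by decide)
  | false, true, true, true =>
    polyRemoval_congr (polyRemoval_revCols _ (polyRemoval_revRows _ polyRemoval_patG)) (by decide)
  | false, false, false, true =>
    polyRemoval_congr (polyRemoval_compl _ polyRemoval_patG) (by decide)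
  | false, true, false, false =>
    polyRemoval_congr (polyRemoval_compl _ (polyRemoval_revRows _ polyRemoval_patG)) (by decide)
  | false, false, true, false =>
    polyRemoval_congr (polyRemoval_compl _ (polyRemoval_revCols _ polyRemoval_patG)) (by decide)
  | true, false, false, false =>
    polyRemoval_congr
      (polyRemoval_compl _ (polyRemoval_revCols _ (polyRemoval_revRows _ polyRemoval_patG)))
      (by decide)

theorem polyRemoval_all2 (H : Fin 2 → Fin 2 → Bool) : PolyRemoval H :=
  polyRemoval_congr (polyRemoval_mk2 (H 0 0) (H 0 1) (H 1 0) (H 1 1)) (eq_mk2 H)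

end Vale.Agent.P037
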