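import Mathlib
import Vale.Agent.P037.Defs
import Vale.Agent.P037.Basic

/-!
P037 task X: internal definitions for the alternating `s x 2` patterns (rows `10, 01, 10, ...`).
See notes/P037_alt.md.
-/

namespace Vale.Agent.P037

open Finset

variable {n : ℕ}

/-- the letter at position `a`: `true` (the row `10`) at even positions. -/
def par (a : ℕ) : Bool := decide (a % 2 = 0)

/-- the alternating `s x 2` pattern with rows `10, 01, 10, ...`. -/
def altPat (s : ℕ) : Fin s → Fin 2 → Bool := fun i j => decide ((i.val + j.val) % 2 = 0)

/-- the rows `r` show the alternating pattern on the columns `x`, `y`. -/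
def AltRows (A : Fin n → Fin n → Bool) (s : ℕ) (x y : Fin n) (r : Fin s → Fin n) : Prop :=
  StrictMono r ∧ ∀ a, A (r a) x = par a.val ∧ A (r a) y = !par a.val

open Classical in
/-- number of increasing `s`-tuples of rows showing `10, 01, 10, ...` on the columns `x`, `y`. -/
noncomputable def invS (A : Fin n → Fin n → Bool) (s : ℕ) (x y : Fin n) : ℕ :=
  (univ.filter (fun r : Fin s → Fin n => AltRows A s x y r)).card

/-- explicit count of the copies of the alternating pattern. -/
noncomputable def NS (A : Fin n → Fin n → Bool) (s : ℕ) : ℕ :=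
  ∑ p ∈ incPairs n, invS A s p.1 p.2

/-- explicit form of freeness from the alternating pattern. -/
def AltFree (s : ℕ) (B : Fin n → Fin n → Bool) : Prop :=
  ∀ (r : Fin s → Fin n) (x y : Fin n), x < y → ¬ AltRows B s x y r

/-- the rows of window `l` showing the letter `b` on the columns `x`, `y`. -/
def rowsL (A : Fin n → Fin n → Bool) (w l : ℕ) (x y : Fin n) (b : Bool) : Finset (Fin n) :=
  univ.filter (fun i : Fin n => i.val / w = l ∧ A i x = b ∧ A i y = !b)

/-- the windows `l a` witness a conflict between the level orders of `x` and `y`. -/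
def Conf (lam : ℕ → Fin n → ℕ) (s : ℕ) (x y : Fin n) (l : Fin s → ℕ) : Prop :=
  ∀ a : Fin s, (par a.val = true → lam (l a) y < lam (l a) x) ∧
    (par a.val = false → lam (l a) x < lam (l a) y)

theorem card_rowsL_true (A : Fin n → Fin n → Bool) (w l : ℕ) (x y : Fin n) :
    (rowsL A w l x y true).card = cnt A w l x y := by
  unfold rowsL cnt
  simp

theorem card_rowsL_false (A : Fin n → Fin n → Bool) (w l : ℕ) (x y : Fin n) :
    (rowsL A w l x y false).card = cnt A w l y x := by
  unfold rowsL cnt
  congr 1
  ext i
  simp only [mem_filter, mem_univ, true_and, Bool.not_false]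
  tauto

theorem mixed_le_card_rowsL (A : Fin n → Fin n → Bool) (w l : ℕ) (x y : Fin n) (b : Bool) :
    mixed A w l x y ≤ (rowsL A w l x y b).card := by
  cases b
  · rw [card_rowsL_false]
    exact min_le_right _ _
  · rw [card_rowsL_true]
    exact min_le_left _ _

end Vale.Agent.P037
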