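import Mathlib
import Vale.Agent.P037.Basic
import Vale.Agent.P037.Counting
import Vale.Agent.P037.AltBasic

/-! P037 task X, part 1: counting lemmas for the alternating patterns. -/

namespace Vale.Agent.P037

open Finset

variable {n : ℕ}

/-- ordered groups of rows showing the right letters give many alternating tuples. -/
theorem prod_card_le_invS (A : Fin n → Fin n → Bool) (s : ℕ) (x y : Fin n)
    (R : Fin s → Finset (Fin n))
    (hlt : ∀ a b : Fin s, a < b → ∀ i ∈ R a, ∀ j ∈ R b, i < j)
    (hshow : ∀ a : Fin s, ∀ i ∈ R a, A i x = par a.val ∧ A i y = !par a.val) :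
    ∏ a, (R a).card ≤ invS A s x y := by
  classical
  rw [← Fintype.card_piFinset]
  unfold invS
  apply card_le_card
  intro r hr
  rw [Fintype.mem_piFinset] at hr
  rw [mem_filter]
  refine ⟨mem_univ _, ?_, fun a => hshow a _ (hr a)⟩
  intro a b hab
  exact hlt a b hab _ (hr a) _ (hr b)

/-- (A) increasing windows, each with at least `t` rows showing the right letter. -/
theorem pow_le_invS (A : Fin n → Fin n → Bool) (w s : ℕ) (x y : Fin n) (l : Fin s → ℕ)
    (hl : StrictMono l) (t : ℕ) (ht : ∀ a, t ≤ (rowsL A w (l a) x y (par a.val)).card) :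
    t ^ s ≤ invS A s x y := by
  refine le_trans ?_ (prod_card_le_invS A s x y (fun a => rowsL A w (l a) x y (par a.val)) ?_ ?_)
  · calc t ^ s = ∏ _a : Fin s, t := by simp
      _ ≤ _ := prod_le_prod' fun a _ => ht a
  · intro a b hab i hi j hj
    simp only [rowsL, mem_filter, mem_univ, true_and] at hi hj
    have h1 : i.val / w < j.val / w := by
      rw [hi.1, hj.1]
      exact hl hab
    rw [Fin.lt_def]
    by_contra hcon
    have h2 : j.val / w ≤ i.val / w := Nat.div_le_div_right (not_lt.1 hcon)
    omega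
  · intro a i hi
    simp only [rowsL, mem_filter, mem_univ, true_and] at hi
    exact hi.2

/-- cut points: a sequence with small terms and a large sum splits into `s` consecutive
groups of sum at least `q`. -/
theorem exists_cuts (a : ℕ → ℕ) (w q s L : ℕ) (ha : ∀ l, a l ≤ w)
    (h : s * (w + q) ≤ ∑ l ∈ range L, a l) :
    ∃ cut : ℕ → ℕ, (∀ i, cut i ≤ cut (i + 1)) ∧
      ∀ i, i < s → q ≤ ∑ l ∈ Ico (cut i) (cut (i + 1)), a l := by
  classical
  set S : ℕ → ℕ := fun t => ∑ l ∈ range t, a l with hS
  have hSmono : Monotone S := by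
    intro t t' htt'
    exact sum_le_sum_of_subset (range_subset_range.2 htt')
  have hex : ∀ i : ℕ, ∃ t, i * (w + q) ≤ S t ∨ L ≤ t := fun i => ⟨L, Or.inr le_rfl⟩
  set cut : ℕ → ℕ := fun i => Nat.find (hex i) with hcut
  have hmono : ∀ i, cut i ≤ cut (i + 1) := by
    intro i
    apply Nat.find_min'
    rcases Nat.find_spec (hex (i + 1)) with h1 | h1
    · left
      refine le_trans ?_ h1
      exact Nat.mul_le_mul_right _ (Nat.le_succ i)
    · exact Or.inr h1
  have hlow : ∀ i, i ≤ s → i * (w + q) ≤ S (cut i) := by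
    intro i hi
    rcases Nat.find_spec (hex i) with h1 | h1
    · exact h1
    · calc i * (w + q) ≤ s * (w + q) := Nat.mul_le_mul_right _ hi
        _ ≤ S L := h
        _ ≤ S (cut i) := hSmono h1
  have hup : ∀ i, S (cut i) ≤ i * (w + q) + w := by
    intro i
    rcases Nat.eq_zero_or_pos (cut i) with h0 | hpos
    · rw [h0]
      simp [hS]
    · obtain ⟨t, ht⟩ : ∃ t, cut i = t + 1 := ⟨cut i - 1, by omega⟩
      have hmin := Nat.find_min (hex i) (m := t) (by
        have : Nat.find (hex i) = t + 1 := ht
        omega)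
      push Not at hmin
      rw [ht]
      have e : S (t + 1) = S t + a t := by
        simp only [hS]
        rw [sum_range_succ]
      have := ha t
      omega
  refine ⟨cut, hmono, ?_⟩
  intro i hi
  have e := sum_range_add_sum_Ico a (hmono i)
  have h1 := hlow (i + 1) hi
  have h2 := hup i
  have e2 : (i + 1) * (w + q) = i * (w + q) + w + q := by ring
  have e3 : S (cut i) + ∑ l ∈ Ico (cut i) (cut (i + 1)), a l = S (cut (i + 1)) := e
  omega

/-- the rows of a range of windows showing a letter. -/
theorem sum_card_rowsL_Ico (A : Fin n → Fin n → Bool) (w c c' : ℕ) (x y : Fin n) (b : Bool) :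
    ∑ l ∈ Ico c c', (rowsL A w l x y b).card
      = (univ.filter (fun i : Fin n => (c ≤ i.val / w ∧ i.val / w < c') ∧
          A i x = b ∧ A i y = !b)).card := by
  rw [card_eq_sum_card_fiberwise (f := fun i : Fin n => i.val / w) (t := Ico c c')]
  · apply sum_congr rfl
    intro l hl
    rw [mem_Ico] at hl
    congr 1
    ext i
    simp only [rowsL, mem_filter, mem_univ, true_and]
    constructor
    · rintro ⟨h1, h2⟩
      exact ⟨⟨by omega, h2⟩, h1⟩
    · rintro ⟨⟨_, h2⟩, h1⟩
      exact ⟨h1, h2⟩
  · intro i hi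
    simp only [coe_filter, mem_univ, true_and, Set.mem_ofPred_eq] at hi
    simp only [coe_Ico, Set.mem_Ico]
    exact hi.1

/-- (B) a large total mixed count gives many alternating tuples. -/
theorem pow_le_invS_of_mixed (A : Fin n → Fin n → Bool) (w L s q : ℕ) (hw : 0 < w) (x y : Fin n)
    (h : s * (w + q) ≤ ∑ l ∈ range L, mixed A w l x y) :
    q ^ s ≤ invS A s x y := by
  obtain ⟨cut, hmono, hq⟩ := exists_cuts (fun l => mixed A w l x y) w q s L
    (fun l => (min_le_left _ _).trans (cnt_le A w l hw x y)) h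
  have hmono' : Monotone cut := monotone_nat_of_le_succ hmono
  refine le_trans ?_ (prod_card_le_invS A s x y
    (fun a => univ.filter (fun i : Fin n => (cut a.val ≤ i.val / w ∧ i.val / w < cut (a.val + 1)) ∧
          A i x = par a.val ∧ A i y = !par a.val)) ?_ ?_)
  · calc q ^ s = ∏ _a : Fin s, q := by simp
      _ ≤ _ := prod_le_prod' fun a _ => by
        rw [← sum_card_rowsL_Ico]
        refine (hq a.val a.2).trans ?_
        exact sum_le_sum fun l _ => mixed_le_card_rowsL A w l x y _
  · intro a b hab i hi j hj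
    simp only [mem_filter, mem_univ, true_and] at hi hj
    have h1 : cut (a.val + 1) ≤ cut b.val := hmono' (Fin.lt_def.1 hab)
    have h2 : i.val / w < j.val / w := by omega
    rw [Fin.lt_def]
    by_contra hcon
    have h3 : j.val / w ≤ i.val / w := Nat.div_le_div_right (not_lt.1 hcon)
    omega
  · intro a i hi
    simp only [mem_filter, mem_univ, true_and] at hi
    exact hi.2

/-- the total mixed count of a pair of columns is at most `n`. -/
theorem sum_mixed_le (A : Fin n → Fin n → Bool) (w L : ℕ) (x y : Fin n) :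
    ∑ l ∈ range L, mixed A w l x y ≤ n := by
  calc ∑ l ∈ range L, mixed A w l x y
      ≤ ∑ l ∈ Ico 0 L, (rowsL A w l x y true).card := by
        rw [range_eq_Ico]
        exact sum_le_sum fun l _ => mixed_le_card_rowsL A w l x y true
    _ ≤ n := by
        rw [sum_card_rowsL_Ico]
        refine (card_filter_le _ _).trans ?_
        simp

/-- (C) the bound for the total mixed count. -/
theorem Msum_alt_le (A : Fin n → Fin n → Bool) (w L s Q : ℕ) (hw : 0 < w) :
    Q ^ s * Msum A w L ≤ Q ^ s * (s * (w + Q)) * n ^ 2 + n * NS A s := by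
  unfold Msum NS
  have hcard : (incPairs n).card ≤ n ^ 2 := by
    unfold incPairs
    refine (card_filter_le _ _).trans ?_
    simp [sq]
  have hterm : ∀ p ∈ incPairs n, Q ^ s * ∑ l ∈ range L, mixed A w l p.1 p.2
      ≤ Q ^ s * (s * (w + Q)) + n * invS A s p.1 p.2 := by
    intro p _
    rcases le_or_gt (s * (w + Q)) (∑ l ∈ range L, mixed A w l p.1 p.2) with h | h
    · have h1 := pow_le_invS_of_mixed A w L s Q hw p.1 p.2 h
      have h2 := sum_mixed_le A w L p.1 p.2
      calc Q ^ s * ∑ l ∈ range L, mixed A w l p.1 p.2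
          ≤ invS A s p.1 p.2 * n := Nat.mul_le_mul h1 h2
        _ = n * invS A s p.1 p.2 := mul_comm _ _
        _ ≤ _ := Nat.le_add_left _ _
    · exact (Nat.mul_le_mul_left _ h.le).trans (Nat.le_add_right _ _)
  calc Q ^ s * ∑ p ∈ incPairs n, ∑ l ∈ range L, mixed A w l p.1 p.2
      = ∑ p ∈ incPairs n, Q ^ s * ∑ l ∈ range L, mixed A w l p.1 p.2 := mul_sum _ _ _
    _ ≤ ∑ p ∈ incPairs n, (Q ^ s * (s * (w + Q)) + n * invS A s p.1 p.2) := sum_le_sum hterm
    _ = (incPairs n).card * (Q ^ s * (s * (w + Q))) + n * ∑ p ∈ incPairs n, invS A s p.1 p.2 := by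
        rw [sum_add_distrib, sum_const, smul_eq_mul, mul_sum]
    _ ≤ Q ^ s * (s * (w + Q)) * n ^ 2 + n * ∑ p ∈ incPairs n, invS A s p.1 p.2 := by
        have := Nat.mul_le_mul_right (Q ^ s * (s * (w + Q))) hcard
        rw [mul_comm (n ^ 2)] at this
        omega

end Vale.Agent.P037
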