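import Mathlib
import Vale.Agent.P037.Basic
import Vale.Agent.P037.Cover
import Vale.Agent.P037.AltBasic

/-! P037 task X, part 2: the cover of all conflicts of length `s`. -/

namespace Vale.Agent.P037

open Finset

variable {n : ℕ}

/-- (D) cover of all conflicts of length `s` between level functions. -/
theorem conflict_cover_alt (s : ℕ) (Gd : Finset (Fin n)) (lam : ℕ → Fin n → ℕ) (L J t k Ntot : ℕ)
    (f : Fin n → Fin n → ℕ) (ht : 0 < t) (hk : 0 < k)
    (hJ : ∀ l c, lam l c ≤ J)
    (hf : ∑ p ∈ incPairs n, f p.1 p.2 ≤ Ntot)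
    (hrob : ∀ x ∈ Gd, ∀ y ∈ Gd, x < y → ∀ l : Fin s → ℕ, StrictMono l → (∀ a, l a < L) →
      Conf lam s x y l → t ≤ f x y) :
    ∃ Kc : Finset (Fin n), Kc.card ≤ (L * (J + 1)) ^ s * (k + Ntot / t / k) ∧
      ∀ x ∈ Gd, ∀ y ∈ Gd, x < y → ∀ l : Fin s → ℕ, StrictMono l → (∀ a, l a < L) →
        Conf lam s x y l → x ∈ Kc ∨ y ∈ Kc := by
  classical
  -- the cover for one choice of windows and thresholds
  have hq : ∀ q : Fin s → ℕ × ℕ, ∃ K : Finset (Fin n), K.card ≤ k + Ntot / t / k ∧
      (StrictMono (fun a => (q a).1) → (∀ a, (q a).1 < L) →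
        ∀ x ∈ Gd.filter (fun x => ∀ a : Fin s,
            (par a.val = true → (q a).2 ≤ lam (q a).1 x) ∧
            (par a.val = false → lam (q a).1 x < (q a).2)),
        ∀ y ∈ Gd.filter (fun y => ∀ a : Fin s,
            (par a.val = true → lam (q a).1 y < (q a).2) ∧
            (par a.val = false → (q a).2 ≤ lam (q a).1 y)),
          x < y → x ∈ K ∨ y ∈ K) := by
    intro q
    by_cases hl : StrictMono (fun a => (q a).1) ∧ (∀ a, (q a).1 < L)
    · set X := Gd.filter (fun x => ∀ a : Fin s,
            (par a.val = true → (q a).2 ≤ lam (q a).1 x) ∧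
            (par a.val = false → lam (q a).1 x < (q a).2)) with hXdef
      set Y := Gd.filter (fun y => ∀ a : Fin s,
            (par a.val = true → lam (q a).1 y < (q a).2) ∧
            (par a.val = false → (q a).2 ≤ lam (q a).1 y)) with hYdef
      have hpairs : ((X ×ˢ Y).filter (fun r : Fin n × Fin n => r.1 < r.2)).card ≤ Ntot / t := by
        rw [Nat.le_div_iff_mul_le ht]
        have h1 : ((X ×ˢ Y).filter (fun r : Fin n × Fin n => r.1 < r.2)).card * t
            ≤ ∑ r ∈ (X ×ˢ Y).filter (fun r : Fin n × Fin n => r.1 < r.2), f r.1 r.2 := by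
          rw [← smul_eq_mul]
          refine card_nsmul_le_sum _ _ _ ?_
          intro r hr
          simp only [hXdef, hYdef, mem_filter, mem_product] at hr
          obtain ⟨⟨⟨hx, hx1⟩, ⟨hy, hy1⟩⟩, hlt⟩ := hr
          refine hrob r.1 hx r.2 hy hlt (fun a => (q a).1) hl.1 hl.2 ?_
          intro a
          exact ⟨fun hp => lt_of_lt_of_le ((hy1 a).1 hp) ((hx1 a).1 hp),
            fun hp => lt_of_lt_of_le ((hx1 a).2 hp) ((hy1 a).2 hp)⟩
        have h2 : ∑ r ∈ (X ×ˢ Y).filter (fun r : Fin n × Fin n => r.1 < r.2), f r.1 r.2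
            ≤ ∑ p ∈ incPairs n, f p.1 p.2 := by
          refine sum_le_sum_of_subset ?_
          intro r hr
          simp only [incPairs, mem_filter, mem_univ, true_and] at hr ⊢
          exact hr.2
        exact h1.trans (h2.trans hf)
      obtain ⟨K, hK1, hK2⟩ := cover_one_dim X Y k (Ntot / t) hk hpairs
      exact ⟨K, hK1, fun _ _ => hK2⟩
    · exact ⟨∅, by simp, fun h1 h2 => absurd ⟨h1, h2⟩ hl⟩
  choose K hK1 hK2 using hq
  set Qs : Finset (Fin s → ℕ × ℕ) :=
    Fintype.piFinset (fun _ => range L ×ˢ range (J + 1)) with hQs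
  refine ⟨Qs.biUnion K, ?_, ?_⟩
  · refine card_biUnion_le.trans ?_
    refine (sum_le_sum fun q _ => hK1 q).trans ?_
    rw [sum_const, smul_eq_mul, hQs, Fintype.card_piFinset]
    simp
  · intro x hx y hy hxy l hl hlL hconf
    set q : Fin s → ℕ × ℕ :=
      fun a => (l a, if par a.val = true then lam (l a) x else lam (l a) y) with hqdef
    have hmem : q ∈ Qs := by
      rw [hQs, Fintype.mem_piFinset]
      intro a
      simp only [hqdef, mem_product, mem_range]
      refine ⟨hlL a, ?_⟩
      split_ifs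
      · exact Nat.lt_succ_of_le (hJ _ _)
      · exact Nat.lt_succ_of_le (hJ _ _)
    have := hK2 q hl hlL x
      (by
        simp only [mem_filter]
        refine ⟨hx, fun a => ⟨fun hp => ?_, fun hp => ?_⟩⟩
        · simp [hqdef, hp]
        · simp only [hqdef, hp]
          simpa using (hconf a).2 hp) y
      (by
        simp only [mem_filter]
        refine ⟨hy, fun a => ⟨fun hp => ?_, fun hp => ?_⟩⟩
        · simp only [hqdef, hp]
          simpa using (hconf a).1 hp
        · simp [hqdef, hp]) hxy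
    rcases this with h | h
    · exact Or.inl (mem_biUnion.2 ⟨_, hmem, h⟩)
    · exact Or.inr (mem_biUnion.2 ⟨_, hmem, h⟩)

end Vale.Agent.P037
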