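import Mathlib
import Vale.Agent.P037.Basic
import Vale.Agent.P037.Counting
import Vale.Agent.P037.Shift
import Vale.Agent.P037.Cover
import Vale.Agent.P037.Cost
import Vale.Agent.P037.Assembly
import Vale.Agent.P037.AltBasic
import Vale.Agent.P037.AltCount
import Vale.Agent.P037.AltCover

/-! P037 task X, part 3: construction of the free matrix `B` and its distance from `A`. -/

namespace Vale.Agent.P037

open Finset

variable {n : ℕ}

open Assembly

/-- the construction, with window length `w = m G K`, level step `g = m G`, margin `m`,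
`2 R` windows, cover parameter `k` and threshold `Q`. -/
theorem construct_alt (A : Fin n → Fin n → Bool) (s m G K R k Q : ℕ) (hs : 2 ≤ s)
    (hm : 0 < m) (hG : 0 < G) (hK : 0 < K) (hk : 0 < k)
    (hn : n ≤ 2 * R * (m * G * K)) :
    ∃ (B : Fin n → Fin n → Bool) (z1 z2 E M : ℕ),
      AltFree s B ∧
      diffCount A B ≤ n * (z1 + z2) + E ∧
      G * z1 ≤ 2 * n * (2 * R) ∧
      z2 ≤ (2 * R * (K + 1)) ^ s * (k + NS A s / (2 * m) ^ s / k) ∧
      E ^ 2 ≤ n * (18 * M + 3 * (2 * R) * (m * G) * n ^ 2) ∧
      Q ^ s * M ≤ Q ^ s * (s * (m * G * K + Q)) * n ^ 2 + n * NS A s := by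
  classical
  set w := m * G * K with hwdef
  set g := m * G with hgdef
  set L := 2 * R with hLdef
  have hw : 0 < w := by positivity
  have hg : 0 < g := by positivity
  choose σ hσ1 hσ2 using fun l : ℕ => exists_shift (score A w l) g m hg
  set ambs : ℕ → Finset (Fin n) :=
    fun l => univ.filter (fun c : Fin n => amb g m (score A w l c + σ l)) with hambs
  set Z1 : Finset (Fin n) := (range L).biUnion ambs with hZ1
  have hamb : ∀ l, G * (ambs l).card ≤ 2 * n := by
    intro l
    have h := hσ2 l
    have h' : m * (G * (ambs l).card) ≤ m * (2 * n) := by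
      calc m * (G * (ambs l).card) = g * (ambs l).card := by rw [hgdef]; ring
        _ ≤ 2 * m * n := h
        _ = m * (2 * n) := by ring
    exact Nat.le_of_mul_le_mul_left h' hm
  have hZ1card : G * Z1.card ≤ 2 * n * L := by
    calc G * Z1.card ≤ G * ∑ l ∈ range L, (ambs l).card :=
          Nat.mul_le_mul_left G card_biUnion_le
      _ = ∑ l ∈ range L, G * (ambs l).card := by rw [mul_sum]
      _ ≤ ∑ _l ∈ range L, 2 * n := sum_le_sum fun l _ => hamb l
      _ = 2 * n * L := by rw [sum_const, card_range, smul_eq_mul]; ring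
  set Gd : Finset (Fin n) := univ.filter (fun c => c ∉ Z1) with hGd
  set lam : ℕ → Fin n → ℕ := lev A w g σ with hlam
  have hnotamb : ∀ x ∈ Gd, ∀ l, l < L → ¬ amb g m (score A w l x + σ l) := by
    intro x hx l hl hcon
    simp only [hGd, mem_filter, mem_univ, true_and] at hx
    apply hx
    rw [hZ1, mem_biUnion]
    exact ⟨l, mem_range.2 hl, by simp only [hambs, mem_filter, mem_univ, true_and]; exact hcon⟩
  have hJ : ∀ l c, lam l c ≤ K := by
    intro l c
    have h1 := score_le A w l hw c
    have h2 := hσ1 l
    have h3 : score A w l c + σ l < (K + 1) * g := by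
      have : w = K * g := by rw [hwdef, hgdef]; ring
      have e : (K + 1) * g = K * g + g := by ring
      omega
    have h4 : (score A w l c + σ l) / g < K + 1 := (Nat.div_lt_iff_lt_mul hg).2 h3
    exact Nat.lt_succ_iff.1 h4
  have hrob : ∀ x ∈ Gd, ∀ y ∈ Gd, x < y → ∀ l : Fin s → ℕ, StrictMono l → (∀ a, l a < L) →
      Conf lam s x y l → (2 * m) ^ s ≤ invS A s x y := by
    intro x hx y hy _ l hl hlL hconf
    refine pow_le_invS A w s x y l hl (2 * m) ?_
    intro a
    cases hp : par a.val
    · rw [card_rowsL_false]
      have s2 := sep_of_not_amb g m _ _ hg (hnotamb y hy (l a) (hlL a))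
        (hnotamb x hx (l a) (hlL a)) ((hconf a).2 hp)
      have e2 := score_add_cnt A w (l a) y x
      omega
    · rw [card_rowsL_true]
      have s1 := sep_of_not_amb g m _ _ hg (hnotamb x hx (l a) (hlL a))
        (hnotamb y hy (l a) (hlL a)) ((hconf a).1 hp)
      have e1 := score_add_cnt A w (l a) x y
      omega
  obtain ⟨Kc, hKc1, hKc2⟩ := conflict_cover_alt s Gd lam L K ((2 * m) ^ s) k (NS A s) (invS A s)
    (by positivity) hk hJ le_rfl hrob
  obtain ⟨j, hj⟩ := cost_bound A w g L σ hw hg hn
  set E := ∑ i : Fin n, (univ.filter (fun c : Fin n =>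
          A i c ≠ decide (j i ≤ lev A w g σ (i.val / w) c))).card with hE
  set B : Fin n → Fin n → Bool :=
    fun i c => if c ∈ Z1 ∪ Kc then false else decide (j i ≤ lev A w g σ (i.val / w) c) with hB
  refine ⟨B, Z1.card, Kc.card, E, Msum A w L, ?_, ?_, hZ1card, hKc1, hj,
    Msum_alt_le A w L s Q hw⟩
  · -- freeness
    intro r x y hxy ⟨hr, hrows⟩
    have hx : x ∉ Z1 ∪ Kc := by
      intro h
      have h0 := (hrows ⟨0, by omega⟩).1
      simp only [hB, h, if_true, par] at h0
      exact absurd h0 (by simp)
    have hy : y ∉ Z1 ∪ Kc := by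
      intro h
      have h0 := (hrows ⟨1, by omega⟩).2
      simp only [hB, h, if_true, par] at h0
      exact absurd h0 (by simp)
    have hconf : Conf lam s x y (fun a => (r a).val / w) := by
      intro a
      have h1 := (hrows a).1
      have h2 := (hrows a).2
      simp only [hB, hx, hy, if_false] at h1 h2
      constructor
      · intro hp
        rw [hp] at h1 h2
        simp only [decide_eq_true_eq, Bool.not_true, decide_eq_false_iff_not, not_le] at h1 h2
        exact lt_of_lt_of_le h2 h1
      · intro hp
        rw [hp] at h1 h2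
        simp only [decide_eq_true_eq, Bool.not_false, decide_eq_false_iff_not, not_le] at h1 h2
        exact lt_of_lt_of_le h1 h2
    have hpar : ∀ a : ℕ, par (a + 1) = !par a := by
      intro a
      unfold par
      rcases Nat.mod_two_eq_zero_or_one a with h | h
      · have : (a + 1) % 2 = 1 := by omega
        simp [h, this]
      · have : (a + 1) % 2 = 0 := by omega
        simp [h, this]
    have hl : StrictMono (fun a => (r a).val / w) := by
      obtain ⟨s', rfl⟩ : ∃ s', s = s' + 1 := ⟨s - 1, by omega⟩
      rw [Fin.strictMono_iff_lt_succ]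
      intro a
      have hle : (r a.castSucc).val / w ≤ (r a.succ).val / w :=
        Nat.div_le_div_right (Fin.lt_def.1 (hr Fin.castSucc_lt_succ)).le
      rcases hle.eq_or_lt with he | hlt
      · exfalso
        have c1 := hconf a.castSucc
        have c2 := hconf a.succ
        simp only [Fin.val_castSucc, Fin.val_succ, hpar] at c1 c2
        rw [← he] at c2
        cases hp : par a.val
        · have d1 := c1.2 hp
          have d2 := c2.1 (by simp [hp])
          omega
        · have d1 := c1.1 hp
          have d2 := c2.2 (by simp [hp])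
          omega
      · exact hlt
    have hlL : ∀ a, (r a).val / w < L := by
      intro a
      rw [Nat.div_lt_iff_lt_mul hw]
      exact lt_of_lt_of_le (r a).2 hn
    have g1 : x ∈ Gd := by
      simp only [hGd, mem_filter, mem_univ, true_and]
      exact fun h => hx (mem_union_left _ h)
    have g2 : y ∈ Gd := by
      simp only [hGd, mem_filter, mem_univ, true_and]
      exact fun h => hy (mem_union_left _ h)
    rcases hKc2 x g1 y g2 hxy _ hl hlL hconf with h | h
    · exact hx (mem_union_right _ h)
    · exact hy (mem_union_right _ h)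
  · -- distance
    unfold diffCount
    have hsub : univ.filter (fun p : Fin n × Fin n => A p.1 p.2 ≠ B p.1 p.2)
        ⊆ univ.filter (fun q : Fin n × Fin n => q.2 ∈ Z1 ∪ Kc)
          ∪ univ.filter (fun q : Fin n × Fin n =>
              A q.1 q.2 ≠ decide (j q.1 ≤ lev A w g σ (q.1.val / w) q.2)) := by
      intro p hp
      simp only [mem_filter, mem_univ, true_and, mem_union] at hp ⊢
      by_cases hz : p.2 ∈ Z1 ∨ p.2 ∈ Kc
      · exact Or.inl hz
      · right
        have hz' : p.2 ∉ Z1 ∪ Kc := by simpa [mem_union] using hz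
        simpa only [hB, hz', if_false] using hp
    refine (card_le_card hsub).trans ((card_union_le _ _).trans ?_)
    rw [card_cols, card_filter_prod
      (fun i c => A i c ≠ decide (j i ≤ lev A w g σ (i.val / w) c))]
    have := card_union_le Z1 Kc
    have h2 : n * (Z1 ∪ Kc).card ≤ n * (Z1.card + Kc.card) := Nat.mul_le_mul_left n this
    omega

end Vale.Agent.P037
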