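import Mathlib
import Vale.Agent.P037.Defs

/-! P037 task W, part 1: rectangular patterns and the effect of doubling one row. -/

namespace Vale.Agent.P037

open Finset

variable {k l n : ℕ}

/-- ordered copies of a rectangular pattern. -/
def RCopy (H : Fin k → Fin l → Bool) (A : Fin n → Fin n → Bool)
    (r : Fin k → Fin n) (c : Fin l → Fin n) : Prop :=
  StrictMono r ∧ StrictMono c ∧ ∀ i j, A (r i) (c j) = H i j

open Classical in
/-- the number of ordered copies of a rectangular pattern. -/
noncomputable def rcount (H : Fin k → Fin l → Bool) (A : Fin n → Fin n → Bool) : ℕ :=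
  (univ.filter (fun p : (Fin k → Fin n) × (Fin l → Fin n) => RCopy H A p.1 p.2)).card

theorem copyCount_eq_rcount (H : Fin k → Fin k → Bool) (A : Fin n → Fin n → Bool) :
    copyCount H A = rcount H A := by
  classical
  unfold copyCount rcount
  rw [Nat.card_eq_fintype_card, Fintype.card_subtype]
  rfl

theorem rcount_transpose (H : Fin k → Fin l → Bool) (A : Fin n → Fin n → Bool) :
    rcount (fun j i => H i j) (fun x y => A y x) = rcount H A := by
  classical
  unfold rcount
  refine Finset.card_bij (fun p _ => (p.2, p.1)) ?_ ?_ ?_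
  · intro p hp
    simp only [mem_filter, mem_univ, true_and] at hp ⊢
    exact ⟨hp.2.1, hp.1, fun i j => hp.2.2 j i⟩
  · intro p _ q _ hpq
    simp only [Prod.mk.injEq] at hpq
    exact Prod.ext hpq.2 hpq.1
  · intro q hq
    refine ⟨(q.2, q.1), ?_, rfl⟩
    simp only [mem_filter, mem_univ, true_and] at hq ⊢
    exact ⟨hq.2.1, hq.1, fun i j => hq.2.2 j i⟩

open Classical in
/-- the admissible values of row `i` once all the other rows and the columns are fixed. -/
noncomputable def slot (H : Fin (k + 1) → Fin l → Bool) (A : Fin n → Fin n → Bool) (i : Fin (k + 1))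
    (z : (Fin k → Fin n) × (Fin l → Fin n)) : Finset (Fin n) :=
  univ.filter (fun x => RCopy H A (i.insertNth x z.1) z.2)

theorem rcount_eq_sum_slot (H : Fin (k + 1) → Fin l → Bool) (A : Fin n → Fin n → Bool)
    (i : Fin (k + 1)) : rcount H A = ∑ z, (slot H A i z).card := by
  classical
  unfold rcount
  rw [Finset.card_eq_sum_card_fiberwise
    (f := fun p : (Fin (k + 1) → Fin n) × (Fin l → Fin n) => (i.removeNth p.1, p.2))
    (t := univ) (fun _ _ => mem_univ _)]
  apply Finset.sum_congr rfl
  intro z _
  symm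
  refine Finset.card_bij (fun x _ => (i.insertNth x z.1, z.2)) ?_ ?_ ?_
  · intro x hx
    simp only [slot, mem_filter, mem_univ, true_and] at hx
    simp only [mem_filter, mem_univ, true_and, Fin.removeNth_insertNth, and_true]
    exact hx
  · intro x _ y _ hxy
    simp only [Prod.mk.injEq, and_true] at hxy
    have := congrFun hxy i
    simpa using this
  · intro p hp
    simp only [mem_filter, mem_univ, true_and] at hp
    obtain ⟨hp1, hp2⟩ := hp
    refine ⟨p.1 i, ?_, ?_⟩
    · simp only [slot, mem_filter, mem_univ, true_and]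
      rw [← hp2]
      simpa [Fin.insertNth_self_removeNth] using hp1
    · rw [← hp2]
      simp

/-- a finite linearly ordered set: squares against increasing pairs. -/
theorem card_sq_le_lt_pairs (D : Finset (Fin n)) :
    D.card ^ 2 ≤ D.card + 2 * ((D ×ˢ D).filter (fun p => p.1 < p.2)).card := by
  classical
  have h1 : D ×ˢ D = (D ×ˢ D).filter (fun p => p.1 = p.2) ∪
      ((D ×ˢ D).filter (fun p => p.1 < p.2) ∪ (D ×ˢ D).filter (fun p => p.2 < p.1)) := by
    ext p
    simp only [mem_union, mem_filter]
    constructor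
    · intro hp
      rcases lt_trichotomy p.1 p.2 with h | h | h
      · exact Or.inr (Or.inl ⟨hp, h⟩)
      · exact Or.inl ⟨hp, h⟩
      · exact Or.inr (Or.inr ⟨hp, h⟩)
    · rintro (h | h | h) <;> exact h.1
  have h2 : ((D ×ˢ D).filter (fun p => p.1 = p.2)).card ≤ D.card := by
    apply Finset.card_le_card_of_injOn (fun p => p.1)
    · intro p hp
      simp only [coe_filter, mem_product, Set.mem_ofPred_eq] at hp
      exact hp.1.1
    · intro p hp q hq hpq
      simp only [coe_filter, mem_product, Set.mem_ofPred_eq] at hp hq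
      apply Prod.ext hpq
      rw [← hp.2, ← hq.2]
      exact hpq
  have h3 : ((D ×ˢ D).filter (fun p => p.2 < p.1)).card
      = ((D ×ˢ D).filter (fun p => p.1 < p.2)).card := by
    refine Finset.card_bij (fun p _ => (p.2, p.1)) ?_ ?_ ?_
    · intro p hp
      simp only [mem_filter, mem_product] at hp ⊢
      exact ⟨⟨hp.1.2, hp.1.1⟩, hp.2⟩
    · intro p _ q _ hpq
      simp only [Prod.mk.injEq] at hpq
      exact Prod.ext hpq.2 hpq.1
    · intro q hq
      refine ⟨(q.2, q.1), ?_, rfl⟩
      simp only [mem_filter, mem_product] at hq ⊢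
      exact ⟨⟨hq.1.2, hq.1.1⟩, hq.2⟩
  have h4 : (D ×ˢ D).card = D.card ^ 2 := by
    rw [card_product, sq]
  calc D.card ^ 2 = (D ×ˢ D).card := h4.symm
    _ ≤ ((D ×ˢ D).filter (fun p => p.1 = p.2)).card +
        (((D ×ˢ D).filter (fun p => p.1 < p.2)).card
          + ((D ×ˢ D).filter (fun p => p.2 < p.1)).card) := by
        conv_lhs => rw [h1]
        exact (card_union_le _ _).trans (Nat.add_le_add_left (card_union_le _ _) _)
    _ ≤ D.card + 2 * ((D ×ˢ D).filter (fun p => p.1 < p.2)).card := by
        rw [h3]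
        omega

/-- the pattern with row `i` doubled. -/
def dupRow (H : Fin (k + 1) → Fin l → Bool) (i : Fin (k + 1)) : Fin (k + 2) → Fin l → Bool :=
  fun a b => H (i.predAbove a) b

theorem rcopy_dup (H : Fin (k + 1) → Fin l → Bool) (A : Fin n → Fin n → Bool) (i : Fin (k + 1))
    (r0 : Fin k → Fin n) (c : Fin l → Fin n) (x y : Fin n) (hxy : x < y)
    (hx : RCopy H A (i.insertNth x r0) c) (hy : RCopy H A (i.insertNth y r0) c) :
    RCopy (dupRow H i) A (i.castSucc.insertNth x (i.insertNth y r0)) c := by
  refine ⟨?_, hx.2.1, ?_⟩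
  · rw [Fin.strictMono_insertNth_iff]
    refine ⟨hy.1, ?_, ?_⟩
    · intro j hj
      have hji : j < i := by simpa using hj
      have h1 := hx.1 hji
      rw [Fin.insertNth_apply_same] at h1
      obtain ⟨j', rfl⟩ := Fin.exists_succAbove_eq hji.ne
      rw [Fin.insertNth_apply_succAbove] at h1 ⊢
      exact h1
    · intro j hj
      have hij : i ≤ j := by simpa using hj
      have h1 := hy.1.monotone hij
      rw [Fin.insertNth_apply_same] at h1
      exact lt_of_lt_of_le hxy h1
  · intro a b
    cases a using Fin.succAboveCases i.castSucc with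
    | x =>
      rw [Fin.insertNth_apply_same]
      have := hx.2.2 i b
      rw [Fin.insertNth_apply_same] at this
      simpa [dupRow] using this
    | p j =>
      rw [Fin.insertNth_apply_succAbove]
      have := hy.2.2 j b
      simpa [dupRow, Fin.predAbove_succAbove] using this

theorem sum_lt_pairs_le (H : Fin (k + 1) → Fin l → Bool) (A : Fin n → Fin n → Bool)
    (i : Fin (k + 1)) :
    ∑ z, ((slot H A i z ×ˢ slot H A i z).filter (fun p => p.1 < p.2)).card
      ≤ rcount (dupRow H i) A := by
  classical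
  rw [← Finset.card_sigma]
  unfold rcount
  apply Finset.card_le_card_of_injOn
    (fun s => (i.castSucc.insertNth s.2.1 (i.insertNth s.2.2 s.1.1), s.1.2))
  · intro s hs
    simp only [coe_sigma, coe_univ, Set.mem_sigma_iff, Set.mem_univ, true_and, coe_filter,
      mem_product, Set.mem_ofPred_eq, slot, mem_filter, mem_univ] at hs
    simp only [coe_filter, mem_univ, true_and, Set.mem_ofPred_eq]
    exact rcopy_dup H A i _ _ _ _ hs.2 hs.1.1 hs.1.2
  · intro s _ t _ hst
    simp only [Prod.mk.injEq] at hst
    obtain ⟨h1, h2⟩ := hst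
    have e1 : s.2.1 = t.2.1 := by
      have := congrFun h1 i.castSucc
      simpa using this
    have e2 : (i.insertNth s.2.2 s.1.1 : Fin (k + 1) → Fin n) = i.insertNth t.2.2 t.1.1 := by
      have := congrArg (Fin.removeNth i.castSucc) h1
      simpa using this
    have e3 : s.2.2 = t.2.2 := by
      have := congrFun e2 i
      simpa using this
    have e4 : s.1.1 = t.1.1 := by
      have := congrArg (Fin.removeNth i) e2
      simpa using this
    obtain ⟨⟨s1, s2⟩, ⟨s3, s4⟩⟩ := s
    obtain ⟨⟨t1, t2⟩, ⟨t3, t4⟩⟩ := t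
    simp only at e1 e3 e4 h2
    subst e1 e3 e4 h2
    rfl

/-- the main counting inequality for the doubling of a row. -/
theorem rcount_sq_le (H : Fin (k + 1) → Fin l → Bool) (A : Fin n → Fin n → Bool)
    (i : Fin (k + 1)) :
    rcount H A ^ 2 ≤ n ^ (k + l) * (rcount H A + 2 * rcount (dupRow H i) A) := by
  classical
  have h1 := rcount_eq_sum_slot H A i
  have h2 : (∑ z, (slot H A i z).card) ^ 2
      ≤ (univ : Finset ((Fin k → Fin n) × (Fin l → Fin n))).card
        * ∑ z, (slot H A i z).card ^ 2 := sq_sum_le_card_mul_sum_sq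
  have h3 : (univ : Finset ((Fin k → Fin n) × (Fin l → Fin n))).card = n ^ (k + l) := by
    rw [Finset.card_univ, Fintype.card_prod, Fintype.card_fun, Fintype.card_fun, Fintype.card_fin,
      Fintype.card_fin, Fintype.card_fin, pow_add]
  have h4 : ∑ z, (slot H A i z).card ^ 2 ≤ ∑ z, ((slot H A i z).card
      + 2 * ((slot H A i z ×ˢ slot H A i z).filter (fun p => p.1 < p.2)).card) :=
    Finset.sum_le_sum fun z _ => card_sq_le_lt_pairs _
  rw [Finset.sum_add_distrib, ← Finset.mul_sum, ← h1] at h4
  have h5 := sum_lt_pairs_le H A i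
  rw [← h1, h3] at h2
  calc rcount H A ^ 2 ≤ n ^ (k + l) * ∑ z, (slot H A i z).card ^ 2 := h2
    _ ≤ n ^ (k + l) * (rcount H A + 2 * rcount (dupRow H i) A) := by
        apply Nat.mul_le_mul_left
        omega

/-- the quantitative step. -/
theorem rcount_dup_step (H : Fin (k + 1) → Fin l → Bool) (A : Fin n → Fin n → Bool)
    (i : Fin (k + 1)) (T : ℕ) (hT : n ^ (k + 1 + l) ≤ T * rcount H A) (hn : 2 * T ≤ n) :
    n ^ (k + 2 + l) ≤ 4 * T ^ 2 * rcount (dupRow H i) A := by
  have h := rcount_sq_le H A i
  set N := rcount H A with hN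
  set N' := rcount (dupRow H i) A with hN'
  set P := n ^ (k + l) with hP
  have e1 : n ^ (k + 1 + l) = n * P := by
    rw [hP]
    ring
  have e2 : n ^ (k + 2 + l) = n * (n * P) := by
    rw [hP]
    ring
  rw [e1] at hT
  rw [e2]
  rcases Nat.eq_zero_or_pos P with hP0 | hP0
  · rw [hP0]
    simp
  have h1 : n * P * N ≤ T * (P * (N + 2 * N')) := by
    calc n * P * N ≤ T * N * N := Nat.mul_le_mul_right _ hT
      _ = T * N ^ 2 := by ring
      _ ≤ T * (P * (N + 2 * N')) := Nat.mul_le_mul_left _ h
  have h2 : n * N ≤ T * (N + 2 * N') := by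
    have : P * (n * N) ≤ P * (T * (N + 2 * N')) := by
      calc P * (n * N) = n * P * N := by ring
        _ ≤ T * (P * (N + 2 * N')) := h1
        _ = P * (T * (N + 2 * N')) := by ring
    exact Nat.le_of_mul_le_mul_left this hP0
  have h3 : n * N ≤ 4 * T * N' := by
    have h4 : 2 * T * N ≤ n * N := Nat.mul_le_mul_right _ hn
    nlinarith
  calc n * (n * P) ≤ n * (T * N) := Nat.mul_le_mul_left _ hT
    _ = T * (n * N) := by ring
    _ ≤ T * (4 * T * N') := Nat.mul_le_mul_left _ h3
    _ = 4 * T ^ 2 * N' := by ring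

end Vale.Agent.P037
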