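import Mathlib
import Vale.Agent.P037.Defs
import Vale.Agent.P037.Basic
import Vale.Agent.P037.Two
import Vale.Agent.P037.BlowCount
import Vale.Agent.P037.AltBasic

/-! P037 task X, part 5: the explicit count `NS` and ordered copies of the pattern `altPat s`. -/

namespace Vale.Agent.P037

open Finset

variable {n : ℕ}

theorem altPat_zero (s : ℕ) (i : Fin s) : altPat s i 0 = par i.val := by
  simp [altPat, par]

theorem altPat_one (s : ℕ) (i : Fin s) : altPat s i 1 = !par i.val := by
  unfold altPat par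
  have e : ((1 : Fin 2) : ℕ) = 1 := rfl
  rw [e]
  rcases Nat.mod_two_eq_zero_or_one i.val with h | h
  · have : (i.val + 1) % 2 = 1 := by omega
    simp [h, this]
  · have : (i.val + 1) % 2 = 0 := by omega
    simp [h, this]

theorem rcopy_alt_iff (A : Fin n → Fin n → Bool) (s : ℕ) (r : Fin s → Fin n) (c : Fin 2 → Fin n) :
    RCopy (altPat s) A r c ↔ c 0 < c 1 ∧ AltRows A s (c 0) (c 1) r := by
  unfold RCopy AltRows
  rw [strictMono_two]
  constructor
  · rintro ⟨h1, h2, h3⟩
    refine ⟨h2, h1, fun a => ⟨?_, ?_⟩⟩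
    · rw [h3, altPat_zero]
    · rw [h3, altPat_one]
  · rintro ⟨h2, h1, h3⟩
    refine ⟨h1, h2, fun i j => ?_⟩
    fin_cases j
    · exact (h3 i).1.trans (altPat_zero s i).symm
    · exact (h3 i).2.trans (altPat_one s i).symm

theorem NS_le_rcount (A : Fin n → Fin n → Bool) (s : ℕ) : NS A s ≤ rcount (altPat s) A := by
  classical
  unfold NS invS rcount
  rw [← Finset.card_sigma]
  apply Finset.card_le_card_of_injOn (fun t => (t.2, ![t.1.1, t.1.2]))
  · intro t ht
    simp only [coe_sigma, Set.mem_sigma_iff, mem_coe, incPairs, mem_filter, mem_univ,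
      true_and] at ht
    simp only [coe_filter, mem_univ, true_and, Set.mem_ofPred_eq]
    rw [rcopy_alt_iff]
    exact ⟨by simpa using ht.1, by simpa using ht.2⟩
  · intro t _ t' _ htt'
    simp only [Prod.mk.injEq] at htt'
    obtain ⟨h1, h2⟩ := htt'
    have e0 : t.1.1 = t'.1.1 := by simpa using congrFun h2 0
    have e1 : t.1.2 = t'.1.2 := by simpa using congrFun h2 1
    obtain ⟨⟨a, b⟩, r⟩ := t
    obtain ⟨⟨a', b'⟩, r'⟩ := t'
    simp only at e0 e1 h1
    subst e0 e1 h1
    rfl

theorem altFree_of_NS_eq_zero (A : Fin n → Fin n → Bool) (s : ℕ) (h : NS A s = 0) :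
    AltFree s A := by
  classical
  intro r x y hxy hr
  unfold NS at h
  rw [sum_eq_zero_iff] at h
  have h1 := h (x, y) (by simp only [incPairs, mem_filter, mem_univ, true_and]; exact hxy)
  unfold invS at h1
  rw [card_eq_zero, filter_eq_empty_iff] at h1
  exact h1 (mem_univ r) hr

theorem not_rcopy_of_altFree (B : Fin n → Fin n → Bool) (s : ℕ) (h : AltFree s B)
    (r : Fin s → Fin n) (c : Fin 2 → Fin n) : ¬ RCopy (altPat s) B r c := by
  intro hc
  rw [rcopy_alt_iff] at hc
  exact h r _ _ hc.1 hc.2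

end Vale.Agent.P037
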