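import Mathlib

/-! P037 task X, part 4: pure arithmetic, the choice of the parameters (with `s` symbolic). -/

namespace Vale.Agent.P037

/-- abstract form of the final estimate: all the numerical facts are hypotheses. -/
theorem params_alt_aux (s T n N m k Q P : ℕ) (hT : 1 ≤ T) (hs : 1 ≤ s) (hn : 0 < n)
    (hQ : 0 < Q)
    (hP16 : 16 * T ≤ P) (hP2 : 1728 * s * T ^ 2 ≤ P ^ 2)
    (hmD : m * P ^ 7 ≤ n) (hkD : k * P ^ (5 * s + 1) ≤ n) (hQD : Q * P ^ 2 ≤ n)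
    (hNmk : N ≤ (2 * m) ^ s * (k * k))
    (hNQ : 1728 * T ^ 2 * N ≤ n ^ 2 * Q ^ s)
    (d z1 z2 E M : ℕ)
    (h1 : d ≤ n * (z1 + z2) + E)
    (h2 : P ^ 3 * z1 ≤ 2 * n * (2 * P ^ 2))
    (h3 : z2 ≤ (2 * P ^ 2 * (P ^ 2 + 1)) ^ s * (k + N / (2 * m) ^ s / k))
    (h4 : E ^ 2 ≤ n * (18 * M + 3 * (2 * P ^ 2) * (m * P ^ 3) * n ^ 2))
    (h5 : Q ^ s * M ≤ Q ^ s * (s * (m * P ^ 3 * P ^ 2 + Q)) * n ^ 2 + n * N) :
    T * d < n ^ 2 := by
  have hPpos : 0 < P := by omega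
  have hP4 : 4 ≤ P := by omega
  -- (a)
  have a1 : 4 * T * z1 ≤ n := by
    have e1 : P ^ 2 * (P * z1) ≤ P ^ 2 * (4 * n) := by
      calc P ^ 2 * (P * z1) = P ^ 3 * z1 := by ring
        _ ≤ 2 * n * (2 * P ^ 2) := h2
        _ = P ^ 2 * (4 * n) := by ring
    have e2 : P * z1 ≤ 4 * n := Nat.le_of_mul_le_mul_left e1 (by positivity)
    have e3 : 16 * T * z1 ≤ P * z1 := Nat.mul_le_mul_right _ hP16
    have e4 : 16 * T * z1 = 4 * (4 * T * z1) := by ring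
    omega
  -- (b)
  have b1 : N / (2 * m) ^ s ≤ k * k := Nat.div_le_of_le_mul hNmk
  have b2 : N / (2 * m) ^ s / k ≤ k := Nat.div_le_of_le_mul b1
  have b0 : (2 * P ^ 2 * (P ^ 2 + 1)) ^ s ≤ P ^ (5 * s) := by
    have e1 : 2 * P ^ 2 * (P ^ 2 + 1) ≤ P ^ 5 := by
      have e2 : 1 ≤ P ^ 2 := Nat.one_le_pow _ _ hPpos
      calc 2 * P ^ 2 * (P ^ 2 + 1) ≤ 2 * P ^ 2 * (P ^ 2 + P ^ 2) := by gcongr
        _ = 4 * P ^ 4 := by ring
        _ ≤ P * P ^ 4 := Nat.mul_le_mul_right _ hP4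
        _ = P ^ 5 := by ring
    calc (2 * P ^ 2 * (P ^ 2 + 1)) ^ s ≤ (P ^ 5) ^ s := Nat.pow_le_pow_left e1 s
      _ = P ^ (5 * s) := by rw [← pow_mul]
  have b3 : 4 * T * z2 ≤ n := by
    calc 4 * T * z2 ≤ 4 * T * ((2 * P ^ 2 * (P ^ 2 + 1)) ^ s * (k + N / (2 * m) ^ s / k)) :=
          Nat.mul_le_mul_left _ h3
      _ ≤ 4 * T * (P ^ (5 * s) * (k + k)) := by gcongr
      _ = (8 * T) * (k * P ^ (5 * s)) := by ring
      _ ≤ P * (k * P ^ (5 * s)) := Nat.mul_le_mul_right _ (by omega)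
      _ = k * P ^ (5 * s + 1) := by ring
      _ ≤ n := hkD
  -- (c)
  have hT2 : 192 * T ^ 2 ≤ P ^ 2 := by
    calc 192 * T ^ 2 ≤ 1728 * 1 * T ^ 2 := by omega
      _ ≤ 1728 * s * T ^ 2 := by gcongr
      _ ≤ P ^ 2 := hP2
  have c1 : 32 * T ^ 2 * (n * (3 * (2 * P ^ 2) * (m * P ^ 3) * n ^ 2)) ≤ n ^ 4 := by
    calc 32 * T ^ 2 * (n * (3 * (2 * P ^ 2) * (m * P ^ 3) * n ^ 2))
        = (192 * T ^ 2) * (m * P ^ 5 * n ^ 3) := by ring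
      _ ≤ P ^ 2 * (m * P ^ 5 * n ^ 3) := Nat.mul_le_mul_right _ hT2
      _ = (m * P ^ 7) * n ^ 3 := by ring
      _ ≤ n * n ^ 3 := Nat.mul_le_mul_right _ hmD
      _ = n ^ 4 := by ring
  have c2 : 576 * T ^ 2 * M ≤ n ^ 3 := by
    have hQs : 0 < Q ^ s := by positivity
    have t1 : 1728 * s * T ^ 2 * (m * P ^ 5) ≤ n := by
      calc 1728 * s * T ^ 2 * (m * P ^ 5) ≤ P ^ 2 * (m * P ^ 5) := Nat.mul_le_mul_right _ hP2
        _ = m * P ^ 7 := by ring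
        _ ≤ n := hmD
    have t2 : 1728 * s * T ^ 2 * Q ≤ n := by
      calc 1728 * s * T ^ 2 * Q ≤ P ^ 2 * Q := Nat.mul_le_mul_right _ hP2
        _ = Q * P ^ 2 := by ring
        _ ≤ n := hQD
    have e : (3 * Q ^ s) * (576 * T ^ 2 * M) ≤ (3 * Q ^ s) * n ^ 3 := by
      calc (3 * Q ^ s) * (576 * T ^ 2 * M) = 1728 * T ^ 2 * (Q ^ s * M) := by ring
        _ ≤ 1728 * T ^ 2 * (Q ^ s * (s * (m * P ^ 3 * P ^ 2 + Q)) * n ^ 2 + n * N) :=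
            Nat.mul_le_mul_left _ h5
        _ = Q ^ s * n ^ 2 * (1728 * s * T ^ 2 * (m * P ^ 5)) + Q ^ s * n ^ 2 * (1728 * s * T ^ 2 * Q)
              + n * (1728 * T ^ 2 * N) := by ring
        _ ≤ Q ^ s * n ^ 2 * n + Q ^ s * n ^ 2 * n + n * (n ^ 2 * Q ^ s) := by gcongr
        _ = (3 * Q ^ s) * n ^ 3 := by ring
    exact Nat.le_of_mul_le_mul_left e (by positivity)
  have c3 : 32 * T ^ 2 * (n * (18 * M)) ≤ n ^ 4 := by
    calc 32 * T ^ 2 * (n * (18 * M)) = (576 * T ^ 2 * M) * n := by ring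
      _ ≤ n ^ 3 * n := Nat.mul_le_mul_right _ c2
      _ = n ^ 4 := by ring
  have c4 : (4 * T * E) ^ 2 ≤ (n ^ 2) ^ 2 := by
    have : 2 * (4 * T * E) ^ 2 ≤ 2 * (n ^ 2) ^ 2 := by
      calc 2 * (4 * T * E) ^ 2 = 32 * T ^ 2 * E ^ 2 := by ring
        _ ≤ 32 * T ^ 2 * (n * (18 * M + 3 * (2 * P ^ 2) * (m * P ^ 3) * n ^ 2)) :=
            Nat.mul_le_mul_left _ h4
        _ = 32 * T ^ 2 * (n * (18 * M))
              + 32 * T ^ 2 * (n * (3 * (2 * P ^ 2) * (m * P ^ 3) * n ^ 2)) := by ring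
        _ ≤ n ^ 4 + n ^ 4 := Nat.add_le_add c3 c1
        _ = 2 * (n ^ 2) ^ 2 := by ring
    omega
  have c5 : 4 * T * E ≤ n ^ 2 := le_of_pow_le_pow_left₀ (by norm_num) (Nat.zero_le _) c4
  have f1 : 4 * (T * d) ≤ 3 * n ^ 2 := by
    calc 4 * (T * d) ≤ 4 * (T * (n * (z1 + z2) + E)) := by gcongr
      _ = n * (4 * T * z1) + n * (4 * T * z2) + 4 * T * E := by ring
      _ ≤ n * n + n * n + n ^ 2 := by gcongr
      _ = 3 * n ^ 2 := by ring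
  have f2 : 0 < n ^ 2 := by positivity
  omega

/-- With `P = 1728 s T`, `R = K = P^2`, `G = P^3`, `m = n / P^7`, `k = n / P^(5s+1)`,
`Q = n / P^2` the bounds of `construct_alt` give a distance below `n^2 / T`, as soon as
`P^((s+2)(5s+7)) N < n^(s+2)` and `1 ≤ N`. -/
theorem params_alt (s T n N : ℕ) (hs : 1 ≤ s) (hT : 1 ≤ T) (hN : 1 ≤ N)
    (hlarge : (1728 * s * T) ^ ((s + 2) * (5 * s + 7)) * N < n ^ (s + 2)) :
    ∃ m G K R k Q : ℕ, 0 < m ∧ 0 < G ∧ 0 < K ∧ 0 < k ∧ n ≤ 2 * R * (m * G * K) ∧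
      ∀ d z1 z2 E M : ℕ,
        d ≤ n * (z1 + z2) + E →
        G * z1 ≤ 2 * n * (2 * R) →
        z2 ≤ (2 * R * (K + 1)) ^ s * (k + N / (2 * m) ^ s / k) →
        E ^ 2 ≤ n * (18 * M + 3 * (2 * R) * (m * G) * n ^ 2) →
        Q ^ s * M ≤ Q ^ s * (s * (m * G * K + Q)) * n ^ 2 + n * N →
        T * d < n ^ 2 := by
  obtain ⟨P, hP⟩ : ∃ P, P = 1728 * s * T := ⟨_, rfl⟩
  rw [← hP] at hlarge
  have hsT : 1 ≤ s * T := Nat.mul_pos hs hT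
  have hP16 : 16 * T ≤ P := by
    rw [hP]
    calc 16 * T ≤ 1728 * 1 * T := by omega
      _ ≤ 1728 * s * T := by gcongr
  have hPpos : 0 < P := by omega
  have hP1 : 1 ≤ P := hPpos
  have hP4 : 4 ≤ P := by omega
  have hP2 : 1728 * s * T ^ 2 ≤ P ^ 2 := by
    rw [hP]
    calc 1728 * s * T ^ 2 = 1728 * s * T ^ 2 * 1 := (mul_one _).symm
      _ ≤ 1728 * s * T ^ 2 * (1728 * s) := Nat.mul_le_mul_left _ (by omega)
      _ = (1728 * s * T) ^ 2 := by ring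
  have hP2' : 1728 * T ^ 2 ≤ P ^ 2 := by
    calc 1728 * T ^ 2 = 1728 * 1 * T ^ 2 := by ring
      _ ≤ 1728 * s * T ^ 2 := by gcongr
      _ ≤ P ^ 2 := hP2
  -- n is large
  have hbig : P ^ (5 * s + 7) < n := by
    have : (P ^ (5 * s + 7)) ^ (s + 2) < n ^ (s + 2) := by
      calc (P ^ (5 * s + 7)) ^ (s + 2) = P ^ ((s + 2) * (5 * s + 7)) * 1 := by
            rw [← pow_mul, mul_one, mul_comm]
        _ ≤ P ^ ((s + 2) * (5 * s + 7)) * N := Nat.mul_le_mul_left _ hN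
        _ < n ^ (s + 2) := hlarge
    exact lt_of_pow_lt_pow_left₀ (s + 2) (Nat.zero_le _) this
  have hnpos : 0 < n := by omega
  have hD1 : P ^ 7 ≤ n :=
    (Nat.pow_le_pow_right hPpos (by omega : 7 ≤ 5 * s + 7)).trans hbig.le
  have hD2 : P ^ (5 * s + 1) ≤ n :=
    (Nat.pow_le_pow_right hPpos (by omega : 5 * s + 1 ≤ 5 * s + 7)).trans hbig.le
  have hD3 : P ^ 2 ≤ n :=
    (Nat.pow_le_pow_right hPpos (by omega : 2 ≤ 5 * s + 7)).trans hbig.le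
  -- a general fact on quotients
  have hquot : ∀ D : ℕ, 0 < D → D ≤ n → 0 < n / D ∧ n / D * D ≤ n ∧ n ≤ 2 * (n / D) * D := by
    intro D hD hDn
    have q1 : 0 < n / D := Nat.div_pos hDn hD
    refine ⟨q1, Nat.div_mul_le_self n D, ?_⟩
    have h1 : n < (n / D + 1) * D := by
      rw [mul_comm]; exact Nat.lt_mul_div_succ n hD
    have h2 : (n / D + 1) * D ≤ 2 * (n / D) * D := by nlinarith
    omega
  obtain ⟨hm, hmD, hmD'⟩ := hquot (P ^ 7) (by positivity) hD1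
  obtain ⟨hk, hkD, hkD'⟩ := hquot (P ^ (5 * s + 1)) (by positivity) hD2
  obtain ⟨hQ, hQD, hQD'⟩ := hquot (P ^ 2) (by positivity) hD3
  obtain ⟨m, hmdef⟩ : ∃ m, m = n / P ^ 7 := ⟨_, rfl⟩
  obtain ⟨k, hkdef⟩ : ∃ k, k = n / P ^ (5 * s + 1) := ⟨_, rfl⟩
  obtain ⟨Q, hQdef⟩ : ∃ Q, Q = n / P ^ 2 := ⟨_, rfl⟩
  rw [← hmdef] at hm hmD hmD'
  rw [← hkdef] at hk hkD hkD'
  rw [← hQdef] at hQ hQD hQD'
  obtain ⟨X, hX⟩ : ∃ X, X = P ^ ((s + 2) * (5 * s + 7)) := ⟨_, rfl⟩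
  rw [← hX] at hlarge
  have hXpos : 0 < X := by rw [hX]; positivity
  have hNmk : N ≤ (2 * m) ^ s * (k * k) := by
    have e1 : n ^ (s + 2) ≤ (2 * m * P ^ 7) ^ s * (2 * k * P ^ (5 * s + 1)) ^ 2 := by
      rw [pow_add]
      exact Nat.mul_le_mul (Nat.pow_le_pow_left hmD' s) (Nat.pow_le_pow_left hkD' 2)
    have e2 : (2 * m * P ^ 7) ^ s * (2 * k * P ^ (5 * s + 1)) ^ 2
        = ((2 * m) ^ s * (k * k)) * (4 * P ^ (17 * s + 2)) := by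
      have : P ^ (17 * s + 2) = (P ^ 7) ^ s * (P ^ (5 * s + 1)) ^ 2 := by
        rw [← pow_mul, ← pow_mul, ← pow_add]
        congr 1
        ring
      rw [this]
      ring
    have e3 : 4 * P ^ (17 * s + 2) ≤ X := by
      calc 4 * P ^ (17 * s + 2) ≤ P * P ^ (17 * s + 2) := Nat.mul_le_mul_right _ hP4
        _ = P ^ (17 * s + 3) := by ring
        _ ≤ P ^ ((s + 2) * (5 * s + 7)) := Nat.pow_le_pow_right hPpos (by nlinarith)
        _ = X := hX.symm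
    have e5 : X * N < X * ((2 * m) ^ s * (k * k)) := by
      calc X * N < n ^ (s + 2) := hlarge
        _ ≤ ((2 * m) ^ s * (k * k)) * (4 * P ^ (17 * s + 2)) := by rw [← e2]; exact e1
        _ ≤ ((2 * m) ^ s * (k * k)) * X := Nat.mul_le_mul_left _ e3
        _ = _ := by ring
    exact (Nat.lt_of_mul_lt_mul_left e5).le
  have hNQ : 1728 * T ^ 2 * N ≤ n ^ 2 * Q ^ s := by
    have e0 : n ≤ Q * P ^ 3 := by
      calc n ≤ 2 * Q * P ^ 2 := hQD'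
        _ = 2 * (Q * P ^ 2) := by ring
        _ ≤ P * (Q * P ^ 2) := Nat.mul_le_mul_right _ (by omega)
        _ = Q * P ^ 3 := by ring
    have e1 : n ^ (s + 2) ≤ (n ^ 2 * Q ^ s) * P ^ (3 * s) := by
      calc n ^ (s + 2) = n ^ 2 * n ^ s := by ring
        _ ≤ n ^ 2 * (Q * P ^ 3) ^ s := Nat.mul_le_mul_left _ (Nat.pow_le_pow_left e0 s)
        _ = (n ^ 2 * Q ^ s) * P ^ (3 * s) := by
            rw [mul_pow, ← pow_mul]
            ring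
    have e3 : P ^ 2 * P ^ (3 * s) ≤ X := by
      calc P ^ 2 * P ^ (3 * s) = P ^ (3 * s + 2) := by ring
        _ ≤ P ^ ((s + 2) * (5 * s + 7)) := Nat.pow_le_pow_right hPpos (by nlinarith)
        _ = X := hX.symm
    have e5 : P ^ (3 * s) * (1728 * T ^ 2 * N) < P ^ (3 * s) * (n ^ 2 * Q ^ s) := by
      calc P ^ (3 * s) * (1728 * T ^ 2 * N) = (1728 * T ^ 2) * (P ^ (3 * s) * N) := by ring
        _ ≤ P ^ 2 * (P ^ (3 * s) * N) := Nat.mul_le_mul_right _ hP2'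
        _ = (P ^ 2 * P ^ (3 * s)) * N := by ring
        _ ≤ X * N := Nat.mul_le_mul_right _ e3
        _ < n ^ (s + 2) := hlarge
        _ ≤ (n ^ 2 * Q ^ s) * P ^ (3 * s) := e1
        _ = _ := by ring
    exact (Nat.lt_of_mul_lt_mul_left e5).le
  refine ⟨m, P ^ 3, P ^ 2, P ^ 2, k, Q, hm, by positivity, by positivity, hk, ?_, ?_⟩
  · calc n ≤ 2 * m * P ^ 7 := hmD'
      _ = 2 * P ^ 2 * (m * P ^ 3 * P ^ 2) := by ring
  · intro d z1 z2 E M h1 h2 h3 h4 h5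
    exact params_alt_aux s T n N m k Q P hT hs hnpos hQ hP16 hP2 hmD hkD hQD hNmk hNQ
      d z1 z2 E M h1 h2 h3 h4 h5

end Vale.Agent.P037
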