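import Mathlib
import Vale.Agent.P037.Defs
import Vale.Agent.P037.BlowCount

/-! P037 task W, part 2: many copies of a pattern force many copies of each of its blow-ups. -/

namespace Vale.Agent.P037

open Finset

/-- many copies of `H0` force, polynomially, many copies of `H` in all large matrices. -/
def Forces {k0 l0 k l : ℕ} (H0 : Fin k0 → Fin l0 → Bool) (H : Fin k → Fin l → Bool) : Prop :=
  ∃ K a : ℕ, 1 ≤ K ∧ ∀ (T n : ℕ) (A : Fin n → Fin n → Bool), 1 ≤ T →
    n ^ (k0 + l0) ≤ T * rcount H0 A → K * T ^ a ≤ n → n ^ (k + l) ≤ K * T ^ a * rcount H A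

variable {k0 l0 k l : ℕ}

theorem forces_refl (H0 : Fin k0 → Fin l0 → Bool) : Forces H0 H0 := by
  refine ⟨1, 1, le_rfl, ?_⟩
  intro T n A _ h _
  simpa using h

theorem forces_dupRow (H0 : Fin k0 → Fin l0 → Bool) (H : Fin (k + 1) → Fin l → Bool)
    (i : Fin (k + 1)) (h : Forces H0 H) : Forces H0 (dupRow H i) := by
  obtain ⟨K, a, hK, hh⟩ := h
  refine ⟨4 * K ^ 2, 2 * a, by nlinarith, ?_⟩
  intro T n A hT h0 hn
  have hX : 1 ≤ K * T ^ a := Nat.mul_pos hK (Nat.pow_pos hT)
  have e : 4 * K ^ 2 * T ^ (2 * a) = 4 * (K * T ^ a) ^ 2 := by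
    rw [pow_mul']
    ring
  rw [e] at hn ⊢
  set X := K * T ^ a with hXdef
  have h1 : 2 * X ≤ n := by nlinarith
  have h2 : X ≤ n := by omega
  exact rcount_dup_step H A i X (hh T n A hT h0 h2) h1

theorem forces_transpose (H0 : Fin k0 → Fin l0 → Bool) (H : Fin k → Fin l → Bool)
    (h : Forces H0 H) : Forces (fun j i => H0 i j) (fun j i => H i j) := by
  obtain ⟨K, a, hK, hh⟩ := h
  refine ⟨K, a, hK, ?_⟩
  intro T n A hT h0 hn
  have h1 := hh T n (fun x y => A y x) hT
  have e1 : rcount H0 (fun x y => A y x) = rcount (fun j i => H0 i j) A :=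
    (rcount_transpose (fun j i => H0 i j) A)
  have e2 : rcount H (fun x y => A y x) = rcount (fun j i => H i j) A :=
    (rcount_transpose (fun j i => H i j) A)
  rw [e1, e2, add_comm k0 l0, add_comm k l] at h1
  exact h1 h0 hn

theorem monotone_surjective_eq_id (ρ : Fin k → Fin k) (hm : Monotone ρ)
    (hs : Function.Surjective ρ) : ρ = id := by
  have hi : Function.Injective ρ := Finite.injective_iff_surjective.2 hs
  have hsm : StrictMono ρ := hm.strictMono_of_injective hi
  exact hsm.eq_id

theorem forces_rows (H0 : Fin k0 → Fin l0 → Bool) {k1 : ℕ} (H1 : Fin k1 → Fin l → Bool)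
    (h : Forces H0 H1) :
    ∀ (s k : ℕ) (ρ : Fin k → Fin k1), k = k1 + s → Monotone ρ → Function.Surjective ρ →
      Forces H0 (fun a b => H1 (ρ a) b) := by
  intro s
  induction s with
  | zero =>
    intro k ρ hk hm hs
    simp only [add_zero] at hk
    subst hk
    have := monotone_surjective_eq_id ρ hm hs
    subst this
    exact h
  | succ s ih =>
    intro k ρ hk hm hs
    obtain ⟨k', rfl⟩ : ∃ k', k = k' + 1 := ⟨k1 + s, by omega⟩
    have hex : ∃ i : Fin k', ρ i.castSucc = ρ i.succ := by
      by_contra hcon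
      push Not at hcon
      have hsm : StrictMono ρ := Fin.strictMono_iff_lt_succ.2
        (fun i => lt_of_le_of_ne (hm (Fin.castSucc_lt_succ (i := i)).le) (hcon i))
      have := Fintype.card_le_of_injective ρ hsm.injective
      simp only [Fintype.card_fin] at this
      omega
    obtain ⟨i, hi⟩ := hex
    obtain ⟨k'', rfl⟩ : ∃ k'', k' = k'' + 1 := ⟨k' - 1, by have := i.2; omega⟩
    have hρ : ∀ a, ρ a = ρ (i.castSucc.succAbove (i.predAbove a)) := by
      intro a
      cases a using Fin.succAboveCases i.castSucc with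
      | x => simp [hi]
      | p j => simp [Fin.predAbove_succAbove]
    have hm' : Monotone (fun j => ρ (i.castSucc.succAbove j)) :=
      hm.comp (Fin.strictMono_succAbove _).monotone
    have hs' : Function.Surjective (fun j => ρ (i.castSucc.succAbove j)) := by
      intro y
      obtain ⟨a, rfl⟩ := hs y
      exact ⟨i.predAbove a, (hρ a).symm⟩
    have h1 := forces_dupRow H0 _ i (ih (k'' + 1) _ (by omega) hm' hs')
    have e : (fun a b => H1 (ρ a) b)
        = dupRow (fun a b => H1 (ρ (i.castSucc.succAbove a)) b) i := by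
      funext a b
      simp only [dupRow]
      rw [← hρ a]
    rw [e]
    exact h1

/-- many copies of a pattern force many copies of each blow-up. -/
theorem forces_blow (H0 : Fin k0 → Fin l0 → Bool) (ρ : Fin k → Fin k0) (κ : Fin l → Fin l0)
    (hρ : Monotone ρ) (hρs : Function.Surjective ρ) (hκ : Monotone κ)
    (hκs : Function.Surjective κ) : Forces H0 (fun a b => H0 (ρ a) (κ b)) := by
  have hk : k0 ≤ k := by
    have := Fintype.card_le_of_surjective ρ hρs
    simpa using this
  have hl : l0 ≤ l := by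
    have := Fintype.card_le_of_surjective κ hκs
    simpa using this
  have h1 : Forces H0 (fun a b => H0 (ρ a) b) :=
    forces_rows H0 H0 (forces_refl H0) (k - k0) k ρ (by omega) hρ hρs
  have h2 := forces_transpose _ _ h1
  have h3 := forces_rows _ _ h2 (l - l0) l κ (by omega) hκ hκs
  exact forces_transpose _ _ h3

end Vale.Agent.P037
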