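import Mathlib
import Vale.Agent.P037.Defs
import Vale.Agent.P037.Sym
import Vale.Agent.P037.Two
import Vale.Agent.P037.BlowCount
import Vale.Agent.P037.BlowInd

/-! P037 task W, part 3: the removal property passes from a pattern to all of its blow-ups. -/

namespace Vale.Agent.P037

open Finset

variable {k0 k : ℕ}

/-- a monotone surjection between finite chains has a strictly monotone section. -/
theorem exists_strictMono_section (ρ : Fin k → Fin k0) (hm : Monotone ρ)
    (hs : Function.Surjective ρ) : ∃ σ : Fin k0 → Fin k, StrictMono σ ∧ ∀ i, ρ (σ i) = i := by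
  refine ⟨Function.surjInv hs, ?_, Function.surjInv_eq hs⟩
  intro i j hij
  by_contra hcon
  have h1 : Function.surjInv hs j ≤ Function.surjInv hs i := not_lt.1 hcon
  have h2 := hm h1
  rw [Function.surjInv_eq hs, Function.surjInv_eq hs] at h2
  exact absurd hij (not_lt.2 h2)

/-- a matrix without copies of `H0` has no copies of a blow-up of `H0`. -/
theorem hfree_blow (H0 : Fin k0 → Fin k0 → Bool) (ρ κ : Fin k → Fin k0)
    (hρ : Monotone ρ) (hρs : Function.Surjective ρ) (hκ : Monotone κ)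
    (hκs : Function.Surjective κ) {n : ℕ} (B : Fin n → Fin n → Bool) (hB : HFree H0 B) :
    HFree (fun a b => H0 (ρ a) (κ b)) B := by
  intro r c hc
  obtain ⟨σ, hσ, hσ'⟩ := exists_strictMono_section ρ hρ hρs
  obtain ⟨τ, hτ, hτ'⟩ := exists_strictMono_section κ hκ hκs
  apply hB (r ∘ σ) (c ∘ τ)
  refine ⟨hc.1.comp hσ, hc.2.1.comp hτ, ?_⟩
  intro i j
  have := hc.2.2 (σ i) (τ j)
  simp only [hσ', hτ'] at this
  exact this

/-- the removal property in a form over the natural numbers. -/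
theorem nat_of_polyRemoval (H0 : Fin k0 → Fin k0 → Bool) (h : PolyRemoval H0) :
    ∃ K a : ℕ, 1 ≤ K ∧ ∀ (T n : ℕ) (A : Fin n → Fin n → Bool), 1 ≤ T →
      (∀ B : Fin n → Fin n → Bool, HFree H0 B → n ^ 2 ≤ T * diffCount A B) →
      n ^ (2 * k0) ≤ K * T ^ a * copyCount H0 A := by
  obtain ⟨c, C, hc, -, hh⟩ := h
  refine ⟨⌈(2 : ℝ) ^ C / c⌉₊ + 1, C, by omega, ?_⟩
  intro T n A hT hfar
  have hTR : (1 : ℝ) ≤ T := by exact_mod_cast hT
  have hTpos : (0 : ℝ) < T := by linarith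
  have hε0 : (0 : ℝ) < 1 / (2 * T) := by positivity
  have hε1 : (1 : ℝ) / (2 * T) < 1 := by
    rw [div_lt_one (by positivity)]
    linarith
  have h1 := hh n (1 / (2 * T)) A hε0 hε1 (by
    intro B hB
    have h2 : ((n : ℝ)) ^ 2 ≤ (T : ℝ) * (diffCount A B : ℝ) := by exact_mod_cast hfar B hB
    have h3 : (0 : ℝ) ≤ (diffCount A B : ℝ) := Nat.cast_nonneg _
    rw [div_mul_eq_mul_div, one_mul, div_le_iff₀ (by positivity)]
    nlinarith)
  have hK : (2 : ℝ) ^ C / c ≤ ((⌈(2 : ℝ) ^ C / c⌉₊ + 1 : ℕ) : ℝ) := by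
    push_cast
    have := Nat.le_ceil ((2 : ℝ) ^ C / c)
    linarith
  have hN : (0 : ℝ) ≤ (copyCount H0 A : ℝ) := Nat.cast_nonneg _
  have h4 : (n : ℝ) ^ (2 * k0) ≤ (2 : ℝ) ^ C / c * (T : ℝ) ^ C * (copyCount H0 A : ℝ) := by
    have e : c * (1 / (2 * (T : ℝ))) ^ C * (n : ℝ) ^ (2 * k0)
        = (n : ℝ) ^ (2 * k0) / ((2 : ℝ) ^ C / c * (T : ℝ) ^ C) := by
      rw [div_pow, mul_pow, one_pow]
      field_simp
    rw [e, div_le_iff₀ (by positivity)] at h1
    linarith
  have h5 : (n : ℝ) ^ (2 * k0)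
      ≤ ((⌈(2 : ℝ) ^ C / c⌉₊ + 1 : ℕ) : ℝ) * (T : ℝ) ^ C * (copyCount H0 A : ℝ) := by
    refine h4.trans ?_
    gcongr
  exact_mod_cast h5

theorem one_le_copyCount_of_copy {n : ℕ} (H : Fin k → Fin k → Bool) (A : Fin n → Fin n → Bool)
    (r c : Fin k → Fin n) (h : IsCopy H A r c) : 1 ≤ copyCount H A := by
  by_contra hcon
  have h0 : copyCount H A = 0 := by omega
  exact hfree_of_copyCount_eq_zero H A h0 r c h

/-- the removal property passes to blow-ups. -/
theorem polyRemoval_blow (H0 : Fin k0 → Fin k0 → Bool) (h0 : PolyRemoval H0)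
    (ρ κ : Fin k → Fin k0) (hρ : Monotone ρ) (hρs : Function.Surjective ρ) (hκ : Monotone κ)
    (hκs : Function.Surjective κ) : PolyRemoval (fun a b => H0 (ρ a) (κ b)) := by
  obtain ⟨K0, a0, hK0, hbase⟩ := nat_of_polyRemoval H0 h0
  obtain ⟨K1, a1, hK1, hforce⟩ := forces_blow H0 ρ κ hρ hρs hκ hκs
  apply polyRemoval_of_nat _ ((K1 * K0 ^ a1) ^ (2 * k + 1)) (a0 * a1 * (2 * k + 1))
  intro T n A hT hfar
  have hfar0 : ∀ B : Fin n → Fin n → Bool, HFree H0 B → n ^ 2 ≤ T * diffCount A B :=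
    fun B hB => hfar B (hfree_blow H0 ρ κ hρ hρs hκ hκs B hB)
  have h1 := hbase T n A hT hfar0
  rw [copyCount_eq_rcount, two_mul] at h1
  have hT0 : 1 ≤ K0 * T ^ a0 := Nat.mul_pos hK0 (Nat.pow_pos hT)
  have h2 := hforce (K0 * T ^ a0) n A hT0 h1
  have e : (K1 * K0 ^ a1) ^ (2 * k + 1) * T ^ (a0 * a1 * (2 * k + 1))
      = (K1 * (K0 * T ^ a0) ^ a1) ^ (2 * k + 1) := by
    rw [mul_pow K0, ← pow_mul, ← mul_assoc, mul_pow _ (T ^ (a0 * a1)), ← pow_mul]
  rw [e]
  set X := K1 * (K0 * T ^ a0) ^ a1 with hX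
  have hX1 : 1 ≤ X := Nat.mul_pos hK1 (Nat.pow_pos hT0)
  rw [copyCount_eq_rcount]
  rcases le_or_gt X n with hXn | hXn
  · have h3 := h2 hXn
    rw [← two_mul] at h3
    refine h3.trans (Nat.mul_le_mul_right _ ?_)
    exact Nat.le_self_pow (by omega) X
  · have hcc : n ^ (2 * k) ≤ X ^ (2 * k) * rcount (fun a b => H0 (ρ a) (κ b)) A := by
      rcases Nat.eq_zero_or_pos n with hn | hn
      · rcases Nat.eq_zero_or_pos k with hk | hk
        · subst hk
          have : 1 ≤ copyCount (fun a b => H0 (ρ a) (κ b)) A :=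
            one_le_copyCount_of_copy _ A (fun i => i.elim0) (fun i => i.elim0)
              ⟨fun i => i.elim0, fun i => i.elim0, fun i => i.elim0⟩
          rw [copyCount_eq_rcount] at this
          simpa using this
        · have h0 : n ^ (2 * k) = 0 := by
            rw [hn]
            exact zero_pow (by omega)
          rw [h0]
          exact Nat.zero_le _
      · have h4 := one_le_copyCount _ T A hn hfar
        rw [copyCount_eq_rcount] at h4
        calc n ^ (2 * k) ≤ X ^ (2 * k) := Nat.pow_le_pow_left hXn.le _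
          _ = X ^ (2 * k) * 1 := (mul_one _).symm
          _ ≤ _ := Nat.mul_le_mul_left _ h4
    refine hcc.trans (Nat.mul_le_mul_right _ ?_)
    exact Nat.pow_le_pow_right hX1 (by omega)

end Vale.Agent.P037
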