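import Mathlib
import Vale.Agent.P037.Defs
import Vale.Agent.P037.Sym
import Vale.Agent.P037.Two
import Vale.Agent.P037.All2
import Vale.Agent.P037.BlowCount
import Vale.Agent.P037.BlowInd
import Vale.Agent.P037.BlowMain
import Vale.Agent.P037.AltBasic
import Vale.Agent.P037.AltAssembly
import Vale.Agent.P037.AltParams
import Vale.Agent.P037.AltBridge

/-! P037 task X, part 6: removal for the alternating patterns and for their blow-ups. -/

namespace Vale.Agent.P037

open Finset

variable {n : ℕ}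

/-- the core statement over the natural numbers. -/
theorem core_nat_alt (s T : ℕ) (hs : 2 ≤ s) (hT : 1 ≤ T) (A : Fin n → Fin n → Bool)
    (hfar : ∀ B : Fin n → Fin n → Bool, AltFree s B → n ^ 2 ≤ T * diffCount A B) :
    n ^ (s + 2) ≤ (1728 * s * T) ^ ((s + 2) * (5 * s + 7)) * NS A s := by
  by_contra hcon
  push Not at hcon
  rcases Nat.eq_zero_or_pos (NS A s) with h0 | hpos
  · have h1 := hfar A (altFree_of_NS_eq_zero A s h0)
    rw [diffCount_same, mul_zero] at h1
    have h2 : n = 0 := by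
      have : n ^ 2 = 0 := Nat.le_zero.1 h1
      exact pow_eq_zero_iff (two_ne_zero) |>.1 this
    have h3 : n ^ (s + 2) = 0 := by rw [h2]; simp
    omega
  · obtain ⟨m, G, K, R, k, Q, hm, hG, hK, hk, hn, hall⟩ :=
      params_alt s T n (NS A s) (by omega) hT hpos hcon
    obtain ⟨B, z1, z2, E, M, hfree, hd, h1, h2, h3, h4⟩ :=
      construct_alt A s m G K R k Q hs hm hG hK hk hn
    have := hall (diffCount A B) z1 z2 E M hd h1 h2 h3 h4
    have h5 := hfar B hfree
    omega

variable {k0 l0 k : ℕ}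

/-- a matrix without copies of the rectangular pattern `H0` has no copies of a blow-up. -/
theorem hfree_blow_rect (H0 : Fin k0 → Fin l0 → Bool) (ρ : Fin k → Fin k0) (κ : Fin k → Fin l0)
    (hρ : Monotone ρ) (hρs : Function.Surjective ρ) (hκ : Monotone κ)
    (hκs : Function.Surjective κ) (B : Fin n → Fin n → Bool) (hB : ∀ r c, ¬ RCopy H0 B r c) :
    HFree (fun a b => H0 (ρ a) (κ b)) B := by
  intro r c hc
  obtain ⟨σ, hσ, hσ'⟩ := exists_strictMono_section ρ hρ hρs
  obtain ⟨τ, hτ, hτ'⟩ := exists_strictMono_section κ hκ hκs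
  apply hB (r ∘ σ) (c ∘ τ)
  refine ⟨hc.1.comp hσ, hc.2.1.comp hτ, ?_⟩
  intro i j
  have := hc.2.2 (σ i) (τ j)
  simp only [hσ', hτ'] at this
  exact this

/-- removal for a rectangular base pattern passes to all square blow-ups. -/
theorem polyRemoval_blow_rect (H0 : Fin k0 → Fin l0 → Bool) (K0 a0 : ℕ) (hK0 : 1 ≤ K0)
    (hbase : ∀ (T n : ℕ) (A : Fin n → Fin n → Bool), 1 ≤ T →
      (∀ B : Fin n → Fin n → Bool, (∀ r c, ¬ RCopy H0 B r c) → n ^ 2 ≤ T * diffCount A B) →
      n ^ (k0 + l0) ≤ K0 * T ^ a0 * rcount H0 A)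
    (ρ : Fin k → Fin k0) (κ : Fin k → Fin l0) (hρ : Monotone ρ) (hρs : Function.Surjective ρ)
    (hκ : Monotone κ) (hκs : Function.Surjective κ) :
    PolyRemoval (fun a b => H0 (ρ a) (κ b)) := by
  obtain ⟨K1, a1, hK1, hforce⟩ := forces_blow H0 ρ κ hρ hρs hκ hκs
  apply polyRemoval_of_nat _ ((K1 * K0 ^ a1) ^ (2 * k + 1)) (a0 * a1 * (2 * k + 1))
  intro T n A hT hfar
  have hfar0 : ∀ B : Fin n → Fin n → Bool, (∀ r c, ¬ RCopy H0 B r c) →
      n ^ 2 ≤ T * diffCount A B :=
    fun B hB => hfar B (hfree_blow_rect H0 ρ κ hρ hρs hκ hκs B hB)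
  have h1 := hbase T n A hT hfar0
  have hT0 : 1 ≤ K0 * T ^ a0 := Nat.mul_pos hK0 (Nat.pow_pos hT)
  have h2 := hforce (K0 * T ^ a0) n A hT0 h1
  have e : (K1 * K0 ^ a1) ^ (2 * k + 1) * T ^ (a0 * a1 * (2 * k + 1))
      = (K1 * (K0 * T ^ a0) ^ a1) ^ (2 * k + 1) := by
    rw [mul_pow K0, ← pow_mul, ← mul_assoc, mul_pow _ (T ^ (a0 * a1)), ← pow_mul]
  rw [e]
  set X := K1 * (K0 * T ^ a0) ^ a1 with hX
  have hX1 : 1 ≤ X := Nat.mul_pos hK1 (Nat.pow_pos hT0)
  rw [copyCount_eq_rcount]
  rcases le_or_gt X n with hXn | hXn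
  · have h3 := h2 hXn
    rw [← two_mul] at h3
    refine h3.trans (Nat.mul_le_mul_right _ ?_)
    exact Nat.le_self_pow (by omega) X
  · have hcc : n ^ (2 * k) ≤ X ^ (2 * k) * rcount (fun a b => H0 (ρ a) (κ b)) A := by
      rcases Nat.eq_zero_or_pos n with hn | hn
      · rcases Nat.eq_zero_or_pos k with hk | hk
        · subst hk
          have : 1 ≤ copyCount (fun a b => H0 (ρ a) (κ b)) A :=
            one_le_copyCount_of_copy _ A (fun i => i.elim0) (fun i => i.elim0)
              ⟨fun i => i.elim0, fun i => i.elim0, fun i => i.elim0⟩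
          rw [copyCount_eq_rcount] at this
          simpa using this
        · have h0 : n ^ (2 * k) = 0 := by
            rw [hn]
            exact zero_pow (by omega)
          rw [h0]
          exact Nat.zero_le _
      · have h4 := one_le_copyCount _ T A hn hfar
        rw [copyCount_eq_rcount] at h4
        calc n ^ (2 * k) ≤ X ^ (2 * k) := Nat.pow_le_pow_left hXn.le _
          _ = X ^ (2 * k) * 1 := (mul_one _).symm
          _ ≤ _ := Nat.mul_le_mul_left _ h4
    refine hcc.trans (Nat.mul_le_mul_right _ ?_)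
    exact Nat.pow_le_pow_right hX1 (by omega)

/-- removal for all square blow-ups of the alternating `s x 2` pattern. -/
theorem polyRemoval_altBlow (s : ℕ) (ρ : Fin k → Fin s) (κ : Fin k → Fin 2)
    (hρ : Monotone ρ) (hρs : Function.Surjective ρ) (hκ : Monotone κ)
    (hκs : Function.Surjective κ) : PolyRemoval (fun a b => altPat s (ρ a) (κ b)) := by
  rcases Nat.lt_or_ge s 2 with hs | hs
  · -- all rows are equal: a blow-up of a `2 x 2` pattern
    have hrow : ∀ a a' : Fin k, ρ a = ρ a' := by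
      intro a a'
      apply Fin.ext
      have := (ρ a).2
      have := (ρ a').2
      omega
    obtain ⟨a0, -⟩ := hκs 0
    have e : (fun a b => altPat s (ρ a) (κ b))
        = (fun a b => (fun (_ : Fin 2) (j : Fin 2) => altPat s (ρ a0) j) (κ a) (κ b)) := by
      funext a b
      simp only
      rw [hrow a a0]
    rw [e]
    exact polyRemoval_blow (fun (_ : Fin 2) (j : Fin 2) => altPat s (ρ a0) j)
      (polyRemoval_all2 _) κ κ hκ hκs hκ hκs
  · refine polyRemoval_blow_rect (altPat s) ((1728 * s) ^ ((s + 2) * (5 * s + 7)))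
      ((s + 2) * (5 * s + 7)) (Nat.pow_pos (by omega)) ?_ ρ κ hρ hρs hκ hκs
    intro T n A hT hfar
    have h1 := core_nat_alt s T hs hT A
      (fun B hB => hfar B (fun r c => not_rcopy_of_altFree B s hB r c))
    rw [← mul_pow]
    exact h1.trans (Nat.mul_le_mul_left _ (NS_le_rcount A s))

end Vale.Agent.P037
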