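import Mathlib
import Vale.Agent.P037.Defs
import Vale.Agent.P037.Basic
import Vale.Agent.P037.Two
import Vale.Agent.P037.BlowCount
import Vale.Agent.P037.AltBasic

/-! P037 task X, part 8: the alternating `s x 1` pattern (a column `1, 0, 1, ...`). -/

namespace Vale.Agent.P037

open Finset

/-- the greedy state: `q` times the current phase plus the number of letters of the current phase
seen so far. -/
def gst (W : ℕ → Bool) (q : ℕ) : ℕ → ℕ
  | 0 => 0
  | (i + 1) => gst W q i + if W i = par (gst W q i / q) then 1 else 0

theorem gst_succ (W : ℕ → Bool) (q i : ℕ) :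
    gst W q (i + 1) = gst W q i + if W i = par (gst W q i / q) then 1 else 0 := rfl

theorem gst_mono (W : ℕ → Bool) (q : ℕ) : Monotone (gst W q) := by
  apply monotone_nat_of_le_succ
  intro i
  rw [gst_succ]
  exact Nat.le_add_right _ _

theorem gst_hit (W : ℕ → Bool) (q N v : ℕ) (hv : v < gst W q N) :
    ∃ i, i < N ∧ gst W q i = v ∧ W i = par (v / q) := by
  induction N with
  | zero => exact absurd hv (by simp [gst])
  | succ N ih =>
    rcases Nat.lt_or_ge v (gst W q N) with h | h
    · obtain ⟨i, hi, h1, h2⟩ := ih h
      exact ⟨i, by omega, h1, h2⟩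
    · rw [gst_succ] at hv
      split_ifs at hv with hW
      · have e : gst W q N = v := by omega
        exact ⟨N, by omega, e, by rw [← e]; exact hW⟩
      · omega

theorem gst_eq_card (W : ℕ → Bool) (q N : ℕ) :
    gst W q N = ((range N).filter (fun i => W i = par (gst W q i / q))).card := by
  induction N with
  | zero => simp [gst]
  | succ N ih =>
    rw [gst_succ, range_add_one, filter_insert]
    split_ifs with h
    · rw [card_insert_of_notMem (by simp), ← ih]
    · rw [← ih, add_zero]

variable {n : ℕ}

/-- the alternating `s x 1` pattern. -/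
def colPat (s : ℕ) : Fin s → Fin 1 → Bool := fun i _ => par i.val

/-- the column `x` of `A` as a sequence. -/
def colW (A : Fin n → Fin n → Bool) (x : Fin n) : ℕ → Bool :=
  fun i => if h : i < n then A ⟨i, h⟩ x else false

theorem colW_val (A : Fin n → Fin n → Bool) (x i : Fin n) : colW A x i.val = A i x := by
  simp [colW, i.2]

/-- the rows `r` show `1, 0, 1, ...` in the column `x`. -/
def ColRows (A : Fin n → Fin n → Bool) (s : ℕ) (x : Fin n) (r : Fin s → Fin n) : Prop :=
  StrictMono r ∧ ∀ a, A (r a) x = par a.val

open Classical in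
/-- number of increasing `s`-tuples of rows showing `1, 0, 1, ...` in the column `x`. -/
noncomputable def invC (A : Fin n → Fin n → Bool) (s : ℕ) (x : Fin n) : ℕ :=
  (univ.filter (fun r : Fin s → Fin n => ColRows A s x r)).card

/-- explicit count of the copies of the alternating column. -/
noncomputable def NC (A : Fin n → Fin n → Bool) (s : ℕ) : ℕ := ∑ x, invC A s x

/-- explicit form of freeness. -/
def ColFree (s : ℕ) (B : Fin n → Fin n → Bool) : Prop :=
  ∀ (r : Fin s → Fin n) (x : Fin n), ¬ ColRows B s x r

theorem prod_card_le_invC (A : Fin n → Fin n → Bool) (s : ℕ) (x : Fin n)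
    (R : Fin s → Finset (Fin n))
    (hlt : ∀ a b : Fin s, a < b → ∀ i ∈ R a, ∀ j ∈ R b, i < j)
    (hshow : ∀ a : Fin s, ∀ i ∈ R a, A i x = par a.val) :
    ∏ a, (R a).card ≤ invC A s x := by
  classical
  rw [← Fintype.card_piFinset]
  unfold invC
  apply card_le_card
  intro r hr
  rw [Fintype.mem_piFinset] at hr
  rw [mem_filter]
  refine ⟨mem_univ _, ?_, fun a => hshow a _ (hr a)⟩
  intro a b hab
  exact hlt a b hab _ (hr a) _ (hr b)

/-- a heavy column has many alternating tuples. -/
theorem pow_le_invC (A : Fin n → Fin n → Bool) (s q : ℕ) (x : Fin n)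
    (h : s * q ≤ gst (colW A x) q n) : q ^ s ≤ invC A s x := by
  classical
  set W := colW A x with hW
  refine le_trans ?_ (prod_card_le_invC A s x
    (fun a => univ.filter (fun i : Fin n => A i x = par a.val ∧ gst W q i.val / q = a.val)) ?_ ?_)
  · calc q ^ s = ∏ _a : Fin s, q := by simp
      _ ≤ _ := prod_le_prod' fun a _ => by
        have hc : (Ico (a.val * q) (a.val * q + q)).card = q := by simp
        refine le_trans hc.symm.le ?_
        apply card_le_card_of_surjOn (fun i : Fin n => gst W q i.val)
        intro v hv
        simp only [coe_Ico, Set.mem_Ico] at hv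
        have h1 : a.val * q + q ≤ s * q := by
          have : (a.val + 1) * q ≤ s * q := Nat.mul_le_mul_right _ a.2
          have e : (a.val + 1) * q = a.val * q + q := by ring
          omega
        obtain ⟨i, hi, h2, h3⟩ := gst_hit W q n v (by omega)
        have hdiv : v / q = a.val := by
          apply Nat.div_eq_of_lt_le
          · exact hv.1
          · have e : (a.val + 1) * q = a.val * q + q := by ring
            omega
        refine ⟨⟨i, hi⟩, ?_, h2⟩
        simp only [coe_filter, mem_univ, true_and, Set.mem_ofPred_eq]
        refine ⟨?_, by rw [h2]; exact hdiv⟩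
        rw [← colW_val A x ⟨i, hi⟩, ← hdiv]
        exact h3
  · intro a b hab i hi j hj
    simp only [mem_filter, mem_univ, true_and] at hi hj
    rw [Fin.lt_def]
    by_contra hcon
    have h2 : gst W q j.val / q ≤ gst W q i.val / q :=
      Nat.div_le_div_right (gst_mono W q (not_lt.1 hcon))
    have := Fin.lt_def.1 hab
    omega
  · intro a i hi
    simp only [mem_filter, mem_univ, true_and] at hi
    exact hi.1

theorem par_ne_of_not (a b : ℕ) (h : (!par a) = par b) : a ≠ b := by
  rintro rfl
  cases hp : par a <;> simp [hp] at h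

/-- the rounded light column has no alternating tuple. -/
theorem light_free (W : ℕ → Bool) (s q : ℕ) (hq : 0 < q) (h : gst W q n < s * q)
    (r : Fin s → Fin n) (hr : StrictMono r)
    (hrow : ∀ a, (!par (gst W q (r a).val / q)) = par a.val) : False := by
  have key : ∀ a : ℕ, ∀ ha : a < s, a + 1 ≤ gst W q (r ⟨a, ha⟩).val / q := by
    intro a
    induction a with
    | zero =>
      intro ha
      have : gst W q (r ⟨0, ha⟩).val / q ≠ 0 := par_ne_of_not _ _ (hrow ⟨0, ha⟩)
      exact Nat.pos_of_ne_zero this
    | succ a ih =>
      intro ha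
      have h1 := ih (by omega)
      have h2 : gst W q (r ⟨a + 1, ha⟩).val / q ≠ a + 1 := par_ne_of_not _ _ (hrow ⟨a + 1, ha⟩)
      have h3 : (r ⟨a, by omega⟩).val ≤ (r ⟨a + 1, ha⟩).val :=
        (Fin.lt_def.1 (hr (Fin.lt_def.2 (by simp)))).le
      have h4 : gst W q (r ⟨a, by omega⟩).val / q ≤ gst W q (r ⟨a + 1, ha⟩).val / q :=
        Nat.div_le_div_right (gst_mono W q h3)
      omega
  rcases Nat.eq_zero_or_pos s with hs | hs
  · subst hs
    omega
  · have h1 := key (s - 1) (by omega)
    have h2 : gst W q (r ⟨s - 1, by omega⟩).val / q ≤ gst W q n / q :=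
      Nat.div_le_div_right (gst_mono W q (r ⟨s - 1, by omega⟩).2.le)
    have h3 : gst W q n / q < s := (Nat.div_lt_iff_lt_mul hq).2 h
    omega

/-- the cost of rounding a column. -/
theorem light_cost (A : Fin n → Fin n → Bool) (q : ℕ) (x : Fin n) :
    (univ.filter (fun i : Fin n => A i x ≠ !par (gst (colW A x) q i.val / q))).card
      ≤ gst (colW A x) q n := by
  rw [gst_eq_card]
  apply card_le_card_of_injOn (fun i : Fin n => i.val)
  · intro i hi
    simp only [coe_filter, mem_univ, true_and, Set.mem_ofPred_eq] at hi
    simp only [coe_filter, mem_range, Set.mem_ofPred_eq]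
    refine ⟨i.2, ?_⟩
    rw [colW_val]
    cases h1 : A i x <;> cases h2 : par (gst (colW A x) q i.val / q) <;> simp_all
  · intro i _ j _ hij
    exact Fin.ext hij

theorem card_filter_prod_col (p : Fin n → Fin n → Prop) [∀ i c, Decidable (p i c)] :
    (univ.filter (fun q : Fin n × Fin n => p q.1 q.2)).card
      = ∑ x : Fin n, (univ.filter (fun i : Fin n => p i x)).card := by
  simp only [card_filter]
  rw [Fintype.sum_prod_type_right]

/-- the construction for the alternating column. -/
theorem construct_col (A : Fin n → Fin n → Bool) (s q : ℕ) (hs : 1 ≤ s) (hq : 0 < q) :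
    ∃ (B : Fin n → Fin n → Bool) (h : ℕ),
      ColFree s B ∧ diffCount A B ≤ h * n + n * (s * q) ∧ h * q ^ s ≤ NC A s := by
  classical
  set Hv : Finset (Fin n) := univ.filter (fun x => s * q ≤ gst (colW A x) q n) with hHv
  set B : Fin n → Fin n → Bool :=
    fun i x => if x ∈ Hv then false else !par (gst (colW A x) q i.val / q) with hB
  refine ⟨B, Hv.card, ?_, ?_, ?_⟩
  · intro r x ⟨hr, hrow⟩
    by_cases hx : x ∈ Hv
    · have h0 := hrow ⟨0, by omega⟩
      simp only [hB, hx, if_true, par] at h0
      exact absurd h0 (by simp)
    · have hlight : gst (colW A x) q n < s * q := by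
        simp only [hHv, mem_filter, mem_univ, true_and, not_le] at hx
        exact hx
      refine light_free (colW A x) s q hq hlight r hr ?_
      intro a
      have := hrow a
      simpa only [hB, hx, if_false] using this
  · unfold diffCount
    rw [card_filter_prod_col (fun i x => A i x ≠ B i x)]
    have hterm : ∀ x : Fin n, (univ.filter (fun i : Fin n => A i x ≠ B i x)).card
        ≤ (if x ∈ Hv then n else 0) + s * q := by
      intro x
      by_cases hx : x ∈ Hv
      · simp only [hx, if_true]
        refine le_trans ((card_filter_le _ _).trans ?_) (Nat.le_add_right _ _)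
        simp
      · have hlight : gst (colW A x) q n < s * q := by
          simp only [hHv, mem_filter, mem_univ, true_and, not_le] at hx
          exact hx
        simp only [hx, if_false, zero_add, hB]
        exact (light_cost A q x).trans hlight.le
    refine (sum_le_sum fun x _ => hterm x).trans ?_
    rw [sum_add_distrib, sum_const, ← sum_filter, sum_const]
    simp
  · unfold NC
    calc Hv.card * q ^ s = ∑ _x ∈ Hv, q ^ s := by rw [sum_const, smul_eq_mul]
      _ ≤ ∑ x ∈ Hv, invC A s x := sum_le_sum fun x hx => by
          simp only [hHv, mem_filter, mem_univ, true_and] at hx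
          exact pow_le_invC A s q x hx
      _ ≤ ∑ x, invC A s x := sum_le_sum_of_subset (subset_univ _)

end Vale.Agent.P037
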