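import Mathlib
import Vale.Agent.P037.Defs
import Vale.Agent.P037.Sym
import Vale.Agent.P037.Two
import Vale.Agent.P037.BlowCount
import Vale.Agent.P037.AltBasic
import Vale.Agent.P037.AltMain
import Vale.Agent.P037.ColAlt

/-! P037 task X, part 9: removal for the alternating column and for its blow-ups. -/

namespace Vale.Agent.P037

open Finset

variable {n : ℕ}

theorem rcopy_col_iff (A : Fin n → Fin n → Bool) (s : ℕ) (r : Fin s → Fin n) (c : Fin 1 → Fin n) :
    RCopy (colPat s) A r c ↔ ColRows A s (c 0) r := by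
  unfold RCopy ColRows colPat
  constructor
  · rintro ⟨h1, -, h3⟩
    exact ⟨h1, fun a => h3 a 0⟩
  · rintro ⟨h1, h3⟩
    refine ⟨h1, Subsingleton.strictMono c, fun i j => ?_⟩
    rw [Subsingleton.elim j 0]
    exact h3 i

theorem NC_le_rcount (A : Fin n → Fin n → Bool) (s : ℕ) : NC A s ≤ rcount (colPat s) A := by
  classical
  unfold NC invC rcount
  rw [← Finset.card_sigma]
  apply Finset.card_le_card_of_injOn (fun t => (t.2, fun _ => t.1))
  · intro t ht
    simp only [coe_sigma, Set.mem_sigma_iff, mem_coe, mem_filter, mem_univ, true_and] at ht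
    simp only [coe_filter, mem_univ, true_and, Set.mem_ofPred_eq]
    rw [rcopy_col_iff]
    exact ht
  · intro t _ t' _ htt'
    simp only [Prod.mk.injEq] at htt'
    obtain ⟨h1, h2⟩ := htt'
    have e0 : t.1 = t'.1 := congrFun h2 0
    obtain ⟨a, r⟩ := t
    obtain ⟨a', r'⟩ := t'
    simp only at e0 h1
    subst e0 h1
    rfl

theorem colFree_of_NC_eq_zero (A : Fin n → Fin n → Bool) (s : ℕ) (h : NC A s = 0) :
    ColFree s A := by
  classical
  intro r x hr
  unfold NC at h
  rw [sum_eq_zero_iff] at h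
  have h1 := h x (mem_univ x)
  unfold invC at h1
  rw [card_eq_zero, filter_eq_empty_iff] at h1
  exact h1 (mem_univ r) hr

theorem not_rcopy_of_colFree (B : Fin n → Fin n → Bool) (s : ℕ) (h : ColFree s B)
    (r : Fin s → Fin n) (c : Fin 1 → Fin n) : ¬ RCopy (colPat s) B r c := by
  intro hc
  rw [rcopy_col_iff] at hc
  exact h r _ hc

/-- the core statement over the natural numbers. -/
theorem core_nat_col (s T : ℕ) (hs : 1 ≤ s) (hT : 1 ≤ T) (A : Fin n → Fin n → Bool)
    (hfar : ∀ B : Fin n → Fin n → Bool, ColFree s B → n ^ 2 ≤ T * diffCount A B) :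
    n ^ (s + 1) ≤ (4 * s * T) ^ (s + 1) * NC A s := by
  rcases Nat.eq_zero_or_pos n with hn0 | hn0
  · have h0 : n ^ (s + 1) = 0 := by rw [hn0]; simp
    rw [h0]
    exact Nat.zero_le _
  obtain ⟨D, hD⟩ : ∃ D, D = 2 * s * T := ⟨_, rfl⟩
  have hDpos : 0 < D := by rw [hD]; positivity
  rcases Nat.lt_or_ge n D with hn | hn
  · have hpos : 1 ≤ NC A s := by
      by_contra hcon
      have h0 : NC A s = 0 := by omega
      have h1 := hfar A (colFree_of_NC_eq_zero A s h0)
      rw [diffCount_same, mul_zero] at h1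
      have : 0 < n ^ 2 := by positivity
      omega
    calc n ^ (s + 1) ≤ (4 * s * T) ^ (s + 1) := by
          apply Nat.pow_le_pow_left
          have : 4 * s * T = 2 * D := by rw [hD]; ring
          omega
      _ = (4 * s * T) ^ (s + 1) * 1 := (mul_one _).symm
      _ ≤ _ := Nat.mul_le_mul_left _ hpos
  · obtain ⟨q, hq⟩ : ∃ q, q = n / D := ⟨_, rfl⟩
    have hqpos : 0 < q := by rw [hq]; exact Nat.div_pos hn hDpos
    have hqD : q * D ≤ n := by rw [hq]; exact Nat.div_mul_le_self n D
    have hqD' : n ≤ 2 * q * D := by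
      have h1 : n < (q + 1) * D := by
        rw [hq, mul_comm]; exact Nat.lt_mul_div_succ n hDpos
      have h2 : (q + 1) * D ≤ 2 * q * D := by nlinarith
      omega
    obtain ⟨B, h, hfree, hd, hN⟩ := construct_col A s q hs hqpos
    have h1 := hfar B hfree
    have h2 : n ^ 2 ≤ T * (h * n + n * (s * q)) := h1.trans (Nat.mul_le_mul_left _ hd)
    have h3 : 2 * (T * (n * (s * q))) ≤ n ^ 2 := by
      calc 2 * (T * (n * (s * q))) = n * (q * (2 * s * T)) := by ring
        _ = n * (q * D) := by rw [hD]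
        _ ≤ n * n := Nat.mul_le_mul_left _ hqD
        _ = n ^ 2 := by ring
    have h4 : n * n ≤ n * (2 * T * h) := by
      have e1 : T * (h * n + n * (s * q)) = T * (h * n) + T * (n * (s * q)) := by ring
      have e2 : n * (2 * T * h) = 2 * (T * (h * n)) := by ring
      have e3 : n * n = n ^ 2 := by ring
      omega
    have h5 : n ≤ 2 * T * h := Nat.le_of_mul_le_mul_left h4 hn0
    calc n ^ (s + 1) = n * n ^ s := by ring
      _ ≤ (2 * T * h) * (2 * q * D) ^ s := Nat.mul_le_mul h5 (Nat.pow_le_pow_left hqD' s)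
      _ = (2 * T) * (4 * s * T) ^ s * (h * q ^ s) := by
          rw [hD]
          have : 2 * q * (2 * s * T) = (4 * s * T) * q := by ring
          rw [this, mul_pow]
          ring
      _ ≤ (4 * s * T) * (4 * s * T) ^ s * (h * q ^ s) := by
          apply Nat.mul_le_mul_right
          apply Nat.mul_le_mul_right
          nlinarith
      _ = (4 * s * T) ^ (s + 1) * (h * q ^ s) := by ring
      _ ≤ _ := Nat.mul_le_mul_left _ hN

variable {k : ℕ}

/-- removal for all square blow-ups of the alternating `s x 1` pattern. -/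
theorem polyRemoval_colBlow (s : ℕ) (hs : 1 ≤ s) (ρ : Fin k → Fin s) (κ : Fin k → Fin 1)
    (hρ : Monotone ρ) (hρs : Function.Surjective ρ) (hκ : Monotone κ)
    (hκs : Function.Surjective κ) : PolyRemoval (fun a b => colPat s (ρ a) (κ b)) := by
  refine polyRemoval_blow_rect (colPat s) ((4 * s) ^ (s + 1)) (s + 1) (Nat.pow_pos (by omega)) ?_
    ρ κ hρ hρs hκ hκs
  intro T n A hT hfar
  have h1 := core_nat_col s T hs hT A
    (fun B hB => hfar B (fun r c => not_rcopy_of_colFree B s hB r c))
  rw [← mul_pow]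
  exact h1.trans (Nat.mul_le_mul_left _ (NC_le_rcount A s))

end Vale.Agent.P037
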