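import Mathlib
import Vale.Agent.P037.Defs
import Vale.Agent.P037.Sym
import Vale.Agent.P037.AltBasic
import Vale.Agent.P037.AltBridge
import Vale.Agent.P037.AltMain
import Vale.Agent.P037.BlowMain
import Vale.Agent.P037.ColAlt
import Vale.Agent.P037.ColMain

/-! P037 task X, part 7: the patterns `H i j = xor (u i) (v j)` with `v` a step vector. -/

namespace Vale.Agent.P037

open Finset

/-- number of changes of the sequence `U` before position `i`. -/
def chg (U : ℕ → Bool) (i : ℕ) : ℕ := ((range i).filter (fun j => U j ≠ U (j + 1))).card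

theorem chg_zero (U : ℕ → Bool) : chg U 0 = 0 := by
  simp [chg]

theorem chg_succ (U : ℕ → Bool) (i : ℕ) :
    chg U (i + 1) = chg U i + if U i ≠ U (i + 1) then 1 else 0 := by
  unfold chg
  rw [range_add_one, filter_insert]
  split_ifs with h
  · rw [card_insert_of_notMem (by simp)]
  · rfl

theorem chg_mono (U : ℕ → Bool) : Monotone (chg U) := by
  apply monotone_nat_of_le_succ
  intro i
  rw [chg_succ]
  exact Nat.le_add_right _ _

theorem par_succ (a : ℕ) : par (a + 1) = !par a := by
  unfold par
  rcases Nat.mod_two_eq_zero_or_one a with h | h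
  · have : (a + 1) % 2 = 1 := by omega
    simp [h, this]
  · have : (a + 1) % 2 = 0 := by omega
    simp [h, this]

theorem val_eq_chg (U : ℕ → Bool) (i : ℕ) : U i = xor (U 0) (!par (chg U i)) := by
  induction i with
  | zero => simp [chg_zero, par]
  | succ i ih =>
    rw [chg_succ]
    split_ifs with h
    · rw [par_succ]
      cases h1 : U (i + 1) <;> cases h2 : U i <;> cases h3 : U 0 <;> cases h4 : par (chg U i) <;>
        simp_all
    · push Not at h
      rw [← h, add_zero]
      exact ih

theorem chg_surj (U : ℕ → Bool) (i t : ℕ) (ht : t ≤ chg U i) : ∃ j, j ≤ i ∧ chg U j = t := by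
  induction i with
  | zero =>
    rw [chg_zero] at ht
    exact ⟨0, le_rfl, by rw [chg_zero]; omega⟩
  | succ i ih =>
    rcases Nat.lt_or_ge (chg U i) t with h | h
    · refine ⟨i + 1, le_rfl, ?_⟩
      have h1 := chg_succ U i
      split_ifs at h1 <;> omega
    · obtain ⟨j, hj, hj'⟩ := ih h
      exact ⟨j, by omega, hj'⟩

variable {k : ℕ}

theorem altPat_eq_xor (s : ℕ) (a : Fin s) (b : Bool) :
    altPat s a (if b then 1 else 0) = xor (par a.val) b := by
  cases b
  · simp [altPat_zero]
  · simp [altPat_one]

/-- `u` arbitrary, `v` monotone and not constant. -/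
theorem polyRemoval_xor_mono (u v : Fin k → Bool) (hv : Monotone v)
    (hne : ∃ j j', v j ≠ v j') : PolyRemoval (fun i j => xor (u i) (v j)) := by
  obtain ⟨j0, j1, hj⟩ := hne
  have hk : 0 < k := Nat.lt_of_le_of_lt (Nat.zero_le _) j0.2
  set U : ℕ → Bool := fun i => if h : i < k then u ⟨i, h⟩ else false with hU
  have hUu : ∀ i : Fin k, U i.val = u i := by
    intro i
    simp [hU, i.2]
  set s := chg U (k - 1) + 1 with hs
  set ρ : Fin k → Fin s := fun i => ⟨chg U i.val, by
    have := chg_mono U (show i.val ≤ k - 1 by have := i.2; omega)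
    omega⟩ with hρdef
  set κ : Fin k → Fin 2 := fun j => if v j then 1 else 0 with hκdef
  have hρ : Monotone ρ := by
    intro a b hab
    rw [Fin.le_def]
    exact chg_mono U hab
  have hρs : Function.Surjective ρ := by
    intro t
    obtain ⟨j, hj1, hj2⟩ := chg_surj U (k - 1) t.val (by have := t.2; omega)
    exact ⟨⟨j, by omega⟩, Fin.ext hj2⟩
  have hκ : Monotone κ := by
    intro a b hab
    have h1 := hv hab
    simp only [hκdef]
    cases ha : v a <;> cases hb : v b
    · simp
    · simp
    · rw [ha, hb] at h1
      exact absurd h1 (by decide)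
    · simp
  have hκs : Function.Surjective κ := by
    have hex : ∀ b : Bool, ∃ j, v j = b := by
      intro b
      cases h0 : v j0 <;> cases h1 : v j1 <;> cases b <;> simp_all
      · exact ⟨j0, h0⟩
      · exact ⟨j1, h1⟩
      · exact ⟨j1, h1⟩
      · exact ⟨j0, h0⟩
    intro t
    fin_cases t
    · obtain ⟨j, hj⟩ := hex false
      exact ⟨j, by simp [hκdef, hj]⟩
    · obtain ⟨j, hj⟩ := hex true
      exact ⟨j, by simp [hκdef, hj]⟩
  have hmain := polyRemoval_altBlow s ρ κ hρ hρs hκ hκs
  have hval : ∀ i j, altPat s (ρ i) (κ j) = xor (par (chg U i.val)) (v j) := by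
    intro i j
    exact altPat_eq_xor s (ρ i) (v j)
  cases h0 : U 0
  · have e : (fun i j => xor (u i) (v j)) = (fun i j => !(altPat s (ρ i) (κ j))) := by
      funext i j
      rw [hval, ← hUu i, val_eq_chg U i.val, h0]
      cases par (chg U i.val) <;> cases v j <;> rfl
    rw [e]
    exact polyRemoval_compl _ hmain
  · have e : (fun i j => xor (u i) (v j)) = (fun i j => altPat s (ρ i) (κ j)) := by
      funext i j
      rw [hval, ← hUu i, val_eq_chg U i.val, h0]
      cases par (chg U i.val) <;> cases v j <;> rfl
    rw [e]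
    exact hmain

/-- `u` arbitrary, `v` monotone or antitone, and not constant. -/
theorem polyRemoval_xor (u v : Fin k → Bool) (hv : Monotone v ∨ Antitone v)
    (hne : ∃ j j', v j ≠ v j') : PolyRemoval (fun i j => xor (u i) (v j)) := by
  rcases hv with hv | hv
  · exact polyRemoval_xor_mono u v hv hne
  · have hv' : Monotone (fun j => !(v j)) := by
      intro a b hab
      have h1 := hv hab
      change (!(v a)) ≤ (!(v b))
      cases ha : v a <;> cases hb : v b
      · simp
      · rw [ha, hb] at h1
        exact absurd h1 (by decide)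
      · simp
      · simp
    obtain ⟨j0, j1, hj⟩ := hne
    have h := polyRemoval_xor_mono u (fun j => !(v j)) hv' ⟨j0, j1, by
      cases h0 : v j0 <;> cases h1 : v j1 <;> simp_all⟩
    have e : (fun i j => xor (u i) (v j)) = (fun i j => !(xor (u i) (!(v j)))) := by
      funext i j
      cases u i <;> cases v j <;> rfl
    rw [e]
    exact polyRemoval_compl _ h

/-- patterns with constant rows. -/
theorem polyRemoval_constRows (u : Fin k → Bool) : PolyRemoval (fun i (_ : Fin k) => u i) := by
  rcases Nat.eq_zero_or_pos k with hk | hk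
  · subst hk
    apply polyRemoval_of_nat _ 1 0
    intro T n A _ _
    have : 1 ≤ copyCount (fun i (_ : Fin 0) => u i) A :=
      one_le_copyCount_of_copy _ A (fun i => i.elim0) (fun i => i.elim0)
        ⟨fun i => i.elim0, fun i => i.elim0, fun i => i.elim0⟩
    simpa using this
  set U : ℕ → Bool := fun i => if h : i < k then u ⟨i, h⟩ else false with hU
  have hUu : ∀ i : Fin k, U i.val = u i := by
    intro i
    simp [hU, i.2]
  set s := chg U (k - 1) + 1 with hs
  set ρ : Fin k → Fin s := fun i => ⟨chg U i.val, by
    have := chg_mono U (show i.val ≤ k - 1 by have := i.2; omega)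
    omega⟩ with hρdef
  set κ : Fin k → Fin 1 := fun _ => 0 with hκdef
  have hρ : Monotone ρ := by
    intro a b hab
    rw [Fin.le_def]
    exact chg_mono U hab
  have hρs : Function.Surjective ρ := by
    intro t
    obtain ⟨j, hj1, hj2⟩ := chg_surj U (k - 1) t.val (by have := t.2; omega)
    exact ⟨⟨j, by omega⟩, Fin.ext hj2⟩
  have hκ : Monotone κ := fun _ _ _ => le_rfl
  have hκs : Function.Surjective κ := fun t => ⟨⟨0, hk⟩, Subsingleton.elim _ _⟩
  have hmain := polyRemoval_colBlow s (by omega) ρ κ hρ hρs hκ hκs
  cases h0 : U 0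
  · have e : (fun i (_ : Fin k) => u i) = (fun i j => !(colPat s (ρ i) (κ j))) := by
      funext i j
      rw [← hUu i, val_eq_chg U i.val, h0]
      simp only [colPat, hρdef]
      cases par (chg U i.val) <;> rfl
    rw [e]
    exact polyRemoval_compl _ hmain
  · have e : (fun i (_ : Fin k) => u i) = (fun i j => colPat s (ρ i) (κ j)) := by
      funext i j
      rw [← hUu i, val_eq_chg U i.val, h0]
      simp only [colPat, hρdef]
      cases par (chg U i.val) <;> rfl
    rw [e]
    exact hmain

/-- `u` arbitrary, `v` monotone or antitone. -/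
theorem polyRemoval_xor_all (u v : Fin k → Bool) (hv : Monotone v ∨ Antitone v) :
    PolyRemoval (fun i j => xor (u i) (v j)) := by
  by_cases hne : ∃ j j', v j ≠ v j'
  · exact polyRemoval_xor u v hv hne
  · push Not at hne
    rcases Nat.eq_zero_or_pos k with hk | hk
    · subst hk
      have e : (fun i j => xor (u i) (v j)) = (fun i (_ : Fin 0) => u i) := by
        funext i
        exact i.elim0
      rw [e]
      exact polyRemoval_constRows u
    · have e : (fun i j => xor (u i) (v j))
          = (fun i (_ : Fin k) => (fun i => xor (u i) (v ⟨0, hk⟩)) i) := by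
        funext i j
        simp only
        rw [hne j ⟨0, hk⟩]
      rw [e]
      exact polyRemoval_constRows (fun i => xor (u i) (v ⟨0, hk⟩))

end Vale.Agent.P037
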