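import Mathlib
import Vale.Agent.P037.Defs
import Vale.Agent.P037.Basic

/-! P037, pattern E = rows 11,10,11: the exact window closure lemma (notes/P037_eae.md, sec. E2). -/

namespace Vale.Agent.P037

open Finset

variable {n : ℕ}

/-- explicit form of freeness from the pattern with rows 11, 10, 11. -/
def EFree (B : Fin n → Fin n → Bool) : Prop :=
  ∀ r1 r2 r3 c1 c2 : Fin n, r1 < r2 → r2 < r3 → c1 < c2 →
    ¬ (B r1 c1 = true ∧ B r1 c2 = true ∧ B r2 c1 = true ∧ B r2 c2 = false ∧
       B r3 c1 = true ∧ B r3 c2 = true)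

/-- the rows in `Smp` form a matrix free of the pattern 11,10,11. -/
def FreeOn3 (M : Fin n → Fin n → Bool) (Smp : Finset (Fin n)) : Prop :=
  ∀ ρ1 ∈ Smp, ∀ ρ2 ∈ Smp, ∀ ρ3 ∈ Smp, ρ1 < ρ2 → ρ2 < ρ3 → ∀ x y : Fin n, x < y →
    M ρ1 x = true → M ρ1 y = true → M ρ2 x = true → M ρ3 x = true → M ρ3 y = true →
    M ρ2 y = true

/-- `x < y` lie together in a sample row of a window before `l` and in one of a window after `l`. -/
def EDir (M : Fin n → Fin n → Bool) (Smp : Finset (Fin n)) (win : Fin n → ℕ) (l : ℕ)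
    (x y : Fin n) : Prop :=
  x < y ∧ (∃ ρ ∈ Smp, win ρ < l ∧ M ρ x = true ∧ M ρ y = true) ∧
    (∃ ρ ∈ Smp, l < win ρ ∧ M ρ x = true ∧ M ρ y = true)

/-- `y` lies on the path that starts in `v` in the window `l`. -/
def ECl (M : Fin n → Fin n → Bool) (Smp : Finset (Fin n)) (win : Fin n → ℕ) (l : ℕ)
    (v y : Fin n) : Prop :=
  y = v ∨ Relation.TransGen (EDir M Smp win l) v y

/-- abstract forest lemma. -/
theorem forest_of_step (D : Fin n → Fin n → Prop) (hlt : ∀ x y, D x y → x < y)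
    (hstep : ∀ s a b, D s a → D s b → a < b → D a b) (s x y : Fin n)
    (hx : Relation.TransGen D s x) (hy : Relation.TransGen D s y) (hxy : x < y) :
    Relation.TransGen D x y := by
  have hle : ∀ a b, Relation.ReflTransGen D a b → a ≤ b := by
    intro a b h
    induction h with
    | refl => exact le_refl _
    | tail _ h ih => exact le_trans ih (le_of_lt (hlt _ _ h))
  induction s using WellFoundedGT.induction with
  | ind s ih =>
    obtain ⟨a, hsa, hax⟩ := Relation.TransGen.head'_iff.mp hx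
    obtain ⟨b, hsb, hby⟩ := Relation.TransGen.head'_iff.mp hy
    have hax_le := hle a x hax
    have hby_le := hle b y hby
    rcases lt_trichotomy a b with h | h | h
    · have hab : D a b := hstep s a b hsa hsb h
      have hay : Relation.TransGen D a y := Relation.TransGen.head' hab hby
      rcases Relation.reflTransGen_iff_eq_or_transGen.mp hax with h1 | h1
      · subst h1; exact hay
      · exact ih a (hlt _ _ hsa) h1 hay
    · subst h
      rcases Relation.reflTransGen_iff_eq_or_transGen.mp hax with h1 | h1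
      · subst h1
        rcases Relation.reflTransGen_iff_eq_or_transGen.mp hby with h2 | h2
        · exact absurd hxy (by rw [h2]; exact lt_irrefl _)
        · exact h2
      · rcases Relation.reflTransGen_iff_eq_or_transGen.mp hby with h2 | h2
        · subst h2
          exact absurd (lt_of_le_of_lt hax_le hxy) (lt_irrefl _)
        · exact ih a (hlt _ _ hsa) h1 h2
    · have hba : D b a := hstep s b a hsb hsa h
      have hbx : Relation.TransGen D b x := Relation.TransGen.head' hba hax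
      rcases Relation.reflTransGen_iff_eq_or_transGen.mp hby with h2 | h2
      · subst h2
        exact absurd (lt_of_lt_of_le h (le_trans hax_le (le_of_lt hxy))) (lt_irrefl _)
      · exact ih b (hlt _ _ hsb) hbx h2

theorem lt_of_win_lt (win : Fin n → ℕ) (hwin : Monotone win) {a b : Fin n}
    (h : win a < win b) : a < b := by
  by_contra hab
  exact absurd (hwin (not_lt.mp hab)) (not_le.mpr h)

/-- (B) basic step. -/
theorem edir_step (M : Fin n → Fin n → Bool) (Smp : Finset (Fin n)) (win : Fin n → ℕ)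
    (hwin : Monotone win) (hfree : FreeOn3 M Smp) (l : ℕ) (s a b : Fin n)
    (ha : EDir M Smp win l s a) (hb : EDir M Smp win l s b) (hab : a < b) :
    EDir M Smp win l a b := by
  obtain ⟨hsa, ⟨σ1, hσ1, hw1, h1s, h1a⟩, ⟨σ2, hσ2, hw2, h2s, h2a⟩⟩ := ha
  obtain ⟨hsb, ⟨τ1, hτ1, hv1, k1s, k1b⟩, ⟨τ2, hτ2, hv2, k2s, k2b⟩⟩ := hb
  have c1 : τ1 < σ2 := lt_of_win_lt win hwin (lt_trans hv1 hw2)
  have c2 : σ1 < τ2 := lt_of_win_lt win hwin (lt_trans hw1 hv2)
  refine ⟨hab, ?_, ?_⟩
  · rcases lt_trichotomy σ1 τ1 with h | h | h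
    · exact ⟨τ1, hτ1, hv1, hfree σ1 hσ1 τ1 hτ1 σ2 hσ2 h c1 s a hsa h1s h1a k1s h2s h2a, k1b⟩
    · subst h; exact ⟨σ1, hσ1, hw1, h1a, k1b⟩
    · exact ⟨σ1, hσ1, hw1, h1a, hfree τ1 hτ1 σ1 hσ1 τ2 hτ2 h c2 s b hsb k1s k1b h1s k2s k2b⟩
  · rcases lt_trichotomy σ2 τ2 with h | h | h
    · exact ⟨σ2, hσ2, hw2, h2a, hfree τ1 hτ1 σ2 hσ2 τ2 hτ2 c1 h s b hsb k1s k1b h2s k2s k2b⟩
    · subst h; exact ⟨σ2, hσ2, hw2, h2a, k2b⟩
    · exact ⟨τ2, hτ2, hv2, hfree σ1 hσ1 τ2 hτ2 σ2 hσ2 c2 h s a hsa h1s h1a k2s h2s h2a, k2b⟩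

/-- (A) the closure stays inside every sample row of the window that contains the start. -/
theorem sample_of_ecl (M : Fin n → Fin n → Bool) (Smp : Finset (Fin n)) (win : Fin n → ℕ)
    (hwin : Monotone win) (hfree : FreeOn3 M Smp) (s : Fin n) (hs : s ∈ Smp) (v y : Fin n)
    (hv : M s v = true) (hy : ECl M Smp win (win s) v y) : M s y = true := by
  rcases hy with h | h
  · rw [h]; exact hv
  · induction h with
    | single h =>
      obtain ⟨hlt, ⟨σ1, hσ1, hw1, h1x, h1y⟩, ⟨σ2, hσ2, hw2, h2x, h2y⟩⟩ := h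
      exact hfree σ1 hσ1 s hs σ2 hσ2 (lt_of_win_lt win hwin hw1) (lt_of_win_lt win hwin hw2)
        _ _ hlt h1x h1y hv h2x h2y
    | tail _ h ih =>
      obtain ⟨hlt, ⟨σ1, hσ1, hw1, h1x, h1y⟩, ⟨σ2, hσ2, hw2, h2x, h2y⟩⟩ := h
      exact hfree σ1 hσ1 s hs σ2 hσ2 (lt_of_win_lt win hwin hw1) (lt_of_win_lt win hwin hw2)
        _ _ hlt h1x h1y ih h2x h2y

/-- two points of one path are joined by a path. -/
theorem ecl_trans (M : Fin n → Fin n → Bool) (Smp : Finset (Fin n)) (win : Fin n → ℕ)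
    (hwin : Monotone win) (hfree : FreeOn3 M Smp) (l : ℕ) (v x y : Fin n)
    (hx : ECl M Smp win l v x) (hy : ECl M Smp win l v y) (hxy : x < y) :
    Relation.TransGen (EDir M Smp win l) x y := by
  have hlt : ∀ a b, EDir M Smp win l a b → a < b := fun a b h => h.1
  have hlt' : ∀ a b, Relation.TransGen (EDir M Smp win l) a b → a < b := by
    intro a b h
    induction h with
    | single h => exact h.1
    | tail _ h ih => exact lt_trans ih h.1
  rcases hx with hx | hx
  · subst hx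
    rcases hy with hy | hy
    · exact absurd hxy (by rw [hy]; exact lt_irrefl _)
    · exact hy
  · rcases hy with hy | hy
    · subst hy
      exact absurd (lt_trans (hlt' _ _ hx) hxy) (lt_irrefl _)
    · exact forest_of_step _ hlt (fun s a b => edir_step M Smp win hwin hfree l s a b) v x y hx hy hxy

/-- (D) the matrix of closures is free of 11,10,11. -/
theorem efree_closure (M : Fin n → Fin n → Bool) (Smp : Finset (Fin n)) (win : Fin n → ℕ)
    (hwin : Monotone win) (hfree : FreeOn3 M Smp) (Act : Fin n → Prop) (st : Fin n → Fin n)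
    (hst : ∀ r, Act r → ∃ s ∈ Smp, win s = win r ∧ M s (st r) = true)
    (B : Fin n → Fin n → Bool)
    (hB : ∀ r y, B r y = true ↔ (Act r ∧ ECl M Smp win (win r) (st r) y)) : EFree B := by
  intro r1 r2 r3 x y h12 h23 hxy ⟨h1x, h1y, h2x, h2y, h3x, h3y⟩
  obtain ⟨a1, e1x⟩ := (hB r1 x).1 h1x
  obtain ⟨_, e1y⟩ := (hB r1 y).1 h1y
  obtain ⟨a2, e2x⟩ := (hB r2 x).1 h2x
  obtain ⟨a3, e3x⟩ := (hB r3 x).1 h3x
  obtain ⟨_, e3y⟩ := (hB r3 y).1 h3y
  have key : Relation.TransGen (EDir M Smp win (win r2)) x y → False := by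
    intro h
    have : ECl M Smp win (win r2) (st r2) y := by
      rcases e2x with e | e
      · right; rw [← e]; exact h
      · right; exact Relation.TransGen.trans e h
    have h2 : B r2 y = true := (hB r2 y).2 ⟨a2, this⟩
    rw [h2y] at h2
    exact absurd h2 (by simp)
  have w12 : win r1 ≤ win r2 := hwin (le_of_lt h12)
  have w23 : win r2 ≤ win r3 := hwin (le_of_lt h23)
  rcases eq_or_lt_of_le w12 with h | h
  · apply key
    rw [← h]
    exact ecl_trans M Smp win hwin hfree _ _ x y e1x e1y hxy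
  · rcases eq_or_lt_of_le w23 with h' | h'
    · apply key
      rw [h']
      exact ecl_trans M Smp win hwin hfree _ _ x y e3x e3y hxy
    · obtain ⟨s1, hs1, hw1, hv1⟩ := hst r1 a1
      obtain ⟨s3, hs3, hw3, hv3⟩ := hst r3 a3
      apply key
      refine Relation.TransGen.single ⟨hxy, ⟨s1, hs1, by rw [hw1]; exact h, ?_, ?_⟩,
        ⟨s3, hs3, by rw [hw3]; exact h', ?_, ?_⟩⟩
      · exact sample_of_ecl M Smp win hwin hfree s1 hs1 _ x hv1 (by rw [hw1]; exact e1x)
      · exact sample_of_ecl M Smp win hwin hfree s1 hs1 _ y hv1 (by rw [hw1]; exact e1y)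
      · exact sample_of_ecl M Smp win hwin hfree s3 hs3 _ x hv3 (by rw [hw3]; exact e3x)
      · exact sample_of_ecl M Smp win hwin hfree s3 hs3 _ y hv3 (by rw [hw3]; exact e3y)

end Vale.Agent.P037
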