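import Mathlib
import Vale.Agent.P037.Defs
import Vale.Agent.P037.Basic
import Vale.Agent.P037.GBasic
import Vale.Agent.P037.GGroups
import Vale.Agent.P037.EClosure

/-!
P037, pattern E = rows 11,10,11: internal definitions.  See notes/P037_eae.md.
-/

namespace Vale.Agent.P037

open Finset

variable {n : ℕ}

/-- increasing triples of rows. -/
def incTriples (n : ℕ) : Finset (Fin n × Fin n × Fin n) :=
  univ.filter (fun t : Fin n × Fin n × Fin n => t.1 < t.2.1 ∧ t.2.1 < t.2.2)

/-- column pairs `x < y` on which the rows `r1, r2, r3` show 11, 10, 11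
(no condition on the order of the rows). -/
def econf (A : Fin n → Fin n → Bool) (r1 r2 r3 : Fin n) : ℕ :=
  (univ.filter (fun p : Fin n × Fin n =>
    p.1 < p.2 ∧ A r1 p.1 = true ∧ A r1 p.2 = true ∧ A r2 p.1 = true ∧ A r2 p.2 = false ∧
      A r3 p.1 = true ∧ A r3 p.2 = true)).card

/-- the same with the first column `x` fixed. -/
def elead (A : Fin n → Fin n → Bool) (x r1 r2 r3 : Fin n) : ℕ :=
  (univ.filter (fun y : Fin n =>
    x < y ∧ A r1 x = true ∧ A r1 y = true ∧ A r2 x = true ∧ A r2 y = false ∧
      A r3 x = true ∧ A r3 y = true)).card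

/-- `elead` for increasing triples, `0` otherwise. -/
def tl (A : Fin n → Fin n → Bool) (x r1 r2 r3 : Fin n) : ℕ :=
  if r1 < r2 ∧ r2 < r3 then elead A x r1 r2 r3 else 0

/-- explicit count of the copies of the pattern 11,10,11. -/
def NE (A : Fin n → Fin n → Bool) : ℕ := ∑ t ∈ incTriples n, econf A t.1 t.2.1 t.2.2

/-- copies whose first column is `x`. -/
def einvx (A : Fin n → Fin n → Bool) (x : Fin n) : ℕ :=
  ∑ t ∈ incTriples n, elead A x t.1 t.2.1 t.2.2

/-- A prepared matrix (as `Prepared`, with the copies of 11,10,11). -/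
structure EPrepared (M : Fin n → Fin n → Bool) (act : Fin n → Bool) (ld : Fin n → Fin n)
    (β h : ℕ) : Prop where
  inactive : ∀ r, act r = false → ∀ y, M r y = false
  lead_one : ∀ r, act r = true → M r (ld r) = true
  lead_min : ∀ r, act r = true → ∀ y, y < ld r → M r y = false
  cell_big : ∀ r, act r = true →
    h ≤ (univ.filter (fun r' : Fin n => act r' = true ∧ ld r' = ld r)).card
  col_good : ∀ x, einvx M x ≤ β

/-- the rows of the cell `c` in the window `l` (windows of length `w`). -/
def egrp (act : Fin n → Bool) (ld : Fin n → Fin n) (w : ℕ) (c : Fin n) (l : ℕ) : Finset (Fin n) :=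
  univ.filter (fun r : Fin n => act r = true ∧ ld r = c ∧ r.val / w = l)

/-- `(c,l)` is a key: the cell `c` has at least `g` rows in the window `l`. -/
def EKey (act : Fin n → Bool) (ld : Fin n → Fin n) (w g : ℕ) (c : Fin n) (l : ℕ) : Prop :=
  g ≤ (egrp act ld w c l).card

instance (act : Fin n → Bool) (ld : Fin n → Fin n) (w g : ℕ) (c : Fin n) (l : ℕ) :
    Decidable (EKey act ld w g c l) := by unfold EKey; infer_instance

/-- the set of keys with window `< L`. -/
def ekeys (act : Fin n → Bool) (ld : Fin n → Fin n) (w g L : ℕ) : Finset (Fin n × ℕ) :=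
  (leaders act ld ×ˢ range L).filter (fun q => EKey act ld w g q.1 q.2)

/-- the previous key window of the cell `c` (the largest key window `< l`; junk if there is none). -/
def pw (act : Fin n → Bool) (ld : Fin n → Fin n) (w g : ℕ) (c : Fin n) (l : ℕ) : ℕ :=
  Nat.findGreatest (fun l' => EKey act ld w g c l') (l - 1)

open Classical in
/-- the next key window of the cell `c` (the smallest key window `> l`; junk if there is none). -/
noncomputable def nw (act : Fin n → Bool) (ld : Fin n → Fin n) (w g : ℕ) (c : Fin n) (l : ℕ) : ℕ :=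
  if h : ∃ l', l < l' ∧ EKey act ld w g c l' then Nat.find h else 0

/-- interior rows: the row lies in a key group, and its cell has an earlier and a later key. -/
def EInterior (act : Fin n → Bool) (ld : Fin n → Fin n) (w g : ℕ) (r : Fin n) : Prop :=
  act r = true ∧ EKey act ld w g (ld r) (r.val / w) ∧
    (∃ l', l' < r.val / w ∧ EKey act ld w g (ld r) l') ∧
    (∃ l', r.val / w < l' ∧ EKey act ld w g (ld r) l')

/-- number of copies with first column `ld ρ` that use the row `ρ`. -/
def eloc (M : Fin n → Fin n → Bool) (ld : Fin n → Fin n) (ρ : Fin n) : ℕ :=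
  ∑ a : Fin n, ∑ b : Fin n,
    (tl M (ld ρ) ρ a b + tl M (ld ρ) a ρ b + tl M (ld ρ) a b ρ)

/-- rows of the cell `c` before the row `r` that contain the column `y`. -/
def bef (M : Fin n → Fin n → Bool) (act : Fin n → Bool) (ld : Fin n → Fin n) (c y r : Fin n) : ℕ :=
  ((cellSet act ld c).filter (fun ρ : Fin n => ρ < r ∧ M ρ y = true)).card

/-- rows of the cell `c` after the row `r` that contain the column `y`. -/
def aft (M : Fin n → Fin n → Bool) (act : Fin n → Bool) (ld : Fin n → Fin n) (c y r : Fin n) : ℕ :=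
  ((cellSet act ld c).filter (fun ρ : Fin n => r < ρ ∧ M ρ y = true)).card

/-- columns `y` of the row `ρ` such that `ρ` is among the first `m` or the last `m` rows of its
cell that contain `y`. -/
def early (M : Fin n → Fin n → Bool) (act : Fin n → Bool) (ld : Fin n → Fin n) (m : ℕ)
    (ρ : Fin n) : ℕ :=
  (univ.filter (fun y : Fin n => M ρ y = true ∧
    (bef M act ld (ld ρ) y ρ < m ∨ aft M act ld (ld ρ) y ρ < m))).card

/-- heavy part of `sd M u v`: at least `m` rows of the cell beyond `v` contain `y`. -/
def hv (M : Fin n → Fin n → Bool) (act : Fin n → Bool) (ld : Fin n → Fin n) (m : ℕ)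
    (c u v : Fin n) : ℕ :=
  (univ.filter (fun y : Fin n => M u y = true ∧ M v y = false ∧
    ((v < u ∧ m ≤ bef M act ld c y v) ∨ (u < v ∧ m ≤ aft M act ld c y v)))).card

/-- light part of `sd M u v`: fewer than `m` rows of the cell beyond `v` contain `y`. -/
def lg (M : Fin n → Fin n → Bool) (act : Fin n → Bool) (ld : Fin n → Fin n) (m : ℕ)
    (c u v : Fin n) : ℕ :=
  (univ.filter (fun y : Fin n => M u y = true ∧ M v y = false ∧
    ((v < u ∧ bef M act ld c y v < m) ∨ (u < v ∧ aft M act ld c y v < m)))).card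

/-- columns whose `m`-th first (or `m`-th last) appearance in the cell lies between `r` and `σ`. -/
def cross (M : Fin n → Fin n → Bool) (act : Fin n → Bool) (ld : Fin n → Fin n) (m : ℕ)
    (c σ r : Fin n) : ℕ :=
  (univ.filter (fun y : Fin n =>
    (r < σ ∧ bef M act ld c y r < m ∧ m ≤ bef M act ld c y σ) ∨
    (σ < r ∧ aft M act ld c y r < m ∧ m ≤ aft M act ld c y σ))).card

/-- a good system of samples `s c l`, one in every key group. -/
structure EGoodSamples (M : Fin n → Fin n → Bool) (act : Fin n → Bool) (ld : Fin n → Fin n)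
    (w g γ Λ m Λ2 : ℕ) (s : Fin n → ℕ → Fin n) : Prop where
  mem : ∀ c l, EKey act ld w g c l → s c l ∈ egrp act ld w c l
  loc_le : ∀ c l, EKey act ld w g c l → eloc M ld (s c l) ≤ Λ
  early_le : ∀ c l, EKey act ld w g c l → early M act ld m (s c l) ≤ Λ2
  conf_le : ∀ c1 l1 c2 l2 c3 l3, EKey act ld w g c1 l1 → EKey act ld w g c2 l2 →
    EKey act ld w g c3 l3 → s c1 l1 < s c2 l2 → s c2 l2 < s c3 l3 →
    econf M (s c1 l1) (s c2 l2) (s c3 l3) ≤ γ

/-- the three samples attached to a row: previous key window, own window, next key window. -/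
def sP (act : Fin n → Bool) (ld : Fin n → Fin n) (w g : ℕ) (s : Fin n → ℕ → Fin n) (r : Fin n) :
    Fin n := s (ld r) (pw act ld w g (ld r) (r.val / w))

def sS (ld : Fin n → Fin n) (w : ℕ) (s : Fin n → ℕ → Fin n) (r : Fin n) : Fin n :=
  s (ld r) (r.val / w)

noncomputable def sQ (act : Fin n → Bool) (ld : Fin n → Fin n) (w g : ℕ) (s : Fin n → ℕ → Fin n)
    (r : Fin n) : Fin n := s (ld r) (nw act ld w g (ld r) (r.val / w))

open Classical in
/-- the finite set of interior rows. -/
noncomputable def eint (act : Fin n → Bool) (ld : Fin n → Fin n) (w g : ℕ) : Finset (Fin n) :=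
  univ.filter (fun r : Fin n => EInterior act ld w g r)

theorem mem_eint (act : Fin n → Bool) (ld : Fin n → Fin n) (w g : ℕ) (r : Fin n) :
    r ∈ eint act ld w g ↔ EInterior act ld w g r := by
  simp [eint]

end Vale.Agent.P037
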