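import Mathlib
import Vale.Agent.P037.EBasic

/-! P037, pattern E (rows 11,10,11): windows, key groups, interior rows.  See notes/P037_eae.md. -/

namespace Vale.Agent.P037

open Finset

variable {n : ℕ}

/-- EG1. a window has at most `w` rows. -/
theorem window_card_le (w l : ℕ) (hw : 0 < w) :
    (univ.filter (fun r : Fin n => r.val / w = l)).card ≤ w := by
  have h1 : (univ.filter (fun r : Fin n => r.val / w = l)).card
      ≤ (Finset.Ico (l * w) (l * w + w)).card := by
    refine Finset.card_le_card_of_injOn (fun r : Fin n => r.val) ?_ ?_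
    · intro r hr
      have hr' : r.val / w = l := by simpa using hr
      have h2 : l * w ≤ r.val := by
        rw [← hr']; exact Nat.div_mul_le_self _ _
      have h3 : r.val < l * w + w := by
        have h4 : r.val < (r.val / w + 1) * w := by
          have := Nat.lt_div_mul_add (a := r.val) hw
          nlinarith
        rw [hr'] at h4
        nlinarith
      simp only [Finset.coe_Ico, Set.mem_Ico]
      exact ⟨h2, h3⟩
    · intro a _ b _ hab
      exact Fin.ext hab
  simpa using h1

theorem mem_egrp (act : Fin n → Bool) (ld : Fin n → Fin n) (w : ℕ) (c : Fin n) (l : ℕ)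
    (r : Fin n) : r ∈ egrp act ld w c l ↔ act r = true ∧ ld r = c ∧ r.val / w = l := by
  simp [egrp]

theorem egrp_card_le (act : Fin n → Bool) (ld : Fin n → Fin n) (w : ℕ) (hw : 0 < w) (c : Fin n)
    (l : ℕ) : (egrp act ld w c l).card ≤ w := by
  refine le_trans (Finset.card_le_card ?_) (window_card_le (n := n) w l hw)
  intro r hr
  rw [mem_egrp] at hr
  simp [hr.2.2]

/-- EG1. rows of an earlier window come earlier. -/
theorem lt_of_div_lt (w : ℕ) (a b : Fin n) (h : a.val / w < b.val / w) : a < b := by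
  by_contra hc
  have hc' : b.val ≤ a.val := by
    have : b ≤ a := not_lt.mp hc
    exact this
  have := Nat.div_le_div_right (c := w) hc'
  omega

/-- EG1. -/
theorem div_mono (w : ℕ) : Monotone (fun r : Fin n => r.val / w) := by
  intro a b hab
  exact Nat.div_le_div_right (c := w) hab

/-- EG2. the previous key window. -/
theorem pw_spec (act : Fin n → Bool) (ld : Fin n → Fin n) (w g : ℕ) (c : Fin n) (l : ℕ)
    (h : ∃ l', l' < l ∧ EKey act ld w g c l') :
    pw act ld w g c l < l ∧ EKey act ld w g c (pw act ld w g c l) ∧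
      ∀ l', pw act ld w g c l < l' → l' < l → ¬ EKey act ld w g c l' := by
  obtain ⟨l', hl', hk⟩ := h
  have hle : l' ≤ l - 1 := by omega
  refine ⟨?_, ?_, ?_⟩
  · have := Nat.findGreatest_le (P := fun l' => EKey act ld w g c l') (l - 1)
    unfold pw
    omega
  · exact Nat.findGreatest_spec (P := fun l' => EKey act ld w g c l') hle hk
  · intro l'' h1 h2
    exact Nat.findGreatest_is_greatest (P := fun l' => EKey act ld w g c l') h1 (by omega)

/-- EG2. the next key window. -/
theorem nw_spec (act : Fin n → Bool) (ld : Fin n → Fin n) (w g : ℕ) (c : Fin n) (l : ℕ)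
    (h : ∃ l', l < l' ∧ EKey act ld w g c l') :
    l < nw act ld w g c l ∧ EKey act ld w g c (nw act ld w g c l) ∧
      ∀ l', l < l' → l' < nw act ld w g c l → ¬ EKey act ld w g c l' := by
  classical
  have e : nw act ld w g c l = Nat.find h := by
    unfold nw
    rw [dif_pos h]
  rw [e]
  refine ⟨(Nat.find_spec h).1, (Nat.find_spec h).2, ?_⟩
  intro l' h1 h2 hk
  exact Nat.find_min h h2 ⟨h1, hk⟩

/-- EG3. copy of `leaders_card_le` (only `cell_big` is used). -/
theorem eleaders_card_le (M : Fin n → Fin n → Bool) (act : Fin n → Bool) (ld : Fin n → Fin n)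
    (β h : ℕ) (hh : 0 < h) (hP : EPrepared M act ld β h) : (leaders act ld).card ≤ n / h := by
  rw [Nat.le_div_iff_mul_le hh]
  have h1 : ((leaders act ld).biUnion (fun c => cellSet act ld c)).card
      = ∑ c ∈ leaders act ld, (cellSet act ld c).card :=
    Finset.card_biUnion (cellSet_pairwiseDisjoint act ld _)
  have h2 : ∑ _c ∈ leaders act ld, h ≤ ∑ c ∈ leaders act ld, (cellSet act ld c).card := by
    apply Finset.sum_le_sum
    intro c hc
    unfold leaders at hc
    rw [mem_filter] at hc
    obtain ⟨r, hr⟩ := hc.2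
    rw [mem_cellSet] at hr
    have := hP.cell_big r hr.1
    rw [hr.2] at this
    exact this
  rw [Finset.sum_const, smul_eq_mul] at h2
  have h3 := Finset.card_le_univ ((leaders act ld).biUnion (fun c => cellSet act ld c))
  rw [Fintype.card_fin] at h3
  omega

/-- EG3. every key is in the finite set `ekeys`. -/
theorem mem_ekeys (act : Fin n → Bool) (ld : Fin n → Fin n) (w g L : ℕ) (hw : 0 < w) (hg : 0 < g)
    (hn : n ≤ L * w) (c : Fin n) (l : ℕ) :
    (c, l) ∈ ekeys act ld w g L ↔ EKey act ld w g c l := by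
  unfold ekeys
  rw [mem_filter, mem_product, mem_range]
  refine ⟨fun hh => hh.2, fun hk => ⟨?_, hk⟩⟩
  have hpos : 0 < (egrp act ld w c l).card := lt_of_lt_of_le hg hk
  obtain ⟨r, hr⟩ := Finset.card_pos.1 hpos
  rw [mem_egrp] at hr
  refine ⟨?_, ?_⟩
  · unfold leaders
    rw [mem_filter]
    exact ⟨mem_univ _, ⟨r, (mem_cellSet act ld c r).2 ⟨hr.1, hr.2.1⟩⟩⟩
  · show l < L
    rw [← hr.2.2]
    apply Nat.div_lt_of_lt_mul
    have := r.isLt
    calc r.val < n := this
      _ ≤ L * w := hn
      _ = w * L := Nat.mul_comm _ _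

/-- EG3. -/
theorem ekeys_card_le (M : Fin n → Fin n → Bool) (act : Fin n → Bool) (ld : Fin n → Fin n)
    (β h w g L : ℕ) (hh : 0 < h) (hP : EPrepared M act ld β h) :
    (ekeys act ld w g L).card ≤ (n / h) * L := by
  unfold ekeys
  calc ((leaders act ld ×ˢ range L).filter (fun q => EKey act ld w g q.1 q.2)).card
      ≤ (leaders act ld ×ˢ range L).card := Finset.card_filter_le _ _
    _ = (leaders act ld).card * L := by rw [Finset.card_product, Finset.card_range]
    _ ≤ (n / h) * L := Nat.mul_le_mul_right _ (eleaders_card_le M act ld β h hh hP)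

/-- EG3. a sum over active rows, cell by cell. -/
theorem sum_act_le (M : Fin n → Fin n → Bool) (act : Fin n → Bool) (ld : Fin n → Fin n)
    (β h : ℕ) (hh : 0 < h) (hP : EPrepared M act ld β h) (I : Finset (Fin n))
    (hI : ∀ r ∈ I, act r = true) (F : Fin n → ℕ) (X : ℕ)
    (hX : ∀ c, ∑ r ∈ I.filter (fun r => ld r = c), F r ≤ X) :
    ∑ r ∈ I, F r ≤ (n / h) * X := by
  have hmaps : ∀ r ∈ I, ld r ∈ leaders act ld := by
    intro r hr
    unfold leaders
    rw [mem_filter]
    exact ⟨mem_univ _, ⟨r, (mem_cellSet act ld (ld r) r).2 ⟨hI r hr, rfl⟩⟩⟩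
  rw [← Finset.sum_fiberwise_of_maps_to hmaps F]
  calc ∑ c ∈ leaders act ld, ∑ r ∈ I.filter (fun r => ld r = c), F r
      ≤ ∑ _c ∈ leaders act ld, X := Finset.sum_le_sum (fun c _ => hX c)
    _ = (leaders act ld).card * X := by rw [Finset.sum_const, smul_eq_mul]
    _ ≤ (n / h) * X := Nat.mul_le_mul_right _ (eleaders_card_le M act ld β h hh hP)

/-- EG4. the rows of a cell in windows that are not key windows
(`< g` rows in each of the `≤ L` windows). -/
theorem nonkey_card_le (act : Fin n → Bool) (ld : Fin n → Fin n) (w g L : ℕ) (hw : 0 < w)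
    (hn : n ≤ L * w) (c : Fin n) :
    ((cellSet act ld c).filter (fun ρ : Fin n => ¬ EKey act ld w g c (ρ.val / w))).card
      ≤ L * g := by
  have hsub : (cellSet act ld c).filter (fun ρ : Fin n => ¬ EKey act ld w g c (ρ.val / w)) ⊆
      ((range L).filter (fun l => ¬ EKey act ld w g c l)).biUnion
        (fun l => egrp act ld w c l) := by
    intro ρ hρ
    rw [Finset.mem_filter, mem_cellSet] at hρ
    rw [Finset.mem_biUnion]
    refine ⟨ρ.val / w, ?_, ?_⟩
    · rw [Finset.mem_filter, Finset.mem_range]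
      refine ⟨?_, hρ.2⟩
      rw [Nat.div_lt_iff_lt_mul hw]
      exact lt_of_lt_of_le ρ.isLt hn
    · rw [mem_egrp]
      exact ⟨hρ.1.1, hρ.1.2, rfl⟩
  refine le_trans (Finset.card_le_card hsub) (le_trans Finset.card_biUnion_le ?_)
  have h1 : ∑ l ∈ (range L).filter (fun l => ¬ EKey act ld w g c l), (egrp act ld w c l).card
      ≤ ∑ _l ∈ (range L).filter (fun l => ¬ EKey act ld w g c l), g := by
    apply Finset.sum_le_sum
    intro l hl
    rw [Finset.mem_filter] at hl
    have := hl.2
    unfold EKey at this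
    omega
  refine le_trans h1 ?_
  rw [Finset.sum_const, smul_eq_mul]
  apply Nat.mul_le_mul_right
  exact le_trans (Finset.card_filter_le _ _) (by rw [Finset.card_range])

/-- EG4. the rows of a cell between two consecutive key windows. -/
theorem between_card_le (act : Fin n → Bool) (ld : Fin n → Fin n) (w g L : ℕ) (hw : 0 < w)
    (hn : n ≤ L * w) (c : Fin n) (l1 l2 : ℕ)
    (hno : ∀ l', l1 < l' → l' < l2 → ¬ EKey act ld w g c l') :
    ((cellSet act ld c).filter (fun ρ : Fin n => l1 ≤ ρ.val / w ∧ ρ.val / w ≤ l2)).card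
      ≤ 2 * w + L * g := by
  have hsub : (cellSet act ld c).filter (fun ρ : Fin n => l1 ≤ ρ.val / w ∧ ρ.val / w ≤ l2) ⊆
      (egrp act ld w c l1 ∪ egrp act ld w c l2) ∪
        (cellSet act ld c).filter (fun ρ : Fin n => ¬ EKey act ld w g c (ρ.val / w)) := by
    intro ρ hρ
    rw [Finset.mem_filter] at hρ
    have hc := (mem_cellSet act ld c ρ).1 hρ.1
    rw [Finset.mem_union, Finset.mem_union, mem_egrp, mem_egrp, Finset.mem_filter]
    rcases Nat.eq_or_lt_of_le hρ.2.1 with h1 | h1
    · exact Or.inl (Or.inl ⟨hc.1, hc.2, h1.symm⟩)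
    · rcases Nat.eq_or_lt_of_le hρ.2.2 with h2 | h2
      · exact Or.inl (Or.inr ⟨hc.1, hc.2, h2⟩)
      · exact Or.inr ⟨hρ.1, hno _ h1 h2⟩
  have h1 := Finset.card_le_card hsub
  have h2 := Finset.card_union_le (egrp act ld w c l1 ∪ egrp act ld w c l2)
    ((cellSet act ld c).filter (fun ρ : Fin n => ¬ EKey act ld w g c (ρ.val / w)))
  have h3 := Finset.card_union_le (egrp act ld w c l1) (egrp act ld w c l2)
  have h4 := egrp_card_le act ld w hw c l1
  have h5 := egrp_card_le act ld w hw c l2
  have h6 := nonkey_card_le act ld w g L hw hn c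
  omega

/-- EG5. active rows that are not interior: in every cell the rows in windows that are not key
(`≤ L g`), the rows of the first key window and of the last key window (`≤ w` each). -/
theorem not_eint_card_le (M : Fin n → Fin n → Bool) (act : Fin n → Bool) (ld : Fin n → Fin n)
    (β h w g L : ℕ) (hh : 0 < h) (hw : 0 < w) (hn : n ≤ L * w) (hP : EPrepared M act ld β h) :
    (univ.filter (fun r : Fin n => act r = true ∧ r ∉ eint act ld w g)).card
      ≤ (n / h) * (L * g + 2 * w) := by
  classical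
  obtain ⟨I, hI⟩ : ∃ I : Finset (Fin n),
      I = univ.filter (fun r : Fin n => act r = true ∧ r ∉ eint act ld w g) := ⟨_, rfl⟩
  have key : ∀ c, ∑ r ∈ I.filter (fun r => ld r = c), (fun _ : Fin n => 1) r ≤ L * g + 2 * w := by
    intro c
    rw [Finset.sum_const, smul_eq_mul, mul_one]
    obtain ⟨N, hN⟩ : ∃ N : Finset (Fin n), N = (cellSet act ld c).filter
        (fun ρ : Fin n => ¬ EKey act ld w g c (ρ.val / w)) := ⟨_, rfl⟩
    obtain ⟨Fi, hFi⟩ : ∃ N : Finset (Fin n), N = (cellSet act ld c).filter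
        (fun ρ : Fin n => EKey act ld w g c (ρ.val / w) ∧
          ¬ ∃ l', l' < ρ.val / w ∧ EKey act ld w g c l') := ⟨_, rfl⟩
    obtain ⟨La, hLa⟩ : ∃ N : Finset (Fin n), N = (cellSet act ld c).filter
        (fun ρ : Fin n => EKey act ld w g c (ρ.val / w) ∧
          ¬ ∃ l', ρ.val / w < l' ∧ EKey act ld w g c l') := ⟨_, rfl⟩
    have hsub : I.filter (fun r => ld r = c) ⊆ N ∪ (Fi ∪ La) := by
      intro r hr
      rw [Finset.mem_filter, hI, Finset.mem_filter, mem_eint] at hr
      obtain ⟨⟨-, hact, hnot⟩, hld⟩ := hr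
      have hcell : r ∈ cellSet act ld c := by
        rw [mem_cellSet]
        exact ⟨hact, hld⟩
      rw [Finset.mem_union, Finset.mem_union, hN, hFi, hLa, Finset.mem_filter, Finset.mem_filter,
        Finset.mem_filter]
      by_cases h1 : EKey act ld w g c (r.val / w)
      · by_cases h2 : ∃ l', l' < r.val / w ∧ EKey act ld w g c l'
        · by_cases h3 : ∃ l', r.val / w < l' ∧ EKey act ld w g c l'
          · exfalso
            apply hnot
            refine ⟨hact, ?_, ?_, ?_⟩
            · rw [hld]; exact h1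
            · rw [hld]; exact h2
            · rw [hld]; exact h3
          · exact Or.inr (Or.inr ⟨hcell, h1, h3⟩)
        · exact Or.inr (Or.inl ⟨hcell, h1, h2⟩)
      · exact Or.inl ⟨hcell, h1⟩
    have cN : N.card ≤ L * g := by
      rw [hN]
      exact nonkey_card_le act ld w g L hw hn c
    have cFi : Fi.card ≤ w := by
      rcases Fi.eq_empty_or_nonempty with h0 | ⟨r0, hr0⟩
      · rw [h0]; simp
      · refine le_trans (Finset.card_le_card ?_) (egrp_card_le act ld w hw c (r0.val / w))
        intro ρ hρ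
        rw [hFi, Finset.mem_filter, mem_cellSet] at hr0 hρ
        rw [mem_egrp]
        refine ⟨hρ.1.1, hρ.1.2, ?_⟩
        rcases lt_trichotomy (ρ.val / w) (r0.val / w) with h' | h' | h'
        · exact absurd ⟨_, h', hρ.2.1⟩ hr0.2.2
        · exact h'
        · exact absurd ⟨_, h', hr0.2.1⟩ hρ.2.2
    have cLa : La.card ≤ w := by
      rcases La.eq_empty_or_nonempty with h0 | ⟨r0, hr0⟩
      · rw [h0]; simp
      · refine le_trans (Finset.card_le_card ?_) (egrp_card_le act ld w hw c (r0.val / w))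
        intro ρ hρ
        rw [hLa, Finset.mem_filter, mem_cellSet] at hr0 hρ
        rw [mem_egrp]
        refine ⟨hρ.1.1, hρ.1.2, ?_⟩
        rcases lt_trichotomy (ρ.val / w) (r0.val / w) with h' | h' | h'
        · exact absurd ⟨_, h', hr0.2.1⟩ hρ.2.2
        · exact h'
        · exact absurd ⟨_, h', hρ.2.1⟩ hr0.2.2
    calc (I.filter (fun r => ld r = c)).card ≤ (N ∪ (Fi ∪ La)).card := Finset.card_le_card hsub
      _ ≤ N.card + (Fi ∪ La).card := Finset.card_union_le _ _
      _ ≤ N.card + (Fi.card + La.card) := Nat.add_le_add_left (Finset.card_union_le _ _) _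
      _ ≤ L * g + 2 * w := by omega
  have hfin := sum_act_le M act ld β h hh hP I (by
    intro r hr
    rw [hI, Finset.mem_filter] at hr
    exact hr.2.1) (fun _ => 1) _ key
  rw [Finset.sum_const, smul_eq_mul, mul_one, hI] at hfin
  exact hfin

/-- EG6. all facts on the three samples of an interior row. -/
theorem eint_facts (M : Fin n → Fin n → Bool) (act : Fin n → Bool) (ld : Fin n → Fin n)
    (w g γ Λ m Λ2 : ℕ) (s : Fin n → ℕ → Fin n) (hS : EGoodSamples M act ld w g γ Λ m Λ2 s)
    (r : Fin n) (hr : r ∈ eint act ld w g) :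
    act r = true ∧
    EKey act ld w g (ld r) (pw act ld w g (ld r) (r.val / w)) ∧
    EKey act ld w g (ld r) (r.val / w) ∧
    EKey act ld w g (ld r) (nw act ld w g (ld r) (r.val / w)) ∧
    sP act ld w g s r ∈ cellSet act ld (ld r) ∧ sS ld w s r ∈ cellSet act ld (ld r) ∧
    sQ act ld w g s r ∈ cellSet act ld (ld r) ∧
    (sP act ld w g s r).val / w = pw act ld w g (ld r) (r.val / w) ∧
    (sS ld w s r).val / w = r.val / w ∧
    (sQ act ld w g s r).val / w = nw act ld w g (ld r) (r.val / w) ∧
    pw act ld w g (ld r) (r.val / w) < r.val / w ∧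
    r.val / w < nw act ld w g (ld r) (r.val / w) ∧
    sP act ld w g s r < r ∧ r < sQ act ld w g s r := by
  rw [mem_eint] at hr
  obtain ⟨ha, hk, hp, hq⟩ := hr
  obtain ⟨p1, p2, _⟩ := pw_spec act ld w g (ld r) (r.val / w) hp
  obtain ⟨q1, q2, _⟩ := nw_spec act ld w g (ld r) (r.val / w) hq
  have mP := hS.mem _ _ p2
  have mS := hS.mem _ _ hk
  have mQ := hS.mem _ _ q2
  rw [mem_egrp] at mP mS mQ
  have cP : sP act ld w g s r ∈ cellSet act ld (ld r) := by
    simp only [cellSet, sP, Finset.mem_filter, Finset.mem_univ, true_and]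
    exact ⟨mP.1, mP.2.1⟩
  have cS : sS ld w s r ∈ cellSet act ld (ld r) := by
    simp only [cellSet, sS, Finset.mem_filter, Finset.mem_univ, true_and]
    exact ⟨mS.1, mS.2.1⟩
  have cQ : sQ act ld w g s r ∈ cellSet act ld (ld r) := by
    simp only [cellSet, sQ, Finset.mem_filter, Finset.mem_univ, true_and]
    exact ⟨mQ.1, mQ.2.1⟩
  have dP : (sP act ld w g s r).val / w = pw act ld w g (ld r) (r.val / w) := mP.2.2
  have dS : (sS ld w s r).val / w = r.val / w := mS.2.2
  have dQ : (sQ act ld w g s r).val / w = nw act ld w g (ld r) (r.val / w) := mQ.2.2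
  refine ⟨ha, p2, hk, q2, cP, cS, cQ, dP, dS, dQ, p1, q1, ?_, ?_⟩
  · apply lt_of_div_lt w
    rw [dP]; exact p1
  · apply lt_of_div_lt w
    rw [dQ]; exact q1

/-- EG6. few rows of the cell lie between an interior row and any of its three samples. -/
theorem eint_between (M : Fin n → Fin n → Bool) (act : Fin n → Bool) (ld : Fin n → Fin n)
    (w g L γ Λ m Λ2 : ℕ) (hw : 0 < w) (hn : n ≤ L * w) (s : Fin n → ℕ → Fin n)
    (hS : EGoodSamples M act ld w g γ Λ m Λ2 s) (r : Fin n) (hr : r ∈ eint act ld w g)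
    (τ : Fin n)
    (hτ : τ = sP act ld w g s r ∨ τ = sS ld w s r ∨ τ = sQ act ld w g s r) :
    ((cellSet act ld (ld r)).filter
      (fun ρ : Fin n => (τ ≤ ρ ∧ ρ ≤ r) ∨ (r ≤ ρ ∧ ρ ≤ τ))).card ≤ 2 * w + L * g := by
  have hf := eint_facts M act ld w g γ Λ m Λ2 s hS r hr
  obtain ⟨ha, kP, kS, kQ, cP, cS, cQ, dP, dS, dQ, lP, lQ, ltP, ltQ⟩ := hf
  rw [mem_eint] at hr
  obtain ⟨_, hk, hp, hq⟩ := hr
  obtain ⟨_, _, p3⟩ := pw_spec act ld w g (ld r) (r.val / w) hp
  obtain ⟨_, _, q3⟩ := nw_spec act ld w g (ld r) (r.val / w) hq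
  have hmono := div_mono (n := n) w
  rcases hτ with h | h | h
  · refine le_trans (Finset.card_le_card ?_)
      (between_card_le act ld w g L hw hn (ld r) (pw act ld w g (ld r) (r.val / w)) (r.val / w) p3)
    intro ρ hρ
    rw [Finset.mem_filter] at hρ ⊢
    refine ⟨hρ.1, ?_⟩
    rcases hρ.2 with ⟨h1, h2⟩ | ⟨h1, h2⟩
    · have a1 := hmono h1
      have a2 := hmono h2
      simp only at a1 a2
      rw [h, dP] at a1
      exact ⟨a1, a2⟩
    · exfalso
      rw [h] at h2
      exact absurd (lt_of_le_of_lt (le_trans h1 h2) ltP) (lt_irrefl _)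
  · refine le_trans (Finset.card_le_card ?_)
      (between_card_le act ld w g L hw hn (ld r) (r.val / w) (r.val / w) ?_)
    · intro ρ hρ
      rw [Finset.mem_filter] at hρ ⊢
      refine ⟨hρ.1, ?_⟩
      rcases hρ.2 with ⟨h1, h2⟩ | ⟨h1, h2⟩
      · have a1 := hmono h1
        have a2 := hmono h2
        simp only at a1 a2
        rw [h, dS] at a1
        exact ⟨a1, a2⟩
      · have a1 := hmono h1
        have a2 := hmono h2
        simp only at a1 a2
        rw [h, dS] at a2
        exact ⟨a1, a2⟩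
    · intro l' h1 h2
      omega
  · refine le_trans (Finset.card_le_card ?_)
      (between_card_le act ld w g L hw hn (ld r) (r.val / w) (nw act ld w g (ld r) (r.val / w)) q3)
    intro ρ hρ
    rw [Finset.mem_filter] at hρ ⊢
    refine ⟨hρ.1, ?_⟩
    rcases hρ.2 with ⟨h1, h2⟩ | ⟨h1, h2⟩
    · exfalso
      rw [h] at h1
      exact absurd (lt_of_lt_of_le ltQ (le_trans h1 h2)) (lt_irrefl _)
    · have a1 := hmono h1
      have a2 := hmono h2
      simp only at a1 a2
      rw [h, dQ] at a2
      exact ⟨a1, a2⟩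

end Vale.Agent.P037
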