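import Mathlib
import Vale.Agent.P037.EBasic
import Vale.Agent.P037.EGroups

/-! P037, pattern E: the robust cost lemma and its counting (notes/P037_eae.md, sec. E6').
`sd M u v ≤ hv + lg`;  `m * hv` is paid by copies on the columns `(c, y)`;
`lg` is paid by `early` and `cross`. -/

namespace Vale.Agent.P037

open Finset

variable {n : ℕ}

/-- EK1. -/
theorem sd_le_hv_add_lg (M : Fin n → Fin n → Bool) (act : Fin n → Bool) (ld : Fin n → Fin n)
    (m : ℕ) (c u v : Fin n) : sd M u v ≤ hv M act ld m c u v + lg M act ld m c u v := by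
  unfold sd hv lg
  refine le_trans (card_le_card ?_) (card_union_le _ _)
  intro y hy
  obtain ⟨h1, h2⟩ := (mem_filter.mp hy).2
  have hne : u ≠ v := by
    rintro rfl
    rw [h1] at h2
    exact absurd h2 (by simp)
  rw [mem_union, mem_filter, mem_filter]
  rcases lt_or_gt_of_ne hne with h | h
  · rcases lt_or_ge (aft M act ld c y v) m with h' | h'
    · exact Or.inr ⟨mem_univ _, h1, h2, Or.inr ⟨h, h'⟩⟩
    · exact Or.inl ⟨mem_univ _, h1, h2, Or.inr ⟨h, h'⟩⟩
  · rcases lt_or_ge (bef M act ld c y v) m with h' | h'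
    · exact Or.inr ⟨mem_univ _, h1, h2, Or.inl ⟨h, h'⟩⟩
    · exact Or.inl ⟨mem_univ _, h1, h2, Or.inl ⟨h, h'⟩⟩

private theorem cell_col_lt (M : Fin n → Fin n → Bool) (act : Fin n → Bool) (ld : Fin n → Fin n)
    (β h : ℕ) (hP : EPrepared M act ld β h) (c u v y : Fin n)
    (hu : u ∈ cellSet act ld c) (hv' : v ∈ cellSet act ld c)
    (h1 : M u y = true) (h2 : M v y = false) : c < y := by
  obtain ⟨hua, huc⟩ := (mem_filter.mp hu).2
  obtain ⟨hva, hvc⟩ := (mem_filter.mp hv').2
  have hvc1 : M v c = true := by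
    have := hP.lead_one v hva
    rwa [hvc] at this
  have hne : y ≠ c := by
    rintro rfl
    rw [hvc1] at h2
    exact absurd h2 (by simp)
  have hnlt : ¬ y < c := by
    intro hlt
    have := hP.lead_min u hua y (by rw [huc]; exact hlt)
    rw [h1] at this
    exact absurd this (by simp)
  exact lt_of_le_of_ne (not_lt.mp hnlt) (Ne.symm hne)

private theorem cell_lead (M : Fin n → Fin n → Bool) (act : Fin n → Bool) (ld : Fin n → Fin n)
    (β h : ℕ) (hP : EPrepared M act ld β h) (c u : Fin n) (hu : u ∈ cellSet act ld c) :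
    M u c = true := by
  obtain ⟨hua, huc⟩ := (mem_filter.mp hu).2
  have := hP.lead_one u hua
  rwa [huc] at this

/-- EK1. if `v < u`: every `y` counted by `hv` has at least `m` rows `ρ < v` of the cell with
`M ρ y = true`, and `(ρ, v, u)` shows 11,10,11 on `(c, y)` (`c < y` by `lead_one`, `lead_min`).
Double counting.  `u < v` is symmetric. -/
theorem hv_mul_le (M : Fin n → Fin n → Bool) (act : Fin n → Bool) (ld : Fin n → Fin n)
    (β h : ℕ) (hP : EPrepared M act ld β h) (m : ℕ) (c u v : Fin n)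
    (hu : u ∈ cellSet act ld c) (hv' : v ∈ cellSet act ld c) :
    m * hv M act ld m c u v ≤ ∑ ρ, (tl M c ρ v u + tl M c u v ρ) := by
  set HV : Finset (Fin n) := univ.filter (fun y : Fin n => M u y = true ∧ M v y = false ∧
    ((v < u ∧ m ≤ bef M act ld c y v) ∨ (u < v ∧ m ≤ aft M act ld c y v))) with hHV
  have hhv : hv M act ld m c u v = HV.card := rfl
  rw [hhv]
  have huc := cell_lead M act ld β h hP c u hu
  have hvc := cell_lead M act ld β h hP c v hv'
  rcases lt_trichotomy v u with hlt | heq | hlt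
  · have s1 : m * HV.card ≤ ∑ y ∈ HV, bef M act ld c y v := by
      rw [mul_comm, ← smul_eq_mul]
      apply card_nsmul_le_sum
      intro y hy
      rcases (mem_filter.mp hy).2.2.2 with h' | h'
      · exact h'.2
      · exact absurd h'.1 (not_lt.mpr hlt.le)
    have s2 : ∑ y ∈ HV, bef M act ld c y v =
        ∑ ρ ∈ cellSet act ld c, (HV.filter (fun y => ρ < v ∧ M ρ y = true)).card :=
      sum_card_bipartiteAbove_eq_sum_card_bipartiteBelow (fun y ρ => ρ < v ∧ M ρ y = true)
    have s3 : ∑ ρ ∈ cellSet act ld c, (HV.filter (fun y => ρ < v ∧ M ρ y = true)).card ≤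
        ∑ ρ ∈ cellSet act ld c, (tl M c ρ v u + tl M c u v ρ) := by
      refine sum_le_sum fun ρ hρ => ?_
      refine le_trans ?_ (Nat.le_add_right _ _)
      by_cases hρv : ρ < v
      · unfold tl
        rw [if_pos ⟨hρv, hlt⟩]
        unfold elead
        refine card_le_card ?_
        intro y hy
        obtain ⟨hy1, _, hy2⟩ := mem_filter.mp hy
        obtain ⟨_, g1, g2, _⟩ := mem_filter.mp hy1
        exact mem_filter.mpr ⟨mem_univ _, cell_col_lt M act ld β h hP c u v y hu hv' g1 g2,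
          cell_lead M act ld β h hP c ρ hρ, hy2, hvc, g2, huc, g1⟩
      · have : HV.filter (fun y => ρ < v ∧ M ρ y = true) = ∅ :=
          filter_eq_empty_iff.mpr fun y _ hy => hρv hy.1
        rw [this]
        simp
    exact s1.trans (s2.le.trans (s3.trans (sum_le_sum_of_subset (subset_univ _))))
  · have : HV = ∅ := by
      apply filter_eq_empty_iff.mpr
      intro y _ hy
      rcases hy.2.2 with h' | h'
      · exact absurd h'.1 (by rw [heq]; exact lt_irrefl _)
      · exact absurd h'.1 (by rw [heq]; exact lt_irrefl _)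
    rw [this]
    simp
  · have s1 : m * HV.card ≤ ∑ y ∈ HV, aft M act ld c y v := by
      rw [mul_comm, ← smul_eq_mul]
      apply card_nsmul_le_sum
      intro y hy
      rcases (mem_filter.mp hy).2.2.2 with h' | h'
      · exact absurd h'.1 (not_lt.mpr hlt.le)
      · exact h'.2
    have s2 : ∑ y ∈ HV, aft M act ld c y v =
        ∑ ρ ∈ cellSet act ld c, (HV.filter (fun y => v < ρ ∧ M ρ y = true)).card :=
      sum_card_bipartiteAbove_eq_sum_card_bipartiteBelow (fun y ρ => v < ρ ∧ M ρ y = true)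
    have s3 : ∑ ρ ∈ cellSet act ld c, (HV.filter (fun y => v < ρ ∧ M ρ y = true)).card ≤
        ∑ ρ ∈ cellSet act ld c, (tl M c ρ v u + tl M c u v ρ) := by
      refine sum_le_sum fun ρ hρ => ?_
      refine le_trans ?_ (Nat.le_add_left _ _)
      by_cases hρv : v < ρ
      · unfold tl
        rw [if_pos ⟨hlt, hρv⟩]
        unfold elead
        refine card_le_card ?_
        intro y hy
        obtain ⟨hy1, _, hy2⟩ := mem_filter.mp hy
        obtain ⟨_, g1, g2, _⟩ := mem_filter.mp hy1
        exact mem_filter.mpr ⟨mem_univ _, cell_col_lt M act ld β h hP c u v y hu hv' g1 g2,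
          huc, g1, hvc, g2, cell_lead M act ld β h hP c ρ hρ, hy2⟩
      · have : HV.filter (fun y => v < ρ ∧ M ρ y = true) = ∅ :=
          filter_eq_empty_iff.mpr fun y _ hy => hρv hy.1
        rw [this]
        simp
    exact s1.trans (s2.le.trans (s3.trans (sum_le_sum_of_subset (subset_univ _))))

/-- EK2. -/
theorem sum_hv_left_le (M : Fin n → Fin n → Bool) (act : Fin n → Bool) (ld : Fin n → Fin n)
    (β h : ℕ) (hP : EPrepared M act ld β h) (m : ℕ) (c τ : Fin n)
    (hτ : τ ∈ cellSet act ld c) :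
    m * ∑ r ∈ cellSet act ld c, hv M act ld m c r τ ≤ 2 * eloc M ld τ := by
  have hc : ld τ = c := by
    have := hτ
    simp only [cellSet, mem_filter, mem_univ, true_and] at this
    exact this.2
  have h1 : m * ∑ r ∈ cellSet act ld c, hv M act ld m c r τ
      ≤ ∑ r : Fin n, ∑ ρ : Fin n, (tl M c ρ τ r + tl M c r τ ρ) := by
    rw [Finset.mul_sum]
    calc ∑ r ∈ cellSet act ld c, m * hv M act ld m c r τ
        ≤ ∑ r ∈ cellSet act ld c, ∑ ρ : Fin n, (tl M c ρ τ r + tl M c r τ ρ) :=
          Finset.sum_le_sum (fun r hr => hv_mul_le M act ld β h hP m c r τ hr hτ)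
      _ ≤ ∑ r : Fin n, ∑ ρ : Fin n, (tl M c ρ τ r + tl M c r τ ρ) :=
          Finset.sum_le_sum_of_subset (Finset.subset_univ _)
  have h2 : ∑ r : Fin n, ∑ ρ : Fin n, (tl M c ρ τ r + tl M c r τ ρ)
      = 2 * ∑ a : Fin n, ∑ b : Fin n, tl M c a τ b := by
    simp only [Finset.sum_add_distrib]
    rw [Finset.sum_comm]
    ring
  have h3 : ∑ a : Fin n, ∑ b : Fin n, tl M c a τ b ≤ eloc M ld τ := by
    unfold eloc
    rw [hc]
    exact Finset.sum_le_sum (fun a _ => Finset.sum_le_sum (fun b _ => by omega))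
  omega

/-- EK2. -/
theorem sum_hv_right_le (M : Fin n → Fin n → Bool) (act : Fin n → Bool) (ld : Fin n → Fin n)
    (β h : ℕ) (hP : EPrepared M act ld β h) (m : ℕ) (c τ : Fin n)
    (hτ : τ ∈ cellSet act ld c) :
    m * ∑ r ∈ cellSet act ld c, hv M act ld m c τ r ≤ 2 * eloc M ld τ := by
  have hc : ld τ = c := by
    have := hτ
    simp only [cellSet, mem_filter, mem_univ, true_and] at this
    exact this.2
  have h1 : m * ∑ r ∈ cellSet act ld c, hv M act ld m c τ r
      ≤ ∑ r : Fin n, ∑ ρ : Fin n, (tl M c ρ r τ + tl M c τ r ρ) := by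
    rw [Finset.mul_sum]
    calc ∑ r ∈ cellSet act ld c, m * hv M act ld m c τ r
        ≤ ∑ r ∈ cellSet act ld c, ∑ ρ : Fin n, (tl M c ρ r τ + tl M c τ r ρ) :=
          Finset.sum_le_sum (fun r hr => hv_mul_le M act ld β h hP m c τ r hτ hr)
      _ ≤ ∑ r : Fin n, ∑ ρ : Fin n, (tl M c ρ r τ + tl M c τ r ρ) :=
          Finset.sum_le_sum_of_subset (Finset.subset_univ _)
  have h2 : ∑ r : Fin n, ∑ ρ : Fin n, (tl M c ρ r τ + tl M c τ r ρ)
      = ∑ a : Fin n, ∑ b : Fin n, tl M c a b τ + ∑ a : Fin n, ∑ b : Fin n, tl M c τ a b := by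
    simp only [Finset.sum_add_distrib]
    rw [Finset.sum_comm]
  have h3 : ∑ a : Fin n, ∑ b : Fin n, tl M c a b τ ≤ eloc M ld τ := by
    unfold eloc
    rw [hc]
    exact Finset.sum_le_sum (fun a _ => Finset.sum_le_sum (fun b _ => by omega))
  have h4 : ∑ a : Fin n, ∑ b : Fin n, tl M c τ a b ≤ eloc M ld τ := by
    unfold eloc
    rw [hc]
    exact Finset.sum_le_sum (fun a _ => Finset.sum_le_sum (fun b _ => by omega))
  omega

/-- EK3. a sum over rows, each with a sample of its own cell, grouped by the key of the sample. -/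
theorem sum_by_key (act : Fin n → Bool) (ld : Fin n → Fin n) (w g L : ℕ)
    (s : Fin n → ℕ → Fin n) (F : Fin n → Fin n → ℕ) (κ : Fin n → ℕ) (I : Finset (Fin n)) (X : ℕ)
    (hI : ∀ r ∈ I, act r = true ∧ (ld r, κ r) ∈ ekeys act ld w g L)
    (hX : ∀ q ∈ ekeys act ld w g L, ∑ r ∈ cellSet act ld q.1, F r (s q.1 q.2) ≤ X) :
    ∑ r ∈ I, F r (s (ld r) (κ r)) ≤ (ekeys act ld w g L).card * X := by
  have h1 := Finset.sum_fiberwise_of_maps_to (s := I) (t := ekeys act ld w g L)
    (g := fun r => (ld r, κ r)) (fun r hr => (hI r hr).2) (fun r => F r (s (ld r) (κ r)))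
  rw [← h1, ← smul_eq_mul, ← Finset.sum_const]
  refine Finset.sum_le_sum (fun q hq => le_trans ?_ (hX q hq))
  calc ∑ r ∈ I with (ld r, κ r) = q, F r (s (ld r) (κ r))
      = ∑ r ∈ I with (ld r, κ r) = q, F r (s q.1 q.2) := by
        refine Finset.sum_congr rfl (fun r hr => ?_)
        have := (Finset.mem_filter.mp hr).2
        rw [← this]
    _ ≤ ∑ r ∈ cellSet act ld q.1, F r (s q.1 q.2) := by
        refine Finset.sum_le_sum_of_subset (fun r hr => ?_)
        have h2 := Finset.mem_filter.mp hr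
        simp only [cellSet, mem_filter, mem_univ, true_and]
        refine ⟨(hI r h2.1).1, ?_⟩
        rw [← h2.2]

/-- EK4. `bef` is injective on the rows of the cell that contain `y`. -/
theorem card_bef_lt_le (M : Fin n → Fin n → Bool) (act : Fin n → Bool) (ld : Fin n → Fin n)
    (c y : Fin n) (m : ℕ) :
    ((cellSet act ld c).filter (fun ρ : Fin n => M ρ y = true ∧ bef M act ld c y ρ < m)).card
      ≤ m := by
  have key : ∀ a b : Fin n, a ∈ cellSet act ld c → M a y = true → a < b →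
      bef M act ld c y a < bef M act ld c y b := by
    intro a b ha hM hlt
    unfold bef
    apply Finset.card_lt_card
    rw [Finset.ssubset_iff_of_subset]
    · exact ⟨a, by simp [ha, hM, hlt], by simp⟩
    · intro ρ hρ
      simp only [Finset.mem_filter] at hρ ⊢
      exact ⟨hρ.1, lt_trans hρ.2.1 hlt, hρ.2.2⟩
  have hinj : Set.InjOn (fun ρ => bef M act ld c y ρ)
      ((cellSet act ld c).filter
        (fun ρ : Fin n => M ρ y = true ∧ bef M act ld c y ρ < m) : Finset (Fin n)) := by
    intro a ha b hb hab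
    simp only [Finset.coe_filter, Set.mem_ofPred_eq] at ha hb
    by_contra hne
    rcases lt_or_gt_of_ne hne with h | h
    · exact absurd hab (ne_of_lt (key a b ha.1 ha.2.1 h))
    · exact absurd hab.symm (ne_of_lt (key b a hb.1 hb.2.1 h))
  calc _ ≤ (Finset.range m).card :=
        Finset.card_le_card_of_injOn _ (fun ρ hρ => by
          simp only [Finset.coe_filter, Set.mem_ofPred_eq] at hρ
          simpa using hρ.2.2) hinj
    _ = m := Finset.card_range m

/-- EK4. -/
theorem card_aft_lt_le (M : Fin n → Fin n → Bool) (act : Fin n → Bool) (ld : Fin n → Fin n)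
    (c y : Fin n) (m : ℕ) :
    ((cellSet act ld c).filter (fun ρ : Fin n => M ρ y = true ∧ aft M act ld c y ρ < m)).card
      ≤ m := by
  have key : ∀ a b : Fin n, b ∈ cellSet act ld c → M b y = true → a < b →
      aft M act ld c y b < aft M act ld c y a := by
    intro a b hb hM hlt
    unfold aft
    apply Finset.card_lt_card
    rw [Finset.ssubset_iff_of_subset]
    · exact ⟨b, by simp [hb, hM, hlt], by simp⟩
    · intro ρ hρ
      simp only [Finset.mem_filter] at hρ ⊢
      exact ⟨hρ.1, lt_trans hlt hρ.2.1, hρ.2.2⟩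
  have hinj : Set.InjOn (fun ρ => aft M act ld c y ρ)
      ((cellSet act ld c).filter
        (fun ρ : Fin n => M ρ y = true ∧ aft M act ld c y ρ < m) : Finset (Fin n)) := by
    intro a ha b hb hab
    simp only [Finset.coe_filter, Set.mem_ofPred_eq] at ha hb
    by_contra hne
    rcases lt_or_gt_of_ne hne with h | h
    · exact absurd hab.symm (ne_of_lt (key a b hb.1 hb.2.1 h))
    · exact absurd hab (ne_of_lt (key b a ha.1 ha.2.1 h))
  calc _ ≤ (Finset.range m).card :=
        Finset.card_le_card_of_injOn _ (fun ρ hρ => by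
          simp only [Finset.coe_filter, Set.mem_ofPred_eq] at hρ
          simpa using hρ.2.2) hinj
    _ = m := Finset.card_range m

/-- EK4. -/
theorem sum_early_cell_le (M : Fin n → Fin n → Bool) (act : Fin n → Bool) (ld : Fin n → Fin n)
    (m : ℕ) (c : Fin n) : ∑ ρ ∈ cellSet act ld c, early M act ld m ρ ≤ 2 * m * n := by
  have h1 : ∑ ρ ∈ cellSet act ld c, early M act ld m ρ
      = ∑ ρ ∈ cellSet act ld c, ∑ y : Fin n, if (M ρ y = true ∧
        (bef M act ld c y ρ < m ∨ aft M act ld c y ρ < m)) then 1 else 0 := by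
    refine Finset.sum_congr rfl fun ρ hρ => ?_
    have hc : ld ρ = c := ((mem_cellSet act ld c ρ).1 hρ).2
    rw [early, hc, Finset.card_filter]
  rw [h1, Finset.sum_comm]
  have h2 : ∀ y : Fin n, (∑ ρ ∈ cellSet act ld c, if (M ρ y = true ∧
        (bef M act ld c y ρ < m ∨ aft M act ld c y ρ < m)) then 1 else 0) ≤ 2 * m := by
    intro y
    rw [← Finset.card_filter]
    have hsub : (cellSet act ld c).filter (fun ρ => M ρ y = true ∧
        (bef M act ld c y ρ < m ∨ aft M act ld c y ρ < m))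
        ⊆ (cellSet act ld c).filter (fun ρ : Fin n => M ρ y = true ∧ bef M act ld c y ρ < m)
          ∪ (cellSet act ld c).filter (fun ρ : Fin n => M ρ y = true ∧ aft M act ld c y ρ < m) := by
      intro ρ hρ
      simp only [Finset.mem_filter, Finset.mem_union] at hρ ⊢
      rcases hρ.2.2 with h | h
      · exact Or.inl ⟨hρ.1, hρ.2.1, h⟩
      · exact Or.inr ⟨hρ.1, hρ.2.1, h⟩
    have := Finset.card_le_card hsub
    have h3 := Finset.card_union_le
      ((cellSet act ld c).filter (fun ρ : Fin n => M ρ y = true ∧ bef M act ld c y ρ < m))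
      ((cellSet act ld c).filter (fun ρ : Fin n => M ρ y = true ∧ aft M act ld c y ρ < m))
    have h4 := card_bef_lt_le M act ld c y m
    have h5 := card_aft_lt_le M act ld c y m
    omega
  calc _ ≤ ∑ _y : Fin n, 2 * m := Finset.sum_le_sum fun y _ => h2 y
    _ = 2 * m * n := by simp [mul_comm]

/-- EK4. (use `sum_act_le`.) -/
theorem sum_early_le (M : Fin n → Fin n → Bool) (act : Fin n → Bool) (ld : Fin n → Fin n)
    (β h : ℕ) (hh : 0 < h) (hP : EPrepared M act ld β h) (m : ℕ) (I : Finset (Fin n))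
    (hI : ∀ r ∈ I, act r = true) :
    ∑ ρ ∈ I, early M act ld m ρ ≤ (n / h) * (2 * m * n) := by
  refine sum_act_le M act ld β h hh hP I hI (fun ρ => early M act ld m ρ) (2 * m * n) ?_
  intro c
  refine le_trans (Finset.sum_le_sum_of_subset ?_) (sum_early_cell_le M act ld m c)
  intro r hr
  simp only [Finset.mem_filter] at hr
  exact (mem_cellSet act ld c r).2 ⟨hI r hr.1, hr.2⟩

/-- EK5. `bef c y r ≤ bef c y τ + #{ρ in the cell, τ ≤ ρ < r}`. -/
theorem lg_le_early (M : Fin n → Fin n → Bool) (act : Fin n → Bool) (ld : Fin n → Fin n)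
    (m D : ℕ) (c r τ : Fin n) (hr : r ∈ cellSet act ld c)
    (hD : ((cellSet act ld c).filter
      (fun ρ : Fin n => (τ ≤ ρ ∧ ρ ≤ r) ∨ (r ≤ ρ ∧ ρ ≤ τ))).card ≤ D) :
    lg M act ld m c r τ ≤ early M act ld (m + D) r := by
  rw [mem_cellSet] at hr
  obtain ⟨_, hc⟩ := hr
  unfold lg early
  apply Finset.card_le_card
  intro y hy
  rw [Finset.mem_filter] at hy ⊢
  obtain ⟨_, h1, _, h3⟩ := hy
  refine ⟨Finset.mem_univ _, h1, ?_⟩
  rw [hc]
  rcases h3 with ⟨hlt, hb⟩ | ⟨hlt, hb⟩
  · left
    have hsub : (cellSet act ld c).filter (fun ρ : Fin n => ρ < r ∧ M ρ y = true) ⊆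
        (cellSet act ld c).filter (fun ρ : Fin n => ρ < τ ∧ M ρ y = true) ∪
        (cellSet act ld c).filter
          (fun ρ : Fin n => (τ ≤ ρ ∧ ρ ≤ r) ∨ (r ≤ ρ ∧ ρ ≤ τ)) := by
      intro ρ hρ
      rw [Finset.mem_filter] at hρ
      rw [Finset.mem_union, Finset.mem_filter, Finset.mem_filter]
      rcases lt_or_ge ρ τ with h | h
      · exact Or.inl ⟨hρ.1, h, hρ.2.2⟩
      · exact Or.inr ⟨hρ.1, Or.inl ⟨h, le_of_lt hρ.2.1⟩⟩
    have h4 := le_trans (Finset.card_le_card hsub) (Finset.card_union_le _ _)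
    unfold bef at hb ⊢
    omega
  · right
    have hsub : (cellSet act ld c).filter (fun ρ : Fin n => r < ρ ∧ M ρ y = true) ⊆
        (cellSet act ld c).filter (fun ρ : Fin n => τ < ρ ∧ M ρ y = true) ∪
        (cellSet act ld c).filter
          (fun ρ : Fin n => (τ ≤ ρ ∧ ρ ≤ r) ∨ (r ≤ ρ ∧ ρ ≤ τ)) := by
      intro ρ hρ
      rw [Finset.mem_filter] at hρ
      rw [Finset.mem_union, Finset.mem_filter, Finset.mem_filter]
      rcases lt_or_ge τ ρ with h | h
      · exact Or.inl ⟨hρ.1, h, hρ.2.2⟩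
      · exact Or.inr ⟨hρ.1, Or.inr ⟨le_of_lt hρ.2.1, h⟩⟩
    have h4 := le_trans (Finset.card_le_card hsub) (Finset.card_union_le _ _)
    unfold aft at hb ⊢
    omega

/-- EK5. -/
theorem lg_le_early_add_cross (M : Fin n → Fin n → Bool) (act : Fin n → Bool)
    (ld : Fin n → Fin n) (m : ℕ) (c σ r : Fin n) (hσ : σ ∈ cellSet act ld c) :
    lg M act ld m c σ r ≤ early M act ld m σ + cross M act ld m c σ r := by
  rw [mem_cellSet] at hσ
  obtain ⟨_, hc⟩ := hσ
  unfold lg early cross
  refine le_trans (Finset.card_le_card ?_) (Finset.card_union_le _ _)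
  intro y hy
  rw [Finset.mem_filter] at hy
  obtain ⟨_, h1, _, h3⟩ := hy
  rw [Finset.mem_union, Finset.mem_filter, Finset.mem_filter, hc]
  rcases h3 with ⟨hlt, hb⟩ | ⟨hlt, hb⟩
  · rcases lt_or_ge (bef M act ld c y σ) m with h | h
    · exact Or.inl ⟨Finset.mem_univ _, h1, Or.inl h⟩
    · exact Or.inr ⟨Finset.mem_univ _, Or.inl ⟨hlt, hb, h⟩⟩
  · rcases lt_or_ge (aft M act ld c y σ) m with h | h
    · exact Or.inl ⟨Finset.mem_univ _, h1, Or.inr h⟩
    · exact Or.inr ⟨Finset.mem_univ _, Or.inr ⟨hlt, hb, h⟩⟩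

theorem ek6_bef_mono (M : Fin n → Fin n → Bool) (act : Fin n → Bool) (ld : Fin n → Fin n)
    (c y : Fin n) {a b : Fin n} (h : a ≤ b) : bef M act ld c y a ≤ bef M act ld c y b := by
  unfold bef
  apply card_le_card
  intro ρ hρ
  simp only [mem_filter] at hρ ⊢
  exact ⟨hρ.1, lt_of_lt_of_le hρ.2.1 h, hρ.2.2⟩

theorem ek6_aft_anti (M : Fin n → Fin n → Bool) (act : Fin n → Bool) (ld : Fin n → Fin n)
    (c y : Fin n) {a b : Fin n} (h : a ≤ b) : aft M act ld c y b ≤ aft M act ld c y a := by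
  unfold aft
  apply card_le_card
  intro ρ hρ
  simp only [mem_filter] at hρ ⊢
  exact ⟨hρ.1, lt_of_le_of_lt h hρ.2.1, hρ.2.2⟩

theorem ek6_card_le_of_same_window (w : ℕ) (hw : 0 < w) (S : Finset (Fin n))
    (h : ∀ a ∈ S, ∀ b ∈ S, ¬ a.val / w < b.val / w) : S.card ≤ w := by
  rcases S.eq_empty_or_nonempty with rfl | ⟨a, ha⟩
  · simp
  · refine le_trans (card_le_card ?_) (window_card_le (n := n) w (a.val / w) hw)
    intro b hb
    have h1 := h a ha b hb
    have h2 := h b hb a ha
    simp only [mem_filter, mem_univ, true_and]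
    omega

/-- EK6. for a fixed column `y` all rows `r` with `r < σ r`, `bef r < m ≤ bef (σ r)` lie in one
window (if `r1 / w < r2 / w` then `σ r1 < r2`, so `bef (σ r1) ≤ bef r2 < m`); same for `aft`. -/
theorem sum_cross_cell_le (M : Fin n → Fin n → Bool) (act : Fin n → Bool) (ld : Fin n → Fin n)
    (w m : ℕ) (hw : 0 < w) (c : Fin n) (σ : Fin n → Fin n) (I : Finset (Fin n))
    (hI : ∀ r ∈ I, (σ r).val / w = r.val / w) :
    ∑ r ∈ I, cross M act ld m c (σ r) r ≤ n * (2 * w) := by
  classical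
  unfold cross
  simp only [card_filter]
  rw [sum_comm]
  have hy : ∀ y : Fin n, ∑ r ∈ I,
      (if (r < σ r ∧ bef M act ld c y r < m ∧ m ≤ bef M act ld c y (σ r)) ∨
        (σ r < r ∧ aft M act ld c y r < m ∧ m ≤ aft M act ld c y (σ r)) then 1 else 0)
      ≤ 2 * w := by
    intro y
    rw [← card_filter, filter_or]
    refine (card_union_le _ _).trans ?_
    have h1 : (I.filter (fun r => r < σ r ∧ bef M act ld c y r < m ∧
        m ≤ bef M act ld c y (σ r))).card ≤ w := by
      apply ek6_card_le_of_same_window w hw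
      intro a ha b hb hab
      rw [mem_filter] at ha hb
      have h3 : σ a < b := lt_of_div_lt w _ _ (by rw [hI a ha.1]; exact hab)
      have h4 := ek6_bef_mono M act ld c y h3.le
      omega
    have h2 : (I.filter (fun r => σ r < r ∧ aft M act ld c y r < m ∧
        m ≤ aft M act ld c y (σ r))).card ≤ w := by
      apply ek6_card_le_of_same_window w hw
      intro a ha b hb hab
      rw [mem_filter] at ha hb
      have h3 : a < σ b := lt_of_div_lt w _ _ (by rw [hI b hb.1]; exact hab)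
      have h4 := ek6_aft_anti M act ld c y h3.le
      omega
    omega
  calc _ ≤ ∑ _y : Fin n, 2 * w := sum_le_sum fun y _ => hy y
    _ = n * (2 * w) := by simp

/-- EK7. the three terms `sd M r τ` (`τ` = one of the three samples of `r`):
`sd ≤ hv + lg`, `hv` by `sum_by_key`, `sum_hv_left_le`, `loc_le`;
`lg` by `lg_le_early`, `eint_between`, `sum_early_le`. -/
theorem sum_sd_row_sample_le (M : Fin n → Fin n → Bool) (act : Fin n → Bool) (ld : Fin n → Fin n)
    (β h w g L γ Λ m Λ2 : ℕ) (hh : 0 < h) (hw : 0 < w) (hg : 0 < g) (hm : 0 < m)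
    (hn : n ≤ L * w) (s : Fin n → ℕ → Fin n) (hP : EPrepared M act ld β h)
    (hS : EGoodSamples M act ld w g γ Λ m Λ2 s) (κ : Fin n → ℕ)
    (hκ : ∀ r ∈ eint act ld w g, s (ld r) (κ r) = sP act ld w g s r ∧
        κ r = pw act ld w g (ld r) (r.val / w) ∨
      s (ld r) (κ r) = sS ld w s r ∧ κ r = r.val / w ∨
      s (ld r) (κ r) = sQ act ld w g s r ∧ κ r = nw act ld w g (ld r) (r.val / w)) :
    ∑ r ∈ eint act ld w g, sd M r (s (ld r) (κ r))
      ≤ (n / h) * L * (2 * Λ / m) + (n / h) * (2 * (m + (2 * w + L * g)) * n) := by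
  have hkey : ∀ r ∈ eint act ld w g, EKey act ld w g (ld r) (κ r) := by
    intro r hr
    have hf := eint_facts M act ld w g γ Λ m Λ2 s hS r hr
    rcases hκ r hr with ⟨_, h2⟩ | ⟨_, h2⟩ | ⟨_, h2⟩
    · rw [h2]; exact hf.2.1
    · rw [h2]; exact hf.2.2.1
    · rw [h2]; exact hf.2.2.2.1
  have hact : ∀ r ∈ eint act ld w g, act r = true := fun r hr =>
    (eint_facts M act ld w g γ Λ m Λ2 s hS r hr).1
  have hA : ∑ r ∈ eint act ld w g, hv M act ld m (ld r) r (s (ld r) (κ r))
      ≤ (n / h) * L * (2 * Λ / m) := by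
    have h1 := sum_by_key act ld w g L s (fun r τ => hv M act ld m (ld r) r τ) κ
      (eint act ld w g) (2 * Λ / m)
      (fun r hr => ⟨hact r hr, (mem_ekeys act ld w g L hw hg hn (ld r) (κ r)).2 (hkey r hr)⟩)
      (by
        intro q hq
        have hq' : EKey act ld w g q.1 q.2 :=
          (mem_ekeys act ld w g L hw hg hn q.1 q.2).1 hq
        have hmem := hS.mem q.1 q.2 hq'
        rw [mem_egrp] at hmem
        have hcell : s q.1 q.2 ∈ cellSet act ld q.1 :=
          (mem_cellSet act ld q.1 _).2 ⟨hmem.1, hmem.2.1⟩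
        have h2 := sum_hv_left_le M act ld β h hP m q.1 (s q.1 q.2) hcell
        have h3 := hS.loc_le q.1 q.2 hq'
        have h4 : ∑ r ∈ cellSet act ld q.1, hv M act ld m (ld r) r (s q.1 q.2)
            = ∑ r ∈ cellSet act ld q.1, hv M act ld m q.1 r (s q.1 q.2) := by
          apply Finset.sum_congr rfl
          intro r hr
          rw [((mem_cellSet act ld q.1 r).1 hr).2]
        show ∑ r ∈ cellSet act ld q.1, hv M act ld m (ld r) r (s q.1 q.2) ≤ 2 * Λ / m
        rw [h4, Nat.le_div_iff_mul_le hm, Nat.mul_comm]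
        omega)
    refine le_trans h1 ?_
    exact Nat.mul_le_mul_right _ (ekeys_card_le M act ld β h w g L hh hP)
  have hB : ∑ r ∈ eint act ld w g, lg M act ld m (ld r) r (s (ld r) (κ r))
      ≤ (n / h) * (2 * (m + (2 * w + L * g)) * n) := by
    refine le_trans (Finset.sum_le_sum ?_)
      (sum_early_le M act ld β h hh hP (m + (2 * w + L * g)) (eint act ld w g) hact)
    intro r hr
    apply lg_le_early M act ld m (2 * w + L * g) (ld r) r (s (ld r) (κ r))
      ((mem_cellSet act ld (ld r) r).2 ⟨hact r hr, rfl⟩)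
    apply eint_between M act ld w g L γ Λ m Λ2 hw hn s hS r hr
    rcases hκ r hr with ⟨h1, _⟩ | ⟨h1, _⟩ | ⟨h1, _⟩
    · exact Or.inl h1
    · exact Or.inr (Or.inl h1)
    · exact Or.inr (Or.inr h1)
  calc ∑ r ∈ eint act ld w g, sd M r (s (ld r) (κ r))
      ≤ ∑ r ∈ eint act ld w g, (hv M act ld m (ld r) r (s (ld r) (κ r))
          + lg M act ld m (ld r) r (s (ld r) (κ r))) :=
        Finset.sum_le_sum (fun r _ => sd_le_hv_add_lg M act ld m (ld r) r (s (ld r) (κ r)))
    _ = ∑ r ∈ eint act ld w g, hv M act ld m (ld r) r (s (ld r) (κ r))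
          + ∑ r ∈ eint act ld w g, lg M act ld m (ld r) r (s (ld r) (κ r)) :=
        Finset.sum_add_distrib
    _ ≤ _ := Nat.add_le_add hA hB

/-- EK8. the term `sd M (sS r) r`: `hv` by `sum_by_key`, `sum_hv_right_le`, `loc_le`;
`lg` by `lg_le_early_add_cross`, `early_le`, `sum_cross_cell_le` and `sum_act_le`. -/
theorem sum_sd_sample_row_le (M : Fin n → Fin n → Bool) (act : Fin n → Bool) (ld : Fin n → Fin n)
    (β h w g L γ Λ m Λ2 : ℕ) (hh : 0 < h) (hw : 0 < w) (hg : 0 < g) (hm : 0 < m)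
    (hn : n ≤ L * w) (s : Fin n → ℕ → Fin n) (hP : EPrepared M act ld β h)
    (hS : EGoodSamples M act ld w g γ Λ m Λ2 s) :
    ∑ r ∈ eint act ld w g, sd M (sS ld w s r) r
      ≤ (n / h) * L * (2 * Λ / m) + n * Λ2 + (n / h) * (n * (2 * w)) := by
  have hfacts := fun r hr => eint_facts M act ld w g γ Λ m Λ2 s hS r hr
  -- pointwise bound
  have hpt : ∀ r ∈ eint act ld w g, sd M (sS ld w s r) r ≤
      hv M act ld m (ld r) (s (ld r) (r.val / w)) r + Λ2 +
        cross M act ld m (ld r) (sS ld w s r) r := by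
    intro r hr
    obtain ⟨_, _, hk, _, _, hσ, _⟩ := hfacts r hr
    have h1 := sd_le_hv_add_lg M act ld m (ld r) (sS ld w s r) r
    have h2 := lg_le_early_add_cross M act ld m (ld r) (sS ld w s r) r hσ
    have h3 : early M act ld m (sS ld w s r) ≤ Λ2 := hS.early_le _ _ hk
    have h4 : hv M act ld m (ld r) (sS ld w s r) r
        = hv M act ld m (ld r) (s (ld r) (r.val / w)) r := rfl
    omega
  refine (Finset.sum_le_sum hpt).trans ?_
  rw [Finset.sum_add_distrib, Finset.sum_add_distrib]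
  -- the heavy part
  have hA : ∑ r ∈ eint act ld w g, hv M act ld m (ld r) (s (ld r) (r.val / w)) r
      ≤ (n / h) * L * (2 * Λ / m) := by
    have hkey := sum_by_key act ld w g L s (fun r τ => hv M act ld m (ld r) τ r)
      (fun r => r.val / w) (eint act ld w g) (2 * Λ / m)
      (fun r hr => by
        obtain ⟨ha, _, hk, _⟩ := hfacts r hr
        exact ⟨ha, (mem_ekeys act ld w g L hw hg hn _ _).2 hk⟩)
      (fun q hq => by
        have hk : EKey act ld w g q.1 q.2 := (mem_ekeys act ld w g L hw hg hn _ _).1 hq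
        have hmem := (mem_egrp act ld w q.1 q.2 _).1 (hS.mem _ _ hk)
        have hτ : s q.1 q.2 ∈ cellSet act ld q.1 :=
          (mem_cellSet act ld _ _).2 ⟨hmem.1, hmem.2.1⟩
        have h1 := sum_hv_right_le M act ld β h hP m q.1 (s q.1 q.2) hτ
        have h2 := hS.loc_le _ _ hk
        have h3 : ∑ r ∈ cellSet act ld q.1, hv M act ld m (ld r) (s q.1 q.2) r
            = ∑ r ∈ cellSet act ld q.1, hv M act ld m q.1 (s q.1 q.2) r := by
          refine Finset.sum_congr rfl fun r hr => ?_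
          rw [((mem_cellSet act ld _ _).1 hr).2]
        show ∑ r ∈ cellSet act ld q.1, hv M act ld m (ld r) (s q.1 q.2) r ≤ 2 * Λ / m
        rw [h3, Nat.le_div_iff_mul_le hm, mul_comm]
        omega)
    refine hkey.trans ?_
    exact Nat.mul_le_mul_right _ (ekeys_card_le M act ld β h w g L hh hP)
  -- the early part
  have hB : ∑ _r ∈ eint act ld w g, Λ2 ≤ n * Λ2 := by
    rw [Finset.sum_const, smul_eq_mul]
    refine Nat.mul_le_mul_right _ ?_
    simpa using Finset.card_le_univ (eint act ld w g)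
  -- the crossing part
  have hC : ∑ r ∈ eint act ld w g, cross M act ld m (ld r) (sS ld w s r) r
      ≤ (n / h) * (n * (2 * w)) := by
    refine sum_act_le M act ld β h hh hP (eint act ld w g) (fun r hr => (hfacts r hr).1)
      (fun r => cross M act ld m (ld r) (sS ld w s r) r) (n * (2 * w)) ?_
    intro c
    have h1 : ∑ r ∈ (eint act ld w g).filter (fun r => ld r = c),
        cross M act ld m (ld r) (sS ld w s r) r
        = ∑ r ∈ (eint act ld w g).filter (fun r => ld r = c),
          cross M act ld m c (sS ld w s r) r := by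
      refine Finset.sum_congr rfl fun r hr => ?_
      rw [(Finset.mem_filter.1 hr).2]
    rw [h1]
    refine sum_cross_cell_le M act ld w m hw c (sS ld w s) _ ?_
    intro r hr
    obtain ⟨_, _, _, _, _, _, _, _, h9, _⟩ := hfacts r (Finset.mem_filter.1 hr).1
    exact h9
  omega

/-- EK9. total cost of the interior rows. -/
theorem eint_cost_le (M : Fin n → Fin n → Bool) (act : Fin n → Bool) (ld : Fin n → Fin n)
    (β h w g L γ Λ m Λ2 : ℕ) (hh : 0 < h) (hw : 0 < w) (hg : 0 < g) (hm : 0 < m)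
    (hn : n ≤ L * w) (s : Fin n → ℕ → Fin n) (hP : EPrepared M act ld β h)
    (hS : EGoodSamples M act ld w g γ Λ m Λ2 s) :
    ∑ r ∈ eint act ld w g, (sd M (sS ld w s r) r + sd M r (sP act ld w g s r)
        + sd M r (sS ld w s r) + sd M r (sQ act ld w g s r))
      ≤ 4 * ((n / h) * L * (2 * Λ / m)) + 3 * ((n / h) * (2 * (m + (2 * w + L * g)) * n))
        + n * Λ2 + (n / h) * (n * (2 * w)) := by
  have h1 := sum_sd_sample_row_le M act ld β h w g L γ Λ m Λ2 hh hw hg hm hn s hP hS
  have h2 := sum_sd_row_sample_le M act ld β h w g L γ Λ m Λ2 hh hw hg hm hn s hP hS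
    (fun r => pw act ld w g (ld r) (r.val / w)) (fun r _ => Or.inl ⟨rfl, rfl⟩)
  have h3 := sum_sd_row_sample_le M act ld β h w g L γ Λ m Λ2 hh hw hg hm hn s hP hS
    (fun r => r.val / w) (fun r _ => Or.inr (Or.inl ⟨rfl, rfl⟩))
  have h4 := sum_sd_row_sample_le M act ld β h w g L γ Λ m Λ2 hh hw hg hm hn s hP hS
    (fun r => nw act ld w g (ld r) (r.val / w)) (fun r _ => Or.inr (Or.inr ⟨rfl, rfl⟩))
  rw [Finset.sum_add_distrib, Finset.sum_add_distrib, Finset.sum_add_distrib]
  have e2 : ∑ r ∈ eint act ld w g, sd M r (sP act ld w g s r)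
      = ∑ r ∈ eint act ld w g, sd M r (s (ld r) (pw act ld w g (ld r) (r.val / w))) := rfl
  have e3 : ∑ r ∈ eint act ld w g, sd M r (sS ld w s r)
      = ∑ r ∈ eint act ld w g, sd M r (s (ld r) (r.val / w)) := rfl
  have e4 : ∑ r ∈ eint act ld w g, sd M r (sQ act ld w g s r)
      = ∑ r ∈ eint act ld w g, sd M r (s (ld r) (nw act ld w g (ld r) (r.val / w))) := rfl
  rw [e2, e3, e4]
  omega

end Vale.Agent.P037
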