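import Mathlib
import Vale.Agent.P037.EBasic
import Vale.Agent.P037.Cover

/-! P037, pattern E: few columns meet all conflicts between the sample rows. -/

namespace Vale.Agent.P037

open Finset

variable {n : ℕ}

/-- EC1. copy of `exists_cover_samples` (GAssembly.lean) with triples of rows:
for `ρ1 < ρ2 < ρ3` use `cover_one_dim` with `X` = columns in all three rows and
`Y` = columns in `ρ1`, `ρ3` and not in `ρ2`. -/
theorem exists_cover_samples3 (M : Fin n → Fin n → Bool) (Smp : Finset (Fin n)) (k γ : ℕ)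
    (hk : 0 < k)
    (hconf : ∀ ρ1 ∈ Smp, ∀ ρ2 ∈ Smp, ∀ ρ3 ∈ Smp, ρ1 < ρ2 → ρ2 < ρ3 → econf M ρ1 ρ2 ρ3 ≤ γ) :
    ∃ Z : Finset (Fin n), Z.card ≤ Smp.card ^ 3 * (k + γ / k) ∧
      FreeOn3 (fun r y => M r y && decide (y ∉ Z)) Smp := by
  classical
  have hq : ∀ q : Fin n × Fin n × Fin n, ∃ K : Finset (Fin n), K.card ≤ k + γ / k ∧
      (q.1 ∈ Smp → q.2.1 ∈ Smp → q.2.2 ∈ Smp → q.1 < q.2.1 → q.2.1 < q.2.2 →
        ∀ x y : Fin n, x < y → M q.1 x = true → M q.1 y = true → M q.2.1 x = true →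
          M q.2.1 y = false → M q.2.2 x = true → M q.2.2 y = true → x ∈ K ∨ y ∈ K) := by
    intro q
    by_cases hc : q.1 ∈ Smp ∧ q.2.1 ∈ Smp ∧ q.2.2 ∈ Smp ∧ q.1 < q.2.1 ∧ q.2.1 < q.2.2
    · obtain ⟨K, hK, hcov⟩ := cover_one_dim
        (univ.filter (fun x : Fin n => M q.1 x = true ∧ M q.2.1 x = true ∧ M q.2.2 x = true))
        (univ.filter (fun y : Fin n => M q.1 y = true ∧ M q.2.1 y = false ∧ M q.2.2 y = true))
        k γ hk (by
          refine le_trans (Finset.card_le_card ?_)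
            (hconf q.1 hc.1 q.2.1 hc.2.1 q.2.2 hc.2.2.1 hc.2.2.2.1 hc.2.2.2.2)
          intro p hp
          simp only [Finset.mem_filter, Finset.mem_product, Finset.mem_univ, true_and] at hp ⊢
          exact ⟨hp.2, hp.1.1.1, hp.1.2.1, hp.1.1.2.1, hp.1.2.2.1, hp.1.1.2.2, hp.1.2.2.2⟩)
      refine ⟨K, hK, ?_⟩
      intro _ _ _ _ _ x y hxy h1 h2 h3 h4 h5 h6
      exact hcov x (by simp [h1, h3, h5]) y (by simp [h2, h4, h6]) hxy
    · exact ⟨∅, by simp, fun h1 h2 h3 h4 h5 => absurd ⟨h1, h2, h3, h4, h5⟩ hc⟩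
  choose Kf hKf hcov using hq
  refine ⟨(Smp ×ˢ Smp ×ˢ Smp).biUnion Kf, ?_, ?_⟩
  · refine (Finset.card_biUnion_le_card_mul _ _ _ fun q _ => hKf q).trans ?_
    rw [Finset.card_product, Finset.card_product]
    apply le_of_eq
    ring
  · intro ρ1 hρ1 ρ2 hρ2 ρ3 hρ3 h12 h23 x y hxy h1 h2 h3 h5 h6
    simp only [Bool.and_eq_true, decide_eq_true_eq] at h1 h2 h3 h5 h6 ⊢
    refine ⟨?_, h2.2⟩
    by_contra hcon
    have h4 : M ρ2 y = false := by simpa using hcon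
    have hmem : (ρ1, ρ2, ρ3) ∈ Smp ×ˢ Smp ×ˢ Smp :=
      Finset.mem_product.2 ⟨hρ1, Finset.mem_product.2 ⟨hρ2, hρ3⟩⟩
    rcases hcov (ρ1, ρ2, ρ3) hρ1 hρ2 hρ3 h12 h23 x y hxy h1.1 h2.1 h3.1 h4 h5.1 h6.1 with h7 | h7
    · exact h1.2 (Finset.mem_biUnion.2 ⟨_, hmem, h7⟩)
    · exact h2.2 (Finset.mem_biUnion.2 ⟨_, hmem, h7⟩)

end Vale.Agent.P037
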