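import Mathlib
import Vale.Agent.P037.EBasic
import Vale.Agent.P037.GPrep

/-! P037, pattern E: preparation (bad columns, greedy cells).  Copy of GPrep.lean. -/

namespace Vale.Agent.P037

open Finset

variable {n : ℕ}

theorem econf_eq_sum_elead (A : Fin n → Fin n → Bool) (r1 r2 r3 : Fin n) :
    econf A r1 r2 r3 = ∑ x, elead A x r1 r2 r3 := by
  unfold econf elead
  simp only [Finset.card_filter]
  rw [Fintype.sum_prod_type]

theorem NE_eq_sum_einvx (A : Fin n → Fin n → Bool) : NE A = ∑ x, einvx A x := by
  unfold NE einvx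
  rw [Finset.sum_comm]
  exact Finset.sum_congr rfl fun p _ => econf_eq_sum_elead A p.1 p.2.1 p.2.2

/-- EP1. copy of `prep` (GPrep.lean), reuse `scan` and `diffCount_eq_sum_col`. -/
theorem eprep (A : Fin n → Fin n → Bool) (β h : ℕ) (hβ : 0 < β) (hh : 0 < h) :
    ∃ (M : Fin n → Fin n → Bool) (act : Fin n → Bool) (ld : Fin n → Fin n),
      EPrepared M act ld β h ∧
      diffCount A M ≤ n * (NE A / β) + h * n ∧
      ∀ r1 r2 r3, econf M r1 r2 r3 ≤ econf A r1 r2 r3 := by
  classical
  set bad : Finset (Fin n) := univ.filter (fun x : Fin n => β < einvx A x) with hbad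
  have membad : ∀ x, x ∈ bad ↔ β < einvx A x := by intro x; simp [hbad]
  set A1 : Fin n → Fin n → Bool := fun r x => A r x && decide (x ∉ bad) with hA1
  obtain ⟨act, ld, ha, hb, hc⟩ := scan A1 h hh n le_rfl
  set M : Fin n → Fin n → Bool := fun r y => act r && decide (ld r ≤ y) && A1 r y with hM
  have M_true : ∀ r y, M r y = true ↔ (act r = true ∧ ld r ≤ y ∧ A r y = true ∧ y ∉ bad) := by
    intro r y
    simp only [hM, hA1, Bool.and_eq_true, decide_eq_true_eq]
    tauto
  -- a configuration of `M` is a configuration of `A`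
  have key : ∀ (r1 r2 r3 x y : Fin n), x < y → M r1 x = true → M r1 y = true → M r2 x = true →
      M r2 y = false → M r3 x = true → M r3 y = true →
      A r1 x = true ∧ A r1 y = true ∧ A r2 x = true ∧ A r2 y = false ∧ A r3 x = true ∧
        A r3 y = true := by
    intro r1 r2 r3 x y hxy h1 h2 h3 h4 h5 h6
    obtain ⟨_, _, a1, _⟩ := (M_true _ _).1 h1
    obtain ⟨_, _, a2, b2⟩ := (M_true _ _).1 h2
    obtain ⟨c3, d3, a3, _⟩ := (M_true _ _).1 h3
    obtain ⟨_, _, a5, _⟩ := (M_true _ _).1 h5
    obtain ⟨_, _, a6, _⟩ := (M_true _ _).1 h6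
    refine ⟨a1, a2, a3, ?_, a5, a6⟩
    by_contra hcon
    have h7 : A r2 y = true := by simpa using hcon
    have : M r2 y = true := (M_true _ _).2 ⟨c3, d3.trans hxy.le, h7, b2⟩
    rw [this] at h4
    exact absurd h4 (by simp)
  have hglead : ∀ x r1 r2 r3, elead M x r1 r2 r3 ≤ elead A x r1 r2 r3 := by
    intro x r1 r2 r3
    unfold elead
    apply Finset.card_le_card
    intro y hy
    simp only [Finset.mem_filter, Finset.mem_univ, true_and] at hy ⊢
    exact ⟨hy.1, key r1 r2 r3 x y hy.1 hy.2.1 hy.2.2.1 hy.2.2.2.1 hy.2.2.2.2.1 hy.2.2.2.2.2.1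
      hy.2.2.2.2.2.2⟩
  have hgconf : ∀ r1 r2 r3, econf M r1 r2 r3 ≤ econf A r1 r2 r3 := by
    intro r1 r2 r3
    rw [econf_eq_sum_elead, econf_eq_sum_elead]
    exact Finset.sum_le_sum fun x _ => hglead x r1 r2 r3
  refine ⟨M, act, ld, ⟨?_, ?_, ?_, hb, ?_⟩, ?_, hgconf⟩
  · intro r hr y
    simp [hM, hr]
  · intro r hr
    have := (ha r hr).2
    simp only [hM, hr, le_refl, decide_true, Bool.and_self, Bool.true_and]
    exact this
  · intro r _ y hy
    have : ¬ ld r ≤ y := not_le.2 hy
    simp [hM, this]
  · intro x
    by_cases hx : x ∈ bad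
    · have : einvx M x = 0 := by
        unfold einvx
        apply Finset.sum_eq_zero
        intro p _
        unfold elead
        rw [Finset.card_eq_zero]
        apply Finset.filter_eq_empty_iff.2
        intro y _ hy
        exact ((M_true _ _).1 hy.2.1).2.2.2 hx
      rw [this]
      exact Nat.zero_le _
    · have h1 : einvx M x ≤ einvx A x := Finset.sum_le_sum fun p _ => hglead x p.1 p.2.1 p.2.2
      have h2 : einvx A x ≤ β := not_lt.1 (fun h3 => hx ((membad x).2 h3))
      exact h1.trans h2
  · -- the cost
    have hcard : bad.card ≤ NE A / β := by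
      rw [Nat.le_div_iff_mul_le hβ, NE_eq_sum_einvx]
      calc bad.card * β = ∑ _x ∈ bad, β := by rw [Finset.sum_const, smul_eq_mul]
        _ ≤ ∑ x ∈ bad, einvx A x := Finset.sum_le_sum fun x hx => ((membad x).1 hx).le
        _ ≤ ∑ x, einvx A x := Finset.sum_le_sum_of_subset (Finset.subset_univ _)
    rw [diffCount_eq_sum_col]
    have hcol : ∀ x : Fin n, (univ.filter (fun r : Fin n => A r x ≠ M r x)).card
        ≤ (if x ∈ bad then n else 0) + h := by
      intro x
      by_cases hx : x ∈ bad
      · rw [if_pos hx]
        calc (univ.filter (fun r : Fin n => A r x ≠ M r x)).card ≤ (univ : Finset (Fin n)).card :=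
              Finset.card_le_card (Finset.filter_subset _ _)
          _ = n := by simp
          _ ≤ n + h := Nat.le_add_right _ _
      · rw [if_neg hx, Nat.zero_add]
        refine (Finset.card_le_card ?_).trans (hc x x.isLt).le
        intro r hr
        simp only [Finset.mem_filter, Finset.mem_univ, true_and] at hr ⊢
        have hA : A1 r x = A r x := by simp [hA1, hx]
        cases hAr : A r x with
        | false =>
          exfalso
          apply hr
          rw [hAr]
          symm
          by_contra hcon
          have h5 : M r x = true := by simpa using hcon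
          have := ((M_true _ _).1 h5).2.2.1
          rw [hAr] at this
          exact absurd this (by simp)
        | true =>
          refine ⟨by rw [hA, hAr], ?_⟩
          by_contra hcon
          rw [not_or] at hcon
          have h6 : act r = true := by simpa using hcon.1
          have h7 : ld r ≤ x := not_lt.1 hcon.2
          exact hr (by rw [hAr, (M_true r x).2 ⟨h6, h7, hAr, hx⟩])
    calc ∑ x, (univ.filter (fun r : Fin n => A r x ≠ M r x)).card
        ≤ ∑ x : Fin n, ((if x ∈ bad then n else 0) + h) := Finset.sum_le_sum fun x _ => hcol x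
      _ = bad.card * n + n * h := by
        rw [Finset.sum_add_distrib, Finset.sum_const, Finset.card_univ, Fintype.card_fin,
          smul_eq_mul, ← Finset.sum_filter]
        simp
      _ ≤ n * (NE A / β) + h * n := by
        have := Nat.mul_le_mul_left n hcard
        nlinarith

end Vale.Agent.P037
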