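import Mathlib

/-! P037, pattern E: an abstract greedy transversal lemma for bad triples
(generalises `exists_transversal` of GSelect.lean; same proof scheme, induction on the index set). -/

namespace Vale.Agent.P037

open Finset

section aux3

variable {V : Type*} [DecidableEq V]

/-- number of triples with first coordinate `v`. -/
def deg3 (E : Finset (V × V × V)) (v : V) : ℕ := (E.filter (fun t => t.1 = v)).card

/-- number of triples with first coordinates `u, a`. -/
def codeg3 (E : Finset (V × V × V)) (u a : V) : ℕ :=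
  (E.filter (fun t => t.1 = u ∧ t.2.1 = a)).card

/-- elements of large degree. -/
def poor31 (E : Finset (V × V × V)) (d1 : ℕ) : Finset V :=
  (E.image (fun t => t.1)).filter (fun v => d1 < deg3 E v)

/-- elements of large codegree with `u`. -/
def poor32 (E : Finset (V × V × V)) (d2 : ℕ) (u : V) : Finset V :=
  (E.image (fun t => t.2.1)).filter (fun a => d2 < codeg3 E u a)

/-- the completions of `u, a`. -/
def compl3 (E : Finset (V × V × V)) (u a : V) : Finset V :=
  (E.filter (fun t => t.1 = u ∧ t.2.1 = a)).image (fun t => t.2.2)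

theorem card_poor31_le (E : Finset (V × V × V)) (d1 e1 : ℕ) (h : E.card ≤ (d1 + 1) * e1) :
    (poor31 E d1).card ≤ e1 := by
  have h1 : (poor31 E d1).card * (d1 + 1) ≤ ∑ v ∈ poor31 E d1, deg3 E v := by
    rw [← smul_eq_mul]
    apply card_nsmul_le_sum
    intro v hv
    exact (mem_filter.mp hv).2
  have h2 : ∑ v ∈ poor31 E d1, deg3 E v ≤ ∑ v ∈ E.image (fun t => t.1), deg3 E v :=
    sum_le_sum_of_subset (filter_subset _ _)
  have h3 : E.card = ∑ v ∈ E.image (fun t => t.1), deg3 E v := by
    apply card_eq_sum_card_fiberwise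
    intro p hp
    exact mem_coe.mpr (mem_image_of_mem _ hp)
  have h4 : (poor31 E d1).card * (d1 + 1) ≤ e1 * (d1 + 1) := by
    calc (poor31 E d1).card * (d1 + 1) ≤ E.card := by rw [h3]; exact h1.trans h2
      _ ≤ (d1 + 1) * e1 := h
      _ = e1 * (d1 + 1) := Nat.mul_comm _ _
  exact Nat.le_of_mul_le_mul_right h4 (Nat.succ_pos d1)

theorem deg3_le_of_not_poor (E : Finset (V × V × V)) (d1 : ℕ) (v : V) (hv : v ∉ poor31 E d1) :
    deg3 E v ≤ d1 := by
  by_cases hmem : v ∈ E.image (fun t => t.1)
  · by_contra hlt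
    exact hv (mem_filter.mpr ⟨hmem, not_le.mp hlt⟩)
  · have h1 : E.filter (fun t => t.1 = v) = ∅ := by
      apply filter_eq_empty_iff.mpr
      intro p hp hpv
      exact hmem (mem_image.mpr ⟨p, hp, hpv⟩)
    unfold deg3
    rw [h1]
    simp

theorem card_poor32_le (E : Finset (V × V × V)) (d1 d2 e2 : ℕ) (u : V) (hu : deg3 E u ≤ d1)
    (h : d1 ≤ (d2 + 1) * e2) : (poor32 E d2 u).card ≤ e2 := by
  have h1 : (poor32 E d2 u).card * (d2 + 1) ≤ ∑ a ∈ poor32 E d2 u, codeg3 E u a := by
    rw [← smul_eq_mul]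
    apply card_nsmul_le_sum
    intro v hv
    exact (mem_filter.mp hv).2
  have h2 : ∑ a ∈ poor32 E d2 u, codeg3 E u a ≤ ∑ a ∈ E.image (fun t => t.2.1), codeg3 E u a :=
    sum_le_sum_of_subset (filter_subset _ _)
  have h3 : deg3 E u = ∑ a ∈ E.image (fun t => t.2.1), codeg3 E u a := by
    unfold deg3 codeg3
    rw [card_eq_sum_card_fiberwise (f := fun t : V × V × V => t.2.1)
      (t := E.image (fun t => t.2.1))]
    · refine sum_congr rfl fun a _ => ?_
      rw [filter_filter]
    · intro p hp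
      exact mem_coe.mpr (mem_image_of_mem _ (mem_filter.mp (mem_coe.mp hp)).1)
  have h4 : (poor32 E d2 u).card * (d2 + 1) ≤ e2 * (d2 + 1) := by
    calc (poor32 E d2 u).card * (d2 + 1) ≤ deg3 E u := by rw [h3]; exact h1.trans h2
      _ ≤ (d2 + 1) * e2 := hu.trans h
      _ = e2 * (d2 + 1) := Nat.mul_comm _ _
  exact Nat.le_of_mul_le_mul_right h4 (Nat.succ_pos d2)

theorem codeg3_le_of_not_poor (E : Finset (V × V × V)) (d2 : ℕ) (u a : V)
    (ha : a ∉ poor32 E d2 u) : codeg3 E u a ≤ d2 := by
  by_cases hmem : a ∈ E.image (fun t => t.2.1)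
  · by_contra hlt
    exact ha (mem_filter.mpr ⟨hmem, not_le.mp hlt⟩)
  · have h1 : E.filter (fun t => t.1 = u ∧ t.2.1 = a) = ∅ := by
      apply filter_eq_empty_iff.mpr
      intro p hp hpv
      exact hmem (mem_image.mpr ⟨p, hp, hpv.2⟩)
    unfold codeg3
    rw [h1]
    simp

theorem card_compl3_le (E : Finset (V × V × V)) (u a : V) :
    (compl3 E u a).card ≤ codeg3 E u a := card_image_le

theorem codeg3_le_symm (E : Finset (V × V × V))
    (hsym : ∀ a b c, (a, b, c) ∈ E → (b, a, c) ∈ E ∧ (a, c, b) ∈ E) (u a : V) :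
    codeg3 E u a ≤ codeg3 E a u := by
  unfold codeg3
  refine card_le_card_of_injOn (fun t => (t.2.1, t.1, t.2.2)) ?_ ?_
  · rintro ⟨x, y, z⟩ ht
    have ht' := mem_filter.mp (mem_coe.mp ht)
    exact mem_coe.mpr (mem_filter.mpr ⟨(hsym _ _ _ ht'.1).1, ht'.2.2, ht'.2.1⟩)
  · rintro ⟨x, y, z⟩ _ ⟨x', y', z'⟩ _ h
    simp only [Prod.mk.injEq] at h
    obtain ⟨h1, h2, h3⟩ := h
    simp [h1, h2, h3]

theorem codeg3_self (E : Finset (V × V × V))
    (hdist : ∀ a b c, (a, b, c) ∈ E → a ≠ b ∧ b ≠ c ∧ a ≠ c) (u : V) : codeg3 E u u = 0 := by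
  unfold codeg3
  rw [card_eq_zero]
  apply filter_eq_empty_iff.mpr
  rintro ⟨x, y, z⟩ hp ⟨h1, h2⟩
  exact (hdist _ _ _ hp).1 (h1.trans h2.symm)

end aux3

/-- ES1.  `E` is a symmetric set of bad triples with distinct coordinates.
deg v = number of triples with first coordinate `v`; poor1 = {v : d1 < deg v} has at most `e1`
elements (sum of the degrees = card E).  codeg u a = number of triples with first coordinates
`u, a`; poor2 u = {a : d2 < codeg u a} has at most `e2` elements if `deg u ≤ d1`.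
Greedy invariant for the chosen part `J`: `s i ∈ G i`, not bad, not poor1; `codeg (s i) (s j) ≤ d2`
for `i ≠ j` in `J`; no triple of chosen elements is in `E`.  A new element has to avoid
`bad`, poor1, `poor2 (s j)` (`j ∈ J`) and the completions `{b : (s j, s k, b) ∈ E}`
(`j ≠ k ∈ J`, at most `d2` each). -/
theorem exists_transversal3 {ι V : Type*} [DecidableEq ι] [DecidableEq V] [Inhabited V]
    (I : Finset ι) (G : ι → Finset V) (bad : Finset V) (E : Finset (V × V × V))
    (g d1 d2 e1 e2 : ℕ)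
    (hG : ∀ i ∈ I, g ≤ (G i).card)
    (hsym : ∀ a b c, (a, b, c) ∈ E → (b, a, c) ∈ E ∧ (a, c, b) ∈ E)
    (hdist : ∀ a b c, (a, b, c) ∈ E → a ≠ b ∧ b ≠ c ∧ a ≠ c)
    (h1 : E.card ≤ (d1 + 1) * e1) (h2 : d1 ≤ (d2 + 1) * e2)
    (h3 : bad.card + e1 + I.card * e2 + I.card ^ 2 * d2 < g) :
    ∃ s : ι → V, (∀ i ∈ I, s i ∈ G i ∧ s i ∉ bad) ∧
      ∀ i ∈ I, ∀ j ∈ I, ∀ k ∈ I, (s i, s j, s k) ∉ E := by
  have hpoor := card_poor31_le E d1 e1 h1
  have main : ∀ J : Finset ι, (∀ i ∈ J, g ≤ (G i).card) →
      bad.card + e1 + J.card * e2 + J.card ^ 2 * d2 < g →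
      ∃ s : ι → V, (∀ i ∈ J, s i ∈ G i ∧ s i ∉ bad ∧ deg3 E (s i) ≤ d1) ∧
        (∀ i ∈ J, ∀ j ∈ J, codeg3 E (s i) (s j) ≤ d2) ∧
        ∀ i ∈ J, ∀ j ∈ J, ∀ k ∈ J, (s i, s j, s k) ∉ E := by
    intro J
    induction J using Finset.induction_on with
    | empty =>
      intro _ _
      exact ⟨fun _ => default, by simp, by simp, by simp⟩
    | insert a J ha ih =>
      intro hGJ hc
      rw [card_insert_of_notMem ha] at hc
      have hc' : bad.card + e1 + J.card * e2 + J.card ^ 2 * d2 < g := by
        have t1 : J.card * e2 ≤ (J.card + 1) * e2 := Nat.mul_le_mul_right _ (Nat.le_succ _)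
        have t2 : J.card ^ 2 * d2 ≤ (J.card + 1) ^ 2 * d2 :=
          Nat.mul_le_mul_right _ (Nat.pow_le_pow_left (Nat.le_succ _) 2)
        omega
      obtain ⟨s, hs1, hs2, hs3⟩ := ih (fun i hi => hGJ i (mem_insert_of_mem hi)) hc'
      set X : Finset V := bad ∪ poor31 E d1 ∪ J.biUnion (fun j => poor32 E d2 (s j)) ∪
        (J ×ˢ J).biUnion (fun p => compl3 E (s p.1) (s p.2)) with hX
      have hXcard : X.card ≤ bad.card + e1 + J.card * e2 + J.card ^ 2 * d2 := by
        have c1 : (J.biUnion (fun j => poor32 E d2 (s j))).card ≤ J.card * e2 := by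
          apply card_biUnion_le_card_mul
          intro j hj
          exact card_poor32_le E d1 d2 e2 (s j) (hs1 j hj).2.2 h2
        have c2 : ((J ×ˢ J).biUnion (fun p => compl3 E (s p.1) (s p.2))).card ≤
            J.card ^ 2 * d2 := by
          have : (J ×ˢ J).card = J.card ^ 2 := by rw [card_product, sq]
          rw [← this]
          apply card_biUnion_le_card_mul
          intro p hp
          have hp' := mem_product.mp hp
          exact (card_compl3_le E _ _).trans (hs2 _ hp'.1 _ hp'.2)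
        calc X.card ≤ (bad ∪ poor31 E d1 ∪ J.biUnion (fun j => poor32 E d2 (s j))).card +
              ((J ×ˢ J).biUnion (fun p => compl3 E (s p.1) (s p.2))).card := card_union_le _ _
          _ ≤ ((bad ∪ poor31 E d1).card + (J.biUnion (fun j => poor32 E d2 (s j))).card) +
              J.card ^ 2 * d2 := Nat.add_le_add (card_union_le _ _) c2
          _ ≤ ((bad.card + (poor31 E d1).card) + J.card * e2) + J.card ^ 2 * d2 :=
              Nat.add_le_add_right (Nat.add_le_add (card_union_le _ _) c1) _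
          _ ≤ bad.card + e1 + J.card * e2 + J.card ^ 2 * d2 := by omega
      have hlt : X.card < (G a).card := by
        have := hGJ a (mem_insert_self a J)
        omega
      obtain ⟨v, hvG, hvX⟩ := exists_mem_notMem_of_card_lt_card hlt
      have hvbad : v ∉ bad := fun h =>
        hvX (mem_union_left _ (mem_union_left _ (mem_union_left _ h)))
      have hvpoor : v ∉ poor31 E d1 := fun h =>
        hvX (mem_union_left _ (mem_union_left _ (mem_union_right _ h)))
      have hvp2 : ∀ j ∈ J, v ∉ poor32 E d2 (s j) := fun j hj h =>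
        hvX (mem_union_left _ (mem_union_right _ (mem_biUnion.mpr ⟨j, hj, h⟩)))
      have hB : ∀ j ∈ J, ∀ k ∈ J, (s j, s k, v) ∉ E := by
        intro j hj k hk hmem
        apply hvX
        apply mem_union_right
        refine mem_biUnion.mpr ⟨(j, k), mem_product.mpr ⟨hj, hk⟩, ?_⟩
        exact mem_image.mpr ⟨(s j, s k, v), mem_filter.mpr ⟨hmem, rfl, rfl⟩, rfl⟩
      have hval : ∀ i ∈ insert a J, Function.update s a v i = v ∨
          ∃ i' ∈ J, Function.update s a v i = s i' := by
        intro i hi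
        rcases mem_insert.mp hi with rfl | hiJ
        · left
          simp
        · right
          have hne : i ≠ a := fun h => ha (h ▸ hiJ)
          exact ⟨i, hiJ, by simp [Function.update_of_ne hne]⟩
      refine ⟨Function.update s a v, ?_, ?_, ?_⟩
      · intro i hi
        rcases mem_insert.mp hi with rfl | hiJ
        · simp only [Function.update_self]
          exact ⟨hvG, hvbad, deg3_le_of_not_poor E d1 v hvpoor⟩
        · have hne : i ≠ a := fun h => ha (h ▸ hiJ)
          simp only [Function.update_of_ne hne]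
          exact hs1 i hiJ
      · intro i hi j hj
        rcases hval i hi with e1' | ⟨i', hi', e1'⟩ <;> rcases hval j hj with e2' | ⟨j', hj', e2'⟩ <;>
          rw [e1', e2']
        · rw [codeg3_self E hdist]
          exact Nat.zero_le _
        · exact (codeg3_le_symm E hsym _ _).trans
            (codeg3_le_of_not_poor E d2 (s j') v (hvp2 j' hj'))
        · exact codeg3_le_of_not_poor E d2 (s i') v (hvp2 i' hi')
        · exact hs2 i' hi' j' hj'
      · intro i hi j hj k hk hmem
        rcases hval i hi with e1' | ⟨i', hi', e1'⟩ <;> rcases hval j hj with e2' | ⟨j', hj', e2'⟩ <;>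
          rcases hval k hk with e3' | ⟨k', hk', e3'⟩ <;> rw [e1', e2', e3'] at hmem
        · exact (hdist _ _ _ hmem).1 rfl
        · exact (hdist _ _ _ hmem).1 rfl
        · exact (hdist _ _ _ hmem).2.2 rfl
        · exact hB j' hj' k' hk' (hsym _ _ _ (hsym _ _ _ hmem).1).2
        · exact (hdist _ _ _ hmem).2.1 rfl
        · exact hB i' hi' k' hk' (hsym _ _ _ hmem).2
        · exact hB i' hi' j' hj' hmem
        · exact hs3 i' hi' j' hj' k' hk' hmem
  obtain ⟨s, hs1, _, hs3⟩ := main I hG h3
  exact ⟨s, fun i hi => ⟨(hs1 i hi).1, (hs1 i hi).2.1⟩, hs3⟩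

end Vale.Agent.P037
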