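import Mathlib
import Vale.Agent.P037.EBasic
import Vale.Agent.P037.EGroups
import Vale.Agent.P037.ECost
import Vale.Agent.P037.ESelect
import Vale.Agent.P037.GSamples

/-! P037, pattern E: existence of a good system of samples.  Model: GSamples.lean. -/

namespace Vale.Agent.P037

open Finset

variable {n : ℕ}

/-- ET1. `∑_{a b c} tl M x a b c = einvx M x`. -/
theorem sum_tl_eq (M : Fin n → Fin n → Bool) (x : Fin n) :
    ∑ a : Fin n, ∑ b : Fin n, ∑ c : Fin n, tl M x a b c = einvx M x := by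
  unfold einvx incTriples
  rw [Finset.sum_filter, Fintype.sum_prod_type]
  refine Finset.sum_congr rfl ?_
  intro a _
  rw [Fintype.sum_prod_type]
  refine Finset.sum_congr rfl ?_
  intro b _
  refine Finset.sum_congr rfl ?_
  intro c _
  rfl

/-- ET1. in every cell `∑ eloc ≤ 3 einvx c ≤ 3 β`; then `sum_act_le`. -/
theorem sum_eloc_le (M : Fin n → Fin n → Bool) (act : Fin n → Bool) (ld : Fin n → Fin n)
    (β h : ℕ) (hh : 0 < h) (hP : EPrepared M act ld β h) :
    ∑ ρ ∈ univ.filter (fun ρ : Fin n => act ρ = true), eloc M ld ρ ≤ (n / h) * (3 * β) := by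
  refine sum_act_le M act ld β h hh hP _ ?_ _ _ ?_
  · intro r hr
    simpa using hr
  · intro c
    have h1 : ∑ r ∈ (univ.filter (fun ρ : Fin n => act ρ = true)).filter (fun r => ld r = c),
        eloc M ld r
        = ∑ r ∈ (univ.filter (fun ρ : Fin n => act ρ = true)).filter (fun r => ld r = c),
          ∑ a : Fin n, ∑ b : Fin n, (tl M c r a b + tl M c a r b + tl M c a b r) := by
      refine Finset.sum_congr rfl ?_
      intro r hr
      have hr' : ld r = c := (Finset.mem_filter.mp hr).2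
      unfold eloc
      rw [hr']
    have h2 : ∑ r ∈ (univ.filter (fun ρ : Fin n => act ρ = true)).filter (fun r => ld r = c),
          ∑ a : Fin n, ∑ b : Fin n, (tl M c r a b + tl M c a r b + tl M c a b r)
        ≤ ∑ r : Fin n,
          ∑ a : Fin n, ∑ b : Fin n, (tl M c r a b + tl M c a r b + tl M c a b r) :=
      Finset.sum_le_sum_of_subset (Finset.subset_univ _)
    have h3 : ∑ r : Fin n,
          ∑ a : Fin n, ∑ b : Fin n, (tl M c r a b + tl M c a r b + tl M c a b r)
        = 3 * einvx M c := by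
      simp only [Finset.sum_add_distrib]
      have e1 : ∑ r : Fin n, ∑ a : Fin n, ∑ b : Fin n, tl M c r a b = einvx M c :=
        sum_tl_eq M c
      have e2 : ∑ r : Fin n, ∑ a : Fin n, ∑ b : Fin n, tl M c a r b = einvx M c := by
        rw [Finset.sum_comm]
        exact sum_tl_eq M c
      have e3 : ∑ r : Fin n, ∑ a : Fin n, ∑ b : Fin n, tl M c a b r = einvx M c := by
        rw [Finset.sum_comm]
        rw [← sum_tl_eq M c]
        refine Finset.sum_congr rfl ?_
        intro a _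
        rw [Finset.sum_comm]
      rw [e1, e2, e3]
      ring
    have h4 := hP.col_good c
    rw [h1]
    refine le_trans h2 ?_
    rw [h3]
    omega

/-- `econf` for increasing triples, `0` otherwise. -/
def tc (M : Fin n → Fin n → Bool) (a b c : Fin n) : ℕ :=
  if a < b ∧ b < c then econf M a b c else 0

/-- the symmetric form. -/
def tcs (M : Fin n → Fin n → Bool) (a b c : Fin n) : ℕ :=
  tc M a b c + tc M a c b + tc M b a c + tc M b c a + tc M c a b + tc M c b a

theorem sum_tc_eq (M : Fin n → Fin n → Bool) :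
    ∑ a : Fin n, ∑ b : Fin n, ∑ c : Fin n, tc M a b c = NE M := by
  unfold NE incTriples
  rw [Finset.sum_filter, Fintype.sum_prod_type]
  refine Finset.sum_congr rfl ?_
  intro a _
  rw [Fintype.sum_prod_type]
  refine Finset.sum_congr rfl ?_
  intro b _
  refine Finset.sum_congr rfl ?_
  intro c _
  rfl

theorem sum_tcs_eq (M : Fin n → Fin n → Bool) :
    ∑ t : Fin n × Fin n × Fin n, tcs M t.1 t.2.1 t.2.2 = 6 * NE M := by
  rw [Fintype.sum_prod_type]
  simp only [Fintype.sum_prod_type]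
  unfold tcs
  simp only [Finset.sum_add_distrib]
  have swap23 : ∀ F : Fin n → Fin n → Fin n → ℕ,
      ∑ a : Fin n, ∑ b : Fin n, ∑ c : Fin n, F a c b
        = ∑ a : Fin n, ∑ b : Fin n, ∑ c : Fin n, F a b c := by
    intro F
    refine Finset.sum_congr rfl ?_
    intro a _
    rw [Finset.sum_comm]
  have swap12 : ∀ F : Fin n → Fin n → Fin n → ℕ,
      ∑ a : Fin n, ∑ b : Fin n, ∑ c : Fin n, F b a c
        = ∑ a : Fin n, ∑ b : Fin n, ∑ c : Fin n, F a b c := by
    intro F
    rw [Finset.sum_comm]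
  have e1 := sum_tc_eq M
  have e2 : ∑ a : Fin n, ∑ b : Fin n, ∑ c : Fin n, tc M a c b = NE M := by
    rw [swap23 (fun a b c => tc M a b c)]; exact e1
  have e3 : ∑ a : Fin n, ∑ b : Fin n, ∑ c : Fin n, tc M b a c = NE M := by
    rw [swap12 (fun a b c => tc M a b c)]; exact e1
  have e4 : ∑ a : Fin n, ∑ b : Fin n, ∑ c : Fin n, tc M b c a = NE M := by
    rw [swap12 (fun a b c => tc M a c b)]; exact e2
  have e5 : ∑ a : Fin n, ∑ b : Fin n, ∑ c : Fin n, tc M c a b = NE M := by
    rw [swap23 (fun a b c => tc M b a c)]; exact e3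
  have e6 : ∑ a : Fin n, ∑ b : Fin n, ∑ c : Fin n, tc M c b a = NE M := by
    rw [swap23 (fun a b c => tc M b c a)]; exact e4
  rw [e1, e2, e3, e4, e5, e6]
  ring

/-- ET2. the set of bad triples is small: `(γ + 1) card ≤ ∑ tcs = 6 NE`. -/
theorem card_badTriples_le (M : Fin n → Fin n → Bool) (γ N : ℕ) (hγ : 0 < γ) (hN : NE M ≤ N) :
    (univ.filter (fun t : Fin n × Fin n × Fin n => γ < tcs M t.1 t.2.1 t.2.2)).card
      ≤ 6 * N / γ := by
  rw [Nat.le_div_iff_mul_le hγ]
  have h1 : (univ.filter (fun t : Fin n × Fin n × Fin n => γ < tcs M t.1 t.2.1 t.2.2)).card * γ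
      ≤ ∑ t ∈ univ.filter (fun t : Fin n × Fin n × Fin n => γ < tcs M t.1 t.2.1 t.2.2),
        tcs M t.1 t.2.1 t.2.2 := by
    rw [← smul_eq_mul]
    refine Finset.card_nsmul_le_sum _ _ _ ?_
    intro t ht
    exact le_of_lt (Finset.mem_filter.mp ht).2
  have h2 : ∑ t ∈ univ.filter (fun t : Fin n × Fin n × Fin n => γ < tcs M t.1 t.2.1 t.2.2),
        tcs M t.1 t.2.1 t.2.2 ≤ ∑ t : Fin n × Fin n × Fin n, tcs M t.1 t.2.1 t.2.2 :=
    Finset.sum_le_sum_of_subset (Finset.subset_univ _)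
  rw [sum_tcs_eq] at h2
  omega

private lemma tcs_distinct (M : Fin n → Fin n → Bool) (a b c : Fin n) (h : 0 < tcs M a b c) :
    a ≠ b ∧ b ≠ c ∧ a ≠ c := by
  have hno : ∀ x y : Fin n, ¬ (x < y ∧ y < x) := fun x y h => lt_asymm h.1 h.2
  unfold tcs tc at h
  refine ⟨?_, ?_, ?_⟩ <;> rintro rfl <;> simp [hno] at h

private lemma tcs_swap12 (M : Fin n → Fin n → Bool) (a b c : Fin n) :
    tcs M b a c = tcs M a b c := by
  unfold tcs
  ring

private lemma tcs_swap23 (M : Fin n → Fin n → Bool) (a b c : Fin n) :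
    tcs M a c b = tcs M a b c := by
  unfold tcs
  ring

private lemma econf_le_tcs (M : Fin n → Fin n → Bool) (a b c : Fin n) (h1 : a < b) (h2 : b < c) :
    econf M a b c ≤ tcs M a b c := by
  have : tc M a b c = econf M a b c := by
    unfold tc
    rw [if_pos ⟨h1, h2⟩]
  unfold tcs
  rw [this]
  omega

/-- ET3. apply `exists_transversal3` with `I = ekeys`, `G q = egrp q.1 q.2`,
`bad = {act, Λ < eloc} ∪ {act, Λ2 < early}`, `E` = the set of `card_badTriples_le`
(`card_le_div_of_lt` of GSamples.lean bounds the two parts of `bad`). -/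
theorem exists_egoodSamples (M : Fin n → Fin n → Bool) (act : Fin n → Bool) (ld : Fin n → Fin n)
    (β h w g L γ Λ m Λ2 d1 d2 e1 e2 N : ℕ) (hh : 0 < h) (hw : 0 < w) (hg : 0 < g) (hγ : 0 < γ)
    (hΛ : 0 < Λ) (hΛ2 : 0 < Λ2) (hn : n ≤ L * w) (hP : EPrepared M act ld β h) (hN : NE M ≤ N)
    (H1 : 6 * N / γ ≤ (d1 + 1) * e1) (H2 : d1 ≤ (d2 + 1) * e2)
    (H3 : (n / h) * (3 * β) / Λ + (n / h) * (2 * m * n) / Λ2 + e1 + ((n / h) * L) * e2
      + ((n / h) * L) ^ 2 * d2 < g) :
    ∃ s : Fin n → ℕ → Fin n, EGoodSamples M act ld w g γ Λ m Λ2 s := by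
  rcases Nat.eq_zero_or_pos n with rfl | hn0
  · exact ⟨fun c => c.elim0, ⟨fun c => c.elim0, fun c => c.elim0, fun c => c.elim0,
      fun c => c.elim0⟩⟩
  have : Inhabited (Fin n) := ⟨⟨0, hn0⟩⟩
  set bad1 : Finset (Fin n) := univ.filter (fun ρ : Fin n => act ρ = true ∧ Λ < eloc M ld ρ)
    with hbad1
  set bad2 : Finset (Fin n) :=
    univ.filter (fun ρ : Fin n => act ρ = true ∧ Λ2 < early M act ld m ρ) with hbad2
  set E : Finset (Fin n × Fin n × Fin n) :=
    univ.filter (fun t : Fin n × Fin n × Fin n => γ < tcs M t.1 t.2.1 t.2.2) with hE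
  have hb1 : bad1.card ≤ (n / h) * (3 * β) / Λ := by
    refine card_le_div_of_lt _ (eloc M ld) Λ _ hΛ (fun ρ hρ => (mem_filter.1 hρ).2.2) ?_
    refine le_trans (sum_le_sum_of_subset ?_) (sum_eloc_le M act ld β h hh hP)
    intro ρ hρ
    exact mem_filter.2 ⟨mem_univ _, (mem_filter.1 hρ).2.1⟩
  have hb2 : bad2.card ≤ (n / h) * (2 * m * n) / Λ2 := by
    refine card_le_div_of_lt _ (early M act ld m) Λ2 _ hΛ2 (fun ρ hρ => (mem_filter.1 hρ).2.2) ?_
    exact sum_early_le M act ld β h hh hP m bad2 (fun ρ hρ => (mem_filter.1 hρ).2.1)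
  have hEc : E.card ≤ (d1 + 1) * e1 := le_trans (card_badTriples_le M γ N hγ hN) H1
  have hI : (ekeys act ld w g L).card ≤ (n / h) * L := ekeys_card_le M act ld β h w g L hh hP
  have hcount : (bad1 ∪ bad2).card + e1 + (ekeys act ld w g L).card * e2
      + (ekeys act ld w g L).card ^ 2 * d2 < g := by
    have a1 := card_union_le bad1 bad2
    have a2 := Nat.mul_le_mul_right e2 hI
    have a3 := Nat.mul_le_mul_right d2 (Nat.pow_le_pow_left hI 2)
    omega
  obtain ⟨s, hs1, hs2⟩ := exists_transversal3 (ekeys act ld w g L)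
    (fun q : Fin n × ℕ => egrp act ld w q.1 q.2) (bad1 ∪ bad2) E g d1 d2 e1 e2
    (fun q hq => (mem_ekeys act ld w g L hw hg hn q.1 q.2).1 hq)
    (by
      intro a b c habc
      have h0 : γ < tcs M a b c := (mem_filter.1 habc).2
      refine ⟨mem_filter.2 ⟨mem_univ _, ?_⟩, mem_filter.2 ⟨mem_univ _, ?_⟩⟩
      · show γ < tcs M b a c
        rw [tcs_swap12]; exact h0
      · show γ < tcs M a c b
        rw [tcs_swap23]; exact h0)
    (by
      intro a b c habc
      have h0 : γ < tcs M a b c := (mem_filter.1 habc).2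
      exact tcs_distinct M a b c (lt_of_le_of_lt (Nat.zero_le _) h0))
    hEc H2 hcount
  have hk : ∀ c l, EKey act ld w g c l → (c, l) ∈ ekeys act ld w g L :=
    fun c l hkey => (mem_ekeys act ld w g L hw hg hn c l).2 hkey
  refine ⟨fun c l => s (c, l), ⟨?_, ?_, ?_, ?_⟩⟩
  · intro c l hkey
    exact (hs1 (c, l) (hk c l hkey)).1
  · intro c l hkey
    obtain ⟨a1, a2⟩ := hs1 (c, l) (hk c l hkey)
    by_contra hcon
    push Not at hcon
    exact a2 (mem_union_left _ (mem_filter.2 ⟨mem_univ _, ((mem_egrp act ld w c l _).1 a1).1, hcon⟩))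
  · intro c l hkey
    obtain ⟨a1, a2⟩ := hs1 (c, l) (hk c l hkey)
    by_contra hcon
    push Not at hcon
    exact a2 (mem_union_right _ (mem_filter.2 ⟨mem_univ _, ((mem_egrp act ld w c l _).1 a1).1, hcon⟩))
  · intro c1 l1 c2 l2 c3 l3 k1 k2 k3 h12 h23
    by_contra hcon
    push Not at hcon
    refine hs2 (c1, l1) (hk _ _ k1) (c2, l2) (hk _ _ k2) (c3, l3) (hk _ _ k3)
      (mem_filter.2 ⟨mem_univ _, ?_⟩)
    exact lt_of_lt_of_le hcon (econf_le_tcs M _ _ _ h12 h23)

end Vale.Agent.P037
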