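import Mathlib
import Vale.Agent.P037.EBasic
import Vale.Agent.P037.EClosure
import Vale.Agent.P037.EGroups
import Vale.Agent.P037.ECover
import Vale.Agent.P037.ECost
import Vale.Agent.P037.ESamples
import Vale.Agent.P037.EPrep
import Vale.Agent.P037.GAssembly

/-! P037, pattern E: the free matrix `B` and its distance from `A`.  Model: GAssembly.lean. -/

namespace Vale.Agent.P037

open Finset

variable {n : ℕ}

/-- EB1. the part of the construction that starts from a prepared matrix with good samples
(notes/P037_eae.md, sec. E5; model `construct_prepared`).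
`Smp` = image of `ekeys` under `s`; `Z` from `exists_cover_samples3`; `M3 = M` with `Z` zeroed;
`win r = r / w`; `W r` = columns of `M3` in `sP r`, `sS r`, `sQ r`;
`B r y = decide (r ∈ eint ∧ ∃ hW : (W r).Nonempty, ECl M3 Smp win (r / w) ((W r).min' hW) y)`.
Free by `efree_closure` (`Act r := r ∈ eint ∧ (W r).Nonempty`, `st r` = the minimum, witness `sS r`).
Row cost of an interior row: `≤ Z.card + sd (sS r) r + sd r (sP r) + sd r (sS r) + sd r (sQ r)`
(`B = 1, M = 0`: `sample_of_ecl` with the sample `sS r`;  `B = 0, M = 1, y ∉ Z`: if `y` is in all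
three samples then `y ∈ W r`, and `y = min` or `EDir (r / w) min y` with the witnesses `sP r`, `sQ r`). -/
theorem econstruct_prepared (M : Fin n → Fin n → Bool) (act : Fin n → Bool) (ld : Fin n → Fin n)
    (β h w g L k γ Λ m Λ2 : ℕ) (hh : 0 < h) (hw : 0 < w) (hg : 0 < g) (hk : 0 < k) (hm : 0 < m)
    (hn : n ≤ L * w) (s : Fin n → ℕ → Fin n) (hP : EPrepared M act ld β h)
    (hS : EGoodSamples M act ld w g γ Λ m Λ2 s) :
    ∃ B : Fin n → Fin n → Bool, EFree B ∧
      diffCount M B ≤ n * (((n / h) * L) ^ 3 * (k + γ / k)) + n * ((n / h) * (L * g + 2 * w))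
        + (4 * ((n / h) * L * (2 * Λ / m)) + 3 * ((n / h) * (2 * (m + (2 * w + L * g)) * n))
          + n * Λ2 + (n / h) * (n * (2 * w))) := by
  classical
  -- the sample rows
  set Smp : Finset (Fin n) := (ekeys act ld w g L).image (fun q => s q.1 q.2) with hSmp
  have memSmp : ∀ c l, EKey act ld w g c l → s c l ∈ Smp := by
    intro c l hkey
    exact Finset.mem_image.2 ⟨(c, l), (mem_ekeys act ld w g L hw hg hn c l).2 hkey, rfl⟩
  have hcardS : Smp.card ≤ (n / h) * L :=
    Finset.card_image_le.trans (ekeys_card_le M act ld β h w g L hh hP)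
  have hconf : ∀ ρ1 ∈ Smp, ∀ ρ2 ∈ Smp, ∀ ρ3 ∈ Smp, ρ1 < ρ2 → ρ2 < ρ3 →
      econf M ρ1 ρ2 ρ3 ≤ γ := by
    intro ρ1 h1 ρ2 h2 ρ3 h3 h12 h23
    obtain ⟨⟨c1, l1⟩, hq1, rfl⟩ := Finset.mem_image.1 h1
    obtain ⟨⟨c2, l2⟩, hq2, rfl⟩ := Finset.mem_image.1 h2
    obtain ⟨⟨c3, l3⟩, hq3, rfl⟩ := Finset.mem_image.1 h3
    exact hS.conf_le c1 l1 c2 l2 c3 l3 ((mem_ekeys act ld w g L hw hg hn c1 l1).1 hq1)
      ((mem_ekeys act ld w g L hw hg hn c2 l2).1 hq2)
      ((mem_ekeys act ld w g L hw hg hn c3 l3).1 hq3) h12 h23
  obtain ⟨Z, hZcard, hfree⟩ := exists_cover_samples3 M Smp k γ hk hconf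
  have hZ : Z.card ≤ ((n / h) * L) ^ 3 * (k + γ / k) :=
    hZcard.trans (Nat.mul_le_mul_right _ (Nat.pow_le_pow_left hcardS 3))
  set M3 : Fin n → Fin n → Bool := fun r y => M r y && decide (y ∉ Z) with hM3
  have M3_true : ∀ r y, M3 r y = true ↔ (M r y = true ∧ y ∉ Z) := by
    intro r y
    simp [hM3]
  set win : Fin n → ℕ := fun r => r.val / w with hwin_def
  have hwin : Monotone win := div_mono w
  set P : Fin n → Fin n := sP act ld w g s with hPdef
  set S : Fin n → Fin n := sS ld w s with hSdef
  set Q : Fin n → Fin n := sQ act ld w g s with hQdef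
  set I : Finset (Fin n) := eint act ld w g with hI
  have facts : ∀ r ∈ I, act r = true ∧ P r ∈ Smp ∧ S r ∈ Smp ∧ Q r ∈ Smp ∧
      win (P r) < win r ∧ win (S r) = win r ∧ win r < win (Q r) := by
    intro r hr
    obtain ⟨f1, f2, f3, f4, -, -, -, f8, f9, f10, f11, f12, -, -⟩ :=
      eint_facts M act ld w g γ Λ m Λ2 s hS r hr
    refine ⟨f1, memSmp _ _ f2, memSmp _ _ f3, memSmp _ _ f4, ?_, f9, ?_⟩
    · show (sP act ld w g s r).val / w < r.val / w
      rw [f8]; exact f11
    · show r.val / w < (sQ act ld w g s r).val / w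
      rw [f10]; exact f12
  set Wf : Fin n → Finset (Fin n) := fun r => univ.filter (fun x : Fin n =>
    M3 (P r) x = true ∧ M3 (S r) x = true ∧ M3 (Q r) x = true) with hWf
  set B : Fin n → Fin n → Bool := fun r y =>
    decide (r ∈ I ∧ ∃ hW : (Wf r).Nonempty, ECl M3 Smp win (win r) ((Wf r).min' hW) y) with hB
  have B_true : ∀ r y, B r y = true ↔
      (r ∈ I ∧ ∃ hW : (Wf r).Nonempty, ECl M3 Smp win (win r) ((Wf r).min' hW) y) := by
    intro r y
    simp [hB]
  refine ⟨B, ?_, ?_⟩
  · refine efree_closure M3 Smp win hwin hfree (fun r => r ∈ I ∧ (Wf r).Nonempty)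
      (fun r => if hW : (Wf r).Nonempty then (Wf r).min' hW else r) ?_ B ?_
    · rintro r ⟨hr, hW⟩
      obtain ⟨-, -, hSS, -, -, hwS, -⟩ := facts r hr
      refine ⟨S r, hSS, hwS, ?_⟩
      have hv := Finset.min'_mem (Wf r) hW
      simp only [hWf, Finset.mem_filter, Finset.mem_univ, true_and] at hv
      simp only [dif_pos hW]
      exact hv.2.1
    · intro r y
      rw [B_true]
      constructor
      · rintro ⟨hr, hW, p⟩
        refine ⟨⟨hr, hW⟩, ?_⟩
        simp only [dif_pos hW]
        exact p
      · rintro ⟨⟨hr, hW⟩, p⟩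
        simp only [dif_pos hW] at p
        exact ⟨hr, hW, p⟩
  · -- the cost, row by row
    have hrow_int : ∀ r ∈ I,
        (univ.filter (fun y : Fin n => M r y ≠ B r y)).card
          ≤ Z.card + (sd M (S r) r + sd M r (P r) + sd M r (S r) + sd M r (Q r)) := by
      intro r hr
      obtain ⟨-, hPS, hSS, hQS, hwP, hwS, hwQ⟩ := facts r hr
      have hsub : univ.filter (fun y : Fin n => M r y ≠ B r y) ⊆
          Z ∪ (univ.filter (fun y : Fin n => M (S r) y = true ∧ M r y = false) ∪
            univ.filter (fun y : Fin n => M r y = true ∧ M (P r) y = false) ∪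
            univ.filter (fun y : Fin n => M r y = true ∧ M (S r) y = false) ∪
            univ.filter (fun y : Fin n => M r y = true ∧ M (Q r) y = false)) := by
        intro y hy
        simp only [Finset.mem_filter, Finset.mem_univ, true_and] at hy
        simp only [Finset.mem_union, Finset.mem_filter, Finset.mem_univ, true_and]
        cases hMy : M r y with
        | false =>
          have hBy : B r y = true := by
            cases hb : B r y with
            | false => exact absurd (by rw [hMy, hb]) hy
            | true => rfl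
          obtain ⟨_, hW, p⟩ := (B_true _ _).1 hBy
          have hv := Finset.min'_mem (Wf r) hW
          simp only [hWf, Finset.mem_filter, Finset.mem_univ, true_and] at hv
          rw [← hwS] at p
          have := sample_of_ecl M3 Smp win hwin hfree (S r) hSS _ y hv.2.1 p
          exact Or.inr (Or.inl (Or.inl (Or.inl ⟨((M3_true _ _).1 this).1, rfl⟩)))
        | true =>
          have hBy : B r y = false := by
            cases hb : B r y with
            | true => exact absurd (by rw [hMy, hb]) hy
            | false => rfl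
          by_cases hyZ : y ∈ Z
          · exact Or.inl hyZ
          · right
            cases hp : M (P r) y with
            | false => exact Or.inl (Or.inl (Or.inr ⟨rfl, rfl⟩))
            | true =>
              cases hs : M (S r) y with
              | false => exact Or.inl (Or.inr ⟨rfl, rfl⟩)
              | true =>
                cases hq : M (Q r) y with
                | false => exact Or.inr ⟨rfl, rfl⟩
                | true =>
                  exfalso
                  have hyW : y ∈ Wf r := by
                    simp only [hWf, Finset.mem_filter, Finset.mem_univ, true_and]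
                    exact ⟨(M3_true _ _).2 ⟨hp, hyZ⟩, (M3_true _ _).2 ⟨hs, hyZ⟩,
                      (M3_true _ _).2 ⟨hq, hyZ⟩⟩
                  have hW : (Wf r).Nonempty := ⟨y, hyW⟩
                  have hv := Finset.min'_mem (Wf r) hW
                  simp only [hWf, Finset.mem_filter, Finset.mem_univ, true_and] at hv
                  have p : ECl M3 Smp win (win r) ((Wf r).min' hW) y := by
                    rcases (Finset.min'_le _ _ hyW).lt_or_eq with hlt | heq
                    · right
                      refine Relation.TransGen.single ⟨hlt, ?_, ?_⟩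
                      · exact ⟨P r, hPS, hwP, hv.1, (M3_true _ _).2 ⟨hp, hyZ⟩⟩
                      · exact ⟨Q r, hQS, hwQ, hv.2.2, (M3_true _ _).2 ⟨hq, hyZ⟩⟩
                    · left
                      exact heq.symm
                  have : B r y = true := (B_true _ _).2 ⟨hr, hW, p⟩
                  rw [this] at hBy
                  exact absurd hBy (by simp)
      refine (Finset.card_le_card hsub).trans ?_
      refine (Finset.card_union_le _ _).trans (Nat.add_le_add_left ?_ _)
      refine (Finset.card_union_le _ _).trans (Nat.add_le_add_right ?_ _)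
      refine (Finset.card_union_le _ _).trans (Nat.add_le_add_right ?_ _)
      exact Finset.card_union_le _ _
    have hrow_inact : ∀ r, act r = false →
        (univ.filter (fun y : Fin n => M r y ≠ B r y)).card = 0 := by
      intro r hr
      rw [Finset.card_eq_zero]
      apply Finset.filter_eq_empty_iff.2
      intro y _ hy
      apply hy
      rw [hP.inactive r hr y]
      symm
      by_contra hcon
      have hb : B r y = true := by simpa using hcon
      have := (facts r ((B_true _ _).1 hb).1).1
      rw [hr] at this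
      exact absurd this (by simp)
    have hrow_any : ∀ r : Fin n, (univ.filter (fun y : Fin n => M r y ≠ B r y)).card ≤ n := by
      intro r
      calc (univ.filter (fun y : Fin n => M r y ≠ B r y)).card ≤ (univ : Finset (Fin n)).card :=
            Finset.card_le_card (Finset.filter_subset _ _)
        _ = n := by simp
    have hrow : ∀ r : Fin n, (univ.filter (fun y : Fin n => M r y ≠ B r y)).card
        ≤ (if r ∈ I then
            Z.card + (sd M (S r) r + sd M r (P r) + sd M r (S r) + sd M r (Q r)) else 0)
          + (if act r = true ∧ r ∉ I then n else 0) := by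
      intro r
      by_cases hrI : r ∈ I
      · rw [if_pos hrI]
        exact (hrow_int r hrI).trans (Nat.le_add_right _ _)
      · rw [if_neg hrI, Nat.zero_add]
        cases hact : act r with
        | false =>
          rw [hrow_inact r hact]
          exact Nat.zero_le _
        | true =>
          rw [if_pos ⟨rfl, hrI⟩]
          exact hrow_any r
    rw [diffCount_eq_sum_row]
    refine (Finset.sum_le_sum fun r _ => hrow r).trans ?_
    rw [Finset.sum_add_distrib, ← Finset.sum_filter, ← Finset.sum_filter, Finset.sum_add_distrib,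
      Finset.sum_const, Finset.sum_const, smul_eq_mul, smul_eq_mul]
    have hfI : univ.filter (fun r : Fin n => r ∈ I) = I := by
      ext r; simp
    rw [hfI]
    have c1 : I.card * Z.card ≤ n * (((n / h) * L) ^ 3 * (k + γ / k)) := by
      refine Nat.mul_le_mul ?_ hZ
      calc I.card ≤ (univ : Finset (Fin n)).card := Finset.card_le_card (Finset.subset_univ _)
        _ = n := by simp
    have c2 := eint_cost_le M act ld β h w g L γ Λ m Λ2 hh hw hg hm hn s hP hS
    have c3 : (univ.filter (fun r : Fin n => act r = true ∧ r ∉ I)).card * n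
        ≤ n * ((n / h) * (L * g + 2 * w)) := by
      rw [Nat.mul_comm]
      exact Nat.mul_le_mul_left _ (not_eint_card_le M act ld β h w g L hh hw hn hP)
    exact Nat.add_le_add (Nat.add_le_add c1 c2) c3 |>.trans (by omega)

/-- the whole construction. -/
theorem econstruct (A : Fin n → Fin n → Bool) (β h w g L k γ Λ m Λ2 d1 d2 e1 e2 : ℕ)
    (hβ : 0 < β) (hh : 0 < h) (hw : 0 < w) (hg : 0 < g) (hk : 0 < k) (hγ : 0 < γ) (hΛ : 0 < Λ)
    (hm : 0 < m) (hΛ2 : 0 < Λ2) (hn : n ≤ L * w)
    (H1 : 6 * NE A / γ ≤ (d1 + 1) * e1) (H2 : d1 ≤ (d2 + 1) * e2)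
    (H3 : (n / h) * (3 * β) / Λ + (n / h) * (2 * m * n) / Λ2 + e1 + ((n / h) * L) * e2
      + ((n / h) * L) ^ 2 * d2 < g) :
    ∃ B : Fin n → Fin n → Bool, EFree B ∧
      diffCount A B ≤ (n * (NE A / β) + h * n) + (n * (((n / h) * L) ^ 3 * (k + γ / k))
        + n * ((n / h) * (L * g + 2 * w))
        + (4 * ((n / h) * L * (2 * Λ / m)) + 3 * ((n / h) * (2 * (m + (2 * w + L * g)) * n))
          + n * Λ2 + (n / h) * (n * (2 * w)))) := by
  obtain ⟨M, act, ld, hP, hcost, hconf⟩ := eprep A β h hβ hh
  have hN : NE M ≤ NE A := Finset.sum_le_sum fun p _ => hconf p.1 p.2.1 p.2.2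
  obtain ⟨s, hS⟩ := exists_egoodSamples M act ld β h w g L γ Λ m Λ2 d1 d2 e1 e2 (NE A)
    hh hw hg hγ hΛ hΛ2 hn hP hN H1 H2 H3
  obtain ⟨B, hB, hcost2⟩ := econstruct_prepared M act ld β h w g L k γ Λ m Λ2 hh hw hg hk hm hn
    s hP hS
  exact ⟨B, hB, (diffCount_triangle A M B).trans (Nat.add_le_add hcost hcost2)⟩

end Vale.Agent.P037
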