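import Mathlib

/-! P037, pattern E: pure arithmetic, the choice of the parameters.  Model: GParams.lean. -/

namespace Vale.Agent.P037

/-- the final inequality of `eparams`, with the quotients replaced by variables. -/
private theorem eparams_aux (T n u A C : ℕ) (hT : 1 ≤ T) (hu : 1 ≤ u)
    (hDu : 2 ^ 67 * T ^ 10 * u ≤ n) (hA : A ≤ 32 * T) (hC : C ≤ u) :
    T * ((n * C + 2 ^ 63 * T ^ 9 * u * n) + (n * ((A * (2 ^ 14 * T ^ 2)) ^ 3 * (32 * u + 32 * u))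
        + n * (A * (2 ^ 14 * T ^ 2 * (2 ^ 41 * T ^ 6 * u) + 2 * (2 ^ 54 * T ^ 8 * u)))
        + (4 * (A * (2 ^ 14 * T ^ 2) * (2 ^ 109 * T ^ 16 * u ^ 2))
          + 3 * (A * (2 * (2 ^ 27 * T ^ 4 * u
              + (2 * (2 ^ 54 * T ^ 8 * u) + 2 ^ 14 * T ^ 2 * (2 ^ 41 * T ^ 6 * u))) * n))
          + n * (2 ^ 63 * T ^ 9 * u) + A * (n * (2 * (2 ^ 54 * T ^ 8 * u)))))) < n ^ 2 := by
  have hnpos : 0 < n := lt_of_lt_of_le (by positivity) hDu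
  have hXn : 2 ^ 67 * T ^ 10 * u * n ≤ n ^ 2 := by
    calc 2 ^ 67 * T ^ 10 * u * n ≤ n * n := Nat.mul_le_mul_right _ hDu
      _ = n ^ 2 := by ring
  have hXX : (2 ^ 67 * T ^ 10 * u) ^ 2 ≤ n ^ 2 := Nat.pow_le_pow_left hDu 2
  have hT10 : T ≤ T ^ 10 := Nat.le_self_pow (by norm_num) T
  have hT48 : T ^ 4 ≤ T ^ 8 := Nat.pow_le_pow_right hT (by norm_num)
  have h1 : 128 * T * (n * C) ≤ n ^ 2 := by
    calc 128 * T * (n * C) ≤ 128 * T * (n * u) := by gcongr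
      _ ≤ 2 ^ 67 * T ^ 10 * (n * u) := by
          apply Nat.mul_le_mul_right
          calc 128 * T ≤ 128 * T ^ 10 := by gcongr
            _ ≤ 2 ^ 67 * T ^ 10 := by gcongr; norm_num
      _ = 2 ^ 67 * T ^ 10 * u * n := by ring
      _ ≤ n ^ 2 := hXn
  have h2 : 16 * T * (2 ^ 63 * T ^ 9 * u * n) ≤ n ^ 2 := by
    calc 16 * T * (2 ^ 63 * T ^ 9 * u * n) = 2 ^ 67 * T ^ 10 * u * n := by ring
      _ ≤ n ^ 2 := hXn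
  have h3 : 16 * T * (n * ((A * (2 ^ 14 * T ^ 2)) ^ 3 * (32 * u + 32 * u))) ≤ n ^ 2 := by
    calc 16 * T * (n * ((A * (2 ^ 14 * T ^ 2)) ^ 3 * (32 * u + 32 * u)))
        ≤ 16 * T * (n * ((32 * T * (2 ^ 14 * T ^ 2)) ^ 3 * (32 * u + 32 * u))) := by gcongr
      _ = 2 ^ 67 * T ^ 10 * u * n := by ring
      _ ≤ n ^ 2 := hXn
  have h4 : 64 * T * (n * (A * (2 ^ 14 * T ^ 2 * (2 ^ 41 * T ^ 6 * u) + 2 * (2 ^ 54 * T ^ 8 * u))))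
      ≤ n ^ 2 := by
    calc 64 * T * (n * (A * (2 ^ 14 * T ^ 2 * (2 ^ 41 * T ^ 6 * u) + 2 * (2 ^ 54 * T ^ 8 * u))))
        ≤ 64 * T * (n * (32 * T * (2 ^ 14 * T ^ 2 * (2 ^ 41 * T ^ 6 * u)
            + 2 * (2 ^ 54 * T ^ 8 * u)))) := by gcongr
      _ = 2 ^ 67 * T ^ 10 * u * n := by ring
      _ ≤ n ^ 2 := hXn
  have h5 : 16 * T * (4 * (A * (2 ^ 14 * T ^ 2) * (2 ^ 109 * T ^ 16 * u ^ 2))) ≤ n ^ 2 := by
    calc 16 * T * (4 * (A * (2 ^ 14 * T ^ 2) * (2 ^ 109 * T ^ 16 * u ^ 2)))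
        ≤ 16 * T * (4 * (32 * T * (2 ^ 14 * T ^ 2) * (2 ^ 109 * T ^ 16 * u ^ 2))) := by gcongr
      _ = (2 ^ 67 * T ^ 10 * u) ^ 2 := by ring
      _ ≤ n ^ 2 := hXX
  have h6 : 16 * T * (3 * (A * (2 * (2 ^ 27 * T ^ 4 * u
              + (2 * (2 ^ 54 * T ^ 8 * u) + 2 ^ 14 * T ^ 2 * (2 ^ 41 * T ^ 6 * u))) * n)))
      ≤ 3 * n ^ 2 := by
    have hm : 2 ^ 27 * T ^ 4 * u ≤ 2 ^ 56 * T ^ 8 * u := by
      apply Nat.mul_le_mul_right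
      exact Nat.mul_le_mul (by norm_num) hT48
    calc 16 * T * (3 * (A * (2 * (2 ^ 27 * T ^ 4 * u
              + (2 * (2 ^ 54 * T ^ 8 * u) + 2 ^ 14 * T ^ 2 * (2 ^ 41 * T ^ 6 * u))) * n)))
        ≤ 16 * T * (3 * (32 * T * (2 * (2 ^ 56 * T ^ 8 * u
              + (2 * (2 ^ 54 * T ^ 8 * u) + 2 ^ 14 * T ^ 2 * (2 ^ 41 * T ^ 6 * u))) * n))) := by
          gcongr
      _ = 3 * (2 ^ 67 * T ^ 10 * u * n) := by ring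
      _ ≤ 3 * n ^ 2 := by gcongr
  have h7 : 16 * T * (n * (2 ^ 63 * T ^ 9 * u)) ≤ n ^ 2 := by
    calc 16 * T * (n * (2 ^ 63 * T ^ 9 * u)) = 2 ^ 67 * T ^ 10 * u * n := by ring
      _ ≤ n ^ 2 := hXn
  have h8 : 128 * T * (A * (n * (2 * (2 ^ 54 * T ^ 8 * u)))) ≤ n ^ 2 := by
    calc 128 * T * (A * (n * (2 * (2 ^ 54 * T ^ 8 * u))))
        ≤ 128 * T * (32 * T * (n * (2 * (2 ^ 54 * T ^ 8 * u)))) := by gcongr
      _ = 2 ^ 67 * T ^ 10 * u * n := by ring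
      _ ≤ n ^ 2 := hXn
  have hn2 : 0 < n ^ 2 := by positivity
  apply Nat.lt_of_mul_lt_mul_left (a := 128)
  have hsplit : 128 * (T * ((n * C + 2 ^ 63 * T ^ 9 * u * n)
        + (n * ((A * (2 ^ 14 * T ^ 2)) ^ 3 * (32 * u + 32 * u))
        + n * (A * (2 ^ 14 * T ^ 2 * (2 ^ 41 * T ^ 6 * u) + 2 * (2 ^ 54 * T ^ 8 * u)))
        + (4 * (A * (2 ^ 14 * T ^ 2) * (2 ^ 109 * T ^ 16 * u ^ 2))
          + 3 * (A * (2 * (2 ^ 27 * T ^ 4 * u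
              + (2 * (2 ^ 54 * T ^ 8 * u) + 2 ^ 14 * T ^ 2 * (2 ^ 41 * T ^ 6 * u))) * n))
          + n * (2 ^ 63 * T ^ 9 * u) + A * (n * (2 * (2 ^ 54 * T ^ 8 * u)))))))
      = 128 * T * (n * C) + 8 * (16 * T * (2 ^ 63 * T ^ 9 * u * n))
        + 8 * (16 * T * (n * ((A * (2 ^ 14 * T ^ 2)) ^ 3 * (32 * u + 32 * u))))
        + 2 * (64 * T * (n * (A * (2 ^ 14 * T ^ 2 * (2 ^ 41 * T ^ 6 * u)
            + 2 * (2 ^ 54 * T ^ 8 * u)))))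
        + 8 * (16 * T * (4 * (A * (2 ^ 14 * T ^ 2) * (2 ^ 109 * T ^ 16 * u ^ 2))))
        + 8 * (16 * T * (3 * (A * (2 * (2 ^ 27 * T ^ 4 * u
              + (2 * (2 ^ 54 * T ^ 8 * u) + 2 ^ 14 * T ^ 2 * (2 ^ 41 * T ^ 6 * u))) * n))))
        + 8 * (16 * T * (n * (2 ^ 63 * T ^ 9 * u)))
        + 128 * T * (A * (n * (2 * (2 ^ 54 * T ^ 8 * u)))) := by ring
  rw [hsplit]
  linarith

/-- EA1.  Checked by hand: `K = 2^69`, `a = 10`, `D = 2^67 T^10`, `u = n / D` (so `D u ≤ n ≤ 2 D u`,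
`N ≤ u^5`), `β = 2^166 T^25 u^4`, `h = 2^63 T^9 u` (`n / h ≤ 32 T`), `w = 2^54 T^8 u`,
`g = 2^41 T^6 u`, `L = 2^14 T^2` (`(n/h) L ≤ 2^19 T^3`), `k = 32 u`, `γ = 2^10 u^2`,
`Λ = 2^135 T^20 u^3`, `m = 2^27 T^4 u`, `Λ2 = 2^63 T^9 u`, `d1 = 2^19 T^3 u^2`, `d2 = u`,
`e1 = 2^38 T^6 u`, `e2 = 2^19 T^3 u`.  Any other constants are fine. -/
theorem eparams : ∃ K a : ℕ, ∀ T n N : ℕ, 1 ≤ T → 1 ≤ N → (K * T ^ a) ^ 5 * N < n ^ 5 →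
    ∃ β h w g L k γ Λ m Λ2 d1 d2 e1 e2 : ℕ, 0 < β ∧ 0 < h ∧ 0 < w ∧ 0 < g ∧ 0 < k ∧ 0 < γ ∧
      0 < Λ ∧ 0 < m ∧ 0 < Λ2 ∧ n ≤ L * w ∧
      6 * N / γ ≤ (d1 + 1) * e1 ∧ d1 ≤ (d2 + 1) * e2 ∧
      (n / h) * (3 * β) / Λ + (n / h) * (2 * m * n) / Λ2 + e1 + ((n / h) * L) * e2
        + ((n / h) * L) ^ 2 * d2 < g ∧
      T * ((n * (N / β) + h * n) + (n * (((n / h) * L) ^ 3 * (k + γ / k))
        + n * ((n / h) * (L * g + 2 * w))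
        + (4 * ((n / h) * L * (2 * Λ / m)) + 3 * ((n / h) * (2 * (m + (2 * w + L * g)) * n))
          + n * Λ2 + (n / h) * (n * (2 * w))))) < n ^ 2 := by
  refine ⟨2 ^ 69, 10, ?_⟩
  intro T n N hT hN hlt
  have hTpos : 0 < T := hT
  obtain ⟨D, hD⟩ : ∃ D : ℕ, D = 2 ^ 67 * T ^ 10 := ⟨_, rfl⟩
  have hDpos : 0 < D := by rw [hD]; positivity
  have hn5 : (4 * D) ^ 5 < n ^ 5 := by
    calc (4 * D) ^ 5 = (2 ^ 69 * T ^ 10) ^ 5 := by rw [hD]; ring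
      _ ≤ (2 ^ 69 * T ^ 10) ^ 5 * N := Nat.le_mul_of_pos_right _ hN
      _ < n ^ 5 := hlt
  have hn : 4 * D < n := lt_of_pow_lt_pow_left₀ 5 (Nat.zero_le _) hn5
  obtain ⟨u, hu⟩ : ∃ u : ℕ, u = n / D := ⟨_, rfl⟩
  have hu1 : 1 ≤ u := by
    rw [hu]
    exact (Nat.le_div_iff_mul_le hDpos).mpr (by omega)
  have hupos : 0 < u := hu1
  have hDu : D * u ≤ n := by rw [hu]; exact Nat.mul_div_le n D
  have hn2 : n < D * (u + 1) := by rw [hu]; exact Nat.lt_mul_div_succ n hDpos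
  have hn2' : n ≤ 2 * (D * u) := by
    have : D ≤ D * u := Nat.le_mul_of_pos_right _ hupos
    have h3 : D * (u + 1) = D * u + D := by ring
    omega
  -- bound for N
  have hNu : N ≤ u ^ 5 := by
    have h1 : (4 * D) ^ 5 * N < (2 * (D * u)) ^ 5 := by
      calc (4 * D) ^ 5 * N = (2 ^ 69 * T ^ 10) ^ 5 * N := by rw [hD]; ring
        _ < n ^ 5 := hlt
        _ ≤ (2 * (D * u)) ^ 5 := Nat.pow_le_pow_left hn2' 5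
    have h2 : (32 * D ^ 5) * (32 * N) < (32 * D ^ 5) * u ^ 5 := by
      calc (32 * D ^ 5) * (32 * N) = (4 * D) ^ 5 * N := by ring
        _ < (2 * (D * u)) ^ 5 := h1
        _ = (32 * D ^ 5) * u ^ 5 := by ring
    have h3 : 32 * N < u ^ 5 := Nat.lt_of_mul_lt_mul_left h2
    omega
  have hA : n / (2 ^ 63 * T ^ 9 * u) ≤ 32 * T := by
    apply Nat.div_le_of_le_mul
    calc n ≤ 2 * (D * u) := hn2'
      _ = 2 ^ 63 * T ^ 9 * u * (32 * T) := by rw [hD]; ring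
  have hC : N / (2 ^ 166 * T ^ 25 * u ^ 4) ≤ u := by
    apply Nat.div_le_of_le_mul
    calc N ≤ u ^ 5 := hNu
      _ = 1 * (u ^ 4 * u) := by ring
      _ ≤ (2 ^ 166 * T ^ 25) * (u ^ 4 * u) := by
          apply Nat.mul_le_mul_right
          exact Nat.succ_le_of_lt (by positivity)
      _ = 2 ^ 166 * T ^ 25 * u ^ 4 * u := by ring
  have hγk : 2 ^ 10 * u ^ 2 / (32 * u) = 32 * u := by
    have : 2 ^ 10 * u ^ 2 = 32 * u * (32 * u) := by ring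
    rw [this]
    exact Nat.mul_div_cancel_left _ (by positivity)
  have hΛm : 2 * (2 ^ 135 * T ^ 20 * u ^ 3) / (2 ^ 27 * T ^ 4 * u) = 2 ^ 109 * T ^ 16 * u ^ 2 := by
    have : 2 * (2 ^ 135 * T ^ 20 * u ^ 3) = 2 ^ 27 * T ^ 4 * u * (2 ^ 109 * T ^ 16 * u ^ 2) := by
      ring
    rw [this]
    exact Nat.mul_div_cancel_left _ (by positivity)
  refine ⟨2 ^ 166 * T ^ 25 * u ^ 4, 2 ^ 63 * T ^ 9 * u, 2 ^ 54 * T ^ 8 * u, 2 ^ 41 * T ^ 6 * u,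
    2 ^ 14 * T ^ 2, 32 * u, 2 ^ 10 * u ^ 2, 2 ^ 135 * T ^ 20 * u ^ 3, 2 ^ 27 * T ^ 4 * u,
    2 ^ 63 * T ^ 9 * u, 2 ^ 19 * T ^ 3 * u ^ 2, u, 2 ^ 38 * T ^ 6 * u, 2 ^ 19 * T ^ 3 * u,
    by positivity, by positivity, by positivity, by positivity, by positivity, by positivity,
    by positivity, by positivity, by positivity, ?_, ?_, ?_, ?_, ?_⟩
  · calc n ≤ 2 * (D * u) := hn2'
      _ = 2 ^ 14 * T ^ 2 * (2 ^ 54 * T ^ 8 * u) := by rw [hD]; ring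
  · apply Nat.div_le_of_le_mul
    calc 6 * N ≤ 6 * u ^ 5 := by gcongr
      _ = 6 * (u ^ 2 * (u ^ 2 * u)) := by ring
      _ ≤ 2 ^ 10 * (u ^ 2 * (u ^ 2 * u)) := by gcongr; norm_num
      _ = 2 ^ 10 * u ^ 2 * ((1 * u ^ 2) * (1 * u)) := by ring
      _ ≤ 2 ^ 10 * u ^ 2 * ((2 ^ 19 * T ^ 3 * u ^ 2 + 1) * (2 ^ 38 * T ^ 6 * u)) := by
          have e1 : 1 ≤ 2 ^ 19 * T ^ 3 := Nat.succ_le_of_lt (by positivity)
          have e2 : 1 ≤ 2 ^ 38 * T ^ 6 := Nat.succ_le_of_lt (by positivity)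
          have e3 : 1 * u ^ 2 ≤ 2 ^ 19 * T ^ 3 * u ^ 2 + 1 :=
            le_trans (Nat.mul_le_mul_right _ e1) (Nat.le_succ _)
          have e4 : 1 * u ≤ 2 ^ 38 * T ^ 6 * u := Nat.mul_le_mul_right _ e2
          exact Nat.mul_le_mul_left _ (Nat.mul_le_mul e3 e4)
  · calc 2 ^ 19 * T ^ 3 * u ^ 2 = u * (2 ^ 19 * T ^ 3 * u) := by ring
      _ ≤ (u + 1) * (2 ^ 19 * T ^ 3 * u) := by gcongr; omega
  · have h1 : n / (2 ^ 63 * T ^ 9 * u) * (3 * (2 ^ 166 * T ^ 25 * u ^ 4))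
        / (2 ^ 135 * T ^ 20 * u ^ 3) ≤ 3 * 2 ^ 36 * T ^ 6 * u := by
      apply Nat.div_le_of_le_mul
      calc n / (2 ^ 63 * T ^ 9 * u) * (3 * (2 ^ 166 * T ^ 25 * u ^ 4))
          ≤ 32 * T * (3 * (2 ^ 166 * T ^ 25 * u ^ 4)) := by gcongr
        _ = 2 ^ 135 * T ^ 20 * u ^ 3 * (3 * 2 ^ 36 * T ^ 6 * u) := by ring
    have h2 : n / (2 ^ 63 * T ^ 9 * u) * (2 * (2 ^ 27 * T ^ 4 * u) * n) / (2 ^ 63 * T ^ 9 * u)
        ≤ 2 ^ 38 * T ^ 6 * u := by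
      apply Nat.div_le_of_le_mul
      calc n / (2 ^ 63 * T ^ 9 * u) * (2 * (2 ^ 27 * T ^ 4 * u) * n)
          ≤ 32 * T * (2 * (2 ^ 27 * T ^ 4 * u) * (2 * (D * u))) := by gcongr
        _ = 2 ^ 63 * T ^ 9 * u * (2 ^ 38 * T ^ 6 * u) := by rw [hD]; ring
    have h3 : n / (2 ^ 63 * T ^ 9 * u) * (2 ^ 14 * T ^ 2) * (2 ^ 19 * T ^ 3 * u)
        ≤ 2 ^ 38 * T ^ 6 * u := by
      calc n / (2 ^ 63 * T ^ 9 * u) * (2 ^ 14 * T ^ 2) * (2 ^ 19 * T ^ 3 * u)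
          ≤ 32 * T * (2 ^ 14 * T ^ 2) * (2 ^ 19 * T ^ 3 * u) := by gcongr
        _ = 2 ^ 38 * T ^ 6 * u := by ring
    have h4 : (n / (2 ^ 63 * T ^ 9 * u) * (2 ^ 14 * T ^ 2)) ^ 2 * u ≤ 2 ^ 38 * T ^ 6 * u := by
      calc (n / (2 ^ 63 * T ^ 9 * u) * (2 ^ 14 * T ^ 2)) ^ 2 * u
          ≤ (32 * T * (2 ^ 14 * T ^ 2)) ^ 2 * u := by gcongr
        _ = 2 ^ 38 * T ^ 6 * u := by ring
    have h5 : 0 < T ^ 6 * u := by positivity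
    have h6 : 3 * 2 ^ 36 * T ^ 6 * u = 3 * 2 ^ 36 * (T ^ 6 * u) := by ring
    have h7 : 2 ^ 38 * T ^ 6 * u = 2 ^ 38 * (T ^ 6 * u) := by ring
    have h8 : 2 ^ 41 * T ^ 6 * u = 2 ^ 41 * (T ^ 6 * u) := by ring
    rw [h6] at h1
    rw [h7] at h2 h3 h4
    rw [h7, h8]
    generalize T ^ 6 * u = z at *
    omega
  · rw [hγk, hΛm]
    exact eparams_aux T n u _ _ hT hu1 (by rw [← hD]; exact hDu) hA hC

end Vale.Agent.P037
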