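import Mathlib
import Vale.Agent.P037.EBasic
import Vale.Agent.P037.EAssembly
import Vale.Agent.P037.EParams
import Vale.Agent.P037.Sym
import Vale.Agent.P037.BlowCount
import Vale.Agent.P037.AltMain

/-! P037, pattern E: bridge and final form.  Models: GMain.lean, AltBridge.lean, AltMain.lean. -/

namespace Vale.Agent.P037

open Finset

variable {n : ℕ}

/-- the `3 x 2` pattern with rows 11, 10, 11. -/
def patE : Fin 3 → Fin 2 → Bool := fun i j => decide (i ≠ 1 ∨ j = 0)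

theorem strictMono_three (r : Fin 3 → Fin n) : StrictMono r ↔ r 0 < r 1 ∧ r 1 < r 2 := by
  constructor
  · intro h
    exact ⟨h (by decide), h (by decide)⟩
  · rintro ⟨h1, h2⟩ i j hij
    fin_cases i <;> fin_cases j <;> simp_all
    exact h1.trans h2

/-- EM1. explicit form of a copy. -/
theorem rcopy_patE_iff (A : Fin n → Fin n → Bool) (r : Fin 3 → Fin n) (c : Fin 2 → Fin n) :
    RCopy patE A r c ↔ (r 0 < r 1 ∧ r 1 < r 2 ∧ c 0 < c 1 ∧
      A (r 0) (c 0) = true ∧ A (r 0) (c 1) = true ∧ A (r 1) (c 0) = true ∧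
      A (r 1) (c 1) = false ∧ A (r 2) (c 0) = true ∧ A (r 2) (c 1) = true) := by
  unfold RCopy
  rw [strictMono_two, strictMono_three]
  constructor
  · rintro ⟨⟨h1, h2⟩, h3, h4⟩
    refine ⟨h1, h2, h3, ?_, ?_, ?_, ?_, ?_, ?_⟩ <;> rw [h4] <;> decide
  · rintro ⟨h1, h2, h3, a1, a2, a3, a4, a5, a6⟩
    refine ⟨⟨h1, h2⟩, h3, fun i j => ?_⟩
    fin_cases i <;> fin_cases j
    · exact a1
    · exact a2
    · exact a3
    · exact a4
    · exact a5
    · exact a6

/-- EM1. -/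
theorem not_rcopy_of_efree (B : Fin n → Fin n → Bool) (h : EFree B) (r : Fin 3 → Fin n)
    (c : Fin 2 → Fin n) : ¬ RCopy patE B r c := by
  intro hc
  rw [rcopy_patE_iff] at hc
  obtain ⟨h1, h2, h3, h4⟩ := hc
  exact h _ _ _ _ _ h1 h2 h3 h4

/-- EM2. (model `NS_le_rcount`: an injection of the counted configurations into the copies.) -/
theorem NE_le_rcount (A : Fin n → Fin n → Bool) : NE A ≤ rcount patE A := by
  classical
  unfold NE econf rcount
  rw [← Finset.card_sigma]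
  apply Finset.card_le_card_of_injOn (fun t => (![t.1.1, t.1.2.1, t.1.2.2], ![t.2.1, t.2.2]))
  · intro t ht
    simp only [coe_sigma, Set.mem_sigma_iff, mem_coe, incTriples, mem_filter, mem_univ,
      true_and] at ht
    simp only [coe_filter, mem_univ, true_and, Set.mem_ofPred_eq]
    rw [rcopy_patE_iff]
    obtain ⟨⟨h1, h2⟩, h3, h4⟩ := ht
    exact ⟨by simpa using h1, by simpa using h2, by simpa using h3, by simpa using h4⟩
  · intro t _ t' _ htt'
    simp only [Prod.mk.injEq] at htt'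
    obtain ⟨h1, h2⟩ := htt'
    have e0 : t.1.1 = t'.1.1 := by simpa using congrFun h1 0
    have e1 : t.1.2.1 = t'.1.2.1 := by simpa using congrFun h1 1
    have e2 : t.1.2.2 = t'.1.2.2 := by simpa using congrFun h1 2
    have f0 : t.2.1 = t'.2.1 := by simpa using congrFun h2 0
    have f1 : t.2.2 = t'.2.2 := by simpa using congrFun h2 1
    obtain ⟨⟨a, b, c⟩, ⟨x, y⟩⟩ := t
    obtain ⟨⟨a', b', c'⟩, ⟨x', y'⟩⟩ := t'
    simp only at e0 e1 e2 f0 f1
    subst e0 e1 e2 f0 f1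
    rfl

/-- EM2. -/
theorem efree_of_NE_eq_zero (A : Fin n → Fin n → Bool) (h : NE A = 0) : EFree A := by
  classical
  intro r1 r2 r3 c1 c2 h1 h2 h3 h4
  unfold NE at h
  rw [sum_eq_zero_iff] at h
  have h5 := h (r1, r2, r3) (by
    simp only [incTriples, mem_filter, mem_univ, true_and]; exact ⟨h1, h2⟩)
  unfold econf at h5
  rw [card_eq_zero, filter_eq_empty_iff] at h5
  exact h5 (mem_univ (c1, c2)) ⟨h3, h4⟩

theorem ecore_nat : ∃ K a : ℕ, ∀ (T n : ℕ) (A : Fin n → Fin n → Bool), 1 ≤ T →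
    (∀ B : Fin n → Fin n → Bool, EFree B → n ^ 2 ≤ T * diffCount A B) →
    n ^ 5 ≤ (K * T ^ a) ^ 5 * NE A := by
  obtain ⟨K, a, hpar⟩ := eparams
  refine ⟨K, a, ?_⟩
  intro T n A hT hfar
  by_contra hcon
  push Not at hcon
  rcases Nat.eq_zero_or_pos (NE A) with h0 | hpos
  · have h1 := hfar A (efree_of_NE_eq_zero A h0)
    have hd : diffCount A A = 0 := by simp [diffCount]
    rw [hd, mul_zero] at h1
    have h2 : n = 0 := by
      have : n ^ 2 = 0 := Nat.le_zero.1 h1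
      exact pow_eq_zero_iff (two_ne_zero) |>.1 this
    have h3 : n ^ 5 = 0 := by rw [h2]; norm_num
    omega
  · obtain ⟨β, h, w, g, L, k, γ, Λ, m, Λ2, d1, d2, e1, e2, hβ, hh, hw, hg, hk, hγ, hΛ, hm, hΛ2,
      hn, H1, H2, H3, H4⟩ := hpar T n (NE A) hT hpos hcon
    obtain ⟨B, hfree, hd⟩ := econstruct A β h w g L k γ Λ m Λ2 d1 d2 e1 e2 hβ hh hw hg hk hγ hΛ
      hm hΛ2 hn H1 H2 H3
    have h5 := hfar B hfree
    have h6 := Nat.mul_le_mul_left T hd
    omega

/-- removal for all square blow-ups of the pattern with rows 11, 10, 11. -/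
theorem polyRemoval_eBlow {k : ℕ} (ρ : Fin k → Fin 3) (κ : Fin k → Fin 2)
    (hρ : Monotone ρ) (hρs : Function.Surjective ρ) (hκ : Monotone κ)
    (hκs : Function.Surjective κ) : PolyRemoval (fun a b => patE (ρ a) (κ b)) := by
  obtain ⟨K, a, hcore⟩ := ecore_nat
  refine polyRemoval_blow_rect patE ((K + 1) ^ 5) (5 * a) (Nat.pow_pos (by omega)) ?_
    ρ κ hρ hρs hκ hκs
  intro T n A hT hfar
  have h1 := hcore T n A hT (fun B hB => hfar B (fun r c => not_rcopy_of_efree B hB r c))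
  calc n ^ (3 + 2) = n ^ 5 := by norm_num
    _ ≤ (K * T ^ a) ^ 5 * NE A := h1
    _ ≤ ((K + 1) * T ^ a) ^ 5 * rcount patE A := by
        apply Nat.mul_le_mul _ (NE_le_rcount A)
        apply Nat.pow_le_pow_left
        exact Nat.mul_le_mul_right _ (Nat.le_succ K)
    _ = (K + 1) ^ 5 * T ^ (5 * a) * rcount patE A := by
        rw [mul_pow, ← pow_mul, Nat.mul_comm a 5]

end Vale.Agent.P037
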