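import Mathlib
import Vale.Agent.P037.EMain

/-! P037: all symmetric images of the blow-ups of the pattern with rows 11, 10, 11. -/

namespace Vale.Agent.P037

/-- blow-ups of the `3 x 2` patterns that are constant (`!b`... see the statement) except for one entry in
the middle row: value `xor b true` on the block (middle rows) x (columns of class `c`), `b` elsewhere. -/
theorem polyRemoval_eAll {k : ℕ} (ρ : Fin k → Fin 3) (κ : Fin k → Fin 2) (b c : Bool)
    (hρ : Monotone ρ) (hρs : Function.Surjective ρ) (hκ : Monotone κ)
    (hκs : Function.Surjective κ) :
    PolyRemoval (fun i j => xor b (decide (ρ i = 1) && decide (κ j = if c then 1 else 0))) := by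
  -- the case c = true, b = true
  have base : ∀ (κ' : Fin k → Fin 2), Monotone κ' → Function.Surjective κ' →
      PolyRemoval (fun i j => xor true (decide (ρ i = 1) && decide (κ' j = 1))) := by
    intro κ' h1 h2
    have h := polyRemoval_eBlow ρ κ' hρ hρs h1 h2
    have e : (fun a b => patE (ρ a) (κ' b)) =
        (fun i j => xor true (decide (ρ i = 1) && decide (κ' j = 1))) := by
      funext i j
      generalize ρ i = x
      generalize κ' j = y
      revert x y
      decide
    rw [e] at h
    exact h
  -- the case b = true, any c
  have base2 : PolyRemoval
      (fun i j => xor true (decide (ρ i = 1) && decide (κ j = if c then 1 else 0))) := by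
    cases c with
    | true => simpa using base κ hκ hκs
    | false =>
      have h1 : Monotone (fun j => Fin.rev (κ (Fin.rev j))) := by
        intro x y hxy
        exact Fin.rev_le_rev.2 (hκ (Fin.rev_le_rev.2 hxy))
      have h2 : Function.Surjective (fun j => Fin.rev (κ (Fin.rev j))) := by
        intro y
        obtain ⟨x, hx⟩ := hκs (Fin.rev y)
        exact ⟨Fin.rev x, by simp [hx]⟩
      have h := polyRemoval_revCols _ (base _ h1 h2)
      have e : (fun i j => xor true (decide (ρ i = 1) &&
            decide (Fin.rev (κ (Fin.rev (Fin.rev j))) = 1))) =
          (fun i j => xor true (decide (ρ i = 1) && decide (κ j = if false then 1 else 0))) := by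
        funext i j
        rw [Fin.rev_rev]
        generalize ρ i = x
        generalize κ j = y
        revert x y
        decide
      rw [e] at h
      exact h
  cases b with
  | true => exact base2
  | false =>
    have h := polyRemoval_compl _ base2
    have e : (fun i j => !(xor true (decide (ρ i = 1) && decide (κ j = if c then 1 else 0)))) =
        (fun i j => xor false (decide (ρ i = 1) && decide (κ j = if c then 1 else 0))) := by
      funext i j
      simp
    rw [e] at h
    exact h

end Vale.Agent.P037
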