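import Mathlib

/-! P037 finite-type hosts, task F1: the one-dimensional greedy killing lemma for words.

Paper proof of `kill_from` (induction on `k`, all `a`).  `k = 0`: the left alternative holds (`t^0 = 1`, exactly one
function `Fin 0 → Fin n`).  Step `k+1`: let `O = {x | a ≤ x ∧ w x = u 0}`.
* If `O.card < t`: take `D = O` (card `≤ t ≤ (k+1) t`); every admissible `p` has `p 0 ∈ O`.
* Otherwise let `D1 ⊆ O` be the `t` smallest elements of `O` (e.g. `D1 = O.filter (· ≤ q)` for a suitable `q`, or take
  `(O.sort (· ≤ ·)).take t`, or use `Finset.exists_subset_card_eq` after ordering; what is needed: `D1 ⊆ O`, `D1.card = t`,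
  and there is `q : ℕ` with `∀ x ∈ D1, x ≤ q` and `∀ x ∈ O \ D1, q < x`).  Apply the induction hypothesis to
  `Fin.tail u` and `a' = q + 1`.
  - left alternative: `(x, p') ↦ Fin.cons x p'` is injective from `D1 × {occurrences of the tail from q+1}` into the
    occurrences of `u` from `a`  (strictly monotone because `x ≤ q < p' i`), so the count is `≥ t * t^k`.
  - right alternative `D'`: take `D = D1 ∪ D'`.  If `p` is monotone, admissible and `p 0 ∉ D1` then `p 0 ∈ O \ D1`, so
    `q < p 0 ≤ p i` for all `i`, so `Fin.tail p` is admissible for `a' = q+1` and meets `D'`.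
-/

namespace Vale.Agent.P037.FT

/-- number of strictly increasing occurrences of the pattern `u` as a subsequence of the word `w`. -/
noncomputable def occ {α : Type*} {n k : ℕ} (w : Fin n → α) (u : Fin k → α) : ℕ :=
  Nat.card {p : Fin k → Fin n // StrictMono p ∧ ∀ i, w (p i) = u i}

private lemma exists_initial {n : ℕ} (O : Finset (Fin n)) (t : ℕ) (ht : 1 ≤ t) (hO : t ≤ O.card) :
    ∃ q : ℕ, (O.filter (fun x : Fin n => (x : ℕ) < q)).card = t := by
  classical
  have hex : ∃ q : ℕ, t ≤ (O.filter (fun x : Fin n => (x : ℕ) < q)).card := by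
    refine ⟨n, ?_⟩
    have : O.filter (fun x : Fin n => (x : ℕ) < n) = O := by
      apply Finset.filter_true_of_mem
      intro x _
      exact x.2
    rw [this]; exact hO
  refine ⟨Nat.find hex, le_antisymm ?_ (Nat.find_spec hex)⟩
  set q := Nat.find hex with hq
  have hq0 : q ≠ 0 := by
    intro h0
    have h1 := Nat.find_spec hex
    rw [← hq, h0] at h1
    simp at h1
    omega
  obtain ⟨q', hq'⟩ := Nat.exists_eq_succ_of_ne_zero hq0
  have hlt : ¬ t ≤ (O.filter (fun x : Fin n => (x : ℕ) < q')).card :=
    Nat.find_min hex (by rw [← hq, hq']; exact Nat.lt_succ_self _)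
  have hsub : O.filter (fun x : Fin n => (x : ℕ) < q) ⊆
      O.filter (fun x : Fin n => (x : ℕ) < q') ∪ O.filter (fun x : Fin n => (x : ℕ) = q') := by
    intro x hx
    rw [Finset.mem_filter] at hx
    rw [Finset.mem_union, Finset.mem_filter, Finset.mem_filter]
    rcases Nat.lt_or_ge (x : ℕ) q' with h | h
    · exact Or.inl ⟨hx.1, h⟩
    · refine Or.inr ⟨hx.1, ?_⟩
      have := hx.2
      omega
  have hone : (O.filter (fun x : Fin n => (x : ℕ) = q')).card ≤ 1 := by
    rw [Finset.card_le_one]
    intro x hx y hy
    rw [Finset.mem_filter] at hx hy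
    exact Fin.ext (hx.2.trans hy.2.symm)
  have := (Finset.card_le_card hsub).trans (Finset.card_union_le _ _)
  omega

theorem kill_from {α : Type*} [DecidableEq α] {n : ℕ} (w : Fin n → α) (t : ℕ) :
    ∀ (k : ℕ) (u : Fin k → α) (a : ℕ),
      t ^ k ≤ Nat.card {p : Fin k → Fin n //
        StrictMono p ∧ (∀ i, a ≤ (p i : ℕ)) ∧ ∀ i, w (p i) = u i} ∨
      ∃ D : Finset (Fin n), D.card ≤ k * t ∧
        ∀ p : Fin k → Fin n, Monotone p → (∀ i, a ≤ (p i : ℕ)) → (∀ i, w (p i) = u i) →
          ∃ i, p i ∈ D := by
  classical
  intro k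
  induction k with
  | zero =>
    intro u a
    left
    have : Nonempty {p : Fin 0 → Fin n //
        StrictMono p ∧ (∀ i, a ≤ (p i : ℕ)) ∧ ∀ i, w (p i) = u i} :=
      ⟨⟨fun i => i.elim0, fun i => i.elim0, fun i => i.elim0, fun i => i.elim0⟩⟩
    rw [pow_zero]
    exact Nat.card_pos
  | succ k ih =>
    intro u a
    rcases Nat.eq_zero_or_pos t with ht0 | htpos
    · left; subst ht0; simp
    set O : Finset (Fin n) := Finset.univ.filter (fun x : Fin n => a ≤ (x : ℕ) ∧ w x = u 0) with hOdef
    rcases Nat.lt_or_ge O.card t with hlt | hge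
    · right
      refine ⟨O, ?_, ?_⟩
      · calc O.card ≤ t := hlt.le
          _ = 1 * t := (one_mul t).symm
          _ ≤ (k + 1) * t := Nat.mul_le_mul_right t (by omega)
      · intro p _ hpa hpw
        exact ⟨0, by rw [hOdef, Finset.mem_filter]; exact ⟨Finset.mem_univ _, hpa 0, hpw 0⟩⟩
    · obtain ⟨q, hq⟩ := exists_initial O t htpos hge
      set D1 := O.filter (fun x : Fin n => (x : ℕ) < q) with hD1
      rcases ih (Fin.tail u) q with hL | ⟨D', hD'card, hD'⟩
      · left
        let S' := {p : Fin k → Fin n //
          StrictMono p ∧ (∀ i, q ≤ (p i : ℕ)) ∧ ∀ i, w (p i) = Fin.tail u i}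
        let S := {p : Fin (k + 1) → Fin n //
          StrictMono p ∧ (∀ i, a ≤ (p i : ℕ)) ∧ ∀ i, w (p i) = u i}
        have hmem : ∀ x ∈ D1, a ≤ (x : ℕ) ∧ w x = u 0 ∧ (x : ℕ) < q := by
          intro x hx
          rw [hD1, Finset.mem_filter, hOdef, Finset.mem_filter] at hx
          exact ⟨hx.1.2.1, hx.1.2.2, hx.2⟩
        let f : D1 × S' → S := fun z => ⟨Fin.cons z.1.1 z.2.1, by
          obtain ⟨⟨x, hx⟩, ⟨p', hp1, hp2, hp3⟩⟩ := z
          obtain ⟨hxa, hxw, hxq⟩ := hmem x hx
          refine ⟨?_, ?_, ?_⟩
          · intro i j hij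
            induction i using Fin.cases with
            | zero =>
              induction j using Fin.cases with
              | zero => exact absurd hij (lt_irrefl _)
              | succ j =>
                simp only [Fin.cons_zero, Fin.cons_succ]
                exact Fin.lt_def.2 (lt_of_lt_of_le hxq (hp2 j))
            | succ i =>
              induction j using Fin.cases with
              | zero => exact absurd hij (Fin.not_lt_zero _)
              | succ j =>
                simp only [Fin.cons_succ]
                exact hp1 (Fin.succ_lt_succ_iff.1 hij)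
          · intro i
            induction i using Fin.cases with
            | zero => simpa using hxa
            | succ i =>
              simp only [Fin.cons_succ]
              have := hp2 i
              omega
          · intro i
            induction i using Fin.cases with
            | zero => simpa using hxw
            | succ i => simpa [Fin.tail] using hp3 i⟩
        have hf : Function.Injective f := by
          rintro ⟨⟨x, hx⟩, ⟨p', hp'⟩⟩ ⟨⟨y, hy⟩, ⟨r', hr'⟩⟩ h
          have h1 : (Fin.cons x p' : Fin (k + 1) → Fin n) = Fin.cons y r' :=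
            congrArg Subtype.val h
          obtain ⟨h2, h3⟩ := Fin.cons_inj.1 h1
          subst h2; subst h3; rfl
        have hcard : Nat.card (D1 × S') ≤ Nat.card S := Nat.card_le_card_of_injective f hf
        have h1 : Nat.card (D1 × S') = t * Nat.card S' := by
          rw [Nat.card_prod, Nat.card_eq_fintype_card, Fintype.card_coe, hq]
        calc t ^ (k + 1) = t * t ^ k := by ring
          _ ≤ t * Nat.card S' := Nat.mul_le_mul_left t hL
          _ = Nat.card (D1 × S') := h1.symm
          _ ≤ Nat.card S := hcard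
      · right
        refine ⟨D1 ∪ D', ?_, ?_⟩
        · calc (D1 ∪ D').card ≤ D1.card + D'.card := Finset.card_union_le _ _
            _ ≤ t + k * t := by rw [hq]; omega
            _ = (k + 1) * t := by ring
        · intro p hp hpa hpw
          by_cases h0 : p 0 ∈ D1
          · exact ⟨0, Finset.mem_union_left _ h0⟩
          · have hO0 : p 0 ∈ O := by
              rw [hOdef, Finset.mem_filter]; exact ⟨Finset.mem_univ _, hpa 0, hpw 0⟩
            have hq0 : q ≤ (p 0 : ℕ) := by
              by_contra hc
              exact h0 (by rw [hD1, Finset.mem_filter]; exact ⟨hO0, not_le.1 hc⟩)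
            obtain ⟨i, hi⟩ := hD' (Fin.tail p)
              (fun i j hij => hp (Fin.succ_le_succ_iff.2 hij))
              (fun i => le_trans hq0 (Fin.le_def.1 (hp (Fin.zero_le _))))
              (fun i => hpw i.succ)
            exact ⟨i.succ, Finset.mem_union_right _ hi⟩

theorem kill {α : Type*} [DecidableEq α] {n k : ℕ} (w : Fin n → α) (u : Fin k → α) (t : ℕ) :
    t ^ k ≤ occ w u ∨
    ∃ D : Finset (Fin n), D.card ≤ k * t ∧
      ∀ p : Fin k → Fin n, Monotone p → (∀ i, w (p i) = u i) → ∃ i, p i ∈ D := by
  rcases kill_from w t k u 0 with h | ⟨D, hD, h⟩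
  · left
    have : Nat.card {p : Fin k → Fin n //
        StrictMono p ∧ (∀ i, 0 ≤ (p i : ℕ)) ∧ ∀ i, w (p i) = u i} = occ w u := by
      unfold occ
      exact Nat.card_congr (Equiv.subtypeEquivRight (fun p => by simp))
    rwa [this] at h
  · right
    exact ⟨D, hD, fun p hp hw => h p hp (fun i => Nat.zero_le _) hw⟩

end Vale.Agent.P037.FT
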