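import Mathlib
import Vale.Agent.P037.Defs
import Vale.Agent.P037.FTWord

/-! P037 finite-type hosts, task F3: occurrences of a type sequence times occurrences of the columns of `H`
in the corresponding `k x n` matrix are copies of `H`. -/

namespace Vale.Agent.P037.FT

open Vale.Agent.P037

/-- the word of column letters of the `k` row vectors `ρ (u 0), ..., ρ (u (k-1))`. -/
def colWord {k n r : ℕ} (ρ : Fin r → Fin n → Bool) (u : Fin k → Fin r) : Fin n → (Fin k → Bool) :=
  fun c i => ρ (u i) c

/-- the columns of `H` as a pattern of letters. -/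
def colPat {k : ℕ} (H : Fin k → Fin k → Bool) : Fin k → (Fin k → Bool) := fun j i => H i j

/-- `(p, d) ↦ (p, d)` is an injection from pairs of occurrences into copies:
`A (p i) (d j) = ρ (w (p i)) (d j) = ρ (u i) (d j) = colWord ρ u (d j) i = colPat H j i = H i j`. -/
theorem occ_mul_le_copyCount {k n r : ℕ} (H : Fin k → Fin k → Bool) (A : Fin n → Fin n → Bool)
    (w : Fin n → Fin r) (ρ : Fin r → Fin n → Bool) (hA : ∀ x, A x = ρ (w x)) (u : Fin k → Fin r) :
    occ w u * occ (colWord ρ u) (colPat H) ≤ copyCount H A := by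
  classical
  unfold occ copyCount
  rw [← Nat.card_prod]
  refine Nat.card_le_card_of_injective
    (fun q => ⟨(q.1.1, q.2.1), q.1.2.1, q.2.2.1, ?_⟩) ?_
  · intro i j
    have h1 := q.1.2.2 i
    have h2 := congrFun (q.2.2.2 j) i
    simp only [colWord, colPat] at h2
    show A (q.1.1 i) (q.2.1 j) = H i j
    rw [hA, h1, h2]
  · intro q q' h
    have h' := congrArg Subtype.val h
    simp only [Prod.mk.injEq] at h'
    exact Prod.ext (Subtype.ext h'.1) (Subtype.ext h'.2)

end Vale.Agent.P037.FT
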