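import Mathlib
import Vale.Agent.P037.Defs

/-! P037 finite-type hosts, task F2: monotone retraction onto a nonempty set of indices, and the cost of
replacing rows / columns along two retractions. -/

namespace Vale.Agent.P037.FT

open Vale.Agent.P037

/-- `φ x` = the least element of `S` that is `≥ x` if there is one, otherwise the largest element of `S`. -/
theorem exists_retract {n : ℕ} (S : Finset (Fin n)) (hS : S.Nonempty) :
    ∃ φ : Fin n → Fin n, Monotone φ ∧ (∀ x, φ x ∈ S) ∧ ∀ x ∈ S, φ x = x := by
  classical
  let T : Fin n → Finset (Fin n) := fun x => S.filter (fun y => x ≤ y)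
  let φ : Fin n → Fin n := fun x =>
    if h : (T x).Nonempty then (T x).min' h else S.max' hS
  have hφ1 : ∀ x (h : (T x).Nonempty), φ x = (T x).min' h := by
    intro x h
    simp only [φ, dif_pos h]
  have hφ2 : ∀ x, ¬ (T x).Nonempty → φ x = S.max' hS := by
    intro x h
    simp only [φ, dif_neg h]
  refine ⟨φ, ?_, ?_, ?_⟩
  · intro x y hxy
    by_cases hy : (T y).Nonempty
    · have hsub : T y ⊆ T x := by
        intro z hz
        simp only [T, Finset.mem_filter] at hz ⊢
        exact ⟨hz.1, le_trans hxy hz.2⟩
      have hx : (T x).Nonempty := hy.mono hsub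
      rw [hφ1 x hx, hφ1 y hy]
      exact Finset.min'_subset hy hsub
    · rw [hφ2 y hy]
      by_cases hx : (T x).Nonempty
      · rw [hφ1 x hx]
        apply Finset.le_max'
        have := Finset.min'_mem (T x) hx
        simp only [T, Finset.mem_filter] at this
        exact this.1
      · rw [hφ2 x hx]
  · intro x
    by_cases hx : (T x).Nonempty
    · rw [hφ1 x hx]
      have := Finset.min'_mem (T x) hx
      simp only [T, Finset.mem_filter] at this
      exact this.1
    · rw [hφ2 x hx]
      exact Finset.max'_mem S hS
  · intro x hx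
    have hmem : x ∈ T x := by
      simp only [T, Finset.mem_filter]
      exact ⟨hx, le_refl x⟩
    have hne : (T x).Nonempty := ⟨x, hmem⟩
    rw [hφ1 x hne]
    apply le_antisymm
    · exact Finset.min'_le _ _ hmem
    · have := Finset.min'_mem (T x) hne
      simp only [T, Finset.mem_filter] at this
      exact this.2

/-- an entry `(x,c)` can change only if `x ∈ D` or `c ∈ E`. -/
theorem diffCount_retract_le {n : ℕ} (A : Fin n → Fin n → Bool) (φ ψ : Fin n → Fin n)
    (D E : Finset (Fin n)) (hφ : ∀ x, x ∉ D → φ x = x) (hψ : ∀ c, c ∉ E → ψ c = c) :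
    diffCount A (fun x c => A (φ x) (ψ c)) ≤ (D.card + E.card) * n := by
  classical
  unfold diffCount
  have hsub : (Finset.univ.filter (fun p : Fin n × Fin n => A p.1 p.2 ≠ A (φ p.1) (ψ p.2))) ⊆
      (D ×ˢ (Finset.univ : Finset (Fin n))) ∪ ((Finset.univ : Finset (Fin n)) ×ˢ E) := by
    intro p hp
    simp only [Finset.mem_filter, Finset.mem_univ, true_and] at hp
    simp only [Finset.mem_union, Finset.mem_product, Finset.mem_univ, and_true, true_and]
    by_contra hcon
    push Not at hcon
    apply hp
    rw [hφ _ hcon.1, hψ _ hcon.2]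
  calc _ ≤ ((D ×ˢ (Finset.univ : Finset (Fin n))) ∪ ((Finset.univ : Finset (Fin n)) ×ˢ E)).card :=
        Finset.card_le_card hsub
    _ ≤ (D ×ˢ (Finset.univ : Finset (Fin n))).card + ((Finset.univ : Finset (Fin n)) ×ˢ E).card :=
        Finset.card_union_le _ _
    _ = (D.card + E.card) * n := by
        simp only [Finset.card_product, Finset.card_univ, Fintype.card_fin]
        ring

end Vale.Agent.P037.FT
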