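import Mathlib
import Vale.Agent.P037.Defs
import Vale.Agent.P037.FTWord
import Vale.Agent.P037.FTRetract
import Vale.Agent.P037.FTCount

/-! P037 finite-type hosts, task F4: the combinatorial core.

Paper proof of `typed_main`.  For `u : Fin k → Fin r` let `DR u` be `∅` if `t^k ≤ occ w u` and otherwise the set given by
`kill w u t`; let `DC u` be `∅` if `t^k ≤ occ (colWord ρ u) (colPat H)` and otherwise the set given by
`kill (colWord ρ u) (colPat H) t`.  `D = ⋃_u DR u`, `E = ⋃_u DC u`; both have card `≤ r^k * (k*t) < n`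
(`Finset.card_biUnion_le`, `Fintype.card (Fin k → Fin r) = r^k`), so the complements are nonempty; take retractions
`φ` onto `univ \ D`, `ψ` onto `univ \ E` (`exists_retract`) and `B x c = A (φ x) (ψ c)`.
Cost: `diffCount_retract_le`.   Freeness: let `(x, c)` be a copy of `H` in `B`; put `u i = w (φ (x i))`.
`φ ∘ x` is monotone, avoids `D ⊇ DR u` and shows `u`, so `t^k ≤ occ w u` (otherwise `kill` gives `i` with `φ (x i) ∈ DR u`).
`ψ ∘ c` is monotone, avoids `E ⊇ DC u`, and `colWord ρ u (ψ (c j)) i = ρ (w (φ (x i))) (ψ (c j)) = A (φ (x i)) (ψ (c j)) = H i j`,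
so `t^k ≤ occ (colWord ρ u) (colPat H)`.   By `occ_mul_le_copyCount`, `t^(2k) = t^k * t^k ≤ copyCount H A`: contradiction. -/

namespace Vale.Agent.P037.FT

open Vale.Agent.P037

theorem typed_main {k n r : ℕ} (H : Fin k → Fin k → Bool) (A : Fin n → Fin n → Bool)
    (w : Fin n → Fin r) (ρ : Fin r → Fin n → Bool) (hA : ∀ x, A x = ρ (w x)) (t : ℕ)
    (hsmall : r ^ k * (k * t) < n) (hN : copyCount H A < t ^ (2 * k)) :
    ∃ B : Fin n → Fin n → Bool, HFree H B ∧ diffCount A B ≤ 2 * (r ^ k * (k * t)) * n := by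
  classical
  have hR : ∀ u : Fin k → Fin r, ∃ D : Finset (Fin n), D.card ≤ k * t ∧
      (t ^ k ≤ occ w u ∨
        ∀ p : Fin k → Fin n, Monotone p → (∀ i, w (p i) = u i) → ∃ i, p i ∈ D) := by
    intro u
    rcases kill w u t with h | ⟨D, hD, hk⟩
    · exact ⟨∅, by simp, Or.inl h⟩
    · exact ⟨D, hD, Or.inr hk⟩
  have hC : ∀ u : Fin k → Fin r, ∃ D : Finset (Fin n), D.card ≤ k * t ∧
      (t ^ k ≤ occ (colWord ρ u) (colPat H) ∨
        ∀ p : Fin k → Fin n, Monotone p → (∀ i, colWord ρ u (p i) = colPat H i) →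
          ∃ i, p i ∈ D) := by
    intro u
    rcases kill (colWord ρ u) (colPat H) t with h | ⟨D, hD, hk⟩
    · exact ⟨∅, by simp, Or.inl h⟩
    · exact ⟨D, hD, Or.inr hk⟩
  choose DR hDRc hDR using hR
  choose DC hDCc hDC using hC
  have hcardfun : (Finset.univ : Finset (Fin k → Fin r)).card = r ^ k := by
    rw [Finset.card_univ, Fintype.card_fun, Fintype.card_fin, Fintype.card_fin]
  have hbound : ∀ F : (Fin k → Fin r) → Finset (Fin n), (∀ u, (F u).card ≤ k * t) →
      (Finset.univ.biUnion F).card ≤ r ^ k * (k * t) := by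
    intro F hF
    calc (Finset.univ.biUnion F).card ≤ ∑ u : Fin k → Fin r, (F u).card :=
          Finset.card_biUnion_le
      _ ≤ ∑ _u : Fin k → Fin r, k * t := Finset.sum_le_sum (fun u _ => hF u)
      _ = r ^ k * (k * t) := by rw [Finset.sum_const, hcardfun, smul_eq_mul]
  set D : Finset (Fin n) := Finset.univ.biUnion DR with hDdef
  set E : Finset (Fin n) := Finset.univ.biUnion DC with hEdef
  have hDcard : D.card ≤ r ^ k * (k * t) := hbound DR hDRc
  have hEcard : E.card ≤ r ^ k * (k * t) := hbound DC hDCc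
  have hne : ∀ G : Finset (Fin n), G.card ≤ r ^ k * (k * t) →
      (Finset.univ \ G).Nonempty := by
    intro G hG
    rw [← Finset.card_pos, Finset.card_univ_sdiff, Fintype.card_fin]
    omega
  obtain ⟨φ, hφm, hφS, hφid⟩ := exists_retract (Finset.univ \ D) (hne D hDcard)
  obtain ⟨ψ, hψm, hψS, hψid⟩ := exists_retract (Finset.univ \ E) (hne E hEcard)
  refine ⟨fun x c => A (φ x) (ψ c), ?_, ?_⟩
  · rintro x c ⟨hx, hc, hH⟩
    set u : Fin k → Fin r := fun i => w (φ (x i)) with hu
    have h1 : t ^ k ≤ occ w u := by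
      rcases hDR u with h | h
      · exact h
      · obtain ⟨i, hi⟩ := h (fun i => φ (x i)) (hφm.comp hx.monotone) (fun i => rfl)
        exfalso
        have hmem := hφS (x i)
        rw [Finset.mem_sdiff] at hmem
        exact hmem.2 (Finset.mem_biUnion.2 ⟨u, Finset.mem_univ _, hi⟩)
    have h2 : t ^ k ≤ occ (colWord ρ u) (colPat H) := by
      rcases hDC u with h | h
      · exact h
      · obtain ⟨j, hj⟩ := h (fun j => ψ (c j)) (hψm.comp hc.monotone) (fun j => by
          funext i
          show ρ (w (φ (x i))) (ψ (c j)) = H i j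
          have hh : A (φ (x i)) (ψ (c j)) = H i j := hH i j
          rw [← hh, hA])
        exfalso
        have hmem := hψS (c j)
        rw [Finset.mem_sdiff] at hmem
        exact hmem.2 (Finset.mem_biUnion.2 ⟨u, Finset.mem_univ _, hj⟩)
    have h3 := occ_mul_le_copyCount H A w ρ hA u
    have h4 : t ^ (2 * k) ≤ copyCount H A := by
      calc t ^ (2 * k) = t ^ k * t ^ k := by rw [two_mul, pow_add]
        _ ≤ occ w u * occ (colWord ρ u) (colPat H) := Nat.mul_le_mul h1 h2
        _ ≤ copyCount H A := h3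
    omega
  · have h5 := diffCount_retract_le A φ ψ D E
      (fun x hx => hφid x (by simp [hx])) (fun c hc => hψid c (by simp [hc]))
    calc diffCount A (fun x c => A (φ x) (ψ c)) ≤ (D.card + E.card) * n := h5
      _ ≤ 2 * (r ^ k * (k * t)) * n := Nat.mul_le_mul_right n (by omega)

end Vale.Agent.P037.FT
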