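import Mathlib
import Vale.Agent.P037.Defs
import Vale.Agent.P037.FTMain

/-! P037 finite-type hosts, task F5: parameters, and the two final forms.

`ft_typed`.  Put `θ = ε / (8 k r^k)` and `t = ⌊θ n⌋₊`.   (`r ≥ 1` if `n ≥ 1`, since `w : Fin n → Fin r`; `n = 0`: the left side is `0`.)
* `A` is not `H`-free (otherwise `hfar A` gives `ε n^2 ≤ diffCount A A = 0`), so `1 ≤ copyCount H A`.
* If `t = 0` then `θ n < 1`, and the left side is `(θ n / 2)^(2k) ≤ 1`.
* If `t ≥ 1` then `θ n / 2 ≤ t ≤ θ n`, `r^k * (k t) ≤ ε n / 8 < n`.   If `copyCount H A < t^(2k)`, `typed_main` gives an `H`-free `B` with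
  `diffCount A B ≤ 2 (ε n / 8) n < ε n^2`, contradicting `hfar`.   So `copyCount H A ≥ t^(2k) ≥ (θ n / 2)^(2k)`.
`ft_rows`: let `r' = (univ.image A).card`, `e : univ.image A ≃ Fin r'` (`Finset.equivFin`), `w x = e ⟨A x, _⟩`, `ρ a = (e.symm a).1`; then use
`r' ≤ r` (the bound is antitone in `r`; `r' ≥ 1` when `n ≥ 1`).
`ft_cols`: apply `ft_rows` to the transposed pattern and the transposed matrix (copies, freeness and `diffCount` are invariant under
simultaneous transposition, see the proof of `polyRemoval_transpose` in `Sym.lean`). -/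

namespace Vale.Agent.P037.FT

open Vale.Agent.P037

theorem ft_typed {k n r : ℕ} (hk : 0 < k) (H : Fin k → Fin k → Bool) (A : Fin n → Fin n → Bool)
    (w : Fin n → Fin r) (ρ : Fin r → Fin n → Bool) (hA : ∀ x, A x = ρ (w x)) (ε : ℝ)
    (hε : 0 < ε) (hε1 : ε < 1)
    (hfar : ∀ B : Fin n → Fin n → Bool, HFree H B → ε * (n : ℝ) ^ 2 ≤ (diffCount A B : ℝ)) :
    (ε / (16 * (k : ℝ) * (r : ℝ) ^ k)) ^ (2 * k) * (n : ℝ) ^ (2 * k) ≤ (copyCount H A : ℝ) := by
  classical
  rcases Nat.eq_zero_or_pos n with hn | hn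
  · subst hn
    have h0 : ((0 : ℕ) : ℝ) ^ (2 * k) = 0 := by
      have : 2 * k ≠ 0 := by omega
      simp [this]
    rw [h0, mul_zero]
    exact Nat.cast_nonneg _
  have hr : 0 < r := lt_of_le_of_lt (Nat.zero_le _) (w ⟨0, hn⟩).2
  have hnR : (0 : ℝ) < (n : ℝ) := by exact_mod_cast hn
  have hkR : (0 : ℝ) < (k : ℝ) := by exact_mod_cast hk
  have hrR : (0 : ℝ) < (r : ℝ) := by exact_mod_cast hr
  have hrk : (0 : ℝ) < (r : ℝ) ^ k := pow_pos hrR k
  -- `A` contains a copy
  have hone : (1 : ℝ) ≤ (copyCount H A : ℝ) := by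
    have hnf : ¬ HFree H A := by
      intro hf
      have h1 := hfar A hf
      have h2 : diffCount A A = 0 := by simp [diffCount]
      rw [h2] at h1
      have : 0 < ε * (n : ℝ) ^ 2 := by positivity
      simp at h1
      linarith
    have hex : ∃ rr cc : Fin k → Fin n, IsCopy H A rr cc := by
      by_contra hc
      apply hnf
      intro rr cc hcop
      exact hc ⟨rr, cc, hcop⟩
    obtain ⟨rr, cc, hcop⟩ := hex
    have : Nonempty {p : (Fin k → Fin n) × (Fin k → Fin n) // IsCopy H A p.1 p.2} :=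
      ⟨⟨(rr, cc), hcop⟩⟩
    have hpos : 0 < copyCount H A := by
      unfold copyCount
      exact Nat.card_pos
    exact_mod_cast hpos
  set θ : ℝ := ε / (8 * (k : ℝ) * (r : ℝ) ^ k) with hθ
  have hθpos : 0 < θ := by positivity
  have hlhs : (ε / (16 * (k : ℝ) * (r : ℝ) ^ k)) ^ (2 * k) * (n : ℝ) ^ (2 * k)
      = (θ * n / 2) ^ (2 * k) := by
    rw [← mul_pow]
    congr 1
    rw [hθ]
    field_simp
    ring
  rw [hlhs]
  have hθn : 0 ≤ θ * n := by positivity
  set t : ℕ := ⌊θ * n⌋₊ with ht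
  have htle : (t : ℝ) ≤ θ * n := Nat.floor_le hθn
  have htlt : θ * n < (t : ℝ) + 1 := Nat.lt_floor_add_one _
  rcases Nat.eq_zero_or_pos t with ht0 | htpos
  · have h1 : θ * n / 2 ≤ 1 := by
      rw [ht0] at htlt
      simp at htlt
      linarith
    calc (θ * n / 2) ^ (2 * k) ≤ 1 := pow_le_one₀ (by positivity) h1
      _ ≤ _ := hone
  · have htR : (1 : ℝ) ≤ (t : ℝ) := by exact_mod_cast htpos
    have hhalf : θ * n / 2 ≤ (t : ℝ) := by linarith
    have hkey : (r : ℝ) ^ k * ((k : ℝ) * (t : ℝ)) ≤ ε * n / 8 := by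
      have h1 : (r : ℝ) ^ k * ((k : ℝ) * (t : ℝ)) ≤ (r : ℝ) ^ k * ((k : ℝ) * (θ * n)) := by
        apply mul_le_mul_of_nonneg_left _ hrk.le
        exact mul_le_mul_of_nonneg_left htle hkR.le
      have h2 : (r : ℝ) ^ k * ((k : ℝ) * (θ * n)) = ε * n / 8 := by
        rw [hθ]
        field_simp
      linarith
    have hsmall : r ^ k * (k * t) < n := by
      have : ((r ^ k * (k * t) : ℕ) : ℝ) < (n : ℝ) := by
        push_cast
        have : ε * n / 8 < n := by nlinarith
        linarith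
      exact_mod_cast this
    by_contra hcon
    rw [not_le] at hcon
    have hN : copyCount H A < t ^ (2 * k) := by
      have : (copyCount H A : ℝ) < ((t ^ (2 * k) : ℕ) : ℝ) := by
        push_cast
        exact lt_of_lt_of_le hcon (pow_le_pow_left₀ (by positivity) hhalf _)
      exact_mod_cast this
    obtain ⟨B, hB, hd⟩ := typed_main H A w ρ hA t hsmall hN
    have h1 := hfar B hB
    have h2 : (diffCount A B : ℝ) ≤ 2 * ((r : ℝ) ^ k * ((k : ℝ) * (t : ℝ))) * n := by
      exact_mod_cast hd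
    have h3 : 2 * ((r : ℝ) ^ k * ((k : ℝ) * (t : ℝ))) * n ≤ 2 * (ε * n / 8) * n := by
      apply mul_le_mul_of_nonneg_right _ hnR.le
      linarith
    have h4 : 2 * (ε * n / 8) * n < ε * (n : ℝ) ^ 2 := by
      have : 0 < ε * (n : ℝ) ^ 2 := by positivity
      nlinarith
    linarith

/-- hosts with at most `r` distinct rows. -/
theorem ft_rows {k n r : ℕ} (hk : 0 < k) (H : Fin k → Fin k → Bool) (A : Fin n → Fin n → Bool) (ε : ℝ)
    (hε : 0 < ε) (hε1 : ε < 1) (hr : (Finset.univ.image A).card ≤ r)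
    (hfar : ∀ B : Fin n → Fin n → Bool, HFree H B → ε * (n : ℝ) ^ 2 ≤ (diffCount A B : ℝ)) :
    (ε / (16 * (k : ℝ) * (r : ℝ) ^ k)) ^ (2 * k) * (n : ℝ) ^ (2 * k) ≤ (copyCount H A : ℝ) := by
  classical
  rcases Nat.eq_zero_or_pos n with hn | hn
  · subst hn
    have h0 : ((0 : ℕ) : ℝ) ^ (2 * k) = 0 := by
      have : 2 * k ≠ 0 := by omega
      simp [this]
    rw [h0, mul_zero]
    exact Nat.cast_nonneg _
  set S : Finset (Fin n → Bool) := Finset.univ.image A with hS
  set r' : ℕ := S.card with hr'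
  have e : S ≃ Fin r' := S.equivFin
  have hmem : ∀ x, A x ∈ S := fun x => Finset.mem_image_of_mem A (Finset.mem_univ x)
  have hmain := ft_typed hk H A (fun x => e ⟨A x, hmem x⟩) (fun a => (e.symm a).1)
    (by intro x; simp) ε hε hε1 hfar
  have hr'pos : 0 < r' := by
    rw [hr', Finset.card_pos]
    exact ⟨A ⟨0, hn⟩, hmem _⟩
  refine le_trans ?_ hmain
  have hkR : (0 : ℝ) < (k : ℝ) := by exact_mod_cast hk
  have hr'R : (0 : ℝ) < (r' : ℝ) := by exact_mod_cast hr'pos
  have hle : (r' : ℝ) ≤ (r : ℝ) := by exact_mod_cast hr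
  have hpow : (r' : ℝ) ^ k ≤ (r : ℝ) ^ k := pow_le_pow_left₀ hr'R.le hle k
  have hden' : (0 : ℝ) < 16 * (k : ℝ) * (r' : ℝ) ^ k := by positivity
  have hden : 16 * (k : ℝ) * (r' : ℝ) ^ k ≤ 16 * (k : ℝ) * (r : ℝ) ^ k := by
    apply mul_le_mul_of_nonneg_left hpow
    positivity
  have hdiv : ε / (16 * (k : ℝ) * (r : ℝ) ^ k) ≤ ε / (16 * (k : ℝ) * (r' : ℝ) ^ k) :=
    div_le_div_of_nonneg_left hε.le hden' hden
  have hnn : 0 ≤ ε / (16 * (k : ℝ) * (r : ℝ) ^ k) := by
    apply div_nonneg hε.le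
    exact le_trans hden'.le hden
  apply mul_le_mul_of_nonneg_right (pow_le_pow_left₀ hnn hdiv _)
  positivity

/-- hosts with at most `r` distinct columns. -/
theorem ft_cols {k n r : ℕ} (hk : 0 < k) (H : Fin k → Fin k → Bool) (A : Fin n → Fin n → Bool) (ε : ℝ)
    (hε : 0 < ε) (hε1 : ε < 1) (hr : (Finset.univ.image (fun c : Fin n => fun x : Fin n => A x c)).card ≤ r)
    (hfar : ∀ B : Fin n → Fin n → Bool, HFree H B → ε * (n : ℝ) ^ 2 ≤ (diffCount A B : ℝ)) :
    (ε / (16 * (k : ℝ) * (r : ℝ) ^ k)) ^ (2 * k) * (n : ℝ) ^ (2 * k) ≤ (copyCount H A : ℝ) := by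
  classical
  have hcopy : ∀ (M : Fin n → Fin n → Bool) (p : (Fin k → Fin n) × (Fin k → Fin n)),
      IsCopy H M p.1 p.2 ↔ IsCopy (fun i j => H j i) (fun x c => M c x)
        ((Equiv.prodComm _ _) p).1 ((Equiv.prodComm _ _) p).2 := by
    intro M p
    simp only [IsCopy, Equiv.prodComm_apply, Prod.fst_swap, Prod.snd_swap]
    constructor
    · rintro ⟨h1, h2, h3⟩
      exact ⟨h2, h1, fun i j => h3 j i⟩
    · rintro ⟨h1, h2, h3⟩
      exact ⟨h2, h1, fun i j => h3 j i⟩
  have hcount : copyCount H A = copyCount (fun i j => H j i) (fun x c => A c x) := by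
    unfold copyCount
    exact Nat.card_congr ((Equiv.prodComm _ _).subtypeEquiv (fun p => hcopy A p))
  have hdiff : ∀ B : Fin n → Fin n → Bool,
      diffCount A (fun x c => B c x) = diffCount (fun x c => A c x) B := by
    intro B
    unfold diffCount
    refine Finset.card_bij (fun p _ => (p.2, p.1)) ?_ ?_ ?_
    · intro p hp
      simp only [Finset.mem_filter, Finset.mem_univ, true_and] at hp ⊢
      exact hp
    · intro p _ q _ hpq
      simp only [Prod.mk.injEq] at hpq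
      exact Prod.ext hpq.2 hpq.1
    · intro q hq
      refine ⟨(q.2, q.1), ?_, by simp⟩
      simp only [Finset.mem_filter, Finset.mem_univ, true_and] at hq ⊢
      exact hq
  rw [hcount]
  refine ft_rows hk (fun i j => H j i) (fun x c => A c x) ε hε hε1 hr ?_
  intro B hB
  rw [← hdiff]
  apply hfar
  intro rr cc hcop
  have h1 := (hcopy (fun x c => B c x) (rr, cc)).1 hcop
  exact hB _ _ h1

end Vale.Agent.P037.FT
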