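import Mathlib
import Vale.Agent.P037.Defs
import Vale.Agent.P037.BlowCount

/-! P037: hosts with few distinct rows (or columns), arbitrary pattern. -/

namespace Vale.Agent.P037.FR

open Vale.Agent.P037

open Finset

section OneDim

variable {α : Type*} [DecidableEq α] {n : ℕ}

/-- an initial segment of prescribed size -/
theorem exists_initial_segment (X : Finset (Fin n)) :
    ∀ m : ℕ, m ≤ X.card → ∃ t : ℕ, (X.filter (fun i => i.val < t)).card = m
  | 0, _ => ⟨0, by simp⟩
  | m + 1, hm => by
    obtain ⟨t, ht⟩ := exists_initial_segment X m (by omega)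
    have hsplit := Finset.card_filter_add_card_filter_not (s := X) (fun i : Fin n => i.val < t)
    have hY : (X.filter (fun i => ¬ i.val < t)).Nonempty := by
      rw [← Finset.card_pos]
      omega
    set i0 := (X.filter (fun i => ¬ i.val < t)).min' hY with hi0
    have hi0mem := Finset.min'_mem _ hY
    rw [← hi0, Finset.mem_filter] at hi0mem
    refine ⟨i0.val + 1, ?_⟩
    have e : X.filter (fun i => i.val < i0.val + 1) = insert i0 (X.filter (fun i => i.val < t)) := by
      ext i
      simp only [Finset.mem_filter, Finset.mem_insert]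
      constructor
      · rintro ⟨hiX, hi⟩
        by_cases hit : i.val < t
        · exact Or.inr ⟨hiX, hit⟩
        · left
          have h1 : i0 ≤ i := Finset.min'_le _ _ (Finset.mem_filter.2 ⟨hiX, hit⟩)
          exact le_antisymm (Fin.le_def.2 (by omega)) h1
      · rintro (rfl | ⟨hiX, hit⟩)
        · exact ⟨hi0mem.1, by omega⟩
        · exact ⟨hiX, by have := hi0mem.2; omega⟩
    rw [e, Finset.card_insert_of_notMem, ht]
    intro h
    exact hi0mem.2 (Finset.mem_filter.1 h).2

/-- thick greedy embedding of a pattern word `p` into a word `w`: either there are `k` consecutive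
blocks of `m` positions carrying the letters of `p`, or at most `k m` positions meet every weakly
increasing occurrence of `p`. -/
theorem thick_greedy (w : Fin n → α) (m : ℕ) : ∀ (k : ℕ) (p : Fin k → α) (a : ℕ),
    (∃ P : Fin k → Finset (Fin n), (∀ s, (P s).card = m) ∧
        (∀ s, ∀ i ∈ P s, w i = p s ∧ a ≤ i.val) ∧
        (∀ s s', s < s' → ∀ i ∈ P s, ∀ i' ∈ P s', i < i')) ∨
    (∃ D : Finset (Fin n), D.card ≤ k * m ∧
        ∀ f : Fin k → Fin n, Monotone f → (∀ s, a ≤ (f s).val) → (∀ s, w (f s) = p s) →
          ∃ s, f s ∈ D)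
  | 0, _, _ => Or.inl ⟨fun s => s.elim0, fun s => s.elim0, fun s => s.elim0, fun s => s.elim0⟩
  | k + 1, p, a => by
    set X : Finset (Fin n) := univ.filter (fun i => a ≤ i.val ∧ w i = p 0) with hX
    by_cases hm : m ≤ X.card
    · obtain ⟨t, ht⟩ := exists_initial_segment X m hm
      set P0 := X.filter (fun i => i.val < t) with hP0
      rcases thick_greedy w m k (fun s => p s.succ) (max a t) with ⟨P', h1, h2, h3⟩ | ⟨D', h1, h2⟩
      · left
        refine ⟨fun s => Fin.cases P0 P' s, ?_, ?_, ?_⟩
        · intro s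
          refine Fin.cases ?_ (fun s => ?_) s
          · exact ht
          · exact h1 s
        · intro s
          refine Fin.cases ?_ (fun s => ?_) s
          · intro i hi
            have hi' : i ∈ P0 := hi
            rw [hP0, Finset.mem_filter, hX, Finset.mem_filter] at hi'
            exact ⟨hi'.1.2.2, hi'.1.2.1⟩
          · intro i hi
            have hi' : i ∈ P' s := hi
            have := h2 s i hi'
            exact ⟨this.1, le_trans (le_max_left _ _) this.2⟩
        · intro s s'
          refine Fin.cases ?_ (fun s' => ?_) s'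
          · intro h
            exact absurd h (Fin.not_lt_zero _)
          · refine Fin.cases ?_ (fun s => ?_) s
            · intro _ i hi i' hi'
              have hi1 : i ∈ P0 := hi
              have hi2 : i' ∈ P' s' := hi'
              rw [hP0, Finset.mem_filter] at hi1
              have := (h2 s' i' hi2).2
              have h4 := le_max_right a t
              exact Fin.lt_def.2 (by omega)
            · intro h i hi i' hi'
              exact h3 s s' (Fin.succ_lt_succ_iff.1 h) i hi i' hi'
      · right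
        refine ⟨P0 ∪ D', ?_, ?_⟩
        · calc (P0 ∪ D').card ≤ P0.card + D'.card := Finset.card_union_le _ _
            _ ≤ m + k * m := by omega
            _ = (k + 1) * m := by ring
        · intro f hf ha hw
          by_cases h0 : f 0 ∈ P0
          · exact ⟨0, Finset.mem_union_left _ h0⟩
          · have hfX : f 0 ∈ X := by
              rw [hX, Finset.mem_filter]
              exact ⟨Finset.mem_univ _, ha 0, hw 0⟩
            have ht0 : t ≤ (f 0).val := by
              by_contra hlt
              exact h0 (Finset.mem_filter.2 ⟨hfX, by omega⟩)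
            obtain ⟨s, hs⟩ := h2 (fun s => f s.succ)
              (fun s s' h => hf (Fin.succ_le_succ_iff.2 h))
              (fun s => by
                have h5 : f 0 ≤ f s.succ := hf (Fin.zero_le _)
                have h6 : (f 0).val ≤ (f s.succ).val := h5
                exact max_le (ha _) (le_trans ht0 h6))
              (fun s => hw s.succ)
            exact ⟨s.succ, Finset.mem_union_right _ hs⟩
    · right
      refine ⟨X, ?_, ?_⟩
      · have : m ≤ (k + 1) * m := Nat.le_mul_of_pos_left _ (Nat.succ_pos _)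
        omega
      · intro f _ ha hw
        refine ⟨0, ?_⟩
        rw [hX, Finset.mem_filter]
        exact ⟨Finset.mem_univ _, ha 0, hw 0⟩

/-- a monotone retraction of `Fin n` onto the complement of a proper subset -/
theorem exists_retraction (D : Finset (Fin n)) (hD : D ≠ univ) :
    ∃ π : Fin n → Fin n, Monotone π ∧ (∀ i, π i ∉ D) ∧ (∀ i, i ∉ D → π i = i) := by
  classical
  have hG : (Dᶜ).Nonempty := by
    rw [Finset.nonempty_iff_ne_empty]
    intro h
    exact hD (Finset.compl_eq_empty_iff _ |>.1 h)
  set g0 := (Dᶜ).min' hG with hg0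
  let π : Fin n → Fin n := fun i =>
    if h : ((Dᶜ).filter (fun g => g ≤ i)).Nonempty then ((Dᶜ).filter (fun g => g ≤ i)).max' h
    else g0
  have hmem : ∀ i, π i ∈ Dᶜ := by
    intro i
    show (if h : ((Dᶜ).filter (fun g => g ≤ i)).Nonempty then
      ((Dᶜ).filter (fun g => g ≤ i)).max' h else g0) ∈ Dᶜ
    split_ifs with h
    · exact (Finset.mem_filter.1 (Finset.max'_mem _ h)).1
    · exact Finset.min'_mem _ hG
  refine ⟨π, ?_, fun i => Finset.mem_compl.1 (hmem i), ?_⟩
  · intro i j hij
    by_cases hi : ((Dᶜ).filter (fun g => g ≤ i)).Nonempty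
    · have hsub : (Dᶜ).filter (fun g => g ≤ i) ⊆ (Dᶜ).filter (fun g => g ≤ j) := by
        intro g hg
        rw [Finset.mem_filter] at hg ⊢
        exact ⟨hg.1, hg.2.trans hij⟩
      have hj : ((Dᶜ).filter (fun g => g ≤ j)).Nonempty := hi.mono hsub
      have e1 : π i = ((Dᶜ).filter (fun g => g ≤ i)).max' hi := dif_pos hi
      have e2 : π j = ((Dᶜ).filter (fun g => g ≤ j)).max' hj := dif_pos hj
      rw [e1, e2]
      exact Finset.max'_subset hi hsub
    · have e1 : π i = g0 := dif_neg hi
      rw [e1]
      exact Finset.min'_le _ _ (hmem j)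
  · intro i hi
    have hne : ((Dᶜ).filter (fun g => g ≤ i)).Nonempty :=
      ⟨i, Finset.mem_filter.2 ⟨Finset.mem_compl.2 hi, le_rfl⟩⟩
    have e1 : π i = ((Dᶜ).filter (fun g => g ≤ i)).max' hne := dif_pos hne
    rw [e1]
    refine le_antisymm ?_ ?_
    · exact (Finset.mem_filter.1 (Finset.max'_mem _ hne)).2
    · exact Finset.le_max' ((Dᶜ).filter (fun g => g ≤ i)) i
        (Finset.mem_filter.2 ⟨Finset.mem_compl.2 hi, le_rfl⟩)

end OneDim

variable {k n : ℕ}

/-- the dichotomy, with a free integer `m` -/
theorem few_rows_nat (H : Fin k → Fin k → Bool) (A : Fin n → Fin n → Bool) (hk : 0 < k) (m : ℕ) :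
    m ^ (2 * k) ≤ copyCount H A ∨
    ∃ B, HFree H B ∧ diffCount A B ≤ 2 * (((univ.image A).card) ^ k * (k * m)) * n := by
  classical
  set L : Finset (Fin n → Bool) := univ.image A with hL
  by_cases hboth : ∃ x : Fin k → (Fin n → Bool),
      (∃ P : Fin k → Finset (Fin n), (∀ s, (P s).card = m) ∧
        (∀ s, ∀ i ∈ P s, A i = x s ∧ 0 ≤ i.val) ∧
        (∀ s s', s < s' → ∀ i ∈ P s, ∀ i' ∈ P s', i < i')) ∧
      (∃ Q : Fin k → Finset (Fin n), (∀ t, (Q t).card = m) ∧
        (∀ t, ∀ j ∈ Q t, (fun s => x s j) = (fun s => H s t) ∧ 0 ≤ j.val) ∧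
        (∀ t t', t < t' → ∀ j ∈ Q t, ∀ j' ∈ Q t', j < j'))
  · left
    obtain ⟨x, ⟨P, hP1, hP2, hP3⟩, ⟨Q, hQ1, hQ2, hQ3⟩⟩ := hboth
    rw [copyCount_eq_rcount]
    unfold rcount
    have hsub : Fintype.piFinset P ×ˢ Fintype.piFinset Q ⊆
        univ.filter (fun p : (Fin k → Fin n) × (Fin k → Fin n) => RCopy H A p.1 p.2) := by
      intro p hp
      rw [Finset.mem_product, Fintype.mem_piFinset, Fintype.mem_piFinset] at hp
      rw [Finset.mem_filter]
      refine ⟨Finset.mem_univ _, ?_, ?_, ?_⟩
      · intro s s' h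
        exact hP3 s s' h _ (hp.1 s) _ (hp.1 s')
      · intro t t' h
        exact hQ3 t t' h _ (hp.2 t) _ (hp.2 t')
      · intro s t
        have e1 := (hP2 s _ (hp.1 s)).1
        have e2 := congrFun (hQ2 t _ (hp.2 t)).1 s
        rw [e1]
        exact e2
    have hcard : (Fintype.piFinset P ×ˢ Fintype.piFinset Q).card = m ^ (2 * k) := by
      rw [Finset.card_product, Fintype.card_piFinset, Fintype.card_piFinset]
      simp only [hP1, hQ1, Finset.prod_const, Finset.card_univ, Fintype.card_fin]
      ring
    rw [← hcard]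
    exact Finset.card_le_card hsub
  · right
    have hkill : ∀ x : Fin k → (Fin n → Bool),
        (∃ D : Finset (Fin n), D.card ≤ k * m ∧
          ∀ f : Fin k → Fin n, Monotone f → (∀ s, 0 ≤ (f s).val) → (∀ s, A (f s) = x s) →
            ∃ s, f s ∈ D) ∨
        (∃ D : Finset (Fin n), D.card ≤ k * m ∧
          ∀ g : Fin k → Fin n, Monotone g → (∀ t, 0 ≤ (g t).val) →
            (∀ t, (fun s => x s (g t)) = (fun s => H s t)) → ∃ t, g t ∈ D) := by
      intro x
      rcases thick_greedy A m k x 0 with h1 | h1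
      · rcases thick_greedy (fun j s => x s j) m k (fun t s => H s t) 0 with h2 | h2
        · exact absurd ⟨x, h1, h2⟩ hboth
        · exact Or.inr h2
      · exact Or.inl h1
    let DR : (Fin k → (Fin n → Bool)) → Finset (Fin n) := fun x =>
      if h : (∃ D : Finset (Fin n), D.card ≤ k * m ∧
          ∀ f : Fin k → Fin n, Monotone f → (∀ s, 0 ≤ (f s).val) → (∀ s, A (f s) = x s) →
            ∃ s, f s ∈ D) then h.choose else ∅
    let DC : (Fin k → (Fin n → Bool)) → Finset (Fin n) := fun x =>
      if h : (∃ D : Finset (Fin n), D.card ≤ k * m ∧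
          ∀ g : Fin k → Fin n, Monotone g → (∀ t, 0 ≤ (g t).val) →
            (∀ t, (fun s => x s (g t)) = (fun s => H s t)) → ∃ t, g t ∈ D) then h.choose else ∅
    have hDRc : ∀ x, (DR x).card ≤ k * m := by
      intro x
      show (dite _ _ _ : Finset (Fin n)).card ≤ k * m
      split_ifs with h
      · exact h.choose_spec.1
      · simp
    have hDCc : ∀ x, (DC x).card ≤ k * m := by
      intro x
      show (dite _ _ _ : Finset (Fin n)).card ≤ k * m
      split_ifs with h
      · exact h.choose_spec.1
      · simp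
    set I : Finset (Fin k → (Fin n → Bool)) := Fintype.piFinset (fun _ => L) with hI
    have hIc : I.card = L.card ^ k := by
      rw [hI, Fintype.card_piFinset]
      simp
    set ZR := I.biUnion DR with hZR
    set ZC := I.biUnion DC with hZC
    have hZRc : ZR.card ≤ L.card ^ k * (k * m) := by
      rw [← hIc]
      calc ZR.card ≤ ∑ x ∈ I, (DR x).card := Finset.card_biUnion_le
        _ ≤ I.card • (k * m) := Finset.sum_le_card_nsmul _ _ _ (fun x _ => hDRc x)
        _ = I.card * (k * m) := by simp
    have hZCc : ZC.card ≤ L.card ^ k * (k * m) := by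
      rw [← hIc]
      calc ZC.card ≤ ∑ x ∈ I, (DC x).card := Finset.card_biUnion_le
        _ ≤ I.card • (k * m) := Finset.sum_le_card_nsmul _ _ _ (fun x _ => hDCc x)
        _ = I.card * (k * m) := by simp
    by_cases hfull : ZR = univ ∨ ZC = univ
    · -- everything may be rewritten
      have hn : n ≤ L.card ^ k * (k * m) := by
        rcases hfull with h | h
        · rw [h, Finset.card_univ, Fintype.card_fin] at hZRc
          exact hZRc
        · rw [h, Finset.card_univ, Fintype.card_fin] at hZCc
          exact hZCc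
      refine ⟨fun _ _ => !(H ⟨0, hk⟩ ⟨0, hk⟩), ?_, ?_⟩
      · intro r c h
        have := h.2.2 ⟨0, hk⟩ ⟨0, hk⟩
        simp at this
      · have h1 : diffCount A (fun _ _ => !(H ⟨0, hk⟩ ⟨0, hk⟩)) ≤ n * n := by
          unfold diffCount
          calc _ ≤ (univ : Finset (Fin n × Fin n)).card := Finset.card_filter_le _ _
            _ = n * n := by simp
        calc _ ≤ n * n := h1
          _ ≤ (L.card ^ k * (k * m)) * n := Nat.mul_le_mul_right _ hn
          _ ≤ 2 * (L.card ^ k * (k * m)) * n := by
            apply Nat.mul_le_mul_right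
            omega
    · rw [not_or] at hfull
      obtain ⟨π, hπ1, hπ2, hπ3⟩ := exists_retraction ZR hfull.1
      obtain ⟨σ, hσ1, hσ2, hσ3⟩ := exists_retraction ZC hfull.2
      refine ⟨fun i j => A (π i) (σ j), ?_, ?_⟩
      · intro f g hcopy
        obtain ⟨hf, hg, hfg⟩ := hcopy
        set x : Fin k → (Fin n → Bool) := fun s => A (π (f s)) with hx
        have hxI : x ∈ I := by
          rw [hI, Fintype.mem_piFinset]
          intro s
          exact Finset.mem_image_of_mem _ (Finset.mem_univ _)
        rcases hkill x with h | h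
        · have e : DR x = h.choose := dif_pos h
          obtain ⟨s, hs⟩ := h.choose_spec.2 (fun s => π (f s)) (hπ1.comp hf.monotone)
            (fun _ => Nat.zero_le _) (fun _ => rfl)
          rw [← e] at hs
          exact hπ2 (f s) (Finset.mem_biUnion.2 ⟨x, hxI, hs⟩)
        · have e : DC x = h.choose := dif_pos h
          obtain ⟨t, ht⟩ := h.choose_spec.2 (fun t => σ (g t)) (hσ1.comp hg.monotone)
            (fun _ => Nat.zero_le _) (fun t => funext fun s => hfg s t)
          rw [← e] at ht
          exact hσ2 (g t) (Finset.mem_biUnion.2 ⟨x, hxI, ht⟩)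
      · unfold diffCount
        have hsub : univ.filter (fun p : Fin n × Fin n => A p.1 p.2 ≠ A (π p.1) (σ p.2)) ⊆
            (ZR ×ˢ univ) ∪ (univ ×ˢ ZC) := by
          intro p hp
          rw [Finset.mem_filter] at hp
          rw [Finset.mem_union, Finset.mem_product, Finset.mem_product]
          by_contra hcon
          rw [not_or] at hcon
          have h1 : p.1 ∉ ZR := fun h => hcon.1 ⟨h, Finset.mem_univ _⟩
          have h2 : p.2 ∉ ZC := fun h => hcon.2 ⟨Finset.mem_univ _, h⟩
          apply hp.2
          rw [hπ3 _ h1, hσ3 _ h2]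
        calc _ ≤ ((ZR ×ˢ univ) ∪ (univ ×ˢ ZC) : Finset (Fin n × Fin n)).card :=
              Finset.card_le_card hsub
          _ ≤ (ZR ×ˢ (univ : Finset (Fin n))).card + ((univ : Finset (Fin n)) ×ˢ ZC).card :=
              Finset.card_union_le _ _
          _ = ZR.card * n + n * ZC.card := by
              rw [Finset.card_product, Finset.card_product, Finset.card_univ, Fintype.card_fin]
          _ ≤ (L.card ^ k * (k * m)) * n + n * (L.card ^ k * (k * m)) :=
              Nat.add_le_add (Nat.mul_le_mul_right _ hZRc) (Nat.mul_le_mul_left _ hZCc)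
          _ = 2 * (L.card ^ k * (k * m)) * n := by ring

theorem diffCount_self (A : Fin n → Fin n → Bool) : diffCount A A = 0 := by
  unfold diffCount
  simp

theorem one_le_copyCount (H : Fin k → Fin k → Bool) (A : Fin n → Fin n → Bool)
    (h : ¬ HFree H A) : 1 ≤ copyCount H A := by
  classical
  unfold HFree at h
  simp only [not_forall, not_not] at h
  obtain ⟨r, c, hrc⟩ := h
  rw [copyCount_eq_rcount]
  unfold rcount
  exact Finset.card_pos.2 ⟨(r, c), Finset.mem_filter.2 ⟨Finset.mem_univ _, hrc⟩⟩

/-- Every pattern, hosts with at most `r` distinct rows: a removal bound polynomial in `ε` and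
`r`. -/
theorem few_rows (H : Fin k → Fin k → Bool) (A : Fin n → Fin n → Bool) (r : ℕ) (ε : ℝ)
    (hk : 0 < k) (hε : 0 < ε) (hr : (univ.image A).card ≤ r)
    (hfar : ∀ B : Fin n → Fin n → Bool, HFree H B → ε * (n : ℝ) ^ 2 ≤ (diffCount A B : ℝ)) :
    (ε / (4 * k * (r : ℝ) ^ k)) ^ (2 * k) * (n : ℝ) ^ (2 * k) ≤ (copyCount H A : ℝ) := by
  rw [← mul_pow]
  set c : ℝ := ε / (4 * k * (r : ℝ) ^ k) * n with hc
  have hc0 : 0 ≤ c := by positivity
  have h2k : 2 * k ≠ 0 := by omega
  by_cases hc1 : c < 1
  · by_cases hfree : HFree H A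
    · have h1 := hfar A hfree
      rw [diffCount_self] at h1
      have h2 : (n : ℝ) ^ 2 ≤ 0 := by
        by_contra hcon
        rw [not_le] at hcon
        have := mul_pos hε hcon
        simp only [Nat.cast_zero] at h1
        linarith
      have h3 : (n : ℝ) = 0 := by
        have := sq_nonneg (n : ℝ)
        exact pow_eq_zero_iff (two_ne_zero) |>.1 (le_antisymm h2 this)
      have h4 : c = 0 := by rw [hc, h3, mul_zero]
      rw [h4, zero_pow h2k]
      exact Nat.cast_nonneg _
    · have h1 := one_le_copyCount H A hfree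
      have h2 : c ^ (2 * k) ≤ 1 := pow_le_one₀ hc0 hc1.le
      have h3 : (1 : ℝ) ≤ (copyCount H A : ℝ) := by exact_mod_cast h1
      linarith
  · rw [not_lt] at hc1
    rcases few_rows_nat H A hk ⌈c⌉₊ with h | ⟨B, hB, hd⟩
    · have h1 : c ≤ (⌈c⌉₊ : ℝ) := Nat.le_ceil c
      have h2 : c ^ (2 * k) ≤ (⌈c⌉₊ : ℝ) ^ (2 * k) := pow_le_pow_left₀ hc0 h1 _
      have h3 : ((⌈c⌉₊ ^ (2 * k) : ℕ) : ℝ) ≤ (copyCount H A : ℝ) := by exact_mod_cast h
      rw [Nat.cast_pow] at h3
      linarith
    · exfalso
      have h1 := hfar B hB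
      have hm : (⌈c⌉₊ : ℝ) < 2 * c := by
        have := Nat.ceil_lt_add_one hc0
        linarith
      have hden : (4 * k * (r : ℝ) ^ k) ≠ 0 := by
        intro h0
        rw [hc, h0, div_zero, zero_mul] at hc1
        linarith
      have hdpos : 0 < (4 * k * (r : ℝ) ^ k) := lt_of_le_of_ne (by positivity) (Ne.symm hden)
      have hn : (0 : ℝ) < n := by
        rcases Nat.eq_zero_or_pos n with h0 | h0
        · rw [hc, h0, Nat.cast_zero, mul_zero] at hc1
          linarith
        · exact_mod_cast h0
      have hce : (4 * k * (r : ℝ) ^ k) * c = ε * n := by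
        rw [hc, ← mul_assoc, mul_div_cancel₀ _ hden]
      have h2 : (diffCount A B : ℝ) ≤ 2 * ((r : ℝ) ^ k * (k * (⌈c⌉₊ : ℝ))) * n := by
        have h3 : ((diffCount A B : ℕ) : ℝ) ≤
            ((2 * (((univ.image A).card) ^ k * (k * ⌈c⌉₊)) * n : ℕ) : ℝ) := by exact_mod_cast hd
        refine h3.trans ?_
        push_cast
        have h4 : (((univ.image A).card : ℝ)) ^ k ≤ (r : ℝ) ^ k :=
          pow_le_pow_left₀ (Nat.cast_nonneg _) (by exact_mod_cast hr) _
        gcongr
      have h5 : 2 * ((r : ℝ) ^ k * (k * (⌈c⌉₊ : ℝ))) * n < 2 * ((r : ℝ) ^ k * (k * (2 * c))) * n := by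
        have hrk : 0 < (r : ℝ) ^ k * k := by
          have : (4 * k * (r : ℝ) ^ k) = 4 * ((r : ℝ) ^ k * k) := by ring
          rw [this] at hdpos
          linarith
        have h6 : (r : ℝ) ^ k * k * (⌈c⌉₊ : ℝ) < (r : ℝ) ^ k * k * (2 * c) :=
          mul_lt_mul_of_pos_left hm hrk
        nlinarith
      have h7 : 2 * ((r : ℝ) ^ k * (k * (2 * c))) * n = ε * (n : ℝ) ^ 2 := by
        calc 2 * ((r : ℝ) ^ k * (k * (2 * c))) * n = ((4 * k * (r : ℝ) ^ k) * c) * n := by ring
          _ = ε * n * n := by rw [hce]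
          _ = ε * (n : ℝ) ^ 2 := by ring
      linarith

theorem hFree_transpose (H : Fin k → Fin k → Bool) (B : Fin n → Fin n → Bool)
    (h : HFree (fun j i => H i j) B) : HFree H (fun x y => B y x) := by
  intro r c hrc
  exact h c r ⟨hrc.2.1, hrc.1, fun i j => hrc.2.2 j i⟩

theorem diffCount_transpose (A B : Fin n → Fin n → Bool) :
    diffCount (fun x y => A y x) (fun x y => B y x) = diffCount A B := by
  unfold diffCount
  refine Finset.card_bij (fun p _ => (p.2, p.1)) ?_ ?_ ?_
  · intro p hp
    simp only [Finset.mem_filter, Finset.mem_univ, true_and] at hp ⊢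
    exact hp
  · intro p _ q _ hpq
    simp only [Prod.mk.injEq] at hpq
    exact Prod.ext hpq.2 hpq.1
  · intro q hq
    refine ⟨(q.2, q.1), ?_, rfl⟩
    simp only [Finset.mem_filter, Finset.mem_univ, true_and] at hq ⊢
    exact hq

/-- Every pattern, hosts with at most `r` distinct columns. -/
theorem few_cols (H : Fin k → Fin k → Bool) (A : Fin n → Fin n → Bool) (r : ℕ) (ε : ℝ)
    (hk : 0 < k) (hε : 0 < ε) (hr : (univ.image (fun j i => A i j)).card ≤ r)
    (hfar : ∀ B : Fin n → Fin n → Bool, HFree H B → ε * (n : ℝ) ^ 2 ≤ (diffCount A B : ℝ)) :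
    (ε / (4 * k * (r : ℝ) ^ k)) ^ (2 * k) * (n : ℝ) ^ (2 * k) ≤ (copyCount H A : ℝ) := by
  have h := few_rows (fun j i => H i j) (fun j i => A i j) r ε hk hε hr (fun B hB => by
    have h1 := hfar (fun x y => B y x) (hFree_transpose H B hB)
    have h2 := diffCount_transpose A (fun x y => B y x)
    rw [← h2] at h1
    exact h1)
  rw [copyCount_eq_rcount, rcount_transpose, ← copyCount_eq_rcount] at h
  exact h

end Vale.Agent.P037.FR
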