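import Mathlib
import Vale.Agent.P037.Defs

/-! P037: definitions for the bounded-variation theorem (shown to the judges; keep small). -/

namespace Vale.Agent.P037

/-- the total vertical variation of `A`: the number of triples `(x, x', c)` with `x' = x + 1`
(consecutive rows) and `A x c ≠ A x' c`. -/
def rowVar {n : ℕ} (A : Fin n → Fin n → Bool) : ℕ :=
  (Finset.univ.filter (fun p : Fin n × Fin n × Fin n =>
    p.1.1 + 1 = p.2.1.1 ∧ A p.1 p.2.2 ≠ A p.2.1 p.2.2)).card

/-- consecutive rows of the pattern are distinct. -/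
def RowReduced {k : ℕ} (H : Fin k → Fin k → Bool) : Prop :=
  ∀ i j : Fin k, i.1 + 1 = j.1 → H i ≠ H j

end Vale.Agent.P037
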