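import Mathlib
import Vale.Agent.P037.Defs
import Vale.Agent.P037.TVDefs
import Vale.Agent.P037.BlowCount
import Vale.Agent.P037.FewRows

/-!
# P037: hosts of bounded vertical variation, every pattern with distinct consecutive rows

Idea (helper37).  COLLAPSE LEMMA: if consecutive rows of `H` are distinct and `W = [a, b)` is an interval of
rows, then for some `ρ ∈ W` replacing all rows of `W` by the row `ρ` does not increase the number of copies
of `H`.  (A copy in the collapsed matrix uses at most one row of `W`; moving that row to `ρ` gives a copy in `A`.)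
Collapsing all windows `[j w, (j+1) w)` gives a matrix with at most `n / w + 1` distinct rows, at distance at most
`w * rowVar A` from `A`, with at most as many copies: apply `FR.few_rows`.
-/

namespace Vale.Agent.P037.TV

open Vale.Agent.P037

open Finset

variable {k n : ℕ}

/-- all rows `x` with `a ≤ x < b` are replaced by the row `ρ`. -/
def collapse (A : Fin n → Fin n → Bool) (a b : ℕ) (ρ : Fin n) : Fin n → Fin n → Bool :=
  fun x => if a ≤ x.1 ∧ x.1 < b then A ρ else A x

/-- [T1] A copy of a row-reduced pattern uses at most one row of an interval of equal rows.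
WLOG `i < j` (`lt_trichotomy`); let `i' = ⟨i+1, _⟩`; `r i < r i' ≤ r j` (StrictMono: `h.1`, `h.1.monotone`), so `r i'` is
in `[a,b)`; `M (r i) = v = M (r i')`, so `H i = H i'` (funext, `h.2.2`), contradiction with `hH i i' rfl`. -/
theorem copy_window_unique (H : Fin k → Fin k → Bool) (hH : RowReduced H) (M : Fin n → Fin n → Bool)
    (a b : ℕ) (v : Fin n → Bool) (hM : ∀ x : Fin n, a ≤ x.1 → x.1 < b → M x = v)
    (r c : Fin k → Fin n) (h : IsCopy H M r c) (i j : Fin k)
    (hi : a ≤ (r i).1 ∧ (r i).1 < b) (hj : a ≤ (r j).1 ∧ (r j).1 < b) : i = j := by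
  have key : ∀ i j : Fin k, i < j → a ≤ (r i).1 ∧ (r i).1 < b → a ≤ (r j).1 ∧ (r j).1 < b → False := by
    intro i j hij hi hj
    have hlt : i.1 + 1 < k := by
      have := j.2
      have : i.1 < j.1 := hij
      omega
    let i' : Fin k := ⟨i.1 + 1, hlt⟩
    have h1 : r i < r i' := h.1 (by
      show i.1 < i.1 + 1
      omega)
    have h2 : r i' ≤ r j := h.1.monotone (by
      show i.1 + 1 ≤ j.1
      have : i.1 < j.1 := hij
      omega)
    have h1' : (r i).1 < (r i').1 := h1
    have h2' : (r i').1 ≤ (r j).1 := h2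
    have e1 : M (r i) = v := hM _ hi.1 hi.2
    have e2 : M (r i') = v := hM _ (by omega) (by omega)
    apply hH i i' rfl
    funext t
    rw [← h.2.2 i t, ← h.2.2 i' t, e1, e2]
  rcases lt_trichotomy i j with hlt | heq | hgt
  · exact (key i j hlt hi hj).elim
  · exact heq
  · exact (key j i hgt hj hi).elim

/-- [T2] Moving the only row inside the interval `[a,b)` to another place of the interval keeps the order.
For `p < q`: cases `p = i`, `q = i`, neither (`Function.update_apply` / `Function.update_of_ne`).  If `q = i`: `r p < r i`, `r p ∉ [a,b)`,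
`r i < b`, so `r p < a ≤ ρ`.  If `p = i`: `r i < r q`, `r q ∉ [a,b)`, `a ≤ r i`, so `ρ < b ≤ r q`.  (`Fin.lt_def`, `omega`.) -/
theorem strictMono_update (r : Fin k → Fin n) (hr : StrictMono r) (a b : ℕ) (i : Fin k) (ρ : Fin n)
    (hρ : a ≤ ρ.1 ∧ ρ.1 < b) (hi : a ≤ (r i).1 ∧ (r i).1 < b)
    (hne : ∀ j, j ≠ i → ¬ (a ≤ (r j).1 ∧ (r j).1 < b)) : StrictMono (Function.update r i ρ) := by
  intro p q hpq
  have h0 : (r p).1 < (r q).1 := hr hpq
  by_cases hp : p = i
  · have hq : q ≠ i := by
      intro hq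
      rw [hp, hq] at hpq
      exact lt_irrefl _ hpq
    rw [hp, Function.update_self, Function.update_of_ne hq, Fin.lt_def]
    have h1 := hne q hq
    rw [hp] at h0
    omega
  · by_cases hq : q = i
    · rw [hq, Function.update_self, Function.update_of_ne hp, Fin.lt_def]
      have h1 := hne p hp
      rw [hq] at h0
      omega
    · rw [Function.update_of_ne hp, Function.update_of_ne hq]
      exact hr hpq

/-- [T3] A copy in the collapsed matrix with a row `r i` in the window gives a copy in `A` after moving this row to `ρ`.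
`copy_window_unique` (with `v = A ρ`, `hM` by `simp [collapse]`/`if_pos`) gives `hne` for `strictMono_update`.
Entries: row `i`: `A ρ (c j) = collapse A a b ρ (r i) (c j) = H i j`; rows `p ≠ i`: `collapse .. (r p) = A (r p)` (`if_neg`). -/
theorem isCopy_update (H : Fin k → Fin k → Bool) (hH : RowReduced H) (A : Fin n → Fin n → Bool)
    (a b : ℕ) (ρ : Fin n) (hρ : a ≤ ρ.1 ∧ ρ.1 < b) (r c : Fin k → Fin n)
    (h : IsCopy H (collapse A a b ρ) r c) (i : Fin k) (hi : a ≤ (r i).1 ∧ (r i).1 < b) :
    IsCopy H A (Function.update r i ρ) c := by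
  have hM : ∀ x : Fin n, a ≤ x.1 → x.1 < b → collapse A a b ρ x = A ρ := by
    intro x h1 h2
    unfold collapse
    rw [if_pos ⟨h1, h2⟩]
  have hne : ∀ j, j ≠ i → ¬ (a ≤ (r j).1 ∧ (r j).1 < b) := by
    intro j hj hjw
    exact hj (copy_window_unique H hH _ a b (A ρ) hM r c h j i hjw hi)
  refine ⟨strictMono_update r h.1 a b i ρ hρ hi hne, h.2.1, ?_⟩
  intro p q
  by_cases hp : p = i
  · subst hp
    rw [Function.update_self, ← h.2.2 p q, hM _ hi.1 hi.2]
  · rw [Function.update_of_ne hp, ← h.2.2 p q]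
    unfold collapse
    rw [if_neg (hne p hp)]

/-- [T4] A copy in the collapsed matrix without rows in the window is a copy in `A` (`if_neg`). -/
theorem isCopy_of_outside (H : Fin k → Fin k → Bool) (A : Fin n → Fin n → Bool)
    (a b : ℕ) (ρ : Fin n) (r c : Fin k → Fin n)
    (h : IsCopy H (collapse A a b ρ) r c) (hout : ∀ i, ¬ (a ≤ (r i).1 ∧ (r i).1 < b)) :
    IsCopy H A r c := by
  refine ⟨h.1, h.2.1, fun i j => ?_⟩
  have h1 := h.2.2 i j
  unfold collapse at h1
  rw [if_neg (hout i)] at h1
  exact h1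

/-- [T5] (the heart) Double counting.  `W = univ.filter (a ≤ · < b)`.  With `copyCount_eq_rcount`, `rcount` (a `Finset.card` of a filter; `RCopy` and
`IsCopy` are definitionally the same), the left side is the cardinality of
`S = {(ρ, r, c) : ρ ∈ W, IsCopy H (collapse A a b ρ) r c}` (`Finset.card_sigma` or `Finset.card_eq_sum_card_fiberwise`), the right side the cardinality of
`W ×ˢ {(r, c) : IsCopy H A r c}`.  Injection `S → W × copies(A)`:
`(ρ, r, c) ↦ (r i, update r i ρ, c)` if some `r i` is in the window (`i` unique by `copy_window_unique`; use `Classical.choose` / `dite`), and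
`(ρ, r, c) ↦ (ρ, r, c)` otherwise.  It maps into the target by `isCopy_update`, `isCopy_of_outside`.  Injective: the image `(x, r', c)` has a row in the window iff we are in
the first case (then `r' i = ρ` is in the window and it is the only one), and then `ρ = r' i`, `r = update r' i x`. -/
theorem sum_collapse_le (H : Fin k → Fin k → Bool) (hH : RowReduced H) (A : Fin n → Fin n → Bool)
    (a b : ℕ) :
    ∑ ρ ∈ univ.filter (fun ρ : Fin n => a ≤ ρ.1 ∧ ρ.1 < b), copyCount H (collapse A a b ρ) ≤
      (univ.filter (fun ρ : Fin n => a ≤ ρ.1 ∧ ρ.1 < b)).card * copyCount H A := by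
  classical
  simp only [copyCount_eq_rcount]
  unfold rcount
  rw [← Finset.card_product, ← Finset.card_sigma]
  let f : (Σ _ : Fin n, (Fin k → Fin n) × (Fin k → Fin n)) →
      Fin n × ((Fin k → Fin n) × (Fin k → Fin n)) :=
    fun x => if h : ∃ i, a ≤ (x.2.1 i).1 ∧ (x.2.1 i).1 < b then
      (x.2.1 (Classical.choose h), (Function.update x.2.1 (Classical.choose h) x.1, x.2.2))
      else (x.1, x.2)
  have huniq : ∀ (ρ : Fin n) (r c : Fin k → Fin n), IsCopy H (collapse A a b ρ) r c →
      ∀ i j : Fin k, (a ≤ (r i).1 ∧ (r i).1 < b) → (a ≤ (r j).1 ∧ (r j).1 < b) → i = j := by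
    intro ρ r c h i j hi hj
    refine copy_window_unique H hH (collapse A a b ρ) a b (A ρ) ?_ r c h i j hi hj
    intro x h1 h2
    simp [collapse, h1, h2]
  apply Finset.card_le_card_of_injOn f
  · rintro ⟨ρ, r, c⟩ hx
    have hx1 : (a ≤ ρ.1 ∧ ρ.1 < b) ∧ IsCopy H (collapse A a b ρ) r c := by
      have hx0 := Finset.mem_coe.1 hx
      rw [Finset.mem_sigma, Finset.mem_filter, Finset.mem_filter] at hx0
      exact ⟨hx0.1.2, hx0.2.2⟩
    obtain ⟨hρ, hcopy⟩ := hx1
    by_cases h : ∃ i, a ≤ (r i).1 ∧ (r i).1 < b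
    · have hf : f ⟨ρ, r, c⟩ = (r (Classical.choose h), (Function.update r (Classical.choose h) ρ, c)) := by
        simp only [f]
        rw [dif_pos h]
      rw [hf]
      have hi := Classical.choose_spec h
      have h3 := isCopy_update H hH A a b ρ hρ r c hcopy _ hi
      simp only [Finset.coe_product, Set.mem_prod, Finset.mem_coe, Finset.mem_filter, Finset.mem_univ, true_and]
      exact ⟨hi, h3⟩
    · have hf : f ⟨ρ, r, c⟩ = (ρ, (r, c)) := by
        simp only [f]
        rw [dif_neg h]
      rw [hf]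
      have h3 := isCopy_of_outside H A a b ρ r c hcopy (by simpa using h)
      simp only [Finset.coe_product, Set.mem_prod, Finset.mem_coe, Finset.mem_filter, Finset.mem_univ, true_and]
      exact ⟨hρ, h3⟩
  · rintro ⟨ρ, r, c⟩ hx ⟨ρ', r', c'⟩ hx' hff
    have hx1 : (a ≤ ρ.1 ∧ ρ.1 < b) ∧ IsCopy H (collapse A a b ρ) r c := by
      have hx0 := Finset.mem_coe.1 hx
      rw [Finset.mem_sigma, Finset.mem_filter, Finset.mem_filter] at hx0
      exact ⟨hx0.1.2, hx0.2.2⟩
    have hx1' : (a ≤ ρ'.1 ∧ ρ'.1 < b) ∧ IsCopy H (collapse A a b ρ') r' c' := by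
      have hx0 := Finset.mem_coe.1 hx'
      rw [Finset.mem_sigma, Finset.mem_filter, Finset.mem_filter] at hx0
      exact ⟨hx0.1.2, hx0.2.2⟩
    obtain ⟨hρ, hcopy⟩ := hx1
    obtain ⟨hρ', hcopy'⟩ := hx1'
    by_cases h : ∃ i, a ≤ (r i).1 ∧ (r i).1 < b
    · have hf : f ⟨ρ, r, c⟩ = (r (Classical.choose h), (Function.update r (Classical.choose h) ρ, c)) := by
        simp only [f]
        rw [dif_pos h]
      have hi := Classical.choose_spec h
      set i := Classical.choose h with hidef
      by_cases h' : ∃ i, a ≤ (r' i).1 ∧ (r' i).1 < b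
      · have hf' : f ⟨ρ', r', c'⟩ = (r' (Classical.choose h'), (Function.update r' (Classical.choose h') ρ', c')) := by
          simp only [f]
          rw [dif_pos h']
        have hi' := Classical.choose_spec h'
        set i' := Classical.choose h' with hidef'
        rw [hf, hf'] at hff
        simp only [Prod.mk.injEq] at hff
        obtain ⟨e1, e2, e3⟩ := hff
        have hii : i = i' := by
          by_contra hne
          have e4 := congrFun e2 i
          rw [Function.update_self, Function.update_of_ne hne] at e4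
          exact hne (huniq ρ' r' c' hcopy' i i' (e4 ▸ hρ) hi')
        rw [← hii] at e1 e2
        have e5 := congrFun e2 i
        rw [Function.update_self, Function.update_self] at e5
        have e6 : r = r' := by
          funext j
          by_cases hj : j = i
          · rw [hj]; exact e1
          · have e7 := congrFun e2 j
            rwa [Function.update_of_ne hj, Function.update_of_ne hj] at e7
        subst e5 e6 e3
        rfl
      · have hf' : f ⟨ρ', r', c'⟩ = (ρ', (r', c')) := by
          simp only [f]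
          rw [dif_neg h']
        rw [hf, hf'] at hff
        simp only [Prod.mk.injEq] at hff
        obtain ⟨e1, e2, e3⟩ := hff
        exfalso
        apply h'
        refine ⟨i, ?_⟩
        rw [← e2, Function.update_self]
        exact hρ
    · have hf : f ⟨ρ, r, c⟩ = (ρ, (r, c)) := by
        simp only [f]
        rw [dif_neg h]
      by_cases h' : ∃ i, a ≤ (r' i).1 ∧ (r' i).1 < b
      · have hf' : f ⟨ρ', r', c'⟩ = (r' (Classical.choose h'), (Function.update r' (Classical.choose h') ρ', c')) := by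
          simp only [f]
          rw [dif_pos h']
        rw [hf, hf'] at hff
        simp only [Prod.mk.injEq] at hff
        obtain ⟨e1, e2, e3⟩ := hff
        exfalso
        apply h
        refine ⟨Classical.choose h', ?_⟩
        rw [e2, Function.update_self]
        exact hρ'
      · have hf' : f ⟨ρ', r', c'⟩ = (ρ', (r', c')) := by
          simp only [f]
          rw [dif_neg h']
        rw [hf, hf'] at hff
        simp only [Prod.mk.injEq] at hff
        obtain ⟨e1, e2, e3⟩ := hff
        subst e1 e2 e3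
        rfl

/-- [T6] COLLAPSE LEMMA.  From `sum_collapse_le`: otherwise every term is `> copyCount H A` and the sum is `> card * copyCount`
(`Finset.exists_le_of_sum_le` with the constant function, or `by_contra` + `Finset.sum_lt_sum_of_nonempty` + `Finset.sum_const`). -/
theorem exists_collapse_le (H : Fin k → Fin k → Bool) (hH : RowReduced H) (A : Fin n → Fin n → Bool)
    (a b : ℕ) (hne : ∃ x : Fin n, a ≤ x.1 ∧ x.1 < b) :
    ∃ ρ : Fin n, (a ≤ ρ.1 ∧ ρ.1 < b) ∧ copyCount H (collapse A a b ρ) ≤ copyCount H A := by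
  by_contra hcon
  push Not at hcon
  have hs := sum_collapse_le H hH A a b
  obtain ⟨x, hx⟩ := hne
  have hW : (univ.filter (fun ρ : Fin n => a ≤ ρ.1 ∧ ρ.1 < b)).Nonempty :=
    ⟨x, by simp [hx]⟩
  have hlt : ∑ _ρ ∈ univ.filter (fun ρ : Fin n => a ≤ ρ.1 ∧ ρ.1 < b), copyCount H A <
      ∑ ρ ∈ univ.filter (fun ρ : Fin n => a ≤ ρ.1 ∧ ρ.1 < b), copyCount H (collapse A a b ρ) := by
    apply sum_lt_sum_of_nonempty hW
    intro ρ hρ
    rw [mem_filter] at hρ
    exact hcon ρ hρ.2
  rw [sum_const, smul_eq_mul] at hlt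
  omega

/-- `ρ i` lies in the `i`-th window `[i w, (i+1) w)` whenever this window meets `[0, n)`. -/
def Reps (n w : ℕ) (ρ : ℕ → Fin n) : Prop :=
  ∀ i, i * w < n → i * w ≤ (ρ i).1 ∧ (ρ i).1 < (i + 1) * w

/-- [T7] Collapse the windows one after the other.  Induction on `j`.  `j = 0`: `ρ i = ⟨min (i * w) (n - 1), _⟩`, the matrix is `A`.
Step: `M = fun x => if x.1 / w < j then A (ρ (x.1 / w)) else A x`.  If `n ≤ j * w` no row has `x / w = j` (`Nat.div_lt_iff_lt_mul`), the matrices for `j` and `j + 1` coincide, keep `ρ`.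
Otherwise `exists_collapse_le H hH M (j * w) ((j + 1) * w) ⟨⟨j * w, _⟩, ..⟩` gives `ρ'`; take `Function.update ρ j ρ'`; check
`collapse M (j * w) ((j + 1) * w) ρ' = fun x => if x.1 / w < j + 1 then A (update ρ j ρ' (x.1 / w)) else A x` by `funext x` and the three cases `x / w < j`, `= j`, `> j`
(`j * w ≤ x ∧ x < (j + 1) * w ↔ x / w = j`: `Nat.div_eq_iff`, or `Nat.le_div_iff_mul_le` and `Nat.div_lt_iff_lt_mul`); `M ρ' = A ρ'` because `ρ' / w = j`. -/
theorem exists_reps_partial (H : Fin k → Fin k → Bool) (hH : RowReduced H) (A : Fin n → Fin n → Bool)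
    (w : ℕ) (hw : 0 < w) (hn : 0 < n) (j : ℕ) :
    ∃ ρ : ℕ → Fin n, Reps n w ρ ∧
      copyCount H (fun x => if x.1 / w < j then A (ρ (x.1 / w)) else A x) ≤ copyCount H A := by
  induction j with
  | zero =>
    refine ⟨fun i => ⟨min (i * w) (n - 1), by omega⟩, ?_, ?_⟩
    · intro i hi
      have e : (i + 1) * w = i * w + w := by ring
      constructor
      · show i * w ≤ min (i * w) (n - 1)
        omega
      · show min (i * w) (n - 1) < (i + 1) * w
        omega
    · simp
  | succ j ih =>
    have hiff' : ∀ y : ℕ, (j * w ≤ y ∧ y < (j + 1) * w) ↔ y / w = j := by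
      intro y
      constructor
      · rintro ⟨h1, h2⟩
        have e1 : j ≤ y / w := (Nat.le_div_iff_mul_le hw).2 h1
        have e2 : y / w < j + 1 := (Nat.div_lt_iff_lt_mul hw).2 h2
        omega
      · intro e
        exact ⟨(Nat.le_div_iff_mul_le hw).1 (by omega), (Nat.div_lt_iff_lt_mul hw).1 (by omega)⟩
    obtain ⟨ρ, hρ, hc⟩ := ih
    by_cases hjn : n ≤ j * w
    · refine ⟨ρ, hρ, ?_⟩
      have e : (fun x : Fin n => if x.1 / w < j + 1 then A (ρ (x.1 / w)) else A x) =
          (fun x : Fin n => if x.1 / w < j then A (ρ (x.1 / w)) else A x) := by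
        funext x
        have hx : x.1 / w < j := by
          rw [Nat.div_lt_iff_lt_mul hw]
          have := x.2
          omega
        rw [if_pos hx, if_pos (by omega)]
      rw [e]
      exact hc
    · have hjn' : j * w < n := by omega
      obtain ⟨ρ', hρ', hc'⟩ := exists_collapse_le H hH
        (fun x : Fin n => if x.1 / w < j then A (ρ (x.1 / w)) else A x) (j * w) ((j + 1) * w)
        ⟨⟨j * w, hjn'⟩, le_refl _, by
          show j * w < (j + 1) * w
          have e : (j + 1) * w = j * w + w := by ring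
          omega⟩
      refine ⟨Function.update ρ j ρ', ?_, ?_⟩
      · intro i hi
        by_cases hij : i = j
        · subst hij
          rw [Function.update_self]
          exact hρ'
        · rw [Function.update_of_ne hij]
          exact hρ i hi
      · have key : (fun x : Fin n => if x.1 / w < j + 1 then
            A (Function.update ρ j ρ' (x.1 / w)) else A x) =
            collapse (fun x : Fin n => if x.1 / w < j then A (ρ (x.1 / w)) else A x)
              (j * w) ((j + 1) * w) ρ' := by
          funext x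
          unfold collapse
          by_cases h1 : x.1 / w = j
          · have h3 : ρ'.1 / w = j := (hiff' _).1 hρ'
            rw [if_pos (by omega), if_pos ((hiff' _).2 h1), h1, Function.update_self]
            show A ρ' = if ρ'.1 / w < j then A (ρ (ρ'.1 / w)) else A ρ'
            rw [if_neg (by omega)]
          · rw [if_neg (fun h => h1 ((hiff' _).1 h))]
            by_cases h2 : x.1 / w < j
            · rw [if_pos (by omega), Function.update_of_ne h1]
              show A (ρ (x.1 / w)) = if x.1 / w < j then A (ρ (x.1 / w)) else A x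
              rw [if_pos h2]
            · rw [if_neg (by omega)]
              show A x = if x.1 / w < j then A (ρ (x.1 / w)) else A x
              rw [if_neg h2]
        rw [key]
        exact hc'.trans hc

/-- [T8] `exists_reps_partial` with `j = n` (`x / w ≤ x < n`, `Nat.div_le_self`, `if_pos`). -/
theorem exists_reps (H : Fin k → Fin k → Bool) (hH : RowReduced H) (A : Fin n → Fin n → Bool)
    (w : ℕ) (hw : 0 < w) (hn : 0 < n) :
    ∃ ρ : ℕ → Fin n, Reps n w ρ ∧
      copyCount H (fun x : Fin n => A (ρ (x.1 / w))) ≤ copyCount H A := by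
  obtain ⟨ρ, h1, h2⟩ := exists_reps_partial H hH A w hw hn n
  refine ⟨ρ, h1, ?_⟩
  have he : (fun x : Fin n => if x.1 / w < n then A (ρ (x.1 / w)) else A x) =
      (fun x : Fin n => A (ρ (x.1 / w))) := by
    funext x
    rw [if_pos (lt_of_le_of_lt (Nat.div_le_self _ _) x.2)]
  rw [he] at h2
  exact h2

/-- [T9] Discrete intermediate value: induction on `y.1 - x.1` (or `Nat.le_induction` on `y`). -/
theorem exists_change (A : Fin n → Fin n → Bool) (c : Fin n) (x y : Fin n) (hxy : x.1 ≤ y.1)
    (h : A x c ≠ A y c) :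
    ∃ t t' : Fin n, x.1 ≤ t.1 ∧ t'.1 ≤ y.1 ∧ t.1 + 1 = t'.1 ∧ A t c ≠ A t' c := by
  obtain ⟨d, hd⟩ : ∃ d, y.1 = x.1 + d := ⟨y.1 - x.1, by omega⟩
  induction d generalizing y with
  | zero =>
    have : x = y := Fin.ext (by omega)
    subst this
    exact absurd rfl h
  | succ d ih =>
    have hlt : x.1 + d < n := by
      have := y.2
      omega
    by_cases h' : A x c = A ⟨x.1 + d, hlt⟩ c
    · refine ⟨⟨x.1 + d, hlt⟩, y, ?_, le_rfl, ?_, ?_⟩
      · show x.1 ≤ x.1 + d
        omega
      · show x.1 + d + 1 = y.1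
        omega
      · rw [← h']
        exact h
    · obtain ⟨t, t', h1, h2, h3, h4⟩ := ih ⟨x.1 + d, hlt⟩ (by show x.1 ≤ x.1 + d; omega) h' rfl
      refine ⟨t, t', h1, ?_, h3, h4⟩
      have h2' : t'.1 ≤ x.1 + d := h2
      omega

/-- [T10] Distance.  If `A x c ≠ A (ρ (x / w)) c` then by `exists_change` (applied to `x, ρ (x/w)` in the right order) there are `t, t' = t + 1` between them, hence in the window
of `x` (`t / w = x / w`), with `A t c ≠ A t' c`.  Injection of the set of differing `(x, c)` into `range w ×ˢ (the filter of rowVar)`: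
`(x, c) ↦ (x % w, (t, t', c))` (choose `t, t'`); injective because `x = w * (t / w) + x % w` (`Nat.div_add_mod`).  `Finset.card_le_card_of_injOn`, `card_product`, `card_range`. -/
theorem diffCount_reps_le (A : Fin n → Fin n → Bool) (w : ℕ) (hw : 0 < w) (ρ : ℕ → Fin n)
    (hρ : Reps n w ρ) :
    diffCount A (fun x : Fin n => A (ρ (x.1 / w))) ≤ w * rowVar A := by
  classical
  have hex : ∀ p : Fin n × Fin n, ∃ t t' : Fin n, A p.1 p.2 ≠ A (ρ (p.1.1 / w)) p.2 →
      (t.1 / w = p.1.1 / w ∧ t.1 + 1 = t'.1 ∧ A t p.2 ≠ A t' p.2) := by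
    rintro ⟨x, c⟩
    by_cases h : A x c ≠ A (ρ (x.1 / w)) c
    · have h1 : x.1 / w * w ≤ x.1 := Nat.div_mul_le_self _ _
      have h2 : x.1 < (x.1 / w + 1) * w := by
        have := Nat.lt_succ_self (x.1 / w)
        exact (Nat.div_lt_iff_lt_mul hw).1 this
      obtain ⟨h3, h4⟩ := hρ (x.1 / w) (lt_of_le_of_lt h1 x.2)
      have hwin : ∀ t : ℕ, x.1 / w * w ≤ t → t < (x.1 / w + 1) * w → t / w = x.1 / w := by
        intro t ht1 ht2
        apply le_antisymm
        · exact Nat.lt_succ_iff.1 ((Nat.div_lt_iff_lt_mul hw).2 ht2)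
        · exact (Nat.le_div_iff_mul_le hw).2 ht1
      rcases le_total x.1 (ρ (x.1 / w)).1 with hle | hle
      · obtain ⟨t, t', e1, e2, e3, e4⟩ := exists_change A c x (ρ (x.1 / w)) hle h
        exact ⟨t, t', fun _ => ⟨hwin t.1 (by omega) (by omega), e3, e4⟩⟩
      · obtain ⟨t, t', e1, e2, e3, e4⟩ := exists_change A c (ρ (x.1 / w)) x hle (Ne.symm h)
        exact ⟨t, t', fun _ => ⟨hwin t.1 (by omega) (by omega), e3, e4⟩⟩
    · exact ⟨x, x, fun h' => absurd h' h⟩
  choose T T' hT using hex
  unfold diffCount rowVar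
  rw [← card_range w, ← card_product]
  apply Finset.card_le_card_of_injOn (fun p => (p.1.1 % w, (T p, T' p, p.2)))
  · intro p hp
    have hp' : A p.1 p.2 ≠ A (ρ (p.1.1 / w)) p.2 := by simpa using hp
    obtain ⟨e1, e2, e3⟩ := hT p hp'
    simp only [coe_product, Set.mem_prod, mem_coe, mem_range, mem_filter, mem_univ, true_and]
    exact ⟨Nat.mod_lt _ hw, e2, e3⟩
  · intro p hp q hq hpq
    have hp' : A p.1 p.2 ≠ A (ρ (p.1.1 / w)) p.2 := by simpa using hp
    have hq' : A q.1 q.2 ≠ A (ρ (q.1.1 / w)) q.2 := by simpa using hq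
    obtain ⟨e1, _, _⟩ := hT p hp'
    obtain ⟨f1, _, _⟩ := hT q hq'
    simp only [Prod.mk.injEq] at hpq
    obtain ⟨g1, g2, _, g4⟩ := hpq
    have hdiv : p.1.1 / w = q.1.1 / w := by rw [← e1, ← f1, g2]
    have hval : p.1.1 = q.1.1 := by
      rw [← Nat.div_add_mod p.1.1 w, ← Nat.div_add_mod q.1.1 w, hdiv, g1]
    exact Prod.ext (Fin.ext hval) g4

/-- [T11] The map factors through `x ↦ x / w ∈ range (n / w + 1)`: the image is contained in `(range (n / w + 1)).image (fun i => A (ρ i))`
(`Finset.card_le_card`, `Finset.card_image_le`, `card_range`, `Nat.div_le_div_right`). -/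
theorem card_image_reps_le (A : Fin n → Fin n → Bool) (w : ℕ) (ρ : ℕ → Fin n) :
    (univ.image (fun x : Fin n => A (ρ (x.1 / w)))).card ≤ n / w + 1 := by
  classical
  have hsub : univ.image (fun x : Fin n => A (ρ (x.1 / w))) ⊆
      (range (n / w + 1)).image (fun i => A (ρ i)) := by
    intro v hv
    rw [mem_image] at hv ⊢
    obtain ⟨x, _, rfl⟩ := hv
    refine ⟨x.1 / w, ?_, rfl⟩
    rw [mem_range]
    have := Nat.div_le_div_right (c := w) x.2.le
    omega
  calc _ ≤ ((range (n / w + 1)).image (fun i => A (ρ i))).card := card_le_card hsub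
    _ ≤ (range (n / w + 1)).card := card_image_le
    _ = n / w + 1 := card_range _

/-- [T12] triangle inequality (copy of `diffCount_triangle` in GAssembly.lean; that file is heavy, do not import it). -/
theorem diffCount_triangle' (A B C : Fin n → Fin n → Bool) :
    diffCount A C ≤ diffCount A B + diffCount B C := by
  classical
  unfold diffCount
  refine le_trans (Finset.card_le_card ?_) (Finset.card_union_le _ _)
  intro p hp
  simp only [Finset.mem_filter, Finset.mem_univ, true_and, Finset.mem_union] at hp ⊢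
  by_contra hcon
  rw [not_or, not_not, not_not] at hcon
  exact hp (hcon.1.trans hcon.2)

/-- window version -/
theorem tv_window (H : Fin k → Fin k → Bool) (hH : RowReduced H) (A : Fin n → Fin n → Bool)
    (w : ℕ) (hw : 0 < w) (ε : ℝ) (hk : 0 < k) (hε : 0 < ε)
    (hfar : ∀ B : Fin n → Fin n → Bool, HFree H B → ε * (n : ℝ) ^ 2 ≤ (diffCount A B : ℝ))
    (hvar : ((w * rowVar A : ℕ) : ℝ) ≤ ε / 2 * (n : ℝ) ^ 2) :
    (ε / 2 / (4 * k * ((n / w + 1 : ℕ) : ℝ) ^ k)) ^ (2 * k) * (n : ℝ) ^ (2 * k) ≤
      (copyCount H A : ℝ) := by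
  rcases Nat.eq_zero_or_pos n with hn | hn
  · subst hn
    have : (2 * k) ≠ 0 := by omega
    simp [this]
  obtain ⟨ρ, hρ, hcount⟩ := exists_reps H hH A w hw hn
  have hd := diffCount_reps_le A w hw ρ hρ
  have hc := card_image_reps_le A w ρ
  have hfar' : ∀ B : Fin n → Fin n → Bool, HFree H B →
      ε / 2 * (n : ℝ) ^ 2 ≤ (diffCount (fun x : Fin n => A (ρ (x.1 / w))) B : ℝ) := by
    intro B hB
    have h1 := hfar B hB
    have h2 : (diffCount A B : ℝ) ≤ (diffCount A (fun x : Fin n => A (ρ (x.1 / w))) : ℝ) +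
        (diffCount (fun x : Fin n => A (ρ (x.1 / w))) B : ℝ) := by
      exact_mod_cast diffCount_triangle' A _ B
    have h3 : (diffCount A (fun x : Fin n => A (ρ (x.1 / w))) : ℝ) ≤ ((w * rowVar A : ℕ) : ℝ) := by
      exact_mod_cast hd
    linarith
  have h := FR.few_rows H (fun x : Fin n => A (ρ (x.1 / w))) (n / w + 1) (ε / 2) hk (by positivity) hc hfar'
  refine h.trans ?_
  exact_mod_cast hcount

/-- [T13] (pure arithmetic + `FR.few_rows`, `tv_window`)  Case 1: `ε * n < 2 * V`.  Use `FR.few_rows H A n ε` (`card_image_le`, `card_univ`, `Fintype.card_fin`): `n ≤ 2V/ε ≤ 4V/ε + 1`, so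
`ε / (8 k (4V/ε+1)^k) ≤ ε / (4 k n^k)` (`div_le_div_of_nonneg_left`, `pow_le_pow_left₀`; if `n = 0` both sides of the goal are `0`), then `pow_le_pow_left₀`, `mul_le_mul_of_nonneg_right`.
Case 2: `2 * V ≤ ε * n`.  `w = ⌊ε n / (2 V)⌋₊ ≥ 1`; `w ≤ ε n / (2V)` (`Nat.floor_le`) gives `w * rowVar A ≤ w V n ≤ ε/2 n^2`; `ε n / (2V) < w + 1 ≤ 2 w` (`Nat.lt_floor_add_one`) gives
`n / w ≤ 4 V / ε` (`Nat.cast_div_le`, `div_le_iff₀`), so `(n / w + 1 : ℕ) ≤ 4V/ε + 1`; `tv_window` and monotonicity as in case 1 (`ε/2/(4 k r^k) = ε/(8 k r^k)`). -/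
theorem tv_rows (H : Fin k → Fin k → Bool) (hH : RowReduced H) (A : Fin n → Fin n → Bool)
    (V ε : ℝ) (hk : 0 < k) (hV : 0 < V) (hε : 0 < ε)
    (hvar : (rowVar A : ℝ) ≤ V * n)
    (hfar : ∀ B : Fin n → Fin n → Bool, HFree H B → ε * (n : ℝ) ^ 2 ≤ (diffCount A B : ℝ)) :
    (ε / (8 * k * (4 * V / ε + 1) ^ k)) ^ (2 * k) * (n : ℝ) ^ (2 * k) ≤ (copyCount H A : ℝ) := by
  rcases Nat.eq_zero_or_pos n with hn | hn
  · subst hn
    have : (2 * k) ≠ 0 := by omega
    simp [this]
  have hkR : (0 : ℝ) < k := by exact_mod_cast hk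
  have hnR : (0 : ℝ) < n := by exact_mod_cast hn
  set R : ℝ := 4 * V / ε + 1 with hR
  have hR0 : 0 < R := by positivity
  have key : ∀ x : ℝ, ε / (8 * k * R ^ k) ≤ x → x ^ (2 * k) * (n : ℝ) ^ (2 * k) ≤ (copyCount H A : ℝ) →
      (ε / (8 * k * R ^ k)) ^ (2 * k) * (n : ℝ) ^ (2 * k) ≤ (copyCount H A : ℝ) := by
    intro x hx h
    refine le_trans ?_ h
    apply mul_le_mul_of_nonneg_right _ (by positivity)
    exact pow_le_pow_left₀ (by positivity) hx _
  have mono : ∀ r : ℝ, 0 < r → r ≤ R → ε / (8 * k * R ^ k) ≤ ε / (8 * k * r ^ k) := by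
    intro r hr0 hr
    apply div_le_div_of_nonneg_left hε.le (by positivity)
    have : r ^ k ≤ R ^ k := pow_le_pow_left₀ hr0.le hr _
    have h8 : (0 : ℝ) ≤ 8 * k := by positivity
    exact mul_le_mul_of_nonneg_left this h8
  by_cases hcase : ε * n < 2 * V
  · have h := FR.few_rows H A n ε hk hε (by
      refine le_trans card_image_le ?_
      simp) hfar
    refine key _ ?_ h
    have hnle : (n : ℝ) ≤ R := by
      have : (n : ℝ) < 2 * V / ε := by
        rw [lt_div_iff₀ hε]; linarith
      have h2 : 2 * V / ε ≤ 4 * V / ε := by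
        apply div_le_div_of_nonneg_right _ hε.le
        linarith
      rw [hR]; linarith
    refine le_trans (mono n hnR hnle) ?_
    apply div_le_div_of_nonneg_left hε.le (by positivity)
    have : (0 : ℝ) ≤ k * (n : ℝ) ^ k := by positivity
    nlinarith
  · push Not at hcase
    set q : ℝ := ε * n / (2 * V) with hq
    have hq1 : 1 ≤ q := by
      rw [hq, le_div_iff₀ (by positivity)]; linarith
    set w : ℕ := ⌊q⌋₊ with hw
    have hw1 : 1 ≤ w := by
      apply Nat.le_floor
      simpa using hq1
    have hwR : (1 : ℝ) ≤ w := by exact_mod_cast hw1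
    have hwq : (w : ℝ) ≤ q := Nat.floor_le (by linarith)
    have hqw : q < w + 1 := Nat.lt_floor_add_one q
    have hqV : q * V = ε * n / 2 := by
      rw [hq]; field_simp
    have hvar' : ((w * rowVar A : ℕ) : ℝ) ≤ ε / 2 * (n : ℝ) ^ 2 := by
      push_cast
      have h1 : (w : ℝ) * rowVar A ≤ w * (V * n) :=
        mul_le_mul_of_nonneg_left hvar (by linarith)
      have h2 : (w : ℝ) * (V * n) ≤ q * (V * n) :=
        mul_le_mul_of_nonneg_right hwq (by positivity)
      have h3 : q * (V * n) = ε / 2 * (n : ℝ) ^ 2 := by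
        calc q * (V * n) = (q * V) * n := by ring
          _ = ε / 2 * (n : ℝ) ^ 2 := by rw [hqV]; ring
      linarith
    have h := tv_window H hH A w hw1 ε hk hε hfar hvar'
    refine key _ ?_ h
    have hr0 : (0 : ℝ) < ((n / w + 1 : ℕ) : ℝ) := by positivity
    have hrle : ((n / w + 1 : ℕ) : ℝ) ≤ R := by
      push_cast
      have h1 : ((n / w : ℕ) : ℝ) ≤ (n : ℝ) / w := Nat.cast_div_le
      have h2 : (n : ℝ) / w ≤ 4 * V / ε := by
        rw [div_le_iff₀ (by linarith), div_mul_eq_mul_div, le_div_iff₀ hε]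
        have h3 : q * V < 2 * w * V := by
          apply mul_lt_mul_of_pos_right _ hV
          linarith
        rw [hqV] at h3
        linarith
      rw [hR]; linarith
    refine le_trans (mono _ hr0 hrle) (le_of_eq ?_)
    field_simp
    ring

/-- column version (transpose; same proof as `FR.few_cols`) -/
theorem tv_cols (H : Fin k → Fin k → Bool) (hH : RowReduced (fun j i => H i j))
    (A : Fin n → Fin n → Bool)
    (V ε : ℝ) (hk : 0 < k) (hV : 0 < V) (hε : 0 < ε)
    (hvar : (rowVar (fun j i => A i j) : ℝ) ≤ V * n)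
    (hfar : ∀ B : Fin n → Fin n → Bool, HFree H B → ε * (n : ℝ) ^ 2 ≤ (diffCount A B : ℝ)) :
    (ε / (8 * k * (4 * V / ε + 1) ^ k)) ^ (2 * k) * (n : ℝ) ^ (2 * k) ≤ (copyCount H A : ℝ) := by
  have h := tv_rows (fun j i => H i j) hH (fun j i => A i j) V ε hk hV hε hvar (fun B hB => by
    have h1 := hfar (fun x y => B y x) (FR.hFree_transpose H B hB)
    have h2 := FR.diffCount_transpose A (fun x y => B y x)
    rw [← h2] at h1
    exact h1)
  rw [copyCount_eq_rcount, rcount_transpose, ← copyCount_eq_rcount] at h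
  exact h

end Vale.Agent.P037.TV
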