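import Mathlib
import Vale.Agent.P037.Defs
import Vale.Agent.P037.TVDefs
import Vale.Agent.P037.BlowCount
import Vale.Agent.P037.TV

/-! # P037: the collapse lemma for rectangular patterns (mechanical copy of the first half of TV.lean) -/

namespace Vale.Agent.P037.TVR

open Vale.Agent.P037 Vale.Agent.P037.TV

open Finset

variable {k l n : ℕ}

/-- consecutive rows of the rectangular pattern are distinct. -/
def RowReducedR (H : Fin k → Fin l → Bool) : Prop :=
  ∀ i j : Fin k, i.1 + 1 = j.1 → H i ≠ H j

/-- [T1] A copy of a row-reduced pattern uses at most one row of an interval of equal rows.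
WLOG `i < j` (`lt_trichotomy`); let `i' = ⟨i+1, _⟩`; `r i < r i' ≤ r j` (StrictMono: `h.1`, `h.1.monotone`), so `r i'` is
in `[a,b)`; `M (r i) = v = M (r i')`, so `H i = H i'` (funext, `h.2.2`), contradiction with `hH i i' rfl`. -/
theorem copy_window_unique (H : Fin k → Fin l → Bool) (hH : RowReducedR H) (M : Fin n → Fin n → Bool)
    (a b : ℕ) (v : Fin n → Bool) (hM : ∀ x : Fin n, a ≤ x.1 → x.1 < b → M x = v)
    (r : Fin k → Fin n) (c : Fin l → Fin n) (h : RCopy H M r c) (i j : Fin k)
    (hi : a ≤ (r i).1 ∧ (r i).1 < b) (hj : a ≤ (r j).1 ∧ (r j).1 < b) : i = j := by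
  have key : ∀ i j : Fin k, i < j → a ≤ (r i).1 ∧ (r i).1 < b → a ≤ (r j).1 ∧ (r j).1 < b → False := by
    intro i j hij hi hj
    have hlt : i.1 + 1 < k := by
      have := j.2
      have : i.1 < j.1 := hij
      omega
    let i' : Fin k := ⟨i.1 + 1, hlt⟩
    have h1 : r i < r i' := h.1 (by
      show i.1 < i.1 + 1
      omega)
    have h2 : r i' ≤ r j := h.1.monotone (by
      show i.1 + 1 ≤ j.1
      have : i.1 < j.1 := hij
      omega)
    have h1' : (r i).1 < (r i').1 := h1
    have h2' : (r i').1 ≤ (r j).1 := h2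
    have e1 : M (r i) = v := hM _ hi.1 hi.2
    have e2 : M (r i') = v := hM _ (by omega) (by omega)
    apply hH i i' rfl
    funext t
    rw [← h.2.2 i t, ← h.2.2 i' t, e1, e2]
  rcases lt_trichotomy i j with hlt | heq | hgt
  · exact (key i j hlt hi hj).elim
  · exact heq
  · exact (key j i hgt hj hi).elim

/-- [T2] Moving the only row inside the interval `[a,b)` to another place of the interval keeps the order.
For `p < q`: cases `p = i`, `q = i`, neither (`Function.update_apply` / `Function.update_of_ne`).  If `q = i`: `r p < r i`, `r p ∉ [a,b)`,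
`r i < b`, so `r p < a ≤ ρ`.  If `p = i`: `r i < r q`, `r q ∉ [a,b)`, `a ≤ r i`, so `ρ < b ≤ r q`.  (`Fin.lt_def`, `omega`.) -/
theorem strictMono_update (r : Fin k → Fin n) (hr : StrictMono r) (a b : ℕ) (i : Fin k) (ρ : Fin n)
    (hρ : a ≤ ρ.1 ∧ ρ.1 < b) (hi : a ≤ (r i).1 ∧ (r i).1 < b)
    (hne : ∀ j, j ≠ i → ¬ (a ≤ (r j).1 ∧ (r j).1 < b)) : StrictMono (Function.update r i ρ) := by
  intro p q hpq
  have h0 : (r p).1 < (r q).1 := hr hpq
  by_cases hp : p = i
  · have hq : q ≠ i := by
      intro hq
      rw [hp, hq] at hpq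
      exact lt_irrefl _ hpq
    rw [hp, Function.update_self, Function.update_of_ne hq, Fin.lt_def]
    have h1 := hne q hq
    rw [hp] at h0
    omega
  · by_cases hq : q = i
    · rw [hq, Function.update_self, Function.update_of_ne hp, Fin.lt_def]
      have h1 := hne p hp
      rw [hq] at h0
      omega
    · rw [Function.update_of_ne hp, Function.update_of_ne hq]
      exact hr hpq

/-- [T3] A copy in the collapsed matrix with a row `r i` in the window gives a copy in `A` after moving this row to `ρ`.
`copy_window_unique` (with `v = A ρ`, `hM` by `simp [collapse]`/`if_pos`) gives `hne` for `strictMono_update`.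
Entries: row `i`: `A ρ (c j) = collapse A a b ρ (r i) (c j) = H i j`; rows `p ≠ i`: `collapse .. (r p) = A (r p)` (`if_neg`). -/
theorem rCopy_update (H : Fin k → Fin l → Bool) (hH : RowReducedR H) (A : Fin n → Fin n → Bool)
    (a b : ℕ) (ρ : Fin n) (hρ : a ≤ ρ.1 ∧ ρ.1 < b) (r : Fin k → Fin n) (c : Fin l → Fin n)
    (h : RCopy H (collapse A a b ρ) r c) (i : Fin k) (hi : a ≤ (r i).1 ∧ (r i).1 < b) :
    RCopy H A (Function.update r i ρ) c := by
  have hM : ∀ x : Fin n, a ≤ x.1 → x.1 < b → collapse A a b ρ x = A ρ := by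
    intro x h1 h2
    unfold collapse
    rw [if_pos ⟨h1, h2⟩]
  have hne : ∀ j, j ≠ i → ¬ (a ≤ (r j).1 ∧ (r j).1 < b) := by
    intro j hj hjw
    exact hj (copy_window_unique H hH _ a b (A ρ) hM r c h j i hjw hi)
  refine ⟨strictMono_update r h.1 a b i ρ hρ hi hne, h.2.1, ?_⟩
  intro p q
  by_cases hp : p = i
  · subst hp
    rw [Function.update_self, ← h.2.2 p q, hM _ hi.1 hi.2]
  · rw [Function.update_of_ne hp, ← h.2.2 p q]
    unfold collapse
    rw [if_neg (hne p hp)]

/-- [T4] A copy in the collapsed matrix without rows in the window is a copy in `A` (`if_neg`). -/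
theorem rCopy_of_outside (H : Fin k → Fin l → Bool) (A : Fin n → Fin n → Bool)
    (a b : ℕ) (ρ : Fin n) (r : Fin k → Fin n) (c : Fin l → Fin n)
    (h : RCopy H (collapse A a b ρ) r c) (hout : ∀ i, ¬ (a ≤ (r i).1 ∧ (r i).1 < b)) :
    RCopy H A r c := by
  refine ⟨h.1, h.2.1, fun i j => ?_⟩
  have h1 := h.2.2 i j
  unfold collapse at h1
  rw [if_neg (hout i)] at h1
  exact h1

/-- [T5] (the heart) Double counting.  `W = univ.filter (a ≤ · < b)`.  With `copyCount_eq_rcount`, `rcount` (a `Finset.card` of a filter; `RCopy` and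
`RCopy` are definitionally the same), the left side is the cardinality of
`S = {(ρ, r, c) : ρ ∈ W, RCopy H (collapse A a b ρ) r c}` (`Finset.card_sigma` or `Finset.card_eq_sum_card_fiberwise`), the right side the cardinality of
`W ×ˢ {(r, c) : RCopy H A r c}`.  Injection `S → W × copies(A)`:
`(ρ, r, c) ↦ (r i, update r i ρ, c)` if some `r i` is in the window (`i` unique by `copy_window_unique`; use `Classical.choose` / `dite`), and
`(ρ, r, c) ↦ (ρ, r, c)` otherwise.  It maps into the target by `rCopy_update`, `rCopy_of_outside`.  Injective: the image `(x, r', c)` has a row in the window iff we are in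
the first case (then `r' i = ρ` is in the window and it is the only one), and then `ρ = r' i`, `r = update r' i x`. -/
theorem sum_collapse_le (H : Fin k → Fin l → Bool) (hH : RowReducedR H) (A : Fin n → Fin n → Bool)
    (a b : ℕ) :
    ∑ ρ ∈ univ.filter (fun ρ : Fin n => a ≤ ρ.1 ∧ ρ.1 < b), rcount H (collapse A a b ρ) ≤
      (univ.filter (fun ρ : Fin n => a ≤ ρ.1 ∧ ρ.1 < b)).card * rcount H A := by
  classical
  unfold rcount
  rw [← Finset.card_product, ← Finset.card_sigma]
  let f : (Σ _ : Fin n, (Fin k → Fin n) × (Fin l → Fin n)) →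
      Fin n × ((Fin k → Fin n) × (Fin l → Fin n)) :=
    fun x => if h : ∃ i, a ≤ (x.2.1 i).1 ∧ (x.2.1 i).1 < b then
      (x.2.1 (Classical.choose h), (Function.update x.2.1 (Classical.choose h) x.1, x.2.2))
      else (x.1, x.2)
  have huniq : ∀ (ρ : Fin n) (r : Fin k → Fin n) (c : Fin l → Fin n), RCopy H (collapse A a b ρ) r c →
      ∀ i j : Fin k, (a ≤ (r i).1 ∧ (r i).1 < b) → (a ≤ (r j).1 ∧ (r j).1 < b) → i = j := by
    intro ρ r c h i j hi hj
    refine copy_window_unique H hH (collapse A a b ρ) a b (A ρ) ?_ r c h i j hi hj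
    intro x h1 h2
    simp [collapse, h1, h2]
  apply Finset.card_le_card_of_injOn f
  · rintro ⟨ρ, r, c⟩ hx
    have hx1 : (a ≤ ρ.1 ∧ ρ.1 < b) ∧ RCopy H (collapse A a b ρ) r c := by
      have hx0 := Finset.mem_coe.1 hx
      rw [Finset.mem_sigma, Finset.mem_filter, Finset.mem_filter] at hx0
      exact ⟨hx0.1.2, hx0.2.2⟩
    obtain ⟨hρ, hcopy⟩ := hx1
    by_cases h : ∃ i, a ≤ (r i).1 ∧ (r i).1 < b
    · have hf : f ⟨ρ, r, c⟩ = (r (Classical.choose h), (Function.update r (Classical.choose h) ρ, c)) := by
        simp only [f]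
        rw [dif_pos h]
      rw [hf]
      have hi := Classical.choose_spec h
      have h3 := rCopy_update H hH A a b ρ hρ r c hcopy _ hi
      simp only [Finset.coe_product, Set.mem_prod, Finset.mem_coe, Finset.mem_filter, Finset.mem_univ, true_and]
      exact ⟨hi, h3⟩
    · have hf : f ⟨ρ, r, c⟩ = (ρ, (r, c)) := by
        simp only [f]
        rw [dif_neg h]
      rw [hf]
      have h3 := rCopy_of_outside H A a b ρ r c hcopy (by simpa using h)
      simp only [Finset.coe_product, Set.mem_prod, Finset.mem_coe, Finset.mem_filter, Finset.mem_univ, true_and]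
      exact ⟨hρ, h3⟩
  · rintro ⟨ρ, r, c⟩ hx ⟨ρ', r', c'⟩ hx' hff
    have hx1 : (a ≤ ρ.1 ∧ ρ.1 < b) ∧ RCopy H (collapse A a b ρ) r c := by
      have hx0 := Finset.mem_coe.1 hx
      rw [Finset.mem_sigma, Finset.mem_filter, Finset.mem_filter] at hx0
      exact ⟨hx0.1.2, hx0.2.2⟩
    have hx1' : (a ≤ ρ'.1 ∧ ρ'.1 < b) ∧ RCopy H (collapse A a b ρ') r' c' := by
      have hx0 := Finset.mem_coe.1 hx'
      rw [Finset.mem_sigma, Finset.mem_filter, Finset.mem_filter] at hx0
      exact ⟨hx0.1.2, hx0.2.2⟩
    obtain ⟨hρ, hcopy⟩ := hx1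
    obtain ⟨hρ', hcopy'⟩ := hx1'
    by_cases h : ∃ i, a ≤ (r i).1 ∧ (r i).1 < b
    · have hf : f ⟨ρ, r, c⟩ = (r (Classical.choose h), (Function.update r (Classical.choose h) ρ, c)) := by
        simp only [f]
        rw [dif_pos h]
      have hi := Classical.choose_spec h
      set i := Classical.choose h with hidef
      by_cases h' : ∃ i, a ≤ (r' i).1 ∧ (r' i).1 < b
      · have hf' : f ⟨ρ', r', c'⟩ = (r' (Classical.choose h'), (Function.update r' (Classical.choose h') ρ', c')) := by
          simp only [f]
          rw [dif_pos h']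
        have hi' := Classical.choose_spec h'
        set i' := Classical.choose h' with hidef'
        rw [hf, hf'] at hff
        simp only [Prod.mk.injEq] at hff
        obtain ⟨e1, e2, e3⟩ := hff
        have hii : i = i' := by
          by_contra hne
          have e4 := congrFun e2 i
          rw [Function.update_self, Function.update_of_ne hne] at e4
          exact hne (huniq ρ' r' c' hcopy' i i' (e4 ▸ hρ) hi')
        rw [← hii] at e1 e2
        have e5 := congrFun e2 i
        rw [Function.update_self, Function.update_self] at e5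
        have e6 : r = r' := by
          funext j
          by_cases hj : j = i
          · rw [hj]; exact e1
          · have e7 := congrFun e2 j
            rwa [Function.update_of_ne hj, Function.update_of_ne hj] at e7
        subst e5 e6 e3
        rfl
      · have hf' : f ⟨ρ', r', c'⟩ = (ρ', (r', c')) := by
          simp only [f]
          rw [dif_neg h']
        rw [hf, hf'] at hff
        simp only [Prod.mk.injEq] at hff
        obtain ⟨e1, e2, e3⟩ := hff
        exfalso
        apply h'
        refine ⟨i, ?_⟩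
        rw [← e2, Function.update_self]
        exact hρ
    · have hf : f ⟨ρ, r, c⟩ = (ρ, (r, c)) := by
        simp only [f]
        rw [dif_neg h]
      by_cases h' : ∃ i, a ≤ (r' i).1 ∧ (r' i).1 < b
      · have hf' : f ⟨ρ', r', c'⟩ = (r' (Classical.choose h'), (Function.update r' (Classical.choose h') ρ', c')) := by
          simp only [f]
          rw [dif_pos h']
        rw [hf, hf'] at hff
        simp only [Prod.mk.injEq] at hff
        obtain ⟨e1, e2, e3⟩ := hff
        exfalso
        apply h
        refine ⟨Classical.choose h', ?_⟩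
        rw [e2, Function.update_self]
        exact hρ'
      · have hf' : f ⟨ρ', r', c'⟩ = (ρ', (r', c')) := by
          simp only [f]
          rw [dif_neg h']
        rw [hf, hf'] at hff
        simp only [Prod.mk.injEq] at hff
        obtain ⟨e1, e2, e3⟩ := hff
        subst e1 e2 e3
        rfl

/-- [T6] COLLAPSE LEMMA.  From `sum_collapse_le`: otherwise every term is `> rcount H A` and the sum is `> card * copyCount`
(`Finset.exists_le_of_sum_le` with the constant function, or `by_contra` + `Finset.sum_lt_sum_of_nonempty` + `Finset.sum_const`). -/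
theorem exists_collapse_le (H : Fin k → Fin l → Bool) (hH : RowReducedR H) (A : Fin n → Fin n → Bool)
    (a b : ℕ) (hne : ∃ x : Fin n, a ≤ x.1 ∧ x.1 < b) :
    ∃ ρ : Fin n, (a ≤ ρ.1 ∧ ρ.1 < b) ∧ rcount H (collapse A a b ρ) ≤ rcount H A := by
  by_contra hcon
  push Not at hcon
  have hs := sum_collapse_le H hH A a b
  obtain ⟨x, hx⟩ := hne
  have hW : (univ.filter (fun ρ : Fin n => a ≤ ρ.1 ∧ ρ.1 < b)).Nonempty :=
    ⟨x, by simp [hx]⟩
  have hlt : ∑ _ρ ∈ univ.filter (fun ρ : Fin n => a ≤ ρ.1 ∧ ρ.1 < b), rcount H A <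
      ∑ ρ ∈ univ.filter (fun ρ : Fin n => a ≤ ρ.1 ∧ ρ.1 < b), rcount H (collapse A a b ρ) := by
    apply sum_lt_sum_of_nonempty hW
    intro ρ hρ
    rw [mem_filter] at hρ
    exact hcon ρ hρ.2
  rw [sum_const, smul_eq_mul] at hlt
  omega

/-- [T7] Collapse the windows one after the other.  Induction on `j`.  `j = 0`: `ρ i = ⟨min (i * w) (n - 1), _⟩`, the matrix is `A`.
Step: `M = fun x => if x.1 / w < j then A (ρ (x.1 / w)) else A x`.  If `n ≤ j * w` no row has `x / w = j` (`Nat.div_lt_iff_lt_mul`), the matrices for `j` and `j + 1` coincide, keep `ρ`.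
Otherwise `exists_collapse_le H hH M (j * w) ((j + 1) * w) ⟨⟨j * w, _⟩, ..⟩` gives `ρ'`; take `Function.update ρ j ρ'`; check
`collapse M (j * w) ((j + 1) * w) ρ' = fun x => if x.1 / w < j + 1 then A (update ρ j ρ' (x.1 / w)) else A x` by `funext x` and the three cases `x / w < j`, `= j`, `> j`
(`j * w ≤ x ∧ x < (j + 1) * w ↔ x / w = j`: `Nat.div_eq_iff`, or `Nat.le_div_iff_mul_le` and `Nat.div_lt_iff_lt_mul`); `M ρ' = A ρ'` because `ρ' / w = j`. -/
theorem exists_reps_partial (H : Fin k → Fin l → Bool) (hH : RowReducedR H) (A : Fin n → Fin n → Bool)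
    (w : ℕ) (hw : 0 < w) (hn : 0 < n) (j : ℕ) :
    ∃ ρ : ℕ → Fin n, Reps n w ρ ∧
      rcount H (fun x => if x.1 / w < j then A (ρ (x.1 / w)) else A x) ≤ rcount H A := by
  induction j with
  | zero =>
    refine ⟨fun i => ⟨min (i * w) (n - 1), by omega⟩, ?_, ?_⟩
    · intro i hi
      have e : (i + 1) * w = i * w + w := by ring
      constructor
      · show i * w ≤ min (i * w) (n - 1)
        omega
      · show min (i * w) (n - 1) < (i + 1) * w
        omega
    · simp
  | succ j ih =>
    have hiff' : ∀ y : ℕ, (j * w ≤ y ∧ y < (j + 1) * w) ↔ y / w = j := by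
      intro y
      constructor
      · rintro ⟨h1, h2⟩
        have e1 : j ≤ y / w := (Nat.le_div_iff_mul_le hw).2 h1
        have e2 : y / w < j + 1 := (Nat.div_lt_iff_lt_mul hw).2 h2
        omega
      · intro e
        exact ⟨(Nat.le_div_iff_mul_le hw).1 (by omega), (Nat.div_lt_iff_lt_mul hw).1 (by omega)⟩
    obtain ⟨ρ, hρ, hc⟩ := ih
    by_cases hjn : n ≤ j * w
    · refine ⟨ρ, hρ, ?_⟩
      have e : (fun x : Fin n => if x.1 / w < j + 1 then A (ρ (x.1 / w)) else A x) =
          (fun x : Fin n => if x.1 / w < j then A (ρ (x.1 / w)) else A x) := by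
        funext x
        have hx : x.1 / w < j := by
          rw [Nat.div_lt_iff_lt_mul hw]
          have := x.2
          omega
        rw [if_pos hx, if_pos (by omega)]
      rw [e]
      exact hc
    · have hjn' : j * w < n := by omega
      obtain ⟨ρ', hρ', hc'⟩ := exists_collapse_le H hH
        (fun x : Fin n => if x.1 / w < j then A (ρ (x.1 / w)) else A x) (j * w) ((j + 1) * w)
        ⟨⟨j * w, hjn'⟩, le_refl _, by
          show j * w < (j + 1) * w
          have e : (j + 1) * w = j * w + w := by ring
          omega⟩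
      refine ⟨Function.update ρ j ρ', ?_, ?_⟩
      · intro i hi
        by_cases hij : i = j
        · subst hij
          rw [Function.update_self]
          exact hρ'
        · rw [Function.update_of_ne hij]
          exact hρ i hi
      · have key : (fun x : Fin n => if x.1 / w < j + 1 then
            A (Function.update ρ j ρ' (x.1 / w)) else A x) =
            collapse (fun x : Fin n => if x.1 / w < j then A (ρ (x.1 / w)) else A x)
              (j * w) ((j + 1) * w) ρ' := by
          funext x
          unfold collapse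
          by_cases h1 : x.1 / w = j
          · have h3 : ρ'.1 / w = j := (hiff' _).1 hρ'
            rw [if_pos (by omega), if_pos ((hiff' _).2 h1), h1, Function.update_self]
            show A ρ' = if ρ'.1 / w < j then A (ρ (ρ'.1 / w)) else A ρ'
            rw [if_neg (by omega)]
          · rw [if_neg (fun h => h1 ((hiff' _).1 h))]
            by_cases h2 : x.1 / w < j
            · rw [if_pos (by omega), Function.update_of_ne h1]
              show A (ρ (x.1 / w)) = if x.1 / w < j then A (ρ (x.1 / w)) else A x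
              rw [if_pos h2]
            · rw [if_neg (by omega)]
              show A x = if x.1 / w < j then A (ρ (x.1 / w)) else A x
              rw [if_neg h2]
        rw [key]
        exact hc'.trans hc

/-- [T8] `exists_reps_partial` with `j = n` (`x / w ≤ x < n`, `Nat.div_le_self`, `if_pos`). -/
theorem exists_reps (H : Fin k → Fin l → Bool) (hH : RowReducedR H) (A : Fin n → Fin n → Bool)
    (w : ℕ) (hw : 0 < w) (hn : 0 < n) :
    ∃ ρ : ℕ → Fin n, Reps n w ρ ∧
      rcount H (fun x : Fin n => A (ρ (x.1 / w))) ≤ rcount H A := by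
  obtain ⟨ρ, h1, h2⟩ := exists_reps_partial H hH A w hw hn n
  refine ⟨ρ, h1, ?_⟩
  have he : (fun x : Fin n => if x.1 / w < n then A (ρ (x.1 / w)) else A x) =
      (fun x : Fin n => A (ρ (x.1 / w))) := by
    funext x
    rw [if_pos (lt_of_le_of_lt (Nat.div_le_self _ _) x.2)]
  rw [he] at h2
  exact h2

end Vale.Agent.P037.TVR
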