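import Mathlib
import Vale.Agent.P037.Defs
import Vale.Agent.P037.TVDefs
import Vale.Agent.P037.BlowCount
import Vale.Agent.P037.BlowInd
import Vale.Agent.P037.FewRows
import Vale.Agent.P037.TV
import Vale.Agent.P037.TVRect

/-!
# P037: hosts of bounded vertical variation, EVERY pattern

`H` = row blow-up of a row-reduced rectangular pattern `H1` (`s x k`).  Collapse the windows with respect to `H1` (TVRect), get `A'` with few distinct rows,
close to `A`, `rcount H1 A' ≤ rcount H1 A`.  `FR.few_rows_nat` gives many copies of `H` in `A'`, hence many copies of `H1` in `A'` (`rcount H M ≤ n^(k-s) rcount H1 M`), hence in `A`;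
`Forces H1 H` (BlowInd) gives many copies of `H` in `A`.
-/

namespace Vale.Agent.P037.TVA

open Vale.Agent.P037 Vale.Agent.P037.TV Vale.Agent.P037.TVR

open Finset

variable {k l n : ℕ}

/-- [U1] If rows `i` and `i+1` of `H` are equal then `H` is the pattern without row `i`, with row `i` doubled.
`funext a b`; `dupRow` unfolds to `H (i.castSucc.succAbove (i.predAbove a)) b`.  If `a ≠ i.castSucc`-side: compare values: `Fin.succAbove`, `Fin.predAbove` unfold to `if`s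
(`simp only [Fin.succAbove, Fin.predAbove]; split_ifs`, `Fin.ext`, `omega` on `.val`): the composite is `a` except for `a = i.castSucc`, where it is `i.succ`
(or the other way round); use `h` there (`congrFun h b`). -/
theorem eq_dupRow (H : Fin (k + 2) → Fin l → Bool) (i : Fin (k + 1)) (h : H i.castSucc = H i.succ) :
    H = dupRow (fun a => H (i.castSucc.succAbove a)) i := by
  funext a b
  show H a b = H (i.castSucc.succAbove (i.predAbove a)) b
  by_cases ha : a = i.castSucc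
  · subst ha
    have : i.castSucc.succAbove (i.predAbove i.castSucc) = i.succ := by
      simp
    rw [this, h]
  · rw [Fin.succAbove_predAbove ha]

/-- [U2] Deleting the doubled row: `(r, c) ↦ (r i.castSucc, (r ∘ i.castSucc.succAbove, c))` is injective from the copies of `dupRow H i` into `univ ×ˢ copies of H`
(`r` is recovered by `Fin.insertNth` / `Fin.succAboveCases`: two functions that agree at `p` and on `p.succAbove` are equal, `Fin.forall_iff_succAbove`).
It is a copy: `StrictMono (r ∘ p.succAbove)` (`Fin.strictMono_succAbove`), entries: `dupRow H i (i.castSucc.succAbove a) b = H a b` by `Fin.predAbove_succAbove` (see `rcopy_dup` in BlowCount.lean).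
`unfold rcount`, `Finset.card_le_card_of_injOn`, `card_product`, `card_univ`, `Fintype.card_fin`. -/
theorem rcount_dupRow_le (H : Fin (k + 1) → Fin l → Bool) (i : Fin (k + 1)) (M : Fin n → Fin n → Bool) :
    rcount (dupRow H i) M ≤ n * rcount H M := by
  classical
  unfold rcount
  have e : n * (univ.filter (fun p : (Fin (k + 1) → Fin n) × (Fin l → Fin n) =>
      RCopy H M p.1 p.2)).card
      = ((univ : Finset (Fin n)) ×ˢ (univ.filter (fun p : (Fin (k + 1) → Fin n) × (Fin l → Fin n) =>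
      RCopy H M p.1 p.2))).card := by
    rw [card_product, card_univ, Fintype.card_fin]
  rw [e]
  apply Finset.card_le_card_of_injOn
    (fun p => (p.1 i.castSucc, (fun a => p.1 (i.castSucc.succAbove a), p.2)))
  · intro p hp
    have hp' := (mem_filter.mp (mem_coe.mp hp)).2
    rw [mem_coe, mem_product]
    refine ⟨mem_univ _, ?_⟩
    rw [mem_filter]
    refine ⟨mem_univ _, ?_, hp'.2.1, ?_⟩
    · exact hp'.1.comp (Fin.strictMono_succAbove _)
    · intro a b
      have h1 := hp'.2.2 (i.castSucc.succAbove a) b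
      unfold dupRow at h1
      rw [Fin.predAbove_succAbove] at h1
      exact h1
  · intro p _ q _ h
    simp only [Prod.mk.injEq] at h
    obtain ⟨h1, h2, h3⟩ := h
    apply Prod.ext
    · funext a
      rcases Fin.eq_self_or_eq_succAbove i.castSucc a with ha | ⟨b, hb⟩
      · rw [ha]; exact h1
      · rw [hb]; exact congrFun h2 b
    · exact h3

/-- [U3] Row reduction.  Induction on `k` (`Nat.rec`/`induction k`, generalising `H`).  If `H` is `RowReducedR`: `s = k`, `H1 = H`, `forces_refl`, `Nat.sub_self`, `pow_zero`, `one_mul`.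
Otherwise (`unfold RowReducedR; push_neg`) there are `i j : Fin k`, `i + 1 = j`, `H i = H j`; so `k = k' + 2` (`obtain ⟨k', rfl⟩ : ∃ k', k = k' + 2 := ⟨k - 2, by omega⟩`), `i = i'.castSucc`, `j = i'.succ` with
`i' = ⟨i.1, _⟩`; `eq_dupRow` rewrites `H = dupRow H' i'`; induction hypothesis for `H'` (size `k' + 1`; use strong induction or `induction` on `k` with the statement for all `H`) gives `s ≤ k' + 1`, `H1`;
`forces_dupRow H1 H' i'`, and `rcount (dupRow H' i') M ≤ n * rcount H' M ≤ n * (n^(k'+1-s) * rcount H1 M) = n^(k'+2-s) * ..` (`pow_succ`, `Nat.succ_sub`). -/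
theorem exists_reduction : ∀ (k : ℕ) (H : Fin k → Fin l → Bool),
    ∃ (s : ℕ) (H1 : Fin s → Fin l → Bool), s ≤ k ∧ RowReducedR H1 ∧ Forces H1 H ∧
      ∀ (n : ℕ) (M : Fin n → Fin n → Bool), rcount H M ≤ n ^ (k - s) * rcount H1 M := by
  intro k
  induction k with
  | zero =>
    intro H
    refine ⟨0, H, le_rfl, ?_, forces_refl H, ?_⟩
    · intro i
      exact i.elim0
    · intro n M
      simp
  | succ k ih =>
    intro H
    by_cases hred : RowReducedR H
    · exact ⟨k + 1, H, le_rfl, hred, forces_refl H, fun n M => by simp⟩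
    · unfold RowReducedR at hred
      simp only [not_forall, ne_eq, not_not] at hred
      obtain ⟨i, j, hij, hH⟩ := hred
      obtain ⟨k', rfl⟩ : ∃ k', k = k' + 1 := ⟨k - 1, by have := i.2; have := j.2; omega⟩
      have hi' : i.1 < k' + 1 := by have := j.2; omega
      have e1 : i = (⟨i.1, hi'⟩ : Fin (k' + 1)).castSucc := Fin.ext rfl
      have e2 : j = (⟨i.1, hi'⟩ : Fin (k' + 1)).succ := Fin.ext (by simp only [Fin.val_succ]; omega)
      generalize (⟨i.1, hi'⟩ : Fin (k' + 1)) = i' at e1 e2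
      rw [e1, e2] at hH
      have hdup := eq_dupRow H i' hH
      obtain ⟨s, H1, hs, hr1, hf1, hc1⟩ := ih (fun a => H (i'.castSucc.succAbove a))
      refine ⟨s, H1, by omega, hr1, ?_, ?_⟩
      · rw [hdup]
        exact forces_dupRow H1 _ i' hf1
      · intro n M
        have h1 : rcount H M ≤ n * rcount (fun a => H (i'.castSucc.succAbove a)) M := by
          have h2 := rcount_dupRow_le (fun a => H (i'.castSucc.succAbove a)) i' M
          rw [← hdup] at h2
          exact h2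
        have e3 : k' + 1 + 1 - s = (k' + 1 - s) + 1 := by omega
        calc rcount H M ≤ n * rcount (fun a => H (i'.castSucc.succAbove a)) M := h1
          _ ≤ n * (n ^ (k' + 1 - s) * rcount H1 M) := Nat.mul_le_mul_left _ (hc1 n M)
          _ = n ^ (k' + 1 + 1 - s) * rcount H1 M := by rw [e3, pow_succ]; ring

/-- [U4] Farness survives the collapse.  `n^2 ≤ T * diffCount A B ≤ T * (diffCount A A' + diffCount A' B)` (`diffCount_triangle'`), `T * diffCount A A' ≤ T * (w * (V * n))`,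
`2 * (T * (w * (V * n))) = (2 * T * V * w) * n ≤ n * n`.  `nlinarith` / `calc` in `ℕ`. -/
theorem far_collapse (H : Fin k → Fin k → Bool) (A A' : Fin n → Fin n → Bool) (T V w : ℕ)
    (hd : diffCount A A' ≤ w * rowVar A) (hvar : rowVar A ≤ V * n) (hw : 2 * T * V * w ≤ n)
    (hfar : ∀ B : Fin n → Fin n → Bool, HFree H B → n ^ 2 ≤ T * diffCount A B) :
    ∀ B : Fin n → Fin n → Bool, HFree H B → n ^ 2 ≤ 2 * T * diffCount A' B := by
  intro B hB
  have h1 := hfar B hB
  have h2 := diffCount_triangle' A A' B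
  have h3 : diffCount A A' ≤ w * (V * n) := hd.trans (Nat.mul_le_mul_left w hvar)
  have h4 : T * diffCount A B ≤ T * (w * (V * n)) + T * diffCount A' B := by
    calc T * diffCount A B ≤ T * (diffCount A A' + diffCount A' B) := Nat.mul_le_mul_left T h2
      _ = T * diffCount A A' + T * diffCount A' B := by ring
      _ ≤ T * (w * (V * n)) + T * diffCount A' B := by
          have := Nat.mul_le_mul_left T h3
          omega
  have h5 : 2 * (T * (w * (V * n))) ≤ n ^ 2 := by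
    calc 2 * (T * (w * (V * n))) = (2 * T * V * w) * n := by ring
      _ ≤ n * n := Nat.mul_le_mul_right n hw
      _ = n ^ 2 := by ring
  have h6 : 2 * T * diffCount A' B = 2 * (T * diffCount A' B) := by ring
  rw [h6]
  omega

/-- [U5] `FR.few_rows_nat H A' hk (n / D)`: the second alternative is impossible: `n^2 ≤ 2 T diffCount A' B ≤ 2 T * (2 * (card^k * (k * m)) * n) ≤ (4 T k R^k m) * n` with `m = n / D`,
and `4 T k R^k m < n`: `D * m ≤ n` (`Nat.mul_div_le`), i.e. `4 T k R^k m + m ≤ n`; if `m = 0` use `0 < n`.  (`Nat.pow_le_pow_left hR k`.) -/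
theorem many_in_collapse (H : Fin k → Fin k → Bool) (hk : 0 < k) (A' : Fin n → Fin n → Bool)
    (T R : ℕ) (hn : 0 < n) (hR : (univ.image A').card ≤ R)
    (hfar : ∀ B : Fin n → Fin n → Bool, HFree H B → n ^ 2 ≤ 2 * T * diffCount A' B) :
    (n / (4 * T * k * R ^ k + 1)) ^ (2 * k) ≤ copyCount H A' := by
  rcases FR.few_rows_nat H A' hk (n / (4 * T * k * R ^ k + 1)) with h | ⟨B, hB, hd⟩
  · exact h
  · exfalso
    set m := n / (4 * T * k * R ^ k + 1) with hm
    have h1 := hfar B hB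
    have h2 : (univ.image A').card ^ k ≤ R ^ k := Nat.pow_le_pow_left hR k
    have h3 : diffCount A' B ≤ 2 * (R ^ k * (k * m)) * n := by
      refine hd.trans ?_
      gcongr
    have h4 : 2 * T * diffCount A' B ≤ (4 * T * k * R ^ k * m) * n := by
      calc 2 * T * diffCount A' B ≤ 2 * T * (2 * (R ^ k * (k * m)) * n) := Nat.mul_le_mul_left _ h3
        _ = (4 * T * k * R ^ k * m) * n := by ring
    have h5 : (4 * T * k * R ^ k + 1) * m ≤ n := Nat.mul_div_le n _
    have h6 : 4 * T * k * R ^ k * m < n := by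
      rcases Nat.eq_zero_or_pos m with h0 | h0
      · rw [h0]
        simpa using hn
      · have : (4 * T * k * R ^ k + 1) * m = 4 * T * k * R ^ k * m + m := by ring
        omega
    have h7 : (4 * T * k * R ^ k * m) * n < n * n := Nat.mul_lt_mul_of_pos_right h6 hn
    have h8 : n ^ 2 = n * n := by ring
    omega

/-- [U6] window length.  `w = n / (2 * T * V)`: `2 T V w ≤ n` (`Nat.mul_div_le`), `0 < w` (`Nat.div_pos`), and `n / w + 1 ≤ 5 T V`:
`n < 2 T V (w + 1) ≤ 4 T V w` (`Nat.lt_mul_div_succ`, `w ≥ 1`), so `n / w ≤ 4 T V` (`Nat.div_le_of_le_mul`), and `1 ≤ T V`. -/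
theorem exists_window (T V n : ℕ) (hT : 1 ≤ T) (hV : 1 ≤ V) (hn : 2 * T * V ≤ n) :
    ∃ w : ℕ, 0 < w ∧ 2 * T * V * w ≤ n ∧ n / w + 1 ≤ 5 * T * V := by
  have hTV : 1 ≤ T * V := Nat.mul_pos hT hV
  have hpos : 0 < 2 * T * V := by
    have : 2 * T * V = 2 * (T * V) := by ring
    omega
  refine ⟨n / (2 * T * V), Nat.div_pos hn hpos, Nat.mul_div_le n _, ?_⟩
  set w := n / (2 * T * V) with hw
  have hw1 : 1 ≤ w := Nat.div_pos hn hpos
  have h1 : n < 2 * T * V * (w + 1) := Nat.lt_mul_div_succ n hpos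
  have h2 : 2 * T * V * (w + 1) ≤ 4 * T * V * w := by
    have e1 : 2 * T * V * (w + 1) = 2 * T * V * w + 2 * T * V := by ring
    have e2 : 4 * T * V * w = 2 * T * V * w + 2 * T * V * w := by ring
    have e3 : 2 * T * V * 1 ≤ 2 * T * V * w := Nat.mul_le_mul_left _ hw1
    omega
  have h3 : n / w ≤ 4 * T * V := by
    apply Nat.div_le_of_le_mul
    have : w * (4 * T * V) = 4 * T * V * w := by ring
    omega
  have e4 : 5 * T * V = 4 * T * V + T * V := by ring
  omega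

/-- [U7] The chain for large `n`.  `D = 4 T k (5 T V)^k + 1 ≤ n` (so `2 T V ≤ n`, because `2 T V ≤ 4 T k (5 T V)^k`: `5 T V ≤ (5 T V)^k` by `Nat.le_self_pow`).
`exists_window` gives `w`; `TVR.exists_reps H1 hred A w` gives `ρ`, `A' = fun x => A (ρ (x.1 / w))`; `diffCount_reps_le`, `card_image_reps_le` (so `card ≤ 5 T V`), `far_collapse`, `many_in_collapse` (with `R = 5 T V`):
`(n / D)^(2k) ≤ copyCount H A' = rcount H A' ≤ n^(k-s) * rcount H1 A' ≤ n^(k-s) * rcount H1 A`.  `n ≤ 2 D (n / D)` (as `D ≤ n`: `n < D (n/D + 1) ≤ 2 D (n / D)`), so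
`n^(2k) ≤ (2D)^(2k) (n/D)^(2k) ≤ (2D)^(2k) n^(k-s) rcount H1 A`; `n^(2k) = n^(k-s) * n^(s+k)` (`← pow_add`, `s ≤ k`); cancel `n^(k-s) > 0` (`Nat.le_of_mul_le_mul_left`). -/
theorem tv_step (H : Fin k → Fin k → Bool) (hk : 0 < k) (s : ℕ) (H1 : Fin s → Fin k → Bool) (hs : s ≤ k)
    (hred : RowReducedR H1)
    (hub : ∀ (n : ℕ) (M : Fin n → Fin n → Bool), rcount H M ≤ n ^ (k - s) * rcount H1 M)
    (T V n : ℕ) (A : Fin n → Fin n → Bool) (hT : 1 ≤ T) (hV : 1 ≤ V)
    (hvar : rowVar A ≤ V * n)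
    (hfar : ∀ B : Fin n → Fin n → Bool, HFree H B → n ^ 2 ≤ T * diffCount A B)
    (hn : 4 * T * k * (5 * T * V) ^ k + 1 ≤ n) :
    n ^ (s + k) ≤ (2 * (4 * T * k * (5 * T * V) ^ k + 1)) ^ (2 * k) * rcount H1 A := by
  obtain ⟨R, hR⟩ : ∃ R : ℕ, R = 5 * T * V := ⟨_, rfl⟩
  rw [← hR] at hn ⊢
  obtain ⟨D, hD⟩ : ∃ D : ℕ, D = 4 * T * k * R ^ k + 1 := ⟨_, rfl⟩
  rw [← hD] at hn ⊢
  have hTV : 1 ≤ T * V := Nat.mul_pos hT hV
  have hRk : R ≤ R ^ k := Nat.le_self_pow (by omega) R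
  have h2 : 2 * T * V ≤ n := by
    have h3 : 1 * R ^ k ≤ 4 * T * k * R ^ k := by
      apply Nat.mul_le_mul_right
      have : 1 ≤ T * k := Nat.mul_pos hT hk
      nlinarith
    have h4 : 2 * T * V ≤ R := by rw [hR]; nlinarith
    omega
  have hn0 : 0 < n := by omega
  obtain ⟨w, hw0, hw1, hw2⟩ := exists_window T V n hT hV h2
  obtain ⟨ρ, hρ, hcount⟩ := TVR.exists_reps H1 hred A w hw0 hn0
  have hd := diffCount_reps_le A w hw0 ρ hρ
  have hc : (univ.image (fun x : Fin n => A (ρ (x.1 / w)))).card ≤ R := by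
    rw [hR]
    exact (card_image_reps_le A w ρ).trans hw2
  have hfar' := far_collapse H A (fun x : Fin n => A (ρ (x.1 / w))) T V w hd hvar hw1 hfar
  have hmany := many_in_collapse H hk (fun x : Fin n => A (ρ (x.1 / w))) T R hn0 hc hfar'
  rw [copyCount_eq_rcount, ← hD] at hmany
  have h5 : (n / D) ^ (2 * k) ≤ n ^ (k - s) * rcount H1 A :=
    hmany.trans ((hub n _).trans (Nat.mul_le_mul_left _ hcount))
  have hD0 : 0 < D := by omega
  have h6 : n ≤ 2 * D * (n / D) := by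
    have hq : 1 ≤ n / D := Nat.div_pos hn hD0
    have h7 : n < D * (n / D + 1) := Nat.lt_mul_div_succ n hD0
    nlinarith
  have h8 : n ^ (2 * k) ≤ (2 * D) ^ (2 * k) * (n / D) ^ (2 * k) := by
    rw [← mul_pow]
    exact Nat.pow_le_pow_left h6 _
  have h9 : n ^ (k - s) * n ^ (s + k) ≤ n ^ (k - s) * ((2 * D) ^ (2 * k) * rcount H1 A) := by
    rw [← pow_add]
    have e : k - s + (s + k) = 2 * k := by omega
    rw [e]
    calc n ^ (2 * k) ≤ (2 * D) ^ (2 * k) * (n / D) ^ (2 * k) := h8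
      _ ≤ (2 * D) ^ (2 * k) * (n ^ (k - s) * rcount H1 A) := Nat.mul_le_mul_left _ h5
      _ = n ^ (k - s) * ((2 * D) ^ (2 * k) * rcount H1 A) := by ring
  exact Nat.le_of_mul_le_mul_left h9 (Nat.pow_pos hn0)

/-- [U8] pure arithmetic: `T ≤ T V`, `(5 T V)^k = 5^k (T V)^k` (`mul_pow`, after `5 * T * V = 5 * (T * V)`), `1 ≤ (T V)^(k+1)`, `pow_succ`. -/
theorem D_le (T V k : ℕ) (hT : 1 ≤ T) (hV : 1 ≤ V) :
    2 * (4 * T * k * (5 * T * V) ^ k + 1) ≤ 2 * (4 * k * 5 ^ k + 1) * (T * V) ^ (k + 1) := by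
  have hTV : 1 ≤ T * V := Nat.mul_pos hT hV
  have h1 : T ≤ T * V := Nat.le_mul_of_pos_right T hV
  have h2 : (5 * T * V) ^ k = 5 ^ k * (T * V) ^ k := by
    rw [← mul_pow]
    congr 1
    ring
  have h3 : 1 ≤ (T * V) ^ (k + 1) := Nat.one_le_pow _ _ hTV
  rw [h2]
  have h4 : 4 * T * k * (5 ^ k * (T * V) ^ k) ≤ 4 * k * 5 ^ k * (T * V) ^ (k + 1) := by
    calc 4 * T * k * (5 ^ k * (T * V) ^ k) = (4 * k * 5 ^ k * (T * V) ^ k) * T := by ring
      _ ≤ (4 * k * 5 ^ k * (T * V) ^ k) * (T * V) := Nat.mul_le_mul_left _ h1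
      _ = 4 * k * 5 ^ k * (T * V) ^ (k + 1) := by ring
  have h5 : 2 * (4 * k * 5 ^ k + 1) * (T * V) ^ (k + 1)
      = 2 * (4 * k * 5 ^ k * (T * V) ^ (k + 1) + (T * V) ^ (k + 1)) := by ring
  rw [h5]
  omega

/-- [U9] a far matrix (with `n > 0`) contains a copy: otherwise `B = A` in `hfar` gives `n^2 ≤ T * 0` (`FR.diffCount_self`, `FR.one_le_copyCount`). -/
theorem one_le_of_far (H : Fin k → Fin k → Bool) (T n : ℕ) (A : Fin n → Fin n → Bool) (hn : 0 < n)
    (hfar : ∀ B : Fin n → Fin n → Bool, HFree H B → n ^ 2 ≤ T * diffCount A B) :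
    1 ≤ copyCount H A := by
  apply FR.one_le_copyCount
  intro hfree
  have h := hfar A hfree
  rw [FR.diffCount_self, Nat.mul_zero] at h
  have : 0 < n ^ 2 := Nat.pow_pos hn
  omega

/-- [U10] pure arithmetic from `D_le`: with `D2 = 2 * (4 T k (5 T V)^k + 1)`, `c0 = 2 * (4 k 5^k + 1)`, `P = (T V)^(k+1)`: `D2 ≤ c0 * P`, so
`(D2^(2k))^(a1+1) = D2^(2k(a1+1)) ≤ c0^(2k(a1+1)) * P^(2k(a1+1))` (`← pow_mul`, `Nat.pow_le_pow_left`, `mul_pow`), multiply by `K1`, raise to the power `2k` (`mul_pow`, `← pow_mul`, `mul_assoc`). -/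
theorem Y_le (K1 a1 T V k : ℕ) (hT : 1 ≤ T) (hV : 1 ≤ V) :
    (K1 * ((2 * (4 * T * k * (5 * T * V) ^ k + 1)) ^ (2 * k)) ^ (a1 + 1)) ^ (2 * k) ≤
      (K1 * (2 * (4 * k * 5 ^ k + 1)) ^ (2 * k * (a1 + 1))) ^ (2 * k) *
        (T * V) ^ ((k + 1) * (2 * k * (a1 + 1)) * (2 * k)) := by
  have h := D_le T V k hT hV
  set D2 := 2 * (4 * T * k * (5 * T * V) ^ k + 1) with hD2
  set c0 := 2 * (4 * k * 5 ^ k + 1) with hc0
  set P := T * V with hP
  calc (K1 * (D2 ^ (2 * k)) ^ (a1 + 1)) ^ (2 * k)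
      = (K1 * D2 ^ (2 * k * (a1 + 1))) ^ (2 * k) := by rw [← pow_mul]
    _ ≤ (K1 * (c0 * P ^ (k + 1)) ^ (2 * k * (a1 + 1))) ^ (2 * k) :=
        Nat.pow_le_pow_left (Nat.mul_le_mul_left _ (Nat.pow_le_pow_left h _)) _
    _ = (K1 * c0 ^ (2 * k * (a1 + 1))) ^ (2 * k) * P ^ ((k + 1) * (2 * k * (a1 + 1)) * (2 * k)) := by
        rw [mul_pow c0, ← mul_assoc, mul_pow (K1 * c0 ^ (2 * k * (a1 + 1))), ← pow_mul, ← pow_mul, mul_assoc (k + 1)]

/-- [U11] ASSEMBLY.  `exists_reduction k H` gives `s, H1, hs, hred, ⟨K1, a1, hK1, hforce⟩, hub`.  Take `K`, `a` as on the right side of `Y_le`.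
Given `T V n A`, put `D2 = 2 * (4 T k (5 T V)^k + 1)`, `T1 = D2^(2k)`, `Y = K1 * T1^(a1+1)`.  By `Y_le` it suffices to show `n^(2k) ≤ Y^(2k) * copyCount H A` (`Nat.mul_le_mul_right`).
`1 ≤ D2 ≤ T1` (`Nat.le_self_pow`, `2k ≠ 0`), `T1 ≤ Y` and `K1 * T1^a1 ≤ Y` (`pow_succ`, `K1 ≥ 1`, `T1^a1 ≥ 1`), `1 ≤ Y ≤ Y^(2k)`.
`n = 0`: `zero_pow`.  CASE `Y ≤ n`: `4 T k (5 T V)^k + 1 ≤ D2 ≤ n`, so `tv_step` gives `n^(s+k) ≤ T1 * rcount H1 A`; `hforce T1 n A (1 ≤ T1) this (K1 * T1^a1 ≤ n)` gives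
`n^(k+k) ≤ K1 * T1^a1 * rcount H A`; `copyCount_eq_rcount`, `two_mul`; `K1 * T1^a1 ≤ Y ≤ Y^(2k)`.   CASE `n < Y`: `n^(2k) ≤ Y^(2k) = Y^(2k) * 1 ≤ Y^(2k) * copyCount H A` by `one_le_of_far`. -/
theorem tv_all_nat (H : Fin k → Fin k → Bool) (hk : 0 < k) :
    ∃ K a : ℕ, ∀ (T V n : ℕ) (A : Fin n → Fin n → Bool), 1 ≤ T → 1 ≤ V →
      rowVar A ≤ V * n →
      (∀ B : Fin n → Fin n → Bool, HFree H B → n ^ 2 ≤ T * diffCount A B) →
      n ^ (2 * k) ≤ K * (T * V) ^ a * copyCount H A := by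
  obtain ⟨s, H1, hs, hred, ⟨K1, a1, hK1, hforce⟩, hub⟩ := exists_reduction k H
  refine ⟨(K1 * (2 * (4 * k * 5 ^ k + 1)) ^ (2 * k * (a1 + 1))) ^ (2 * k),
    (k + 1) * (2 * k * (a1 + 1)) * (2 * k), ?_⟩
  intro T V n A hT hV hvar hfar
  refine le_trans ?_ (Nat.mul_le_mul_right _ (Y_le K1 a1 T V k hT hV))
  set D2 := 2 * (4 * T * k * (5 * T * V) ^ k + 1) with hD2
  set T1 := D2 ^ (2 * k) with hT1
  set Y := K1 * T1 ^ (a1 + 1) with hY
  have hD21 : 1 ≤ D2 := by omega
  have h2k : 2 * k ≠ 0 := by omega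
  have hDT : D2 ≤ T1 := Nat.le_self_pow h2k _
  have hT11 : 1 ≤ T1 := hD21.trans hDT
  have hTa : 1 ≤ T1 ^ a1 := Nat.one_le_pow _ _ hT11
  have hKT : 1 ≤ K1 * T1 ^ a1 := Nat.mul_pos hK1 hTa
  have hYe : Y = K1 * T1 ^ a1 * T1 := by
    rw [hY, pow_succ]
    ring
  have hT1Y : T1 ≤ Y := by
    rw [hYe]
    exact Nat.le_mul_of_pos_left _ hKT
  have hKY : K1 * T1 ^ a1 ≤ Y := by
    rw [hYe]
    exact Nat.le_mul_of_pos_right _ hT11
  have hY1 : 1 ≤ Y := hT11.trans hT1Y
  have hYY : Y ≤ Y ^ (2 * k) := Nat.le_self_pow h2k _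
  rcases Nat.eq_zero_or_pos n with hn0 | hn0
  · subst hn0
    rw [zero_pow h2k]
    exact Nat.zero_le _
  rcases le_or_gt Y n with hYn | hYn
  · have hn : 4 * T * k * (5 * T * V) ^ k + 1 ≤ n := by
      have : D2 ≤ n := hDT.trans (hT1Y.trans hYn)
      omega
    have h1 := tv_step H hk s H1 hs hred hub T V n A hT hV hvar hfar hn
    have h2 := hforce T1 n A hT11 h1 (hKY.trans hYn)
    rw [copyCount_eq_rcount]
    have e2 : n ^ (2 * k) = n ^ (k + k) := by rw [two_mul]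
    rw [e2]
    exact h2.trans (Nat.mul_le_mul_right _ (hKY.trans hYY))
  · have h1 := one_le_of_far H T n A hn0 hfar
    calc n ^ (2 * k) ≤ Y ^ (2 * k) := Nat.pow_le_pow_left hYn.le _
      _ = Y ^ (2 * k) * 1 := (mul_one _).symm
      _ ≤ Y ^ (2 * k) * copyCount H A := Nat.mul_le_mul_left _ h1

/-- column version -/
theorem tv_all_nat_cols (H : Fin k → Fin k → Bool) (hk : 0 < k) :
    ∃ K a : ℕ, ∀ (T V n : ℕ) (A : Fin n → Fin n → Bool), 1 ≤ T → 1 ≤ V →
      rowVar (fun j i => A i j) ≤ V * n →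
      (∀ B : Fin n → Fin n → Bool, HFree H B → n ^ 2 ≤ T * diffCount A B) →
      n ^ (2 * k) ≤ K * (T * V) ^ a * copyCount H A := by
  obtain ⟨K, a, h⟩ := tv_all_nat (fun j i => H i j) hk
  refine ⟨K, a, ?_⟩
  intro T V n A hT hV hvar hfar
  have h1 := h T V n (fun j i => A i j) hT hV hvar (fun B hB => by
    have h1 := hfar (fun x y => B y x) (FR.hFree_transpose H B hB)
    have h2 := FR.diffCount_transpose A (fun x y => B y x)
    rw [← h2] at h1
    exact h1)
  rw [copyCount_eq_rcount, rcount_transpose, ← copyCount_eq_rcount] at h1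
  exact h1

end Vale.Agent.P037.TVA
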