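import Mathlib
import Vale.Agent.P037.Defs
import Vale.Agent.P037.TVDefs
import Vale.Agent.P037.BlowCount
import Vale.Agent.P037.BlowInd
import Vale.Agent.P037.FewRows
import Vale.Agent.P037.TV
import Vale.Agent.P037.TVRect
import Vale.Agent.P037.TVAll

/-!
# P037: EVERY pattern, hosts that are (eps/16)-close to a matrix of bounded vertical variation

Same scheme as TVAll, but the representative of each window is chosen by a POTENTIAL: `α * (number of copies) + β * (distance to A)` does not increase by more than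
`β * bd i` when window `i` is collapsed, `bd i` = the average cost of a representative of window `i`
`≤ 2 * (errors A vs A0 in the window) + w * (variation of A0 inside the window)`.
-/

namespace Vale.Agent.P037.TVB

open Vale.Agent.P037 Vale.Agent.P037.TV

open Finset

variable {k l n : ℕ}

/-- Hamming distance between row `x` of `A` and row `y` of `B`. -/
def hd (A B : Fin n → Fin n → Bool) (x y : Fin n) : ℕ := (univ.filter (fun c => A x c ≠ B y c)).card

/-- the rows of window `i` (window length `w`). -/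
def win (n w i : ℕ) : Finset (Fin n) := univ.filter (fun x : Fin n => x.1 / w = i)

/-- cost of the representative `ρ` (for its own window). -/
def cst (A : Fin n → Fin n → Bool) (w : ℕ) (ρ : Fin n) : ℕ := ∑ x ∈ win n w (ρ.1 / w), hd A A x ρ

/-- errors of `A` against `A0` in window `i`. -/
def err (A A0 : Fin n → Fin n → Bool) (w i : ℕ) : ℕ := ∑ x ∈ win n w i, hd A A0 x x

/-- variation of `A0` inside window `i`. -/
def wvar (A0 : Fin n → Fin n → Bool) (w i : ℕ) : ℕ :=
  (univ.filter (fun p : Fin n × Fin n × Fin n =>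
    (p.1.1 + 1 = p.2.1.1 ∧ A0 p.1 p.2.2 ≠ A0 p.2.1 p.2.2) ∧ p.1.1 / w = i)).card

def bd (A A0 : Fin n → Fin n → Bool) (w i : ℕ) : ℕ := 2 * err A A0 w i + w * wvar A0 w i

/-- [V1] `{c | A x c ≠ A ρ c} ⊆ {A x c ≠ A0 x c} ∪ {A0 x c ≠ A0 ρ c} ∪ {A ρ c ≠ A0 ρ c}`; `card_le_card`, `card_union_le` twice. -/
theorem hd_triangle (A A0 : Fin n → Fin n → Bool) (x ρ : Fin n) :
    hd A A x ρ ≤ hd A A0 x x + hd A0 A0 x ρ + hd A A0 ρ ρ := by
  unfold hd
  have hsub : (univ.filter (fun c => A x c ≠ A ρ c)) ⊆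
      ((univ.filter (fun c => A x c ≠ A0 x c)) ∪ (univ.filter (fun c => A0 x c ≠ A0 ρ c))) ∪
        (univ.filter (fun c => A ρ c ≠ A0 ρ c)) := by
    intro c hc
    simp only [mem_filter, mem_univ, true_and, mem_union] at hc ⊢
    by_contra hcon
    push Not at hcon
    apply hc
    rw [hcon.1.1, hcon.1.2, hcon.2]
  refine (card_le_card hsub).trans ?_
  refine (card_union_le _ _).trans ?_
  exact Nat.add_le_add_right (card_union_le _ _) _

/-- [V2] WLOG `x ≤ ρ` (otherwise swap, `ne_comm`).  For `c` with `A0 x c ≠ A0 ρ c`, `TV.exists_change A0 c x ρ` gives `t, t'` with `x ≤ t`, `t' ≤ ρ`, `t + 1 = t'`, `A0 t c ≠ A0 t' c`; `t / w = i` because `x ≤ t ≤ ρ` and `x / w = ρ / w = i`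
(`Nat.div_le_div_right`, antisymmetry).  The map `c ↦ (t, t', c)` (`choose`) is injective into the filter of `wvar` (third component).  `Finset.card_le_card_of_injOn`. -/
theorem hd_le_wvar (A0 : Fin n → Fin n → Bool) (w i : ℕ) (x ρ : Fin n) (hx : x.1 / w = i)
    (hρ : ρ.1 / w = i) : hd A0 A0 x ρ ≤ wvar A0 w i := by
  classical
  have key : ∀ c : Fin n, ∃ t t' : Fin n, A0 x c ≠ A0 ρ c →
      (t.1 + 1 = t'.1 ∧ A0 t c ≠ A0 t' c ∧ t.1 / w = i) := by
    intro c
    by_cases hc : A0 x c ≠ A0 ρ c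
    · rcases le_total x.1 ρ.1 with hle | hle
      · obtain ⟨t, t', g1, g2, g3, g4⟩ := TV.exists_change A0 c x ρ hle hc
        refine ⟨t, t', fun _ => ⟨g3, g4, ?_⟩⟩
        have e1 : x.1 / w ≤ t.1 / w := Nat.div_le_div_right g1
        have e2 : t.1 / w ≤ ρ.1 / w := Nat.div_le_div_right (by omega)
        omega
      · obtain ⟨t, t', g1, g2, g3, g4⟩ := TV.exists_change A0 c ρ x hle (Ne.symm hc)
        refine ⟨t, t', fun _ => ⟨g3, g4, ?_⟩⟩
        have e1 : ρ.1 / w ≤ t.1 / w := Nat.div_le_div_right g1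
        have e2 : t.1 / w ≤ x.1 / w := Nat.div_le_div_right (by omega)
        omega
    · exact ⟨x, x, fun h => absurd h hc⟩
  choose T T' hT using key
  unfold hd wvar
  apply Finset.card_le_card_of_injOn (fun c => (T c, T' c, c))
  · intro c hc
    rw [Finset.mem_coe, Finset.mem_filter] at hc
    obtain ⟨g1, g2, g3⟩ := hT c hc.2
    rw [Finset.mem_coe, Finset.mem_filter]
    exact ⟨mem_univ _, ⟨g1, g2⟩, g3⟩
  · intro c _ c' _ hEq
    simp only [Prod.mk.injEq] at hEq
    exact hEq.2.2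

/-- [V3] `x ↦ x % w` is injective on the window, with values in `range w` (`Nat.mod_lt`, `Nat.div_add_mod`). -/
theorem card_win_le (n w i : ℕ) (hw : 0 < w) : (win n w i).card ≤ w := by
  have h : (win n w i).card ≤ (range w).card := by
    apply Finset.card_le_card_of_injOn (fun x : Fin n => x.1 % w)
    · intro x _
      simp only [coe_range, Set.mem_Iio]
      exact Nat.mod_lt _ hw
    · intro x hx y hy hxy
      have hx' : x.1 / w = i := by
        have := hx
        simp only [win, coe_filter, mem_univ, true_and, Set.mem_setOf_eq] at this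
        exact this
      have hy' : y.1 / w = i := by
        have := hy
        simp only [win, coe_filter, mem_univ, true_and, Set.mem_setOf_eq] at this
        exact this
      have hxy' : x.1 % w = y.1 % w := hxy
      apply Fin.ext
      rw [← Nat.div_add_mod x.1 w, ← Nat.div_add_mod y.1 w, hx', hy', hxy']
  simpa using h

/-- [V4] sum `hd_triangle` and `hd_le_wvar` over `x ∈ win n w i` (`Finset.sum_le_sum`, `sum_add_distrib`, `sum_const`, `smul_eq_mul`); `unfold cst err`, rewrite `ρ.1 / w = i`. -/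
theorem cst_le (A A0 : Fin n → Fin n → Bool) (w i : ℕ) (ρ : Fin n) (hρ : ρ.1 / w = i) :
    cst A w ρ ≤ err A A0 w i + (win n w i).card * wvar A0 w i + (win n w i).card * hd A A0 ρ ρ := by
  unfold cst err
  rw [hρ]
  calc ∑ x ∈ win n w i, hd A A x ρ
      ≤ ∑ x ∈ win n w i, (hd A A0 x x + wvar A0 w i + hd A A0 ρ ρ) := by
        apply Finset.sum_le_sum
        intro x hx
        have hx' : x.1 / w = i := by
          unfold win at hx
          exact (Finset.mem_filter.1 hx).2
        have h1 := hd_triangle A A0 x ρ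
        have h2 := hd_le_wvar A0 w i x ρ hx' hρ
        omega
    _ = ∑ x ∈ win n w i, hd A A0 x x + (win n w i).card * wvar A0 w i
          + (win n w i).card * hd A A0 ρ ρ := by
        rw [Finset.sum_add_distrib, Finset.sum_add_distrib, Finset.sum_const, Finset.sum_const,
          smul_eq_mul, smul_eq_mul]

/-- [V5] sum `cst_le` over `ρ ∈ win n w i` (membership gives `ρ.1 / w = i`): `≤ card * err + card * (card * wvar) + card * err`; `card ≤ w` (`card_win_le`).  `unfold bd`; `nlinarith`/`calc`. -/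
theorem sum_cst_le (A A0 : Fin n → Fin n → Bool) (w i : ℕ) (hw : 0 < w) :
    ∑ ρ ∈ win n w i, cst A w ρ ≤ (win n w i).card * bd A A0 w i := by
  have h1 : ∑ ρ ∈ win n w i, cst A w ρ ≤ ∑ ρ ∈ win n w i,
      (err A A0 w i + (win n w i).card * wvar A0 w i + (win n w i).card * hd A A0 ρ ρ) := by
    refine Finset.sum_le_sum fun ρ hρ => ?_
    have hρ' : ρ.1 / w = i := by
      unfold win at hρ
      exact (Finset.mem_filter.1 hρ).2
    exact cst_le A A0 w i ρ hρ'
  have h2 : ∑ ρ ∈ win n w i,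
      (err A A0 w i + (win n w i).card * wvar A0 w i + (win n w i).card * hd A A0 ρ ρ) =
      (win n w i).card * (err A A0 w i + (win n w i).card * wvar A0 w i) +
        (win n w i).card * err A A0 w i := by
    rw [Finset.sum_add_distrib, Finset.sum_const, smul_eq_mul, ← Finset.mul_sum]
    rfl
  have h3 := card_win_le n w i hw
  have h4 : (win n w i).card * wvar A0 w i ≤ w * wvar A0 w i := Nat.mul_le_mul_right _ h3
  rw [h2] at h1
  refine h1.trans ?_
  unfold bd
  rw [← Nat.mul_add]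
  refine Nat.mul_le_mul_left _ ?_
  omega

/-- [V6] `diffCount A A0 = ∑ x, hd A A0 x x` (`Finset.card_filter`/`card_eq_sum_card_fiberwise` on the first coordinate, or `Finset.card_sigma`-type argument; see `diffCount_eq_sum_row` in GAssembly.lean) and
`∑ x = ∑ i ∈ range n, ∑ x ∈ win n w i` (`Finset.sum_fiberwise_of_maps_to`, `x / w ≤ x < n`). -/
theorem sum_err (A A0 : Fin n → Fin n → Bool) (w : ℕ) :
    ∑ i ∈ range n, err A A0 w i = diffCount A A0 := by
  have h1 : diffCount A A0 = ∑ x, hd A A0 x x := by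
    unfold diffCount hd
    simp only [Finset.card_filter]
    rw [Fintype.sum_prod_type]
  rw [h1]
  unfold err win
  exact Finset.sum_fiberwise_of_maps_to (s := univ) (t := range n) (g := fun x : Fin n => x.1 / w)
    (fun x _ => Finset.mem_range.2 (lt_of_le_of_lt (Nat.div_le_self _ _) x.2)) (fun x => hd A A0 x x)

/-- [V7] `Finset.card_eq_sum_card_fiberwise` for `p ↦ p.1.1 / w` on the filter of `rowVar` (maps into `range n`); `filter_filter`.  (Equality holds; `≤` is enough.) -/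
theorem sum_wvar (A0 : Fin n → Fin n → Bool) (w : ℕ) :
    ∑ i ∈ range n, wvar A0 w i ≤ rowVar A0 := by
  unfold rowVar wvar
  rw [Finset.card_eq_sum_card_fiberwise (f := fun p : Fin n × Fin n × Fin n => p.1.1 / w)
    (t := range n)]
  · apply le_of_eq
    apply Finset.sum_congr rfl
    intro i _
    rw [Finset.filter_filter]
  · intro p _
    exact Finset.mem_coe.2 (Finset.mem_range.2 (lt_of_le_of_lt (Nat.div_le_self _ _) p.1.2))

/-- [V8] `unfold bd`, `sum_add_distrib`, `← mul_sum`, `sum_err`, `sum_wvar`. -/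
theorem sum_bd_le (A A0 : Fin n → Fin n → Bool) (w : ℕ) :
    ∑ i ∈ range n, bd A A0 w i ≤ 2 * diffCount A A0 + w * rowVar A0 := by
  unfold bd
  rw [Finset.sum_add_distrib, ← Finset.mul_sum, ← Finset.mul_sum, sum_err]
  exact Nat.add_le_add_left (Nat.mul_le_mul_left _ (sum_wvar A0 w)) _

/-- [V9] weighted collapse lemma.  `TVR.sum_collapse_le H hH M a b` and `hf` give `∑ ρ ∈ W, (α * rcount H (collapse M a b ρ) + β * f ρ) ≤ W.card * (α * rcount H M + β * Bd)` (`sum_add_distrib`, `← mul_sum`);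
then `Finset.exists_le_of_sum_le` (nonempty `W`, constant right side: `sum_const`, `smul_eq_mul`). -/
theorem exists_collapse_weighted (H : Fin k → Fin l → Bool) (hH : TVR.RowReducedR H)
    (M : Fin n → Fin n → Bool) (a b : ℕ) (hne : ∃ x : Fin n, a ≤ x.1 ∧ x.1 < b) (α β Bd : ℕ)
    (f : Fin n → ℕ)
    (hf : ∑ ρ ∈ univ.filter (fun ρ : Fin n => a ≤ ρ.1 ∧ ρ.1 < b), f ρ ≤
      (univ.filter (fun ρ : Fin n => a ≤ ρ.1 ∧ ρ.1 < b)).card * Bd) :
    ∃ ρ : Fin n, (a ≤ ρ.1 ∧ ρ.1 < b) ∧
      α * rcount H (collapse M a b ρ) + β * f ρ ≤ α * rcount H M + β * Bd := by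
  set W := univ.filter (fun ρ : Fin n => a ≤ ρ.1 ∧ ρ.1 < b) with hW
  have hWne : W.Nonempty := by
    obtain ⟨x, hx⟩ := hne
    exact ⟨x, by rw [hW]; exact Finset.mem_filter.2 ⟨Finset.mem_univ _, hx⟩⟩
  have h1 := TVR.sum_collapse_le H hH M a b
  rw [← hW] at h1
  have h2 : ∑ ρ ∈ W, (α * rcount H (collapse M a b ρ) + β * f ρ)
      ≤ ∑ _ρ ∈ W, (α * rcount H M + β * Bd) := by
    rw [Finset.sum_add_distrib, ← Finset.mul_sum, ← Finset.mul_sum, Finset.sum_const, smul_eq_mul]
    have e1 := Nat.mul_le_mul_left α h1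
    have e2 := Nat.mul_le_mul_left β hf
    calc α * ∑ ρ ∈ W, rcount H (collapse M a b ρ) + β * ∑ ρ ∈ W, f ρ
        ≤ α * (W.card * rcount H M) + β * (W.card * Bd) := Nat.add_le_add e1 e2
      _ = W.card * (α * rcount H M + β * Bd) := by ring
  obtain ⟨ρ, hρ, hle⟩ := Finset.exists_le_of_sum_le hWne h2
  refine ⟨ρ, ?_, hle⟩
  rw [hW] at hρ
  exact (Finset.mem_filter.1 hρ).2

/-- [V10] `a ≤ x < b` with `a = j w`, `b = (j+1) w` iff `x / w = j` (`Nat.div_eq_iff`, or `Nat.le_div_iff_mul_le`, `Nat.div_lt_iff_lt_mul`). -/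
theorem win_eq (n w j : ℕ) (hw : 0 < w) :
    univ.filter (fun ρ : Fin n => j * w ≤ ρ.1 ∧ ρ.1 < (j + 1) * w) = win n w j := by
  unfold win
  ext ρ
  simp only [mem_filter, mem_univ, true_and]
  rw [Nat.div_eq_iff hw]
  constructor
  · rintro ⟨h1, h2⟩
    constructor
    · exact h1
    · have : (j + 1) * w = j * w + w := by ring
      omega
  · rintro ⟨h1, h2⟩
    constructor
    · exact h1
    · have : (j + 1) * w = j * w + w := by ring
      omega


/-- [V11] The differing entries `(x, c)` of `A` and the collapsed matrix: if `x` is in the window then `A x c ≠ M ρ c = A ρ c` (these are counted by `cst A w ρ = ∑ x ∈ win, hd A A x ρ`, = card of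
`{(x, c) : x ∈ win, A x c ≠ A ρ c}`), otherwise `A x c ≠ M x c` (counted by `diffCount A M`).  `card_le_card` into a union, `card_union_le`; for the first set use `Finset.card_sigma`/`card_eq_sum_card_fiberwise`
or bound by an injection into `(win n w j).sigma (fun x => filter ..)`. -/
theorem diffCount_collapse_le (A M : Fin n → Fin n → Bool) (w j : ℕ) (hw : 0 < w) (ρ : Fin n)
    (hρ : j * w ≤ ρ.1 ∧ ρ.1 < (j + 1) * w) (hM : M ρ = A ρ) :
    diffCount A (collapse M (j * w) ((j + 1) * w) ρ) ≤ diffCount A M + cst A w ρ := by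
  classical
  have hiff : ∀ y : ℕ, (j * w ≤ y ∧ y < (j + 1) * w) ↔ y / w = j := by
    intro y
    constructor
    · rintro ⟨h1, h2⟩
      have e1 : j ≤ y / w := (Nat.le_div_iff_mul_le hw).2 h1
      have e2 : y / w < j + 1 := (Nat.div_lt_iff_lt_mul hw).2 h2
      omega
    · intro e
      exact ⟨(Nat.le_div_iff_mul_le hw).1 (by omega), (Nat.div_lt_iff_lt_mul hw).1 (by omega)⟩
  have hρj : ρ.1 / w = j := (hiff _).1 hρ
  have hcst : cst A w ρ =
      (((win n w j) ×ˢ (univ : Finset (Fin n))).filter (fun p => A p.1 p.2 ≠ A ρ p.2)).card := by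
    unfold cst hd
    rw [hρj, Finset.card_filter, Finset.sum_product]
    apply Finset.sum_congr rfl
    intro x _
    rw [Finset.card_filter]
  rw [hcst]
  unfold diffCount
  refine le_trans (Finset.card_le_card ?_) (Finset.card_union_le _ _)
  intro p hp
  rw [Finset.mem_filter] at hp
  rw [Finset.mem_union, Finset.mem_filter, Finset.mem_filter, Finset.mem_product]
  by_cases hwin : j * w ≤ p.1.1 ∧ p.1.1 < (j + 1) * w
  · right
    refine ⟨⟨?_, mem_univ _⟩, ?_⟩
    · unfold win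
      rw [Finset.mem_filter]
      exact ⟨mem_univ _, (hiff _).1 hwin⟩
    · have h2 := hp.2
      unfold collapse at h2
      rw [if_pos hwin, hM] at h2
      exact h2
  · left
    refine ⟨mem_univ _, ?_⟩
    have h2 := hp.2
    unfold collapse at h2
    rw [if_neg hwin] at h2
    exact h2

/-- [V12] Collapse the windows one after the other (copy of `TVR.exists_reps_partial`, with the potential).  Induction on `j`.  `j = 0`: the matrix is `A`, `diffCount A A = 0` (`FR.diffCount_self`).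
Step: `M = fun x => if x.1 / w < j then A (ρ (x.1 / w)) else A x`.  If `n ≤ j * w` the matrices for `j`, `j + 1` coincide (keep `ρ`; `sum_range_succ`, `Nat.le_add_right`).  Otherwise `exists_collapse_weighted H hH M (j*w) ((j+1)*w) _ α β (b j) (cst A w)`
(hypothesis `hf` from `hb j` and `win_eq`) gives `ρ'`; `M ρ' = A ρ'` since `ρ' / w = j`; `diffCount_collapse_le`; the collapsed matrix is the matrix for `j + 1` with `Function.update ρ j ρ'` exactly as in `TVR.exists_reps_partial`. -/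
theorem exists_reps_partial_weighted (H : Fin k → Fin l → Bool) (hH : TVR.RowReducedR H)
    (A : Fin n → Fin n → Bool) (w : ℕ) (hw : 0 < w) (hn : 0 < n) (α β : ℕ) (b : ℕ → ℕ)
    (hb : ∀ i, ∑ ρ ∈ win n w i, cst A w ρ ≤ (win n w i).card * b i) (j : ℕ) :
    ∃ ρ : ℕ → Fin n, Reps n w ρ ∧
      α * rcount H (fun x => if x.1 / w < j then A (ρ (x.1 / w)) else A x) +
        β * diffCount A (fun x => if x.1 / w < j then A (ρ (x.1 / w)) else A x) ≤
      α * rcount H A + β * ∑ i ∈ range j, b i := by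
  induction j with
  | zero =>
    refine ⟨fun i => ⟨min (i * w) (n - 1), by omega⟩, ?_, ?_⟩
    · intro i hi
      have e : (i + 1) * w = i * w + w := by ring
      constructor
      · show i * w ≤ min (i * w) (n - 1)
        omega
      · show min (i * w) (n - 1) < (i + 1) * w
        omega
    · simp [FR.diffCount_self]
  | succ j ih =>
    have hiff' : ∀ y : ℕ, (j * w ≤ y ∧ y < (j + 1) * w) ↔ y / w = j := by
      intro y
      constructor
      · rintro ⟨h1, h2⟩
        have e1 : j ≤ y / w := (Nat.le_div_iff_mul_le hw).2 h1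
        have e2 : y / w < j + 1 := (Nat.div_lt_iff_lt_mul hw).2 h2
        omega
      · intro e
        exact ⟨(Nat.le_div_iff_mul_le hw).1 (by omega), (Nat.div_lt_iff_lt_mul hw).1 (by omega)⟩
    obtain ⟨ρ, hρ, hc⟩ := ih
    by_cases hjn : n ≤ j * w
    · refine ⟨ρ, hρ, ?_⟩
      have e : (fun x : Fin n => if x.1 / w < j + 1 then A (ρ (x.1 / w)) else A x) =
          (fun x : Fin n => if x.1 / w < j then A (ρ (x.1 / w)) else A x) := by
        funext x
        have hx : x.1 / w < j := by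
          rw [Nat.div_lt_iff_lt_mul hw]
          have := x.2
          omega
        rw [if_pos hx, if_pos (by omega)]
      rw [e, Finset.sum_range_succ, Nat.mul_add]
      omega
    · have hjn' : j * w < n := by omega
      obtain ⟨ρ', hρ', hc'⟩ := exists_collapse_weighted H hH
        (fun x : Fin n => if x.1 / w < j then A (ρ (x.1 / w)) else A x) (j * w) ((j + 1) * w)
        ⟨⟨j * w, hjn'⟩, le_refl _, by
          show j * w < (j + 1) * w
          have e : (j + 1) * w = j * w + w := by ring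
          omega⟩ α β (b j) (cst A w) (by rw [win_eq n w j hw]; exact hb j)
      have h3 : ρ'.1 / w = j := (hiff' _).1 hρ'
      have hMρ : (fun x : Fin n => if x.1 / w < j then A (ρ (x.1 / w)) else A x) ρ' = A ρ' := by
        show (if ρ'.1 / w < j then A (ρ (ρ'.1 / w)) else A ρ') = A ρ'
        rw [if_neg (by omega)]
      have hd := diffCount_collapse_le A
        (fun x : Fin n => if x.1 / w < j then A (ρ (x.1 / w)) else A x) w j hw ρ' hρ' hMρ
      refine ⟨Function.update ρ j ρ', ?_, ?_⟩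
      · intro i hi
        by_cases hij : i = j
        · subst hij
          rw [Function.update_self]
          exact hρ'
        · rw [Function.update_of_ne hij]
          exact hρ i hi
      · have key : (fun x : Fin n => if x.1 / w < j + 1 then
            A (Function.update ρ j ρ' (x.1 / w)) else A x) =
            collapse (fun x : Fin n => if x.1 / w < j then A (ρ (x.1 / w)) else A x)
              (j * w) ((j + 1) * w) ρ' := by
          funext x
          unfold collapse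
          by_cases h1 : x.1 / w = j
          · rw [if_pos (by omega), if_pos ((hiff' _).2 h1), h1, Function.update_self]
            show A ρ' = if ρ'.1 / w < j then A (ρ (ρ'.1 / w)) else A ρ'
            rw [if_neg (by omega)]
          · rw [if_neg (fun h => h1 ((hiff' _).1 h))]
            by_cases h2 : x.1 / w < j
            · rw [if_pos (by omega), Function.update_of_ne h1]
              show A (ρ (x.1 / w)) = if x.1 / w < j then A (ρ (x.1 / w)) else A x
              rw [if_pos h2]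
            · rw [if_neg (by omega)]
              show A x = if x.1 / w < j then A (ρ (x.1 / w)) else A x
              rw [if_neg h2]
        rw [key, Finset.sum_range_succ, Nat.mul_add]
        have hd' := Nat.mul_le_mul_left β hd
        rw [Nat.mul_add] at hd'
        omega

/-- [V13] `exists_reps_partial_weighted` with `j = n`, `b = bd A A0 w` (`sum_cst_le`), `sum_bd_le`; `x / w ≤ x < n`, `if_pos` (as in `TVR.exists_reps`). -/
theorem exists_reps_weighted (H : Fin k → Fin l → Bool) (hH : TVR.RowReducedR H)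
    (A A0 : Fin n → Fin n → Bool) (w : ℕ) (hw : 0 < w) (hn : 0 < n) (α β : ℕ) :
    ∃ ρ : ℕ → Fin n, Reps n w ρ ∧
      α * rcount H (fun x : Fin n => A (ρ (x.1 / w))) +
        β * diffCount A (fun x : Fin n => A (ρ (x.1 / w))) ≤
      α * rcount H A + β * (2 * diffCount A A0 + w * rowVar A0) := by
  obtain ⟨ρ, h1, h2⟩ := exists_reps_partial_weighted H hH A w hw hn α β (bd A A0 w)
    (fun i => sum_cst_le A A0 w i hw) n
  refine ⟨ρ, h1, ?_⟩
  have he : (fun x : Fin n => if x.1 / w < n then A (ρ (x.1 / w)) else A x) =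
      (fun x : Fin n => A (ρ (x.1 / w))) := by
    funext x
    rw [if_pos (lt_of_le_of_lt (Nat.div_le_self _ _) x.2)]
  rw [he] at h2
  refine h2.trans ?_
  exact Nat.add_le_add_left (Nat.mul_le_mul_left _ (sum_bd_le A A0 w)) _

/-- [V14] as `TVA.exists_window`: `w = n / (8 * T * V)`. -/
theorem exists_window8 (T V n : ℕ) (hT : 1 ≤ T) (hV : 1 ≤ V) (hn : 8 * T * V ≤ n) :
    ∃ w : ℕ, 0 < w ∧ 8 * T * V * w ≤ n ∧ n / w + 1 ≤ 17 * T * V := by
  have hTV : 1 ≤ T * V := Nat.mul_pos hT hV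
  have hpos : 0 < 8 * T * V := by
    have : 8 * T * V = 8 * (T * V) := by ring
    omega
  refine ⟨n / (8 * T * V), Nat.div_pos hn hpos, Nat.mul_div_le n _, ?_⟩
  set w := n / (8 * T * V) with hw
  have hw1 : 1 ≤ w := Nat.div_pos hn hpos
  have h1 : n < 8 * T * V * (w + 1) := Nat.lt_mul_div_succ n hpos
  have h2 : 8 * T * V * (w + 1) ≤ 16 * T * V * w := by
    have e1 : 8 * T * V * (w + 1) = 8 * T * V * w + 8 * T * V := by ring
    have e2 : 16 * T * V * w = 8 * T * V * w + 8 * T * V * w := by ring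
    have e3 : 8 * T * V * 1 ≤ 8 * T * V * w := Nat.mul_le_mul_left _ hw1
    omega
  have h3 : n / w ≤ 16 * T * V := by
    apply Nat.div_le_of_le_mul
    have : w * (16 * T * V) = 16 * T * V * w := by ring
    omega
  have e4 : 17 * T * V = 16 * T * V + T * V := by ring
  omega

/-- [V15] `4 T E ≤ n^2` for `E = 2 diff + w rowVar`: `8 T diff ≤ n^2 / 2` from `h0`, `4 T w rowVar ≤ 4 T w V n ≤ n * n / 2` from `hw`.  (`nlinarith`; all in `ℕ`: prove `2 * (4 * T * E) ≤ 2 * n^2`.) -/
theorem four_T_E_le (T V w n d v : ℕ) (h0 : 16 * T * d ≤ n ^ 2) (hv : v ≤ V * n)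
    (hw : 8 * T * V * w ≤ n) : 4 * T * (2 * d + w * v) ≤ n ^ 2 := by
  have h1 : 4 * T * (w * v) ≤ 4 * T * (w * (V * n)) :=
    Nat.mul_le_mul_left _ (Nat.mul_le_mul_left _ hv)
  have h2 : 2 * (4 * T * (w * (V * n))) ≤ n ^ 2 := by
    calc 2 * (4 * T * (w * (V * n))) = (8 * T * V * w) * n := by ring
      _ ≤ n * n := Nat.mul_le_mul_right n hw
      _ = n ^ 2 := by ring
  have e1 : 4 * T * (2 * d + w * v) = 8 * (T * d) + 4 * T * (w * v) := by ring
  have e2 : 16 * T * d = 16 * (T * d) := by ring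
  rw [e1]
  omega

/-- [V16] consequences of the potential inequality with `α = n^2`, `β = 4 T (N + 1)`:  from `hP` and `hE`:
`4 T (N+1) D' ≤ n^2 N + (N+1) n^2 ≤ 2 (N+1) n^2`, cancel `2 (N+1)`;   `n^2 N' ≤ n^2 N + (N+1) n^2 = n^2 (2N+1)`, cancel `n^2 > 0`. -/
theorem potential_consequences (T n N N' D' E : ℕ) (hn : 0 < n) (hE : 4 * T * E ≤ n ^ 2)
    (hP : n ^ 2 * N' + 4 * T * (N + 1) * D' ≤ n ^ 2 * N + 4 * T * (N + 1) * E) :
    2 * T * D' ≤ n ^ 2 ∧ N' ≤ 2 * N + 1 := by
  have hn2 : 0 < n ^ 2 := Nat.pow_pos hn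
  have h1 : 4 * T * (N + 1) * E ≤ (N + 1) * n ^ 2 := by
    calc 4 * T * (N + 1) * E = (N + 1) * (4 * T * E) := by ring
      _ ≤ (N + 1) * n ^ 2 := Nat.mul_le_mul_left _ hE
  constructor
  · have h2 : 4 * T * (N + 1) * D' ≤ n ^ 2 * N + (N + 1) * n ^ 2 := by omega
    have h3 : n ^ 2 * N + (N + 1) * n ^ 2 ≤ 2 * (N + 1) * n ^ 2 := by
      have e : 2 * (N + 1) * n ^ 2 = n ^ 2 * N + (N + 1) * n ^ 2 + n ^ 2 := by ring
      omega
    have h4 : 2 * (N + 1) * (2 * T * D') ≤ 2 * (N + 1) * n ^ 2 := by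
      calc 2 * (N + 1) * (2 * T * D') = 4 * T * (N + 1) * D' := by ring
        _ ≤ 2 * (N + 1) * n ^ 2 := h2.trans h3
    exact Nat.le_of_mul_le_mul_left h4 (by omega)
  · have h2 : n ^ 2 * N' ≤ n ^ 2 * N + (N + 1) * n ^ 2 := by omega
    have h3 : n ^ 2 * N + (N + 1) * n ^ 2 = n ^ 2 * (2 * N + 1) := by ring
    rw [h3] at h2
    exact Nat.le_of_mul_le_mul_left h2 hn2

/-- [V17] `n^2 ≤ T diff(A,B) ≤ T diff(A,A') + T diff(A',B)` (`TV.diffCount_triangle'`), `2 T diff(A,A') ≤ n^2`. -/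
theorem far_of_close (H : Fin k → Fin k → Bool) (A A' : Fin n → Fin n → Bool) (T : ℕ)
    (hd : 2 * T * diffCount A A' ≤ n ^ 2)
    (hfar : ∀ B : Fin n → Fin n → Bool, HFree H B → n ^ 2 ≤ T * diffCount A B) :
    ∀ B : Fin n → Fin n → Bool, HFree H B → n ^ 2 ≤ 2 * T * diffCount A' B := by
  intro B hB
  have h1 := hfar B hB
  have h2 := diffCount_triangle' A A' B
  have h4 : T * diffCount A B ≤ T * diffCount A A' + T * diffCount A' B := by
    calc T * diffCount A B ≤ T * (diffCount A A' + diffCount A' B) := Nat.mul_le_mul_left T h2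
      _ = T * diffCount A A' + T * diffCount A' B := by ring
  have e1 : 2 * T * diffCount A A' = 2 * (T * diffCount A A') := by ring
  have e2 : 2 * T * diffCount A' B = 2 * (T * diffCount A' B) := by ring
  rw [e2]
  omega

/-- [V18] The chain for large `n` (adapt the proof of `TVA.tv_step`).  `R = 17 T V`, `D = 4 T k R^k + 1 ≤ n`, so `8 T V ≤ n`.  `exists_window8` gives `w`; `N = rcount H1 A`;
`exists_reps_weighted H1 hred A A0 w _ _ (n^2) (4 * T * (N + 1))` gives `ρ`, `A' = fun x => A (ρ (x.1 / w))`; `four_T_E_le`, `potential_consequences` give `2 T diffCount A A' ≤ n^2` and `rcount H1 A' ≤ 2 N + 1`;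
`far_of_close`, `TV.card_image_reps_le`, `TVA.many_in_collapse` give `(n / D)^(2k) ≤ copyCount H A' = rcount H A' ≤ n^(k-s) (2N+1)`.  `1 ≤ N`: `TVA.one_le_of_far` gives `1 ≤ rcount H A ≤ n^(k-s) N`.  So `2N+1 ≤ 3N`.  Rest as in `tv_step`. -/
theorem tv_step_robust (H : Fin k → Fin k → Bool) (hk : 0 < k) (s : ℕ) (H1 : Fin s → Fin k → Bool)
    (hs : s ≤ k) (hred : TVR.RowReducedR H1)
    (hub : ∀ (n : ℕ) (M : Fin n → Fin n → Bool), rcount H M ≤ n ^ (k - s) * rcount H1 M)
    (T V n : ℕ) (A A0 : Fin n → Fin n → Bool) (hT : 1 ≤ T) (hV : 1 ≤ V)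
    (hvar : rowVar A0 ≤ V * n) (hclose : 16 * T * diffCount A A0 ≤ n ^ 2)
    (hfar : ∀ B : Fin n → Fin n → Bool, HFree H B → n ^ 2 ≤ T * diffCount A B)
    (hn : 4 * T * k * (17 * T * V) ^ k + 1 ≤ n) :
    n ^ (s + k) ≤ 3 * (2 * (4 * T * k * (17 * T * V) ^ k + 1)) ^ (2 * k) * rcount H1 A := by
  set D := 4 * T * k * (17 * T * V) ^ k + 1 with hD
  have hn0 : 0 < n := by omega
  have hTV : 1 ≤ T * V := Nat.mul_pos hT hV
  have h8TV : 8 * T * V ≤ n := by
    have h1 : 17 * T * V ≤ (17 * T * V) ^ k := Nat.le_self_pow (by omega) _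
    have h2 : 1 * (17 * T * V) ^ k ≤ 4 * T * k * (17 * T * V) ^ k := by
      apply Nat.mul_le_mul_right
      have : 1 ≤ T * k := Nat.mul_pos hT hk
      have e : 4 * T * k = 4 * (T * k) := by ring
      omega
    have e1 : 17 * T * V = 17 * (T * V) := by ring
    have e2 : 8 * T * V = 8 * (T * V) := by ring
    omega
  obtain ⟨w, hw0, hw1, hw2⟩ := exists_window8 T V n hT hV h8TV
  set N := rcount H1 A with hN
  obtain ⟨ρ, hρ, hP⟩ := exists_reps_weighted H1 hred A A0 w hw0 hn0 (n ^ 2) (4 * T * (N + 1))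
  have hE := four_T_E_le T V w n (diffCount A A0) (rowVar A0) hclose hvar hw1
  obtain ⟨hd, hcount⟩ := potential_consequences T n N _ _ _ hn0 hE hP
  have hc : (univ.image (fun x : Fin n => A (ρ (x.1 / w)))).card ≤ 17 * T * V :=
    (card_image_reps_le A w ρ).trans hw2
  have hfar' := far_of_close H A (fun x : Fin n => A (ρ (x.1 / w))) T hd hfar
  have hmany := TVA.many_in_collapse H hk (fun x : Fin n => A (ρ (x.1 / w))) T (17 * T * V) hn0 hc hfar'
  rw [← hD, copyCount_eq_rcount] at hmany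
  have hN1 : 1 ≤ N := by
    have h1 := TVA.one_le_of_far H T n A hn0 hfar
    rw [copyCount_eq_rcount] at h1
    have h2 := h1.trans (hub n A)
    by_contra hcon
    have h0 : rcount H1 A = 0 := by omega
    rw [h0] at h2
    simp at h2
  have h3 : (n / D) ^ (2 * k) ≤ n ^ (k - s) * (3 * N) := by
    refine hmany.trans ((hub n _).trans (Nat.mul_le_mul_left _ ?_))
    omega
  have hDpos : 0 < D := by omega
  have h4 : n ≤ 2 * D * (n / D) := by
    have h5 : n < D * (n / D + 1) := Nat.lt_mul_div_succ n hDpos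
    have h6 : 1 ≤ n / D := Nat.div_pos hn hDpos
    have e1 : D * (n / D + 1) = D * (n / D) + D := by ring
    have e2 : 2 * D * (n / D) = D * (n / D) + D * (n / D) := by ring
    have e3 : D * 1 ≤ D * (n / D) := Nat.mul_le_mul_left _ h6
    omega
  have h7 : n ^ (2 * k) ≤ (2 * D) ^ (2 * k) * (n ^ (k - s) * (3 * N)) := by
    calc n ^ (2 * k) ≤ (2 * D * (n / D)) ^ (2 * k) := Nat.pow_le_pow_left h4 _
      _ = (2 * D) ^ (2 * k) * (n / D) ^ (2 * k) := by rw [mul_pow]
      _ ≤ (2 * D) ^ (2 * k) * (n ^ (k - s) * (3 * N)) := Nat.mul_le_mul_left _ h3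
  have h8 : n ^ (2 * k) = n ^ (k - s) * n ^ (s + k) := by
    rw [← pow_add]
    congr 1
    omega
  rw [h8] at h7
  have h9 : (2 * D) ^ (2 * k) * (n ^ (k - s) * (3 * N))
      = n ^ (k - s) * (3 * (2 * D) ^ (2 * k) * N) := by ring
  rw [h9] at h7
  exact Nat.le_of_mul_le_mul_left h7 (Nat.pow_pos hn0)

/-- [V19] as `TVA.D_le` with 17 instead of 5. -/
theorem D_le17 (T V k : ℕ) (hT : 1 ≤ T) (hV : 1 ≤ V) :
    2 * (4 * T * k * (17 * T * V) ^ k + 1) ≤ 2 * (4 * k * 17 ^ k + 1) * (T * V) ^ (k + 1) := by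
  have hTV : 1 ≤ T * V := Nat.mul_pos hT hV
  have h1 : T ≤ T * V := Nat.le_mul_of_pos_right T hV
  have h2 : (17 * T * V) ^ k = 17 ^ k * (T * V) ^ k := by
    rw [← mul_pow]
    congr 1
    ring
  have h3 : 1 ≤ (T * V) ^ (k + 1) := Nat.one_le_pow _ _ hTV
  rw [h2]
  have h4 : 4 * T * k * (17 ^ k * (T * V) ^ k) ≤ 4 * k * 17 ^ k * (T * V) ^ (k + 1) := by
    calc 4 * T * k * (17 ^ k * (T * V) ^ k) = (4 * k * 17 ^ k * (T * V) ^ k) * T := by ring
      _ ≤ (4 * k * 17 ^ k * (T * V) ^ k) * (T * V) := Nat.mul_le_mul_left _ h1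
      _ = 4 * k * 17 ^ k * (T * V) ^ (k + 1) := by ring
  have h5 : 2 * (4 * k * 17 ^ k + 1) * (T * V) ^ (k + 1)
      = 2 * (4 * k * 17 ^ k * (T * V) ^ (k + 1) + (T * V) ^ (k + 1)) := by ring
  rw [h5]
  omega

/-- [V20] as `TVA.Y_le`: with `D2 ≤ c0 * P` (`D_le17`, `P = (T V)^(k+1)`): `3 * D2^(2k) ≤ 3 * c0^(2k) * P^(2k)`, raise to `a1 + 1`, multiply by `K1`, raise to `2k` (`mul_pow`, `← pow_mul`). -/
theorem Y_le17 (K1 a1 T V k : ℕ) (hT : 1 ≤ T) (hV : 1 ≤ V) :
    (K1 * (3 * (2 * (4 * T * k * (17 * T * V) ^ k + 1)) ^ (2 * k)) ^ (a1 + 1)) ^ (2 * k) ≤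
      (K1 * (3 * (2 * (4 * k * 17 ^ k + 1)) ^ (2 * k)) ^ (a1 + 1)) ^ (2 * k) *
        (T * V) ^ ((k + 1) * (2 * k) * (a1 + 1) * (2 * k)) := by
  have h := D_le17 T V k hT hV
  set D2 := 2 * (4 * T * k * (17 * T * V) ^ k + 1) with hD2
  set c0 := 2 * (4 * k * 17 ^ k + 1) with hc0
  have h0 : 3 * D2 ^ (2 * k) ≤ 3 * c0 ^ (2 * k) * (T * V) ^ ((k + 1) * (2 * k)) := by
    rw [mul_assoc, pow_mul (T * V), ← mul_pow]
    exact Nat.mul_le_mul_left _ (Nat.pow_le_pow_left h _)
  have h1 : (3 * D2 ^ (2 * k)) ^ (a1 + 1)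
      ≤ (3 * c0 ^ (2 * k)) ^ (a1 + 1) * (T * V) ^ ((k + 1) * (2 * k) * (a1 + 1)) := by
    rw [pow_mul (T * V) ((k + 1) * (2 * k)), ← mul_pow]
    exact Nat.pow_le_pow_left h0 _
  calc (K1 * (3 * D2 ^ (2 * k)) ^ (a1 + 1)) ^ (2 * k)
      ≤ (K1 * ((3 * c0 ^ (2 * k)) ^ (a1 + 1) * (T * V) ^ ((k + 1) * (2 * k) * (a1 + 1)))) ^ (2 * k) :=
        Nat.pow_le_pow_left (Nat.mul_le_mul_left _ h1) _
    _ = (K1 * (3 * c0 ^ (2 * k)) ^ (a1 + 1)) ^ (2 * k) * (T * V) ^ ((k + 1) * (2 * k) * (a1 + 1) * (2 * k)) := by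
        rw [← mul_assoc, mul_pow, ← pow_mul]

/-- [V21] ASSEMBLY (adapt the proof of `TVA.tv_all_nat`): `T1 = 3 * D2^(2k)`, `Y = K1 * T1^(a1+1)`, `tv_step_robust`, `Y_le17`. -/
theorem tv_robust_nat (H : Fin k → Fin k → Bool) (hk : 0 < k) :
    ∃ K a : ℕ, ∀ (T V n : ℕ) (A A0 : Fin n → Fin n → Bool), 1 ≤ T → 1 ≤ V →
      rowVar A0 ≤ V * n → 16 * T * diffCount A A0 ≤ n ^ 2 →
      (∀ B : Fin n → Fin n → Bool, HFree H B → n ^ 2 ≤ T * diffCount A B) →
      n ^ (2 * k) ≤ K * (T * V) ^ a * copyCount H A := by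
  obtain ⟨s, H1, hs, hred, ⟨K1, a1, hK1, hforce⟩, hub⟩ := TVA.exists_reduction k H
  refine ⟨(K1 * (3 * (2 * (4 * k * 17 ^ k + 1)) ^ (2 * k)) ^ (a1 + 1)) ^ (2 * k),
    (k + 1) * (2 * k) * (a1 + 1) * (2 * k), ?_⟩
  intro T V n A A0 hT hV hvar hclose hfar
  refine le_trans ?_ (Nat.mul_le_mul_right _ (Y_le17 K1 a1 T V k hT hV))
  set D2 := 2 * (4 * T * k * (17 * T * V) ^ k + 1) with hD2
  set T1 := 3 * D2 ^ (2 * k) with hT1
  set Y := K1 * T1 ^ (a1 + 1) with hY
  have hD21 : 1 ≤ D2 := by omega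
  have h2k : 2 * k ≠ 0 := by omega
  have hDT : D2 ≤ T1 := by
    have : D2 ≤ D2 ^ (2 * k) := Nat.le_self_pow h2k _
    omega
  have hT11 : 1 ≤ T1 := hD21.trans hDT
  have hTa : 1 ≤ T1 ^ a1 := Nat.one_le_pow _ _ hT11
  have hKT : 1 ≤ K1 * T1 ^ a1 := Nat.mul_pos hK1 hTa
  have hYe : Y = K1 * T1 ^ a1 * T1 := by
    rw [hY, pow_succ]
    ring
  have hT1Y : T1 ≤ Y := by
    rw [hYe]
    exact Nat.le_mul_of_pos_left _ hKT
  have hKY : K1 * T1 ^ a1 ≤ Y := by
    rw [hYe]
    exact Nat.le_mul_of_pos_right _ hT11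
  have hY1 : 1 ≤ Y := hT11.trans hT1Y
  have hYY : Y ≤ Y ^ (2 * k) := Nat.le_self_pow h2k _
  rcases Nat.eq_zero_or_pos n with hn0 | hn0
  · subst hn0
    rw [zero_pow h2k]
    exact Nat.zero_le _
  rcases le_or_gt Y n with hYn | hYn
  · have hn : 4 * T * k * (17 * T * V) ^ k + 1 ≤ n := by
      have : D2 ≤ n := hDT.trans (hT1Y.trans hYn)
      omega
    have h1 := tv_step_robust H hk s H1 hs hred hub T V n A A0 hT hV hvar hclose hfar hn
    have h2 := hforce T1 n A hT11 h1 (hKY.trans hYn)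
    rw [copyCount_eq_rcount]
    have e2 : n ^ (2 * k) = n ^ (k + k) := by rw [two_mul]
    rw [e2]
    exact h2.trans (Nat.mul_le_mul_right _ (hKY.trans hYY))
  · have h1 := TVA.one_le_of_far H T n A hn0 hfar
    calc n ^ (2 * k) ≤ Y ^ (2 * k) := Nat.pow_le_pow_left hYn.le _
      _ = Y ^ (2 * k) * 1 := (mul_one _).symm
      _ ≤ Y ^ (2 * k) * copyCount H A := Nat.mul_le_mul_left _ h1

/-- column version -/
theorem tv_robust_nat_cols (H : Fin k → Fin k → Bool) (hk : 0 < k) :
    ∃ K a : ℕ, ∀ (T V n : ℕ) (A A0 : Fin n → Fin n → Bool), 1 ≤ T → 1 ≤ V →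
      rowVar (fun j i => A0 i j) ≤ V * n → 16 * T * diffCount A A0 ≤ n ^ 2 →
      (∀ B : Fin n → Fin n → Bool, HFree H B → n ^ 2 ≤ T * diffCount A B) →
      n ^ (2 * k) ≤ K * (T * V) ^ a * copyCount H A := by
  obtain ⟨K, a, h⟩ := tv_robust_nat (fun j i => H i j) hk
  refine ⟨K, a, ?_⟩
  intro T V n A A0 hT hV hvar hclose hfar
  have h1 := h T V n (fun j i => A i j) (fun j i => A0 i j) hT hV hvar
    (by rw [FR.diffCount_transpose]; exact hclose) (fun B hB => by
    have h1 := hfar (fun x y => B y x) (FR.hFree_transpose H B hB)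
    have h2 := FR.diffCount_transpose A (fun x y => B y x)
    rw [← h2] at h1
    exact h1)
  rw [copyCount_eq_rcount, rcount_transpose, ← copyCount_eq_rcount] at h1
  exact h1

end Vale.Agent.P037.TVB
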